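import Crest.Agent.P345Red
import Crest.Agent.P345Fast
import Crest.Agent.P345Lift
set_option autoImplicit false
set_option linter.unusedSectionVars false
set_option linter.unusedSimpArgs false

/-! Row 345 (helper55): from integer `C : Fin 4 → Fin 6 → Fin 4 → ℤ` with `C_iᵀ C_j` symmetric. -/

namespace Crest.Agent.P345.A55
open Matrix Crest.Quantum Crest.Agent.P345Red

def pr : Fin 10 → Fin 4 × Fin 4 :=
  ![(0,1),(0,2),(0,3),(1,2),(1,3),(2,3),(0,0),(1,1),(2,2),(3,3)]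
def cp : Fin 10 → Fin 10 := ![5,4,3,2,1,0,6,7,8,9]
def ep : Fin 10 → ℤ := ![1,-1,1,1,-1,1,0,0,0,0]
def cf : Fin 10 → ℤ := ![2,2,2,2,2,2,1,1,1,1]

variable (C : Fin 4 → Fin 6 → Fin 4 → ℤ)

def kap (rs : Fin 6 × Fin 6) (y x : Fin 10) : ℤ :=
  C (pr x).1 rs.1 (pr y).1 * C (pr x).2 rs.2 (pr y).2
    + C (pr x).2 rs.1 (pr y).1 * C (pr x).1 rs.2 (pr y).2
    - C (pr x).1 rs.1 (pr y).2 * C (pr x).2 rs.2 (pr y).1
    - C (pr x).2 rs.1 (pr y).2 * C (pr x).1 rs.2 (pr y).1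

noncomputable def K (rs : Fin 6 × Fin 6) : Matrix (Fin 10) (Fin 10) ℂ :=
  Matrix.of fun y x => ((kap C rs y x : ℤ) : ℂ)

noncomputable def L (rs : Fin 6 × Fin 6) : Matrix (Fin 10) (Fin 10) ℂ :=
  Matrix.of fun x y => ((ep y * kap C rs (cp y) x : ℤ) : ℂ)

def GG (i j a b : Fin 4) : ℤ := ∑ r, C i r a * C j r b

theorem key (f g f' g' : Fin 6 → ℤ) :
    ∑ rs : Fin 6 × Fin 6, f rs.1 * g rs.2 * (f' rs.1 * g' rs.2) =
      (∑ r, f r * f' r) * ∑ s, g s * g' s := by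
  rw [Fintype.sum_prod_type, Finset.sum_mul_sum]
  refine Finset.sum_congr rfl fun r _ => Finset.sum_congr rfl fun s _ => by ring

theorem S_sym (h : ∀ i j a b, GG C i j a b = GG C i j b a) (y x y' x' : Fin 10) :
    ∑ rs, kap C rs y x * kap C rs y' x' = ∑ rs, kap C rs y' x * kap C rs y x' := by
  have e : ∀ y x y' x', ∑ rs, kap C rs y x * kap C rs y' x' =
      GG C (pr x).1 (pr x').1 (pr y).1 (pr y').1 * GG C (pr x).2 (pr x').2 (pr y).2 (pr y').2
      + GG C (pr x).1 (pr x').2 (pr y).1 (pr y').1 * GG C (pr x).2 (pr x').1 (pr y).2 (pr y').2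
      - GG C (pr x).1 (pr x').1 (pr y).1 (pr y').2 * GG C (pr x).2 (pr x').2 (pr y).2 (pr y').1
      - GG C (pr x).1 (pr x').2 (pr y).1 (pr y').2 * GG C (pr x).2 (pr x').1 (pr y).2 (pr y').1
      + GG C (pr x).2 (pr x').1 (pr y).1 (pr y').1 * GG C (pr x).1 (pr x').2 (pr y).2 (pr y').2
      + GG C (pr x).2 (pr x').2 (pr y).1 (pr y').1 * GG C (pr x).1 (pr x').1 (pr y).2 (pr y').2
      - GG C (pr x).2 (pr x').1 (pr y).1 (pr y').2 * GG C (pr x).1 (pr x').2 (pr y).2 (pr y').1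
      - GG C (pr x).2 (pr x').2 (pr y).1 (pr y').2 * GG C (pr x).1 (pr x').1 (pr y).2 (pr y').1
      - GG C (pr x).1 (pr x').1 (pr y).2 (pr y').1 * GG C (pr x).2 (pr x').2 (pr y).1 (pr y').2
      - GG C (pr x).1 (pr x').2 (pr y).2 (pr y').1 * GG C (pr x).2 (pr x').1 (pr y).1 (pr y').2
      + GG C (pr x).1 (pr x').1 (pr y).2 (pr y').2 * GG C (pr x).2 (pr x').2 (pr y).1 (pr y').1
      + GG C (pr x).1 (pr x').2 (pr y).2 (pr y').2 * GG C (pr x).2 (pr x').1 (pr y).1 (pr y').1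
      - GG C (pr x).2 (pr x').1 (pr y).2 (pr y').1 * GG C (pr x).1 (pr x').2 (pr y).1 (pr y').2
      - GG C (pr x).2 (pr x').2 (pr y).2 (pr y').1 * GG C (pr x).1 (pr x').1 (pr y).1 (pr y').2
      + GG C (pr x).2 (pr x').1 (pr y).2 (pr y').2 * GG C (pr x).1 (pr x').2 (pr y).1 (pr y').1
      + GG C (pr x).2 (pr x').2 (pr y).2 (pr y').2 * GG C (pr x).1 (pr x').1 (pr y).1 (pr y').1 := by
    intro y x y' x'
    simp only [GG]
    simp only [← key]
    simp only [← Finset.sum_add_distrib, ← Finset.sum_sub_distrib]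
    refine Finset.sum_congr rfl fun rs _ => ?_
    unfold kap
    ring
  rw [e y x y' x', e y' x y x']
  rw [h _ _ (pr y').1 (pr y).1, h _ _ (pr y').2 (pr y).2, h _ _ (pr y').1 (pr y).2,
    h _ _ (pr y').2 (pr y).1]
  simp only [h _ _ (pr y').1 (pr y).1, h _ _ (pr y').2 (pr y).2, h _ _ (pr y').1 (pr y).2,
    h _ _ (pr y').2 (pr y).1]
  ring

theorem hK (h : ∀ i j a b, GG C i j a b = GG C i j b a) (M) :
    (kmap (K C) M).transpose = kmap (K C) M := by
  apply kmap_transpose_of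
  intro x y a b
  have := S_sym C h y a x b
  simp only [K, Matrix.of_apply]
  have e1 : ∀ n : ℤ, star ((n : ℤ) : ℂ) = (n : ℂ) := fun n => by simp
  simp only [e1]
  exact_mod_cast this

theorem hL (h : ∀ i j a b, GG C i j a b = GG C i j b a) (M) :
    (kmap (L C) M).transpose = kmap (L C) M := by
  apply kmap_transpose_of
  intro x y a b
  have h1 := S_sym C h (cp a) y (cp b) x
  have h2 : ∑ rs, kap C rs (cp b) y * kap C rs (cp a) x
      = ∑ rs, kap C rs (cp a) x * kap C rs (cp b) y :=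
    Finset.sum_congr rfl fun rs _ => mul_comm _ _
  have h3 : ∑ rs, (ep a * kap C rs (cp a) y) * (ep b * kap C rs (cp b) x)
      = ∑ rs, (ep a * kap C rs (cp a) x) * (ep b * kap C rs (cp b) y) := by
    calc _ = ep a * ep b * ∑ rs, kap C rs (cp a) y * kap C rs (cp b) x := by
          rw [Finset.mul_sum]; exact Finset.sum_congr rfl fun rs _ => by ring
      _ = ep a * ep b * ∑ rs, kap C rs (cp a) x * kap C rs (cp b) y := by
          rw [h1, h2]
      _ = _ := by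
          rw [Finset.mul_sum]; exact Finset.sum_congr rfl fun rs _ => by ring
  simp only [L, Matrix.of_apply]
  have e1 : ∀ n : ℤ, star ((n : ℤ) : ℂ) = (n : ℂ) := fun n => by simp
  simp only [e1]
  exact_mod_cast h3

section evalsec
variable {R : Type*} [CommRing R]

/-- `A(w)` -/
def Aw (w : Fin 4 → R) (r : Fin 6) (a : Fin 4) : R := ∑ i, w i * (C i r a : R)

def ev (w : Fin 4 → R) (x : Fin 10) : R := (cf x : R) * (w (pr x).1 * w (pr x).2)

def mn (w : Fin 4 → R) (r s : Fin 6) (y : Fin 10) : R :=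
  Aw C w r (pr y).1 * Aw C w s (pr y).2 - Aw C w r (pr y).2 * Aw C w s (pr y).1

theorem kap_ev (w : Fin 4 → R) (r s : Fin 6) (y : Fin 10) :
    ∑ x, (kap C (r, s) y x : R) * ev w x = 2 * mn C w r s y := by
  generalize hy : pr y = ab
  obtain ⟨a, b⟩ := ab
  simp only [mn, Aw, kap, hy, ev]
  simp [Fin.sum_univ_succ, pr, cf, Fin.succ]
  ring

def Dt (f : Fin 4 → Fin 6) (w : Fin 4 → R) : R :=
  Matrix.det (Matrix.of fun i a => Aw C w (f i) a)

theorem laplace (w : Fin 4 → R) (r s t u : Fin 6) :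
    ∑ y, (ep y : R) * (mn C w r s y * mn C w t u (cp y)) = Dt C ![r, s, t, u] w := by
  unfold Dt
  simp only [mn]
  simp [Matrix.det_succ_row_zero, Fin.sum_univ_succ, ep, cp, pr, Fin.succAbove, Fin.succ]
  ring

end evalsec

end Crest.Agent.P345.A55
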