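import Mathlib

set_option autoImplicit false

namespace Crest.Agent.P345.Dual26

/-- double annihilator in `β → ℂ` -/
theorem mem_span_of_annih {α β : Type*} [Fintype β] (F : α → (β → ℂ)) (x : β → ℂ)
    (h : ∀ n : β → ℂ, (∀ a, ∑ p, n p * F a p = 0) → ∑ p, n p * x p = 0) :
    x ∈ Submodule.span ℂ (Set.range F) := by
  classical
  by_contra hx
  obtain ⟨f, hfx, hf⟩ := Submodule.exists_dual_map_eq_bot_of_notMem hx inferInstance
  have key : ∀ y : β → ℂ, f y = ∑ p, f (Pi.single p 1) * y p := by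
    intro y
    have : y = ∑ p, (y p) • (Pi.single p (1 : ℂ) : β → ℂ) := by
      ext q
      simp [Finset.sum_apply, Pi.single_apply]
    conv_lhs => rw [this]
    rw [map_sum]
    apply Finset.sum_congr rfl
    intro p _
    rw [map_smul, smul_eq_mul, mul_comm]
  apply hfx
  rw [key x]
  apply h
  intro a
  rw [← key (F a)]
  have h1 : f (F a) ∈ Submodule.map f (Submodule.span ℂ (Set.range F)) :=
    Submodule.mem_map_of_mem (Submodule.subset_span ⟨a, rfl⟩)
  rw [hf] at h1
  exact (Submodule.mem_bot ℂ).1 h1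

theorem exists_coeff {α β : Type*} [Fintype β] [Fintype α] (F : α → (β → ℂ)) (x : β → ℂ)
    (h : ∀ n : β → ℂ, (∀ a, ∑ p, n p * F a p = 0) → ∑ p, n p * x p = 0) :
    ∃ c : α → ℂ, ∀ p, x p = ∑ a, c a * F a p := by
  have h1 := mem_span_of_annih F x h
  obtain ⟨c, hc⟩ := (Submodule.mem_span_range_iff_exists_fun ℂ).1 h1
  refine ⟨c, fun p => ?_⟩
  rw [← hc]
  simp [Finset.sum_apply]

open Matrix

variable {d e f ι κ : Type*} [Fintype d] [Fintype e] [Fintype f] [Fintype ι] [Fintype κ]

/-- (L3) -/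
theorem uv_coeff (K : ι → Matrix e d ℂ) (L : κ → Matrix f e ℂ) (u : d → ℂ) (v : f → ℂ)
    (h : ∀ n : d × f → ℂ, (∀ j i, ∑ p : d × f, n p * (L j * K i) p.2 p.1 = 0) →
      ∑ p : d × f, n p * (u p.1 * v p.2) = 0) :
    ∃ c : κ × ι → ℂ, ∀ p : d × f, u p.1 * v p.2 = ∑ a, c a * (L a.1 * K a.2) p.2 p.1 := by
  apply exists_coeff (fun (a : κ × ι) (p : d × f) => (L a.1 * K a.2) p.2 p.1)
    (fun p => u p.1 * v p.2)
  intro n hn
  exact h n (fun j i => hn (j, i))

/-- contraction with vectors `q`, `q'` -/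
theorem uv_eval (K : ι → Matrix e d ℂ) (L : κ → Matrix f e ℂ) (u : d → ℂ) (v : f → ℂ)
    (c : κ × ι → ℂ)
    (hc : ∀ p : d × f, u p.1 * v p.2 = ∑ a, c a * (L a.1 * K a.2) p.2 p.1)
    (q : d → ℂ) (q' : f → ℂ) :
    (∑ i, u i * q i) * (∑ j, v j * q' j) =
      ∑ a, c a * (∑ i, ∑ j, q i * q' j * (L a.1 * K a.2) j i) := by
  calc (∑ i, u i * q i) * (∑ j, v j * q' j)
      = ∑ i, ∑ j, (u i * v j) * (q i * q' j) := by
        rw [Finset.sum_mul_sum]
        apply Finset.sum_congr rfl
        intro i _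
        apply Finset.sum_congr rfl
        intro j _
        ring
    _ = ∑ i, ∑ j, ∑ a, c a * (L a.1 * K a.2) j i * (q i * q' j) := by
        apply Finset.sum_congr rfl
        intro i _
        apply Finset.sum_congr rfl
        intro j _
        rw [hc (i, j), Finset.sum_mul]
    _ = ∑ i, ∑ a, ∑ j, c a * (L a.1 * K a.2) j i * (q i * q' j) := by
        apply Finset.sum_congr rfl
        intro i _
        rw [Finset.sum_comm]
    _ = ∑ a, ∑ i, ∑ j, c a * (L a.1 * K a.2) j i * (q i * q' j) := by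
        rw [Finset.sum_comm]
    _ = _ := by
        apply Finset.sum_congr rfl
        intro a _
        rw [Finset.mul_sum]
        apply Finset.sum_congr rfl
        intro i _
        rw [Finset.mul_sum]
        apply Finset.sum_congr rfl
        intro j _
        ring

end Crest.Agent.P345.Dual26
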