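import Crest.Agent.P345Red
import Crest.Agent.P345.Dual26

set_option autoImplicit false

namespace Crest.Agent.P345.Dual26

open Matrix Crest.Quantum Crest.Agent.P345Red

/-- the type of all relations -/
def AllRel {d e f ι κ : Type} [Fintype d] [Fintype e] [Fintype f]
    (K : ι → Matrix e d ℂ) (L : κ → Matrix f e ℂ) : Type :=
  {n : d × f → ℂ // ∀ j i, ∑ p : d × f, n p * (L j * K i) p.2 p.1 = 0}

theorem pf_all {d e f ι κ : Type} [Fintype d] [Fintype e] [Fintype f] [Fintype ι] [Fintype κ]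
    (K : ι → Matrix e d ℂ) (L : κ → Matrix f e ℂ)
    (hPF : ∀ (u : d → ℂ) (v : f → ℂ) (c : κ × ι → ℂ),
      (∀ p : d × f, u p.1 * v p.2 = ∑ a, c a * (L a.1 * K a.2) p.2 p.1) → u = 0 ∨ v = 0) :
    ∀ (u : d → ℂ) (v : f → ℂ),
      (∀ r : AllRel K L, ∑ p : d × f, r.1 p * (u p.1 * v p.2) = 0) → u = 0 ∨ v = 0 := by
  intro u v h
  obtain ⟨c, hc⟩ := uv_coeff K L u v (fun n hn => h ⟨n, hn⟩)
  exact hPF u v c hc

theorem s0541_all {ι κ ι' κ' : Type} [Fintype ι] [Fintype κ] [Fintype ι'] [Fintype κ']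
    (K : ι → Matrix (Fin 10) (Fin 10) ℂ) (K' : ι' → Matrix (Fin 10) (Fin 10) ℂ)
    (L : κ → Matrix (Fin 10) (Fin 10) ℂ) (L' : κ' → Matrix (Fin 10) (Fin 10) ℂ)
    (hK : ∀ M, (kmap K M).transpose = kmap K' M) (hL : ∀ M, (kmap L M).transpose = kmap L' M)
    (hPF : ∀ (u v : Fin 10 → ℂ) (c : κ × ι → ℂ),
      (∀ p : Fin 10 × Fin 10, u p.1 * v p.2 = ∑ a, c a * (L a.1 * K a.2) p.2 p.1) →
        u = 0 ∨ v = 0)
    (hne : ∃ j i, L j * K i ≠ 0) :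
    ∃ Φ₁ Φ₂ : Matrix (Fin 10) (Fin 10) ℂ → Matrix (Fin 10) (Fin 10) ℂ,
      IsLinearMap ℂ Φ₁ ∧ IsLinearMap ℂ Φ₂ ∧ IsPPT Φ₁ ∧ IsPPT Φ₂ ∧
      choiMatrix (Φ₂ ∘ Φ₁) ≠ 0 ∧
      (∀ u v : Fin 10 → ℂ, (∃ w, (choiMatrix (Φ₂ ∘ Φ₁)).mulVec w = fun p => u p.1 * v p.2) →
        u = 0 ∨ v = 0) ∧
      ¬ IsEntanglementBreaking (Φ₂ ∘ Φ₁) :=
  s0541_of K K' L L' hK hL (fun r : AllRel K L => r.1) (fun r => r.2) (pf_all K L hPF) hne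

theorem s0540_all {ι κ ι' κ' : Type} [Fintype ι] [Fintype κ] [Fintype ι'] [Fintype κ']
    (K : ι → Matrix (Fin 10) (Fin 10) ℂ) (K' : ι' → Matrix (Fin 10) (Fin 10) ℂ)
    (L : κ → Matrix (Fin 10) (Fin 10) ℂ) (L' : κ' → Matrix (Fin 10) (Fin 10) ℂ)
    (hK : ∀ M, (kmap K M).transpose = kmap K' M) (hL : ∀ M, (kmap L M).transpose = kmap L' M)
    (hPF : ∀ (u v : Fin 10 → ℂ) (c : κ × ι → ℂ),
      (∀ p : Fin 10 × Fin 10, u p.1 * v p.2 = ∑ a, c a * (L a.1 * K a.2) p.2 p.1) →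
        u = 0 ∨ v = 0)
    (hne : ∃ j i, L j * K i ≠ 0) :
    ∃ Θ : Matrix (Fin 21) (Fin 21) ℂ → Matrix (Fin 21) (Fin 21) ℂ,
      IsChannel Θ ∧ IsPPT Θ ∧ ¬ IsEntanglementBreaking (Θ ∘ Θ) :=
  s0540_of K K' L L' hK hL (fun r : AllRel K L => r.1) (fun r => r.2) (pf_all K L hPF) hne

end Crest.Agent.P345.Dual26
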