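import Crest.Agent.P345Val
set_option autoImplicit false
namespace Crest.Agent.P345.Span43
open Crest.Agent.P345Val

/-- valuation step of the route without explicit relations -/
theorem pf_span (p : ℕ) [Fact p.Prime] {m N a : ℕ} (z : Fin m → Fin a → ℤ)
    (Mz : Fin m → Fin m → ℤ) (Bi : Fin m → Fin m → ℤ)
    (hB : ∀ i c, ((∑ j, Bi i j * Mz j c) - if i = c then 1 else 0) % (p : ℤ) = 0)
    (x : Fin N → Fin a → ℤ) (Mx : Fin N → Fin m → ℤ) (hMx : ∀ i c, Mx i c % (p : ℤ) = 0)
    (hk : ∀ (k : Type) [Field k] [CharP k p] (u v : Fin a → k),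
      (∀ i, (∑ s, (x i s : k) * u s) * (∑ s, (x i s : k) * v s) = 0) → u = 0 ∨ v = 0)
    (u v : Fin a → ℂ) (g : Fin m → ℂ)
    (hz : ∀ j, (∑ s, (z j s : ℂ) * u s) * (∑ s, (z j s : ℂ) * v s) = ∑ c, g c * (Mz j c : ℂ))
    (hx : ∀ i, (∑ s, (x i s : ℂ) * u s) * (∑ s, (x i s : ℂ) * v s) = ∑ c, g c * (Mx i c : ℂ)) :
    u = 0 ∨ v = 0 := by
  classical
  by_contra hne
  push Not at hne
  obtain ⟨hu, hv⟩ := hne
  obtain ⟨O, hO⟩ := exists_val p
  obtain ⟨cu, u', i₀, hcu, hu', hi₀⟩ := exists_scale O u hu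
  obtain ⟨cv, v', j₀, hcv, hv', hj₀⟩ := exists_scale O v hv
  let k := IsLocalRing.ResidueField O
  let res : O →+* k := IsLocalRing.residue O
  have hpO : (p : k) = 0 := by
    have h1 : ((p : O) : ℂ) ∈ O.nonunits := by simpa using hO
    have h2 : (p : O) ∈ IsLocalRing.maximalIdeal O := by
      rw [← ValuationSubring.coe_mem_nonunits_iff]
      exact h1
    have h3 : res (p : O) = 0 := (IsLocalRing.residue_eq_zero_iff _).mpr h2
    simpa using h3
  have hchar : CharP k p := by
    have hp := (Fact.out : p.Prime)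
    exact ringChar.of_eq (CharP.ringChar_of_prime_eq_zero hp hpO)
  have hint : ∀ n : ℤ, n % (p : ℤ) = 0 → (n : k) = 0 := by
    intro n hn
    obtain ⟨t, rfl⟩ := Int.dvd_of_emod_eq_zero hn
    rw [Int.cast_mul, Int.cast_natCast, hpO, zero_mul]
  have hBk : ∀ i c, (∑ j, (Bi i j : k) * (Mz j c : k)) = if i = c then 1 else 0 := by
    intro i c
    have h1 := hint _ (hB i c)
    rw [Int.cast_sub, sub_eq_zero, Int.cast_sum] at h1
    simp only [Int.cast_mul] at h1
    rw [h1]
    split_ifs <;> simp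
  -- scaled coefficients
  set g' : Fin m → ℂ := fun c => g c / (cu * cv) with hg'
  have hcc : cu * cv ≠ 0 := mul_ne_zero hcu hcv
  have key : ∀ (y : Fin a → ℤ) (M : Fin m → ℤ),
      (∑ s, (y s : ℂ) * u s) * (∑ s, (y s : ℂ) * v s) = ∑ c, g c * (M c : ℂ) →
      (((∑ s, (y s : O) * u' s) * (∑ s, (y s : O) * v' s) : O) : ℂ) = ∑ c, g' c * (M c : ℂ) := by
    intro y M h
    have e1 : (∑ s, (y s : ℂ) * u s) = cu * ∑ s, (y s : ℂ) * (u' s : ℂ) := by
      rw [Finset.mul_sum]
      exact Finset.sum_congr rfl fun s _ => by rw [hu' s]; ring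
    have e2 : (∑ s, (y s : ℂ) * v s) = cv * ∑ s, (y s : ℂ) * (v' s : ℂ) := by
      rw [Finset.mul_sum]
      exact Finset.sum_congr rfl fun s _ => by rw [hv' s]; ring
    have e3 : ∑ c, g c * (M c : ℂ) = (cu * cv) * ∑ c, g' c * (M c : ℂ) := by
      rw [Finset.mul_sum]
      refine Finset.sum_congr rfl fun c _ => ?_
      rw [hg']
      field_simp
    rw [e1, e2, e3] at h
    have h2 : (cu * cv) * ((∑ s, (y s : ℂ) * (u' s : ℂ)) * ∑ s, (y s : ℂ) * (v' s : ℂ))
        = (cu * cv) * ∑ c, g' c * (M c : ℂ) := by rw [← h]; ring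
    have h3 := mul_left_cancel₀ hcc h2
    push_cast
    exact h3
  -- all g' are integral
  have hgO : ∀ c, g' c ∈ O := by
    by_contra hcon
    push Not at hcon
    obtain ⟨c1, hc1⟩ := hcon
    have : Nonempty (Fin m) := ⟨c1⟩
    obtain ⟨c₀, hc₀⟩ := Finite.exists_max (fun c => O.valuation (g' c))
    have hc0n : g' c₀ ∉ O := by
      intro h
      apply hc1
      rw [← ValuationSubring.valuation_le_one_iff] at h ⊢
      exact (hc₀ c1).trans h
    have hg0 : g' c₀ ≠ 0 := by
      intro h
      apply hc0n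
      rw [h]; exact O.zero_mem
    have hmem : ∀ c, g' c / g' c₀ ∈ O := by
      intro c
      rw [← ValuationSubring.valuation_le_one_iff, map_div₀]
      exact div_le_one_of_le₀ (hc₀ c) zero_le
    have hinv : (g' c₀)⁻¹ ∈ O.nonunits := by
      rw [ValuationSubring.mem_nonunits_iff, map_inv₀]
      have h1 : 1 < O.valuation (g' c₀) := by
        rw [← not_le, ValuationSubring.valuation_le_one_iff]
        exact hc0n
      exact inv_lt_one_of_one_lt₀ h1
    have hinvO : (g' c₀)⁻¹ ∈ O := by
      rw [ValuationSubring.mem_nonunits_iff] at hinv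
      rw [← ValuationSubring.valuation_le_one_iff]
      exact hinv.le
    let iv : O := ⟨(g' c₀)⁻¹, hinvO⟩
    have hiv : res iv = 0 := by
      apply (IsLocalRing.residue_eq_zero_iff _).mpr
      rw [← ValuationSubring.coe_mem_nonunits_iff]
      exact hinv
    let h : Fin m → O := fun c => ⟨g' c / g' c₀, hmem c⟩
    have h1 : ∀ j, ∑ c, h c * (Mz j c : O)
        = ((∑ s, (z j s : O) * u' s) * (∑ s, (z j s : O) * v' s)) * iv := by
      intro j
      apply Subtype.ext
      have e := key (z j) (Mz j) (hz j)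
      push_cast at e ⊢
      change ∑ c, (g' c / g' c₀) * (Mz j c : ℂ) = _ * (g' c₀)⁻¹
      rw [e, Finset.sum_mul]
      exact Finset.sum_congr rfl fun c _ => by rw [div_eq_mul_inv]; ring
    have h2 : ∀ j, ∑ c, res (h c) * (Mz j c : k) = 0 := by
      intro j
      have e := congrArg res (h1 j)
      rw [map_mul, hiv, mul_zero, map_sum] at e
      rw [← e]
      exact Finset.sum_congr rfl fun c _ => by rw [map_mul, map_intCast]
    have h3 : ∀ c, res (h c) = 0 := by
      intro c
      have e : ∑ j, (Bi c j : k) * ∑ c', res (h c') * (Mz j c' : k) = 0 :=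
        Finset.sum_eq_zero fun j _ => by rw [h2 j, mul_zero]
      have e2 : ∑ j, (Bi c j : k) * ∑ c', res (h c') * (Mz j c' : k)
          = ∑ c', res (h c') * ∑ j, (Bi c j : k) * (Mz j c' : k) := by
        simp only [Finset.mul_sum]
        rw [Finset.sum_comm]
        exact Finset.sum_congr rfl fun c' _ => Finset.sum_congr rfl fun j _ => by ring
      rw [e2, Finset.sum_eq_single c] at e
      · rw [hBk, if_pos rfl, mul_one] at e
        exact e
      · intro b _ hb
        rw [hBk, if_neg (Ne.symm hb), mul_zero]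
      · intro hb
        exact absurd (Finset.mem_univ c) hb
    have h4 : h c₀ = 1 := by
      apply Subtype.ext
      show g' c₀ / g' c₀ = 1
      exact div_self hg0
    have h5 := h3 c₀
    rw [h4, map_one] at h5
    exact one_ne_zero h5
  let G : Fin m → O := fun c => ⟨g' c, hgO c⟩
  have hfin : ∀ i, (∑ s, (x i s : k) * res (u' s)) * (∑ s, (x i s : k) * res (v' s)) = 0 := by
    intro i
    have e : (∑ s, (x i s : O) * u' s) * (∑ s, (x i s : O) * v' s) = ∑ c, G c * (Mx i c : O) := by
      apply Subtype.ext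
      rw [key (x i) (Mx i) (hx i)]
      push_cast
      rfl
    have e2 := congrArg res e
    have e3 : ∀ c, ((Mx i c : ℤ) : k) = 0 := fun c => hint _ (hMx i c)
    simpa [map_sum, map_mul, e3] using e2
  rcases hk k (fun s => res (u' s)) (fun s => res (v' s)) hfin with hk | hk
  · have := congrFun hk i₀
    simp only [hi₀, map_one, Pi.zero_apply] at this
    exact one_ne_zero this
  · have := congrFun hk j₀
    simp only [hj₀, map_one, Pi.zero_apply] at this
    exact one_ne_zero this

end Crest.Agent.P345.Span43
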