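import Crest.Agent.P345.Dat15
import Crest.Agent.P345.Dual26b
import Crest.Agent.P345.Span43
set_option autoImplicit false
set_option maxRecDepth 100000
/-! Row 345 (helper15): numeric assembly from the tables of `Dat15.lean`. -/
namespace Crest.Agent.P345.Asm15
open Crest.Quantum Crest.Agent.P345Red Crest.Agent.P345.Dat15

def gt {α : Type} (d : α) : List α → ℕ → α
  | [], _ => d
  | a :: _, 0 => a
  | _ :: t, n + 1 => gt d t n

def sm (f : ℕ → ℤ) : ℕ → ℤ
  | 0 => 0
  | n + 1 => sm f n + f n

theorem sm_eq (f : ℕ → ℤ) (n : ℕ) : sm f n = ∑ i : Fin n, f i := by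
  induction n with
  | zero => simp [sm]
  | succ n ih => rw [Fin.sum_univ_castSucc, sm, ih]; simp

def al (P : ℕ → Bool) : ℕ → Bool
  | 0 => true
  | n + 1 => al P n && P n

theorem al_iff {P : ℕ → Bool} {n : ℕ} (h : al P n = true) : ∀ i < n, P i = true := by
  induction n with
  | zero => intro i hi; omega
  | succ n ih =>
    rw [al, Bool.and_eq_true] at h
    intro i hi
    rcases Nat.lt_succ_iff_lt_or_eq.1 hi with h' | h'
    · exact ih h.1 i h'
    · rw [h']; exact h.2

def allL {α : Type} (P : α → Bool) : List α → Bool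
  | [] => true
  | a :: l => P a && allL P l

theorem allL_gt {α : Type} {P : α → Bool} {d : α} (l : List α) (h : allL P l = true) (q : ℕ)
    (hq : q < l.length) : P (gt d l q) = true := by
  induction l generalizing q with
  | nil => simp at hq
  | cons a l ih =>
    rw [allL, Bool.and_eq_true] at h
    cases q with
    | zero => exact h.1
    | succ q => exact ih h.2 q (by simpa using hq)

def dot : List ℤ → List ℤ → ℤ
  | a :: l, b :: m => a * b + dot l m
  | _, _ => 0

theorem dot_eq (l m : List ℤ) (n : ℕ) (hl : l.length ≤ n) :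
    dot l m = ∑ i : Fin n, gt 0 l i * gt 0 m i := by
  induction n generalizing l m with
  | zero =>
    have : l = [] := List.length_eq_zero_iff.1 (by omega)
    subst this
    simp [dot]
  | succ n ih =>
    rw [Fin.sum_univ_succ]
    cases l with
    | nil => simp [dot, gt]
    | cons a l =>
      cases m with
      | nil => simp [dot, gt]
      | cons b m =>
        rw [dot, ih l m (by simpa using hl)]
        simp [gt]

def E (M : List (List (List ℤ))) (x a : ℕ) : List ℤ := gt [] (gt [] M x) a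

def chkLen (M : List (List (List ℤ))) : Bool :=
  allL (fun r => allL (fun l => Nat.ble l.length 15) r) M

theorem E_len {M : List (List (List ℤ))} (h : chkLen M = true) (x a : ℕ) :
    (E M x a).length ≤ 15 := by
  unfold E
  by_cases hx : x < M.length
  · have h1 := allL_gt (d := []) M h x hx
    by_cases ha : a < (gt [] M x).length
    · have h2 := allL_gt (d := []) _ h1 a ha
      exact Nat.le_of_ble_eq_true h2
    · have : ∀ (l : List (List ℤ)) (n : ℕ), l.length ≤ n → gt [] l n = [] := by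
        intro l
        induction l with
        | nil => intro n _; rfl
        | cons b l ih =>
          intro n hn
          cases n with
          | zero => simp at hn
          | succ n => exact ih n (by simpa using hn)
      rw [this _ _ (not_lt.1 ha)]; simp
  · have : ∀ (l : List (List (List ℤ))) (n : ℕ), l.length ≤ n → gt [] l n = [] := by
      intro l
      induction l with
      | nil => intro n _; rfl
      | cons b l ih =>
        intro n hn
        cases n with
        | zero => simp at hn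
        | succ n => exact ih n (by simpa using hn)
    rw [this _ _ (not_lt.1 hx)]; simp [gt]

def chkS (M : List (List (List ℤ))) : Bool :=
  al (fun x => al (fun y => Nat.ble y x || al (fun a => al (fun b =>
    decide (dot (E M y a) (E M x b) = dot (E M x a) (E M y b))) 10) 10) 10) 10

theorem symK : chkS KT = true := by decide +kernel
theorem symL : chkS LT = true := by decide +kernel
theorem lenK : chkLen KT = true := by decide +kernel
theorem lenL : chkLen LT = true := by decide +kernel

def Kz (M : List (List (List ℤ))) (i : Fin 15) (x a : Fin 10) : ℤ := gt 0 (E M x a) i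

theorem sym_of {M : List (List (List ℤ))} (h : chkS M = true) (hl : chkLen M = true)
    (x y a b : Fin 10) :
    ∑ i : Fin 15, Kz M i y a * Kz M i x b = ∑ i : Fin 15, Kz M i x a * Kz M i y b := by
  have key : ∀ x y : Fin 10, (x : ℕ) < y → ∀ a b : Fin 10,
      ∑ i : Fin 15, Kz M i y a * Kz M i x b = ∑ i : Fin 15, Kz M i x a * Kz M i y b := by
    intro x y hxy a b
    have h1 := al_iff (al_iff h x x.2) y y.2
    rw [Bool.or_eq_true] at h1
    rcases h1 with h1 | h1
    · have := Nat.le_of_ble_eq_true h1; omega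
    · have h2 := of_decide_eq_true (al_iff (al_iff h1 a a.2) b b.2)
      rw [dot_eq _ _ 15 (E_len hl _ _), dot_eq _ _ 15 (E_len hl _ _)] at h2
      exact h2
  rcases lt_trichotomy (x : ℕ) y with hh | hh | hh
  · exact key x y hh a b
  · have : x = y := Fin.ext hh
    subst this
    rfl
  · exact (key y x hh a b).symm

noncomputable def Kc (M : List (List (List ℤ))) (i : Fin 15) : Matrix (Fin 10) (Fin 10) ℂ :=
  Matrix.of fun x a => (Kz M i x a : ℂ)

theorem kmap_sym {M : List (List (List ℤ))} (h : chkS M = true) (hl : chkLen M = true) (N) :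
    (kmap (Kc M) N).transpose = kmap (Kc M) N := by
  refine kmap_transpose_of _ _ (fun x y a b => ?_) N
  have := congrArg (Int.cast : ℤ → ℂ) (sym_of h hl x y a b)
  simpa [Kc] using this

abbrev DD := List ℤ × List (List ℤ) × List (List ℤ) × List ℤ

/-- tables at one point -/
def chkP (d : DD) : Bool :=
  al (fun e => al (fun i =>
    decide (gt 0 (gt [] d.2.1 e) i = sm (fun t => gt 0 d.1 t * gt 0 (E LT t e) i) 10) &&
    decide (gt 0 (gt [] d.2.2.1 e) i = sm (fun s => gt 0 (E KT e s) i * gt 0 d.1 s) 10)) 15) 10 &&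
  al (fun T => al (fun S =>
    decide (sm (fun e => gt 0 (gt [] d.2.1 e) T * gt 0 (gt [] d.2.2.1 e) S) 10 =
      gt 0 (gt [] cS T) S * gt 0 d.2.2.2 (gt 0 (gt [] cI T) S)) &&
    Nat.blt (gt 0 (gt [] cI T) S) 15) 15) 15

theorem allz : allL chkP Dz = true := by decide +kernel
theorem allw : allL chkP Dw = true := by decide +kernel

def dz (j : Fin 15) : DD := gt ([], [], [], []) Dz j
def dw (j : Fin 20) : DD := gt ([], [], [], []) Dw j

theorem cz (j : Fin 15) : chkP (dz j) = true := allL_gt Dz allz j (by simp [Dz])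
theorem cw (j : Fin 20) : chkP (dw j) = true := allL_gt Dw allw j (by simp [Dw])

theorem quart {d : DD} (h : chkP d = true) (u v : Fin 10 → ℂ) (c : Fin 15 × Fin 15 → ℂ)
    (hc : ∀ p : Fin 10 × Fin 10, u p.1 * v p.2 = ∑ a, c a * (Kc LT a.1 * Kc KT a.2) p.2 p.1) :
    (∑ s : Fin 10, ((gt 0 d.1 s : ℤ) : ℂ) * u s) * (∑ s : Fin 10, ((gt 0 d.1 s : ℤ) : ℂ) * v s) =
      ∑ e : Fin 15, (∑ a : Fin 15 × Fin 15, c a *
        (if gt 0 (gt [] cI a.1) a.2 = (e : ℕ) then ((gt 0 (gt [] cS a.1) a.2 : ℤ) : ℂ) else 0)) *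
        ((gt 0 d.2.2.2 e : ℤ) : ℂ) := by
  unfold chkP at h
  rw [Bool.and_eq_true] at h
  obtain ⟨h1, h2⟩ := h
  have hl : ∀ (e : Fin 10) (i : Fin 15), ((gt 0 (gt [] d.2.1 e) i : ℤ) : ℂ) =
      ∑ t : Fin 10, ((gt 0 d.1 t : ℤ) : ℂ) * (Kz LT i t e : ℂ) := by
    intro e i
    have h3 := al_iff (al_iff h1 e e.2) i i.2
    rw [Bool.and_eq_true] at h3
    have h4 := of_decide_eq_true h3.1
    rw [h4, sm_eq]
    simp [Kz]
  have hk : ∀ (e : Fin 10) (i : Fin 15), ((gt 0 (gt [] d.2.2.1 e) i : ℤ) : ℂ) =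
      ∑ s : Fin 10, (Kz KT i e s : ℂ) * ((gt 0 d.1 s : ℤ) : ℂ) := by
    intro e i
    have h3 := al_iff (al_iff h1 e e.2) i i.2
    rw [Bool.and_eq_true] at h3
    have h4 := of_decide_eq_true h3.2
    rw [h4, sm_eq]
    simp [Kz]
  have hq : ∀ (T S : Fin 15), ∑ e : Fin 10, ((gt 0 (gt [] d.2.1 e) T : ℤ) : ℂ) *
      ((gt 0 (gt [] d.2.2.1 e) S : ℤ) : ℂ) =
      ((gt 0 (gt [] cS T) S : ℤ) : ℂ) * ((gt 0 d.2.2.2 (gt 0 (gt [] cI T) S) : ℤ) : ℂ) := by
    intro T S
    have h3 := al_iff (al_iff h2 T T.2) S S.2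
    rw [Bool.and_eq_true] at h3
    have h4 := of_decide_eq_true h3.1
    rw [sm_eq] at h4
    have h5 := congrArg (Int.cast : ℤ → ℂ) h4
    simpa using h5
  have hlt : ∀ (T S : Fin 15), gt 0 (gt [] cI T) S < 15 := by
    intro T S
    have h3 := al_iff (al_iff h2 T T.2) S S.2
    rw [Bool.and_eq_true] at h3
    have h4 := h3.2
    simpa [Nat.blt] using h4
  set x : Fin 10 → ℂ := fun s => ((gt 0 d.1 s : ℤ) : ℂ) with hx
  calc (∑ s, x s * u s) * (∑ s, x s * v s)
      = ∑ s, ∑ t, x s * x t * (u s * v t) := by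
        rw [Finset.sum_mul_sum]
        exact Finset.sum_congr rfl fun s _ => Finset.sum_congr rfl fun t _ => by ring
    _ = ∑ s, ∑ t, x s * x t * ∑ a, c a * (Kc LT a.1 * Kc KT a.2) t s := by
        exact Finset.sum_congr rfl fun s _ => Finset.sum_congr rfl fun t _ => by rw [hc (s, t)]
    _ = ∑ s, ∑ t, ∑ a, x s * x t * (c a * (Kc LT a.1 * Kc KT a.2) t s) := by
        simp only [Finset.mul_sum]
    _ = ∑ s, ∑ a, ∑ t, x s * x t * (c a * (Kc LT a.1 * Kc KT a.2) t s) := by
        exact Finset.sum_congr rfl fun s _ => Finset.sum_comm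
    _ = ∑ a, ∑ s, ∑ t, x s * x t * (c a * (Kc LT a.1 * Kc KT a.2) t s) := Finset.sum_comm
    _ = ∑ a : Fin 15 × Fin 15, c a * ∑ e : Fin 10, (∑ t, x t * (Kz LT a.1 t e : ℂ)) *
          (∑ s, (Kz KT a.2 e s : ℂ) * x s) := by
        refine Finset.sum_congr rfl fun a _ => ?_
        calc ∑ s, ∑ t, x s * x t * (c a * (Kc LT a.1 * Kc KT a.2) t s)
            = ∑ s, ∑ t, ∑ e, c a * ((x t * (Kz LT a.1 t e : ℂ)) * ((Kz KT a.2 e s : ℂ) * x s)) := by
              refine Finset.sum_congr rfl fun s _ => Finset.sum_congr rfl fun t _ => ?_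
              rw [Matrix.mul_apply, Finset.mul_sum, Finset.mul_sum]
              refine Finset.sum_congr rfl fun e _ => ?_
              simp only [Kc, Matrix.of_apply]
              ring
          _ = ∑ e, ∑ t, ∑ s, c a * ((x t * (Kz LT a.1 t e : ℂ)) * ((Kz KT a.2 e s : ℂ) * x s)) := by
              rw [Finset.sum_comm]
              rw [Finset.sum_congr rfl fun t _ => Finset.sum_comm]
              rw [Finset.sum_comm]
          _ = _ := by
              rw [Finset.mul_sum]
              refine Finset.sum_congr rfl fun e _ => ?_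
              rw [Finset.sum_mul_sum, Finset.mul_sum]
              refine Finset.sum_congr rfl fun t _ => ?_
              rw [Finset.mul_sum]
    _ = ∑ a : Fin 15 × Fin 15, c a * (((gt 0 (gt [] cS a.1) a.2 : ℤ) : ℂ) *
          ((gt 0 d.2.2.2 (gt 0 (gt [] cI a.1) a.2) : ℤ) : ℂ)) := by
        refine Finset.sum_congr rfl fun a _ => ?_
        rw [← hq a.1 a.2]
        congr 1
        exact Finset.sum_congr rfl fun e _ => by rw [hl e a.1, hk e a.2]
    _ = _ := by
        symm
        calc ∑ e : Fin 15, (∑ a : Fin 15 × Fin 15, c a *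
              (if gt 0 (gt [] cI a.1) a.2 = (e : ℕ) then ((gt 0 (gt [] cS a.1) a.2 : ℤ) : ℂ) else 0)) *
              ((gt 0 d.2.2.2 e : ℤ) : ℂ)
            = ∑ e : Fin 15, ∑ a : Fin 15 × Fin 15, c a *
              (if gt 0 (gt [] cI a.1) a.2 = (e : ℕ) then ((gt 0 (gt [] cS a.1) a.2 : ℤ) : ℂ) else 0) *
              ((gt 0 d.2.2.2 e : ℤ) : ℂ) := Finset.sum_congr rfl fun e _ => Finset.sum_mul _ _ _
          _ = ∑ a : Fin 15 × Fin 15, ∑ e : Fin 15, c a *
              (if gt 0 (gt [] cI a.1) a.2 = (e : ℕ) then ((gt 0 (gt [] cS a.1) a.2 : ℤ) : ℂ) else 0) *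
              ((gt 0 d.2.2.2 e : ℤ) : ℂ) := Finset.sum_comm
          _ = _ := by
              refine Finset.sum_congr rfl fun a _ => ?_
              rw [Finset.sum_eq_single (⟨gt 0 (gt [] cI a.1) a.2, hlt a.1 a.2⟩ : Fin 15)]
              · simp [mul_assoc]
              · intro b _ hb
                have : ¬ (gt 0 (gt [] cI a.1) a.2 = (b : ℕ)) := fun hh => hb (Fin.ext hh.symm)
                rw [if_neg this]; simp
              · intro hh; exact absurd (Finset.mem_univ _) hh

instance : Fact (Nat.Prime 60041) := ⟨by norm_num⟩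

def chkB : Bool :=
  al (fun i => al (fun c => decide ((sm (fun j => gt 0 (gt [] Bi i) j *
    gt 0 (gt ([], [], [], []) Dz j).2.2.2 c) 15 - (if i = c then 1 else 0)) % 60041 = 0)) 15) 15

theorem hB : chkB = true := by decide +kernel

def chkM : Bool :=
  allL (fun d : DD => al (fun c => decide (gt 0 d.2.2.2 c % 60041 = 0)) 15) Dw

theorem hM : chkM = true := by decide +kernel

/-- remaining hypothesis: the uniform matroid modulo 60041 -/
theorem pf (hk : ∀ (k : Type) [Field k] [CharP k 60041] (u v : Fin 10 → k),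
      (∀ i : Fin 20, (∑ s : Fin 10, ((gt 0 (dw i).1 s : ℤ) : k) * u s) *
        (∑ s : Fin 10, ((gt 0 (dw i).1 s : ℤ) : k) * v s) = 0) → u = 0 ∨ v = 0)
    (u v : Fin 10 → ℂ) (c : Fin 15 × Fin 15 → ℂ)
    (hc : ∀ p : Fin 10 × Fin 10, u p.1 * v p.2 = ∑ a, c a * (Kc LT a.1 * Kc KT a.2) p.2 p.1) :
    u = 0 ∨ v = 0 := by
  refine Span43.pf_span 60041 (fun j s => gt 0 (dz j).1 s) (fun j c => gt 0 (dz j).2.2.2 c)
    (fun i j => gt 0 (gt [] Bi i) j) ?_ (fun j s => gt 0 (dw j).1 s)
    (fun j c => gt 0 (dw j).2.2.2 c) ?_ hk u v _ (fun j => quart (cz j) u v c hc)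
    (fun j => quart (cw j) u v c hc)
  · intro i c
    have h := of_decide_eq_true (al_iff (al_iff hB i i.2) c c.2)
    rw [sm_eq] at h
    have e : (if (i : ℕ) = (c : ℕ) then (1 : ℤ) else 0) = if i = c then 1 else 0 := by
      by_cases hh : i = c
      · subst hh; simp
      · rw [if_neg hh, if_neg (fun h' => hh (Fin.ext h'))]
    rw [e] at h
    exact h
  · intro i c
    exact of_decide_eq_true (al_iff (allL_gt (d := ([], [], [], [])) Dw hM i (by simp [Dw])) c c.2)

end Crest.Agent.P345.Asm15
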