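import Crest.Agent.P345Val
set_option autoImplicit false
set_option maxHeartbeats 400000
namespace Crest.Agent.P345.Van92
open Crest.Agent.P345Val

/-- (L3) abstract relations: a family `n` whose common kernel is exactly the span of `W`. -/
theorem exists_rel {ι : Type} [Fintype ι] [DecidableEq ι] (W : Submodule ℂ (ι → ℂ)) :
    ∃ n : ι → ι → ℂ, (∀ x ∈ W, ∀ r, ∑ q, n r q * x q = 0) ∧
      ∀ x : ι → ℂ, (∀ r, ∑ q, n r q * x q = 0) → x ∈ W := by
  obtain ⟨W', hW⟩ := Submodule.exists_isCompl W
  let π : (ι → ℂ) →ₗ[ℂ] (ι → ℂ) := W'.subtype ∘ₗ W'.linearProjOfIsCompl W hW.symm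
  have hker : LinearMap.ker π = W := by
    rw [LinearMap.ker_comp_of_ker_eq_bot _ (Submodule.ker_subtype W')]
    exact Submodule.linearProjOfIsCompl_ker hW.symm
  refine ⟨fun r q => π (Pi.single q 1) r, ?_, ?_⟩
  · intro x hx r
    have h1 : π x = 0 := by rw [← LinearMap.mem_ker, hker]; exact hx
    have h2 : π x r = ∑ q, π (Pi.single q 1) r * x q := by
      conv_lhs => rw [← Finset.univ_sum_single x, map_sum, Finset.sum_apply]
      refine Finset.sum_congr rfl fun q _ => ?_
      have : (Pi.single q (x q) : ι → ℂ) = x q • Pi.single q 1 := by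
        rw [← Pi.single_smul, smul_eq_mul, mul_one]
      rw [this, map_smul, Pi.smul_apply, smul_eq_mul, mul_comm]
    rw [← h2, h1]; rfl
  · intro x hx
    rw [← hker, LinearMap.mem_ker]
    ext r
    have h2 : π x r = ∑ q, π (Pi.single q 1) r * x q := by
      conv_lhs => rw [← Finset.univ_sum_single x, map_sum, Finset.sum_apply]
      refine Finset.sum_congr rfl fun q _ => ?_
      have : (Pi.single q (x q) : ι → ℂ) = x q • Pi.single q 1 := by
        rw [← Pi.single_smul, smul_eq_mul, mul_one]
      rw [this, map_smul, Pi.smul_apply, smul_eq_mul, mul_comm]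
    rw [h2, hx r]; rfl

/-- (L4) valuation step. `n r i j` integer bilinear coefficients, `mm c r` integer vectors which are
independent over every field of characteristic `p`. -/
theorem pf_lift_span (p : ℕ) [Fact p.Prime] {R m a c : ℕ} (n : Fin R → Fin a → Fin c → ℤ)
    (mm : Fin m → Fin R → ℤ)
    (ind : ∀ (k : Type) [Field k] [CharP k p] (l : Fin m → k),
      (∀ r, ∑ t, l t * (mm t r : k) = 0) → l = 0)
    (h : ∀ (k : Type) [Field k] [CharP k p] (u : Fin a → k) (v : Fin c → k) (l : Fin m → k),
      (∀ r, ∑ i, ∑ j, (n r i j : k) * u i * v j = ∑ t, l t * (mm t r : k)) → u = 0 ∨ v = 0) :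
    ∀ (u : Fin a → ℂ) (v : Fin c → ℂ) (l : Fin m → ℂ),
      (∀ r, ∑ i, ∑ j, (n r i j : ℂ) * u i * v j = ∑ t, l t * (mm t r : ℂ)) → u = 0 ∨ v = 0 := by
  classical
  intro u v l huv
  by_contra hne
  push Not at hne
  obtain ⟨hu, hv⟩ := hne
  obtain ⟨O, hO⟩ := exists_val p
  obtain ⟨cu, u', i₀, hcu, hu', hi₀⟩ := exists_scale O u hu
  obtain ⟨cv, v', j₀, hcv, hv', hj₀⟩ := exists_scale O v hv
  let k := IsLocalRing.ResidueField O
  let res : O →+* k := IsLocalRing.residue O
  have hpO : (p : k) = 0 := by
    have h1 : ((p : O) : ℂ) ∈ O.nonunits := by simpa using hO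
    have h2 : (p : O) ∈ IsLocalRing.maximalIdeal O := by
      rw [← ValuationSubring.coe_mem_nonunits_iff]
      exact h1
    have h3 : res (p : O) = 0 := (IsLocalRing.residue_eq_zero_iff _).mpr h2
    simpa using h3
  have hchar : CharP k p := by
    have hp := (Fact.out : p.Prime)
    exact ringChar.of_eq (CharP.ringChar_of_prime_eq_zero hp hpO)
  have hcc : cu * cv ≠ 0 := mul_ne_zero hcu hcv
  -- scaled relation over ℂ
  have hrel : ∀ r, ∑ i, ∑ j, (n r i j : ℂ) * (u' i : ℂ) * (v' j : ℂ)
      = ∑ t, (l t / (cu * cv)) * (mm t r : ℂ) := by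
    intro r
    have h1 := huv r
    have h2 : ∑ i, ∑ j, (n r i j : ℂ) * u i * v j
        = (cu * cv) * ∑ i, ∑ j, (n r i j : ℂ) * (u' i : ℂ) * (v' j : ℂ) := by
      rw [Finset.mul_sum]
      refine Finset.sum_congr rfl fun i _ => ?_
      rw [Finset.mul_sum]
      refine Finset.sum_congr rfl fun j _ => ?_
      rw [hu' i, hv' j]
      ring
    have h3 : ∑ t, (l t / (cu * cv)) * (mm t r : ℂ) = (cu * cv)⁻¹ * ∑ t, l t * (mm t r : ℂ) := by
      rw [Finset.mul_sum]
      refine Finset.sum_congr rfl fun t _ => ?_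
      rw [div_eq_mul_inv]; ring
    rw [h3, ← h1, h2, ← mul_assoc, inv_mul_cancel₀ hcc, one_mul]
  -- the coefficients lie in `O`
  obtain ⟨l', hl'⟩ : ∃ l' : Fin m → O, ∀ t, l t / (cu * cv) = (l' t : ℂ) := by
    by_cases hl0 : (fun t => l t / (cu * cv)) = 0
    · exact ⟨fun _ => 0, fun t => by simpa using congrFun hl0 t⟩
    · obtain ⟨cl, w, t₀, hcl, hw, ht₀⟩ := exists_scale O (fun t => l t / (cu * cv)) hl0
      by_cases hclO : cl ∈ O
      · exact ⟨fun t => ⟨cl, hclO⟩ * w t, fun t => by rw [hw t]; rfl⟩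
      · exfalso
        have hinv : cl⁻¹ ∈ O.nonunits := by
          rw [ValuationSubring.mem_nonunits_iff, map_inv₀]
          have h5 : 1 < O.valuation cl := by
            rw [← not_le, ValuationSubring.valuation_le_one_iff]; exact hclO
          exact inv_lt_one_of_one_lt₀ h5
        have hinvO : cl⁻¹ ∈ O := ValuationSubring.nonunits_subset hinv
        have hi0 : res ⟨cl⁻¹, hinvO⟩ = 0 := by
          rw [IsLocalRing.residue_eq_zero_iff, ← ValuationSubring.coe_mem_nonunits_iff]
          exact hinv
        have hO' : ∀ r, ∑ t, w t * ((mm t r : ℤ) : O)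
            = ⟨cl⁻¹, hinvO⟩ * ∑ i, ∑ j, ((n r i j : ℤ) : O) * u' i * v' j := by
          intro r
          apply Subtype.ext
          push_cast
          have h6 := hrel r
          have h7 : ∑ t, (l t / (cu * cv)) * (mm t r : ℂ)
              = cl * ∑ t, (w t : ℂ) * (mm t r : ℂ) := by
            rw [Finset.mul_sum]
            refine Finset.sum_congr rfl fun t _ => ?_
            rw [hw t]; ring
          rw [h7] at h6
          rw [h6, ← mul_assoc, inv_mul_cancel₀ hcl, one_mul]
        have hz := ind k (fun t => res (w t)) (by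
          intro r
          have h8 := congrArg res (hO' r)
          rw [map_mul, hi0, zero_mul, map_sum] at h8
          rw [← h8]
          refine Finset.sum_congr rfl fun t _ => ?_
          rw [map_mul, map_intCast])
        have := congrFun hz t₀
        simp only [ht₀, map_one, Pi.zero_apply] at this
        exact one_ne_zero this
  have hrel2 : ∀ r, ∑ i, ∑ j, ((n r i j : ℤ) : O) * u' i * v' j
      = ∑ t, l' t * ((mm t r : ℤ) : O) := by
    intro r
    apply Subtype.ext
    push_cast
    rw [hrel r]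
    exact Finset.sum_congr rfl fun t _ => by rw [hl' t]
  have hk := h k (fun i => res (u' i)) (fun j => res (v' j)) (fun t => res (l' t)) (by
    intro r
    have h1 := congrArg res (hrel2 r)
    simpa [map_sum, map_mul] using h1)
  rcases hk with hk | hk
  · have := congrFun hk i₀
    simp only [hi₀, map_one, Pi.zero_apply] at this
    exact one_ne_zero this
  · have := congrFun hk j₀
    simp only [hj₀, map_one, Pi.zero_apply] at this
    exact one_ne_zero this

end Crest.Agent.P345.Van92
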