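import Crest.Agent.P345HK34
import Crest.Agent.P345.Van92

/-! Row 345 (helper29): assembly of `hPF` from `C`, a prime `p`, 15 test points and 20 points mod `p`. -/

set_option autoImplicit false

namespace Crest.Agent.P345A29

open Matrix Crest.Agent.P345Red Crest.Agent.P345HK34

section ring
variable {R : Type*} [CommRing R]

/-- `A(w)` -/
def Aw (C : Fin 4 → Fin 6 → Fin 4 → ℤ) (w : Fin 4 → R) (r : Fin 6) (k : Fin 4) : R :=
  ∑ j, w j * (C j r k : R)

def DD (a b c d : Fin 4 → R) : R :=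
  (a 2 * b 3 - a 3 * b 2) * (c 0 * d 1 - c 1 * d 0) - (a 1 * b 3 - a 3 * b 1) * (c 0 * d 2 - c 2 * d 0)
  + (a 1 * b 2 - a 2 * b 1) * (c 0 * d 3 - c 3 * d 0) + (a 0 * b 3 - a 3 * b 0) * (c 1 * d 2 - c 2 * d 1)
  - (a 0 * b 2 - a 2 * b 0) * (c 1 * d 3 - c 3 * d 1) + (a 0 * b 1 - a 1 * b 0) * (c 2 * d 3 - c 3 * d 2)

theorem DD_det (a b c d : Fin 4 → R) : DD a b c d = Matrix.det (Matrix.of ![a, b, c, d]) := by
  simp [Matrix.det_succ_row_zero, Fin.sum_univ_succ, Matrix.submatrix, DD, Fin.succAbove]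
  ring

theorem DD_zero (a b c d v : Fin 4 → R) (h3 : v 3 = 1) (ha : ∑ k, a k * v k = 0)
    (hb : ∑ k, b k * v k = 0) (hc : ∑ k, c k * v k = 0) (hd : ∑ k, d k * v k = 0) :
    DD a b c d = 0 := by
  simp only [Fin.sum_univ_four, h3, mul_one] at ha hb hc hd
  have ha' : a 3 = -(a 0 * v 0 + a 1 * v 1 + a 2 * v 2) := by linear_combination ha
  have hb' : b 3 = -(b 0 * v 0 + b 1 * v 1 + b 2 * v 2) := by linear_combination hb
  have hc' : c 3 = -(c 0 * v 0 + c 1 * v 1 + c 2 * v 2) := by linear_combination hc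
  have hd' : d 3 = -(d 0 * v 0 + d 1 * v 1 + d 2 * v 2) := by linear_combination hd
  unfold DD
  rw [ha', hb', hc', hd']
  ring

theorem minor (C : Fin 4 → Fin 6 → Fin 4 → ℤ) (w : Fin 4 → R) (i : Fin 6 × Fin 6) (x : Fin 10) :
    ∑ m, ((Kz C i x m : ℤ) : R) * (w (ma m) * w (mb m))
      = Aw C w i.1 (pk x) * Aw C w i.2 (pl x) - Aw C w i.1 (pl x) * Aw C w i.2 (pk x) := by
  unfold Kz
  generalize pk x = k
  generalize pl x = l
  simp only [Fin.sum_univ_succ, Fin.sum_univ_zero, entry, ma, mb, Aw]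
  simp
  ring

/-- Laplace -/
theorem laplace (C : Fin 4 → Fin 6 → Fin 4 → ℤ) (w : Fin 4 → R) (j i : Fin 6 × Fin 6) :
    ∑ q : Fin 10 × Fin 10, ((∑ y, Lz C j q.2 y * Kz C i y q.1 : ℤ) : R) *
      ((w (ma q.1) * w (mb q.1)) * (w (ma q.2) * w (mb q.2)))
      = DD (Aw C w j.1) (Aw C w j.2) (Aw C w i.1) (Aw C w i.2) := by
  have h1 : ∑ q : Fin 10 × Fin 10, ((∑ y, Lz C j q.2 y * Kz C i y q.1 : ℤ) : R) *
      ((w (ma q.1) * w (mb q.1)) * (w (ma q.2) * w (mb q.2)))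
      = ∑ y, ((sg y : ℤ) : R) * ((∑ m, ((Kz C j (co y) m : ℤ) : R) * (w (ma m) * w (mb m))) *
        (∑ m, ((Kz C i y m : ℤ) : R) * (w (ma m) * w (mb m)))) := by
    rw [Fintype.sum_prod_type]
    simp only [Int.cast_sum, Int.cast_mul, Lz, Finset.sum_mul, Finset.mul_sum]
    rw [Finset.sum_comm]
    rw [Finset.sum_comm]
    calc _ = ∑ x, ∑ x_1, ∑ y, (((sg y : ℤ) : R) * ((Kz C j (co y) x_1 : ℤ) : R) *
          ((Kz C i y x : ℤ) : R)) * ((w (ma x) * w (mb x)) * (w (ma x_1) * w (mb x_1))) := by rfl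
      _ = ∑ x, ∑ y, ∑ x_1, (((sg y : ℤ) : R) * ((Kz C j (co y) x_1 : ℤ) : R) *
          ((Kz C i y x : ℤ) : R)) * ((w (ma x) * w (mb x)) * (w (ma x_1) * w (mb x_1))) :=
          Finset.sum_congr rfl fun x _ => Finset.sum_comm
      _ = ∑ y, ∑ x, ∑ x_1, (((sg y : ℤ) : R) * ((Kz C j (co y) x_1 : ℤ) : R) *
          ((Kz C i y x : ℤ) : R)) * ((w (ma x) * w (mb x)) * (w (ma x_1) * w (mb x_1))) :=
          Finset.sum_comm
      _ = _ := by
          refine Finset.sum_congr rfl fun y _ => ?_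
          refine Finset.sum_congr rfl fun x _ => ?_
          refine Finset.sum_congr rfl fun x' _ => ?_
          ring
  rw [h1]
  simp only [minor]
  simp only [Fin.sum_univ_succ, Fin.sum_univ_zero, sg, co, pk, pl]
  simp [DD]
  ring

end ring

def U15 : Fin 15 → Fin 4 → Fin 6 :=
  ![![0,1,2,3], ![0,1,2,4], ![0,1,2,5], ![0,1,3,4], ![0,1,3,5], ![0,1,4,5], ![0,2,3,4], ![0,2,3,5],
    ![0,2,4,5], ![0,3,4,5], ![1,2,3,4], ![1,2,3,5], ![1,2,4,5], ![1,3,4,5], ![2,3,4,5]]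

theorem U15_all' : ∀ a b c d : Fin 6, (a < b ∧ b < c ∧ c < d) → ∃ t : Fin 15,
    U15 t = ![a, b, c, d] := by decide +kernel

theorem U15_all (a b c d : Fin 6) (h1 : a < b) (h2 : b < c) (h3 : c < d) : ∃ t : Fin 15,
    U15 t 0 = a ∧ U15 t 1 = b ∧ U15 t 2 = c ∧ U15 t 3 = d := by
  obtain ⟨t, ht⟩ := U15_all' a b c d ⟨h1, h2, h3⟩
  exact ⟨t, by rw [ht]; rfl, by rw [ht]; rfl, by rw [ht]; rfl, by rw [ht]; rfl⟩

def Dm {R : Type*} [CommRing R] (C : Fin 4 → Fin 6 → Fin 4 → ℤ) (w : Fin 4 → R) (r : Fin 4 → Fin 6) : R :=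
  DD (Aw C w (r 0)) (Aw C w (r 1)) (Aw C w (r 2)) (Aw C w (r 3))

theorem Dm_det {R : Type*} [CommRing R] (C : Fin 4 → Fin 6 → Fin 4 → ℤ) (w : Fin 4 → R) (r : Fin 4 → Fin 6) :
    Dm C w r = Matrix.det (Matrix.of fun i k => Aw C w (r i) k) := by
  rw [Dm, DD_det]
  congr 1
  ext i k
  fin_cases i <;> rfl

theorem reduce15 (r : Fin 4 → Fin 6) : ∃ (t : Fin 15) (e : ℤ), ∀ {R : Type} [CommRing R]
    (C : Fin 4 → Fin 6 → Fin 4 → ℤ) (w : Fin 4 → R), Dm C w r = (e : R) * Dm C w (U15 t) := by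
  by_cases hr : Function.Injective r
  · let σ := Tuple.sort r
    have hm : Monotone (r ∘ σ) := Tuple.monotone_sort r
    have hi : Function.Injective (r ∘ σ) := hr.comp σ.injective
    have hs : StrictMono (r ∘ σ) := hm.strictMono_of_injective hi
    obtain ⟨t, h0, h1, h2, h3⟩ := U15_all ((r ∘ σ) 0) ((r ∘ σ) 1) ((r ∘ σ) 2) ((r ∘ σ) 3)
      (hs (by decide)) (hs (by decide)) (hs (by decide))
    refine ⟨t, (Equiv.Perm.sign σ : ℤ), ?_⟩
    intro R _ C w
    have hU : U15 t = r ∘ σ := by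
      funext i
      fin_cases i
      · exact h0
      · exact h1
      · exact h2
      · exact h3
    rw [hU, Dm_det, Dm_det]
    have h4 := Matrix.det_permute σ (Matrix.of fun i k => Aw C w (r i) k)
    have h5 : (Matrix.of fun i k => Aw C w ((r ∘ σ) i) k)
        = (Matrix.of fun i k => Aw C w (r i) k).submatrix σ id := rfl
    rw [h5, h4, ← mul_assoc]
    have h6 : (((Equiv.Perm.sign σ : ℤ) : R) * ((Equiv.Perm.sign σ : ℤ) : R)) = 1 := by
      rw [← Int.cast_mul, ← Units.val_mul, Int.units_mul_self]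
      simp
    rw [h6, one_mul]
  · refine ⟨0, 0, ?_⟩
    intro R _ C w
    rw [Function.not_injective_iff] at hr
    obtain ⟨a, b, hab, hne⟩ := hr
    rw [Dm_det, Int.cast_zero, zero_mul]
    refine Matrix.det_zero_of_row_eq hne ?_
    funext k
    simp only [Matrix.of_apply, hab]

theorem reduce15' : ∃ (t : (Fin 4 → Fin 6) → Fin 15) (e : (Fin 4 → Fin 6) → ℤ),
    ∀ (r : Fin 4 → Fin 6) {R : Type} [CommRing R]
    (C : Fin 4 → Fin 6 → Fin 4 → ℤ) (w : Fin 4 → R), Dm C w r = (e r : R) * Dm C w (U15 (t r)) := by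
  choose t e h using reduce15
  exact ⟨t, e, fun r => h r⟩

theorem Aw_int {R : Type} [CommRing R] (C : Fin 4 → Fin 6 → Fin 4 → ℤ) (w : Fin 4 → ℤ) (r : Fin 6)
    (k : Fin 4) : Aw C (fun j => (w j : R)) r k = ((Aw C w r k : ℤ) : R) := by
  simp only [Aw]
  push_cast
  rfl

theorem Dm_int {R : Type} [CommRing R] (C : Fin 4 → Fin 6 → Fin 4 → ℤ) (w : Fin 4 → ℤ)
    (r : Fin 4 → Fin 6) : Dm C (fun j => (w j : R)) r = ((Dm C w r : ℤ) : R) := by
  have h : ∀ r : Fin 6, Aw C (fun j => (w j : R)) r = fun k => ((Aw C w r k : ℤ) : R) :=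
    fun r => funext fun k => Aw_int C w r k
  unfold Dm
  rw [h, h, h, h]
  unfold DD
  push_cast
  ring

/-- the quadratic evaluation of `u` at an integer point -/
def qe {R : Type} [CommRing R] (u : Fin 10 → R) (w : Fin 4 → ℤ) : R :=
  ∑ a, ((w (ma a) * w (mb a) : ℤ) : R) * u a

theorem hPF29 (C : Fin 4 → Fin 6 → Fin 4 → ℤ) (p : ℕ) [Fact p.Prime]
    (z : Fin 15 → Fin 4 → ℤ) (G : Fin 15 → Fin 15 → ℤ)
    (hG : ∀ t t', (p : ℤ) ∣ (∑ r, Dm C (z r) (U15 t) * G r t') - if t = t' then 1 else 0)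
    (w v : Fin 20 → Fin 4 → ℤ) (hv3 : ∀ i, v i 3 = 1)
    (hv : ∀ i r, (p : ℤ) ∣ ∑ k, Aw C (w i) r k * v i k)
    (hk : ∀ (k : Type) [Field k] [CharP k p] (u v : Fin 10 → k),
      (∀ i, qe u (w i) * qe v (w i) = 0) → u = 0 ∨ v = 0) :
    ∃ n : Fin 10 × Fin 10 → Fin 10 × Fin 10 → ℂ,
      (∀ r j i, ∑ q : Fin 10 × Fin 10, n r q * (L C j * K C i) q.2 q.1 = 0) ∧
      (∀ (u : Fin 10 → ℂ) (v : Fin 10 → ℂ),
        (∀ r, ∑ q : Fin 10 × Fin 10, n r q * (u q.1 * v q.2) = 0) → u = 0 ∨ v = 0) := by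
  classical
  let f : (Fin 6 × Fin 6) × (Fin 6 × Fin 6) → (Fin 10 × Fin 10 → ℂ) :=
    fun ji q => (L C ji.1 * K C ji.2) q.2 q.1
  obtain ⟨n, hn1, hn2⟩ := Crest.Agent.P345.Van92.exists_rel (Submodule.span ℂ (Set.range f))
  refine ⟨n, fun r j i => hn1 (f (j, i)) (Submodule.subset_span ⟨(j, i), rfl⟩) r, ?_⟩
  intro u v' huv
  have hmem := hn2 (fun q => u q.1 * v' q.2) huv
  rw [Submodule.mem_span_range_iff_exists_fun] at hmem
  obtain ⟨c, hc⟩ := hmem
  obtain ⟨t, e, hte⟩ := reduce15'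
  -- the quartic
  have hmain : ∀ w : Fin 4 → ℤ, qe u w * qe v' w
      = ∑ s : Fin 15, (∑ ji : (Fin 6 × Fin 6) × (Fin 6 × Fin 6),
          if t ![ji.1.1, ji.1.2, ji.2.1, ji.2.2] = s then
            c ji * (e ![ji.1.1, ji.1.2, ji.2.1, ji.2.2] : ℂ) else 0) * ((Dm C w (U15 s) : ℤ) : ℂ) := by
    intro w
    have h1 : qe u w * qe v' w = ∑ q : Fin 10 × Fin 10,
        (((w (ma q.1) : ℂ) * w (mb q.1)) * ((w (ma q.2) : ℂ) * w (mb q.2))) * (u q.1 * v' q.2) := by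
      unfold qe
      rw [Finset.sum_mul_sum, Fintype.sum_prod_type]
      refine Finset.sum_congr rfl fun a _ => Finset.sum_congr rfl fun b _ => ?_
      push_cast
      ring
    have h2 : ∀ q : Fin 10 × Fin 10, u q.1 * v' q.2 = ∑ ji, c ji * f ji q := by
      intro q
      have := congrFun hc q
      simp only [Finset.sum_apply, Pi.smul_apply, smul_eq_mul] at this
      exact this.symm
    have h3 : ∀ ji : (Fin 6 × Fin 6) × (Fin 6 × Fin 6), ∑ q : Fin 10 × Fin 10,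
        (((w (ma q.1) : ℂ) * w (mb q.1)) * ((w (ma q.2) : ℂ) * w (mb q.2))) * f ji q
        = (e ![ji.1.1, ji.1.2, ji.2.1, ji.2.2] : ℂ) *
          ((Dm C w (U15 (t ![ji.1.1, ji.1.2, ji.2.1, ji.2.2])) : ℤ) : ℂ) := by
      intro ji
      have h4 := laplace C (fun j => (w j : ℂ)) ji.1 ji.2
      have h5 : DD (Aw C (fun j => (w j : ℂ)) ji.1.1) (Aw C (fun j => (w j : ℂ)) ji.1.2)
          (Aw C (fun j => (w j : ℂ)) ji.2.1) (Aw C (fun j => (w j : ℂ)) ji.2.2)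
          = Dm C (fun j => (w j : ℂ)) ![ji.1.1, ji.1.2, ji.2.1, ji.2.2] := rfl
      rw [h5, hte, Dm_int] at h4
      rw [← h4]
      refine Finset.sum_congr rfl fun q _ => ?_
      simp only [f, Matrix.mul_apply, L, K, Matrix.of_apply]
      push_cast
      ring
    rw [h1]
    simp only [h2, Finset.mul_sum]
    rw [Finset.sum_comm]
    have h6 : ∀ ji : (Fin 6 × Fin 6) × (Fin 6 × Fin 6), ∑ q : Fin 10 × Fin 10,
        (((w (ma q.1) : ℂ) * w (mb q.1)) * ((w (ma q.2) : ℂ) * w (mb q.2))) * (c ji * f ji q)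
        = c ji * ((e ![ji.1.1, ji.1.2, ji.2.1, ji.2.2] : ℂ) *
          ((Dm C w (U15 (t ![ji.1.1, ji.1.2, ji.2.1, ji.2.2])) : ℤ) : ℂ)) := by
      intro ji
      rw [← h3 ji, Finset.mul_sum]
      exact Finset.sum_congr rfl fun q _ => by ring
    simp only [h6]
    simp only [Finset.sum_mul]
    rw [Finset.sum_comm]
    refine Finset.sum_congr rfl fun ji _ => ?_
    simp only [ite_mul, zero_mul]
    rw [Finset.sum_ite_eq]
    simp only [Finset.mem_univ, if_true]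
    ring
  obtain ⟨l, hl⟩ : ∃ l : Fin 15 → ℂ, ∀ w : Fin 4 → ℤ, qe u w * qe v' w
      = ∑ s : Fin 15, l s * ((Dm C w (U15 s) : ℤ) : ℂ) := ⟨_, hmain⟩
  let zz : Fin 15 ⊕ Fin 20 → Fin 4 → ℤ := Sum.elim z w
  let ee : Fin 35 ≃ Fin 15 ⊕ Fin 20 := (finSumFinEquiv (m := 15) (n := 20)).symm
  refine Crest.Agent.P345.Van92.pf_lift_span p (R := 35) (m := 15)
    (fun r i j => (zz (ee r) (ma i) * zz (ee r) (mb i)) * (zz (ee r) (ma j) * zz (ee r) (mb j)))
    (fun s r => Dm C (zz (ee r)) (U15 s)) ?_ ?_ u v' l (fun r => ?_)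
  · intro k _ _ l hl
    funext t'
    have h1 : ∀ r : Fin 15, ∑ s, l s * ((Dm C (z r) (U15 s) : ℤ) : k) = 0 := by
      intro r
      have := hl (ee.symm (Sum.inl r))
      simp only [Equiv.apply_symm_apply, zz, Sum.elim_inl] at this
      exact this
    have h2 : ∀ s : Fin 15, ∑ r, ((Dm C (z r) (U15 s) : ℤ) : k) * ((G r t' : ℤ) : k)
        = if s = t' then 1 else 0 := by
      intro s
      obtain ⟨d, hd⟩ := hG s t'
      have h3 := congrArg (fun x : ℤ => (x : k)) hd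
      simp only [Int.cast_sub, Int.cast_sum, Int.cast_mul, Int.cast_natCast, CharP.cast_eq_zero,
        zero_mul] at h3
      rw [sub_eq_zero] at h3
      rw [h3]
      split_ifs <;> simp
    have h4 : ∑ s, l s * (if s = t' then (1 : k) else 0) = 0 := by
      simp only [← h2, Finset.mul_sum]
      rw [Finset.sum_comm]
      refine Finset.sum_eq_zero fun r _ => ?_
      have : ∀ s, l s * (((Dm C (z r) (U15 s) : ℤ) : k) * ((G r t' : ℤ) : k))
          = (l s * ((Dm C (z r) (U15 s) : ℤ) : k)) * ((G r t' : ℤ) : k) := fun s => by ring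
      simp only [this, ← Finset.sum_mul, h1 r, zero_mul]
    simpa using h4
  · intro k _ _ u1 v1 l h
    refine hk k u1 v1 fun i => ?_
    have h1 := h (ee.symm (Sum.inr i))
    simp only [Equiv.apply_symm_apply, zz, Sum.elim_inr] at h1
    have h2 : ∀ s : Fin 15, ((Dm C (w i) (U15 s) : ℤ) : k) = 0 := by
      intro s
      rw [← Dm_int]
      unfold Dm
      have h3 : ∀ r : Fin 6, ∑ kk, Aw C (fun j => ((w i j : ℤ) : k)) r kk * ((v i kk : ℤ) : k) = 0 := by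
        intro r
        obtain ⟨d, hd⟩ := hv i r
        have h4 := congrArg (fun x : ℤ => (x : k)) hd
        simp only [Int.cast_sum, Int.cast_mul, Int.cast_natCast, CharP.cast_eq_zero, zero_mul] at h4
        rw [← h4]
        exact Finset.sum_congr rfl fun kk _ => by rw [Aw_int]
      exact DD_zero _ _ _ _ (fun kk => ((v i kk : ℤ) : k)) (by simp [hv3]) (h3 _) (h3 _) (h3 _) (h3 _)
    simp only [h2, mul_zero, Finset.sum_const_zero] at h1
    rw [← h1]
    unfold qe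
    rw [Finset.sum_mul_sum]
    refine Finset.sum_congr rfl fun a _ => Finset.sum_congr rfl fun b _ => ?_
    push_cast
    ring
  · have h1 := hl (zz (ee r))
    rw [← h1]
    unfold qe
    rw [Finset.sum_mul_sum]
    refine Finset.sum_congr rfl fun a _ => Finset.sum_congr rfl fun b _ => ?_
    push_cast
    ring

end Crest.Agent.P345A29
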