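import Crest.Agent.P345HK34
import Crest.Agent.P345.Dual26b
import Crest.Agent.P345.Span43
import Crest.Agent.P345Mds

/-! Row 345 (helper5): assembly from integer data. -/

set_option autoImplicit false

namespace Crest.Agent.P345.Asm5

open Matrix Crest.Quantum Crest.Agent.P345Red Crest.Agent.P345HK34

/-- explicit Laplace expansion of the 4x4 determinant with rows `a b c d`. -/
def lap {R : Type*} [CommRing R] (a b c d : Fin 4 → R) : R :=
  (a 0 * b 1 - a 1 * b 0) * (c 2 * d 3 - c 3 * d 2)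
  - (a 0 * b 2 - a 2 * b 0) * (c 1 * d 3 - c 3 * d 1)
  + (a 0 * b 3 - a 3 * b 0) * (c 1 * d 2 - c 2 * d 1)
  + (a 1 * b 2 - a 2 * b 1) * (c 0 * d 3 - c 3 * d 0)
  - (a 1 * b 3 - a 3 * b 1) * (c 0 * d 2 - c 2 * d 0)
  + (a 2 * b 3 - a 3 * b 2) * (c 0 * d 1 - c 1 * d 0)

theorem lap_det {R : Type*} [CommRing R] (M : Matrix (Fin 4) (Fin 4) R) :
    M.det = lap (M 0) (M 1) (M 2) (M 3) := by
  rw [Matrix.det_succ_row_zero]
  simp only [Matrix.det_fin_three, Fin.sum_univ_four, Matrix.submatrix_apply, lap]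
  simp [Fin.succAbove, Fin.succ, Fin.castSucc]
  ring

def row (C : Fin 4 → Fin 6 → Fin 4 → ℤ) (w : Fin 4 → ℤ) (r : Fin 6) (k : Fin 4) : ℤ :=
  w 0 * C 0 r k + w 1 * C 1 r k + w 2 * C 2 r k + w 3 * C 3 r k

def mono (w : Fin 4 → ℤ) (m : Fin 10) : ℤ := w (ma m) * w (mb m)

theorem sumK (C : Fin 4 → Fin 6 → Fin 4 → ℤ) (w : Fin 4 → ℤ) (r s : Fin 6) (k l : Fin 4) :
    ∑ m, mono w m * entry C r s k l (ma m) (mb m)
      = row C w r k * row C w s l - row C w r l * row C w s k := by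
  simp only [Fin.sum_univ_succ, mono, row, entry, ma, mb]
  simp
  ring

def II : Fin 15 → Fin 4 → Fin 6 := ![
  ![0,1,2,3], ![0,1,2,4], ![0,1,2,5], ![0,1,3,4], ![0,1,3,5], ![0,1,4,5],
  ![0,2,3,4], ![0,2,3,5], ![0,2,4,5], ![0,3,4,5],
  ![1,2,3,4], ![1,2,3,5], ![1,2,4,5], ![1,3,4,5], ![2,3,4,5]]

theorem II_ex : ∀ S : Finset (Fin 6), S.card = 4 → ∃ c : Fin 15, S ⊆ Finset.univ.image (II c) := by
  decide +kernel

theorem perm_ex (f : Fin 4 → Fin 6) : ∃ (c : Fin 15) (e : ℤ), ∀ B : Matrix (Fin 6) (Fin 4) ℤ,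
    (B.submatrix f id).det = e * (B.submatrix (II c) id).det := by
  by_cases hf : Function.Injective f
  · obtain ⟨c, hc⟩ := II_ex (Finset.univ.image f) (by
      rw [Finset.card_image_of_injective _ hf]; simp)
    have h1 : ∀ i, ∃ j, II c j = f i := by
      intro i
      have h2 := hc (Finset.mem_image_of_mem f (Finset.mem_univ i))
      obtain ⟨j, _, hj⟩ := Finset.mem_image.1 h2
      exact ⟨j, hj⟩
    choose σ hσ using h1
    have hinj : Function.Injective σ := by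
      intro i j hij
      apply hf
      rw [← hσ i, ← hσ j, hij]
    let τ : Equiv.Perm (Fin 4) := Equiv.ofBijective σ (Finite.injective_iff_bijective.1 hinj)
    refine ⟨c, ((Equiv.Perm.sign τ : ℤˣ) : ℤ), fun B => ?_⟩
    have h3 : B.submatrix f id = (B.submatrix (II c) id).submatrix τ id := by
      ext i j
      simp only [Matrix.submatrix_apply, id_eq]
      rw [← hσ i]
      rfl
    rw [h3, Matrix.det_permute]
    rfl
  · have h1 : ∃ i j, f i = f j ∧ i ≠ j := by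
      by_contra hcon
      push Not at hcon
      exact hf fun i j h => hcon i j h
    obtain ⟨i, j, hij, hne⟩ := h1
    refine ⟨0, 0, fun B => ?_⟩
    rw [zero_mul]
    refine Matrix.det_zero_of_row_eq hne ?_
    ext k
    simp only [Matrix.submatrix_apply, hij]

/-- the minors as polynomials -/
def mi (C : Fin 4 → Fin 6 → Fin 4 → ℤ) (w : Fin 4 → ℤ) (c : Fin 15) : ℤ :=
  lap (row C w (II c 0)) (row C w (II c 1)) (row C w (II c 2)) (row C w (II c 3))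

theorem mi_ex (f : Fin 4 → Fin 6) : ∃ (c : Fin 15) (e : ℤ), ∀ (C : Fin 4 → Fin 6 → Fin 4 → ℤ)
    (w : Fin 4 → ℤ), lap (row C w (f 0)) (row C w (f 1)) (row C w (f 2)) (row C w (f 3))
      = e * mi C w c := by
  obtain ⟨c, e, h⟩ := perm_ex f
  refine ⟨c, e, fun C w => ?_⟩
  have h1 := h (Matrix.of (row C w))
  rw [lap_det, lap_det] at h1
  exact h1

/-- contraction of `L j * K i` with the monomials of `w` -/
theorem contr (C : Fin 4 → Fin 6 → Fin 4 → ℤ) (w : Fin 4 → ℤ) (j i : Fin 6 × Fin 6) :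
    ∑ m, ∑ m', (mono w m : ℂ) * (mono w m' : ℂ) * (L C j * K C i) m' m
      = ((lap (row C w i.1) (row C w i.2) (row C w j.1) (row C w j.2) : ℤ) : ℂ) := by
  have h1 : ∀ m m', (L C j * K C i) m' m = ((∑ y, Lz C j m' y * Kz C i y m : ℤ) : ℂ) := by
    intro m m'
    rw [Matrix.mul_apply]
    push_cast
    rfl
  simp only [h1]
  have h2 : ∑ m, ∑ m', mono w m * mono w m' * (∑ y, Lz C j m' y * Kz C i y m)
      = lap (row C w i.1) (row C w i.2) (row C w j.1) (row C w j.2) := by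
    have h3 : ∑ m, ∑ m', mono w m * mono w m' * (∑ y, Lz C j m' y * Kz C i y m)
        = ∑ y, sg y * ((∑ m', mono w m' * Kz C j (co y) m') * (∑ m, mono w m * Kz C i y m)) := by
      have h4 : ∀ y, sg y * ((∑ m', mono w m' * Kz C j (co y) m') * (∑ m, mono w m * Kz C i y m))
          = ∑ m, ∑ m', mono w m * mono w m' * (Lz C j m' y * Kz C i y m) := by
        intro y
        rw [mul_comm (∑ m', mono w m' * Kz C j (co y) m'), Finset.sum_mul_sum, Finset.mul_sum]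
        refine Finset.sum_congr rfl fun m _ => ?_
        rw [Finset.mul_sum]
        refine Finset.sum_congr rfl fun m' _ => ?_
        unfold Lz
        ring
      rw [Finset.sum_congr rfl fun y _ => h4 y]
      simp only [Finset.mul_sum]
      rw [Finset.sum_comm]
      conv_rhs => rw [Finset.sum_comm]
      rw [Finset.sum_comm]
      refine Finset.sum_congr rfl fun m _ => ?_
      rw [Finset.sum_comm]
    rw [h3]
    simp only [Kz, sumK]
    simp [Fin.sum_univ_succ, sg, co, pk, pl, lap]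
    ring
  rw [← h2]
  push_cast
  rfl

section Final

variable (C : Fin 4 → Fin 6 → Fin 4 → ℤ)

theorem spanned (u v : Fin 10 → ℂ) (c : (Fin 6 × Fin 6) × (Fin 6 × Fin 6) → ℂ)
    (hc : ∀ p : Fin 10 × Fin 10, u p.1 * v p.2 = ∑ a, c a * (L C a.1 * K C a.2) p.2 p.1) :
    ∃ g : Fin 15 → ℂ, ∀ w : Fin 4 → ℤ,
      (∑ s, (mono w s : ℂ) * u s) * (∑ s, (mono w s : ℂ) * v s) = ∑ e, g e * (mi C w e : ℂ) := by
  classical
  choose ce ee he using mi_ex
  let f : (Fin 6 × Fin 6) × (Fin 6 × Fin 6) → Fin 4 → Fin 6 :=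
    fun a => ![a.2.1, a.2.2, a.1.1, a.1.2]
  refine ⟨fun e => ∑ a, if ce (f a) = e then c a * (ee (f a) : ℂ) else 0, fun w => ?_⟩
  have h1 := Crest.Agent.P345.Dual26.uv_eval (K C) (L C) u v c hc
    (fun s => (mono w s : ℂ)) (fun s => (mono w s : ℂ))
  have h2 : (∑ s, (mono w s : ℂ) * u s) * (∑ s, (mono w s : ℂ) * v s)
      = (∑ i, u i * (mono w i : ℂ)) * (∑ j, v j * (mono w j : ℂ)) := by
    congr 1 <;> exact Finset.sum_congr rfl fun _ _ => mul_comm _ _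
  rw [h2, h1]
  simp only [Finset.sum_mul]
  rw [Finset.sum_comm]
  refine Finset.sum_congr rfl fun a _ => ?_
  rw [contr C w a.1 a.2]
  have h3 := he (f a) C w
  have h4 : lap (row C w a.2.1) (row C w a.2.2) (row C w a.1.1) (row C w a.1.2)
      = ee (f a) * mi C w (ce (f a)) := h3
  rw [h4]
  rw [Finset.sum_eq_single (ce (f a))]
  · rw [if_pos rfl]; push_cast; ring
  · intro e _ hne
    rw [if_neg (Ne.symm hne), zero_mul]
  · intro h; exact absurd (Finset.mem_univ _) h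

theorem hPF (p : ℕ) [Fact p.Prime] (zt : Fin 15 → Fin 4 → ℤ) (Bi : Fin 15 → Fin 15 → ℤ)
    (hB : ∀ i c, ((∑ j, Bi i j * mi C (zt j) c) - if i = c then 1 else 0) % (p : ℤ) = 0)
    (w : Fin 20 → Fin 4 → ℤ) (hw : ∀ i c, mi C (w i) c % (p : ℤ) = 0)
    (hk : ∀ (k : Type) [Field k] [CharP k p] (u v : Fin 10 → k),
      (∀ i, (∑ s, (mono (w i) s : k) * u s) * (∑ s, (mono (w i) s : k) * v s) = 0) →
        u = 0 ∨ v = 0)
    (u v : Fin 10 → ℂ) (c : (Fin 6 × Fin 6) × (Fin 6 × Fin 6) → ℂ)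
    (hc : ∀ p : Fin 10 × Fin 10, u p.1 * v p.2 = ∑ a, c a * (L C a.1 * K C a.2) p.2 p.1) :
    u = 0 ∨ v = 0 := by
  obtain ⟨g, hg⟩ := spanned C u v c hc
  exact Crest.Agent.P345.Span43.pf_span p (fun j s => mono (zt j) s) (fun j c => mi C (zt j) c) Bi hB
    (fun i s => mono (w i) s) (fun i c => mi C (w i) c) hw hk u v g
    (fun j => hg (zt j)) (fun i => hg (w i))

theorem hne (w : Fin 4 → ℤ) (e : Fin 15) (h : mi C w e ≠ 0) : ∃ j i, L C j * K C i ≠ 0 := by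
  by_contra hcon
  push Not at hcon
  have h1 := contr C w (II e 2, II e 3) (II e 0, II e 1)
  rw [hcon] at h1
  simp only [Matrix.zero_apply, mul_zero, Finset.sum_const_zero] at h1
  apply h
  have h2 : ((mi C w e : ℤ) : ℂ) = 0 := h1.symm
  exact_mod_cast h2

theorem final41 (hC : ∀ i j k l, ∑ r, C i r k * C j r l = ∑ r, C i r l * C j r k)
    (p : ℕ) [Fact p.Prime] (zt : Fin 15 → Fin 4 → ℤ) (Bi : Fin 15 → Fin 15 → ℤ)
    (hB : ∀ i c, ((∑ j, Bi i j * mi C (zt j) c) - if i = c then 1 else 0) % (p : ℤ) = 0)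
    (w : Fin 20 → Fin 4 → ℤ) (hw : ∀ i c, mi C (w i) c % (p : ℤ) = 0)
    (hk : ∀ (k : Type) [Field k] [CharP k p] (u v : Fin 10 → k),
      (∀ i, (∑ s, (mono (w i) s : k) * u s) * (∑ s, (mono (w i) s : k) * v s) = 0) →
        u = 0 ∨ v = 0)
    (w0 : Fin 4 → ℤ) (e : Fin 15) (h0 : mi C w0 e ≠ 0) :
    ∃ Φ₁ Φ₂ : Matrix (Fin 10) (Fin 10) ℂ → Matrix (Fin 10) (Fin 10) ℂ,
      IsLinearMap ℂ Φ₁ ∧ IsLinearMap ℂ Φ₂ ∧ IsPPT Φ₁ ∧ IsPPT Φ₂ ∧
      choiMatrix (Φ₂ ∘ Φ₁) ≠ 0 ∧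
      (∀ u v : Fin 10 → ℂ, (∃ w, (choiMatrix (Φ₂ ∘ Φ₁)).mulVec w = fun p => u p.1 * v p.2) →
        u = 0 ∨ v = 0) ∧
      ¬ IsEntanglementBreaking (Φ₂ ∘ Φ₁) :=
  Crest.Agent.P345.Dual26.s0541_all (K C) (K C) (L C) (L C) (hK C hC) (hL C hC)
    (fun u v c hc => hPF C p zt Bi hB w hw hk u v c hc) (hne C w0 e h0)

theorem final40 (hC : ∀ i j k l, ∑ r, C i r k * C j r l = ∑ r, C i r l * C j r k)
    (p : ℕ) [Fact p.Prime] (zt : Fin 15 → Fin 4 → ℤ) (Bi : Fin 15 → Fin 15 → ℤ)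
    (hB : ∀ i c, ((∑ j, Bi i j * mi C (zt j) c) - if i = c then 1 else 0) % (p : ℤ) = 0)
    (w : Fin 20 → Fin 4 → ℤ) (hw : ∀ i c, mi C (w i) c % (p : ℤ) = 0)
    (hk : ∀ (k : Type) [Field k] [CharP k p] (u v : Fin 10 → k),
      (∀ i, (∑ s, (mono (w i) s : k) * u s) * (∑ s, (mono (w i) s : k) * v s) = 0) →
        u = 0 ∨ v = 0)
    (w0 : Fin 4 → ℤ) (e : Fin 15) (h0 : mi C w0 e ≠ 0) :
    ∃ Θ : Matrix (Fin 21) (Fin 21) ℂ → Matrix (Fin 21) (Fin 21) ℂ,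
      IsChannel Θ ∧ IsPPT Θ ∧ ¬ IsEntanglementBreaking (Θ ∘ Θ) :=
  Crest.Agent.P345.Dual26.s0540_all (K C) (K C) (L C) (L C) (hK C hC) (hL C hC)
    (fun u v c hc => hPF C p zt Bi hB w hw hk u v c hc) (hne C w0 e h0)

end Final

end Crest.Agent.P345.Asm5
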