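import Mathlib
import Crest.Agent.P345Red
import Crest.Agent.P345Place
import Crest.Agent.P345Mds

/-! helper59, row 345: product-freeness WITHOUT explicit relations `n_r`.
`q_u q_v = ∑ g_c M_c` at integer points, reduced modulo `p`. -/

set_option autoImplicit false

namespace Crest.Agent.P345.Quart59

open Crest.Agent.P345Mds Crest.Agent.P345Place

theorem quart_lift (p : ℕ) [hp : Fact p.Prime] {N m : ℕ}
    (x : Fin N → Fin 10 → ℤ) (T : Fin N → Fin m → ℤ) (hT : ∀ i c, (p : ℤ) ∣ T i c)
    (y : Fin m → Fin 10 → ℤ) (D D' : Matrix (Fin m) (Fin m) ℤ)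
    (hD : ∀ a b, (p : ℤ) ∣ (D' * D - 1) a b)
    (h : ∀ (k : Type) [Field k] [CharP k p] (u v : Fin 10 → k),
      (∀ i, (∑ a, (x i a : k) * u a) * (∑ a, (x i a : k) * v a) = 0) → u = 0 ∨ v = 0)
    (u v : Fin 10 → ℂ) (g : Fin m → ℂ)
    (hy : ∀ j, (∑ a, (y j a : ℂ) * u a) * (∑ a, (y j a : ℂ) * v a) = ∑ c, (D j c : ℂ) * g c)
    (hx : ∀ i, (∑ a, (x i a : ℂ) * u a) * (∑ a, (x i a : ℂ) * v a) = ∑ c, (T i c : ℂ) * g c) :
    u = 0 ∨ v = 0 := by
  by_contra hcon
  push Not at hcon
  obtain ⟨hu, hv⟩ := hcon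
  obtain ⟨B, hB⟩ := exists_place p
  obtain ⟨i₀, hi₀, hui⟩ := exists_scaled B u hu
  obtain ⟨j₀, hj₀, hvj⟩ := exists_scaled B v hv
  let u' : Fin 10 → B := fun i => ⟨u i / u i₀, hui i⟩
  let v' : Fin 10 → B := fun j => ⟨v j / v j₀, hvj j⟩
  have hu1 : u' i₀ = 1 := Subtype.ext (div_self hi₀)
  have hv1 : v' j₀ = 1 := Subtype.ext (div_self hj₀)
  have hpm : (p : B) ∈ IsLocalRing.maximalIdeal B := by
    rw [IsLocalRing.mem_maximalIdeal]
    intro hunit
    have h1 : ((p : B) : ℂ) ∉ B.nonunits := by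
      rw [ValuationSubring.mem_nonunits_iff]
      have h2 : B.valuation ((p : B) : ℂ) = 1 := (B.valuation_eq_one_iff _).mp hunit
      rw [h2]
      exact lt_irrefl _
    apply h1
    simpa using hB
  have hchar : CharP (IsLocalRing.ResidueField B) p := by
    rw [CharP.charP_iff_prime_eq_zero hp.out]
    have h1 := (IsLocalRing.residue_eq_zero_iff (p : B)).mpr hpm
    simpa using h1
  have hp0 : ((p : ℕ) : IsLocalRing.ResidueField B) = 0 := CharP.cast_eq_zero _ p
  let g' : Fin m → ℂ := fun c => g c / (u i₀ * v j₀)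
  let hb : Fin m → B := fun j => (∑ a, (y j a : B) * u' a) * (∑ a, (y j a : B) * v' a)
  have hbC : ∀ (w : Fin 10 → ℤ), (((∑ a, (w a : B) * u' a) * (∑ a, (w a : B) * v' a) : B) : ℂ)
      = (∑ a, (w a : ℂ) * u a) * (∑ a, (w a : ℂ) * v a) / (u i₀ * v j₀) := by
    intro w
    have h1 : (((∑ a, (w a : B) * u' a) * (∑ a, (w a : B) * v' a) : B) : ℂ)
        = (∑ a, (w a : ℂ) * (u a / u i₀)) * (∑ a, (w a : ℂ) * (v a / v j₀)) := by
      push_cast
      rfl
    rw [h1, mul_div_mul_comm, Finset.sum_div, Finset.sum_div]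
    congr 1
    · exact Finset.sum_congr rfl fun a _ => by ring
    · exact Finset.sum_congr rfl fun a _ => by ring
  let DB : Matrix (Fin m) (Fin m) B := D.map (Int.castRingHom B)
  let DB' : Matrix (Fin m) (Fin m) B := D'.map (Int.castRingHom B)
  let A : Matrix (Fin m) (Fin m) B := DB' * DB
  have hA : IsUnit A.det := by
    by_contra hA
    have h1 : A.det ∈ IsLocalRing.maximalIdeal B := (IsLocalRing.mem_maximalIdeal _).mpr hA
    have h2 := (IsLocalRing.residue_eq_zero_iff _).mpr h1
    rw [RingHom.map_det] at h2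
    have h3 : (IsLocalRing.residue B).mapMatrix A = 1 := by
      ext a b
      obtain ⟨t, ht⟩ := hD a b
      have h4 : (D' * D) a b = (1 : Matrix (Fin m) (Fin m) ℤ) a b + p * t := by
        have h5 := ht
        rw [Matrix.sub_apply] at h5
        linarith
      have h6 : A a b = (((D' * D) a b : ℤ) : B) := by
        simp only [A, DB, DB']
        rw [← Matrix.map_mul, Matrix.map_apply]
        rfl
      rw [RingHom.mapMatrix_apply, Matrix.map_apply, h6, h4]
      by_cases hab : a = b
      · subst hab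
        simp [hp0]
      · simp [Matrix.one_apply_ne hab, hp0]
    rw [h3, Matrix.det_one] at h2
    exact one_ne_zero h2
  let G : Fin m → B := A⁻¹.mulVec (DB'.mulVec hb)
  have hG : ∀ c, ((G c : B) : ℂ) = g' c := by
    have e1 : (fun j => ((hb j : B) : ℂ)) = (D.map (Int.cast : ℤ → ℂ)).mulVec g' := by
      funext j
      rw [show ((hb j : B) : ℂ) = _ from hbC (y j), hy j]
      simp only [Matrix.mulVec, dotProduct, Matrix.map_apply, g']
      rw [Finset.sum_div]
      exact Finset.sum_congr rfl fun c _ => by ring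
    have hmv : ∀ (M : Matrix (Fin m) (Fin m) B) (w : Fin m → B),
        (B.subtype ∘ (M.mulVec w)) = (M.map B.subtype).mulVec (B.subtype ∘ w) :=
      fun M w => funext fun c => RingHom.map_mulVec _ _ _ _
    have e2 : (B.subtype ∘ G) = ((A⁻¹).map B.subtype).mulVec
        ((DB'.map B.subtype).mulVec (B.subtype ∘ hb)) := by
      simp only [G]
      rw [hmv, hmv]
    have e3 : DB.map B.subtype = D.map (Int.cast : ℤ → ℂ) := by
      ext a b
      simp [DB]
    have e4 : (B.subtype ∘ hb) = (DB.map B.subtype).mulVec g' := by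
      rw [e3, ← e1]
      rfl
    have e5 : (B.subtype ∘ G) = g' := by
      rw [e2, e4, Matrix.mulVec_mulVec, ← Matrix.map_mul, Matrix.mulVec_mulVec, ← Matrix.map_mul]
      have : A⁻¹ * (DB' * DB) = 1 := Matrix.nonsing_inv_mul _ hA
      rw [Matrix.mul_assoc, this, Matrix.map_one _ (map_zero _) (map_one _), Matrix.one_mulVec]
    intro c
    exact congrFun e5 c
  have hr : ∀ i, (∑ a, (x i a : B) * u' a) * (∑ a, (x i a : B) * v' a)
      = ∑ c, (T i c : B) * G c := by
    intro i
    apply Subtype.ext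
    rw [show (((∑ a, (x i a : B) * u' a) * (∑ a, (x i a : B) * v' a) : B) : ℂ) = _ from
      hbC (x i), hx i]
    have h1 : ((∑ c, (T i c : B) * G c : B) : ℂ) = ∑ c, (T i c : ℂ) * ((G c : B) : ℂ) := by
      push_cast
      rfl
    rw [h1, Finset.sum_div]
    refine Finset.sum_congr rfl fun c _ => ?_
    rw [hG c]
    simp only [g']
    ring
  have key := h (IsLocalRing.ResidueField B) (fun i => IsLocalRing.residue B (u' i))
    (fun j => IsLocalRing.residue B (v' j)) (by
      intro i
      have h1 := congrArg (IsLocalRing.residue B) (hr i)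
      rw [map_mul, map_sum, map_sum, map_sum] at h1
      simp only [map_mul, map_intCast] at h1
      rw [h1]
      refine Finset.sum_eq_zero fun c _ => ?_
      obtain ⟨t, ht⟩ := hT i c
      rw [ht]
      push_cast
      rw [hp0]
      simp)
  rcases key with h1 | h1
  · have h2 := congrFun h1 i₀
    simp only [hu1, map_one, Pi.zero_apply] at h2
    exact one_ne_zero h2
  · have h2 := congrFun h1 j₀
    simp only [hv1, map_one, Pi.zero_apply] at h2
    exact one_ne_zero h2

end Crest.Agent.P345.Quart59
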