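import Crest.Agent.P345.Lap50
import Crest.Agent.P345.Dual26
import Crest.Agent.P345.Quart59

set_option autoImplicit false

/-! Row 345 (helper60): generic assembly from the pencil `C` with `C_i^T C_j` symmetric. -/

namespace Crest.Agent.P345.Asm60

open Matrix Crest.Quantum Crest.Agent.P345Red Crest.Agent.P345HK34 Crest.Agent.P345.Lap50

theorem sq_cast (w : Fin 4 → ℤ) (m : Fin 10) :
    ((sq w m : ℤ) : ℂ) = sq (fun k => (w k : ℂ)) m := by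
  simp [Lap50.sq]

theorem Mn_cast (C : Fin 4 → Fin 6 → Fin 4 → ℤ) (w : Fin 4 → ℤ) (f : Fin 4 → Fin 6) :
    ((Mn C w f : ℤ) : ℂ) = Mn C (fun k => (w k : ℂ)) f := by
  unfold Mn
  have h := RingHom.map_det (Int.castRingHom ℂ) (Matrix.of fun i k => Aw C w (f i) k)
  rw [eq_intCast] at h
  rw [h]
  congr 1
  ext i k
  simp [Aw]

theorem span_eval (C : Fin 4 → Fin 6 → Fin 4 → ℤ) (u v : Fin 10 → ℂ)
    (h : ∀ n : Fin 10 × Fin 10 → ℂ,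
      (∀ j i, ∑ p : Fin 10 × Fin 10, n p * (L C j * K C i) p.2 p.1 = 0) →
      ∑ p : Fin 10 × Fin 10, n p * (u p.1 * v p.2) = 0) :
    ∃ g : Fin 15 → ℂ, ∀ w : Fin 4 → ℂ,
      (∑ a, sq w a * u a) * (∑ a, sq w a * v a) = ∑ e, Mn C w (tab e) * g e := by
  classical
  obtain ⟨c, hc⟩ := Dual26.uv_coeff (K C) (L C) u v h
  choose G hG using fun f : Fin 4 → Fin 6 => Mn_any (R := ℂ) C f
  refine ⟨fun e => ∑ a, c a * G ![a.1.1, a.1.2, a.2.1, a.2.2] e, fun w => ?_⟩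
  have h1 := Dual26.uv_eval (K C) (L C) u v c hc (sq w) (sq w)
  have h2 : ∀ a : (Fin 6 × Fin 6) × (Fin 6 × Fin 6),
      (∑ i, ∑ j, sq w i * sq w j * (L C a.1 * K C a.2) j i)
        = Mn C w ![a.1.1, a.1.2, a.2.1, a.2.2] := by
    intro a
    rw [← lap C w a.2 a.1, Finset.sum_comm]
    refine Finset.sum_congr rfl fun x _ => Finset.sum_congr rfl fun y _ => by ring
  have h3 : (∑ a, sq w a * u a) * (∑ a, sq w a * v a)
      = (∑ i, u i * sq w i) * (∑ j, v j * sq w j) := by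
    congr 1
    · exact Finset.sum_congr rfl fun _ _ => mul_comm _ _
    · exact Finset.sum_congr rfl fun _ _ => mul_comm _ _
  rw [h3, h1]
  simp only [h2]
  have h4 : ∀ a : (Fin 6 × Fin 6) × (Fin 6 × Fin 6),
      c a * Mn C w ![a.1.1, a.1.2, a.2.1, a.2.2]
        = ∑ e, Mn C w (tab e) * (c a * G ![a.1.1, a.1.2, a.2.1, a.2.2] e) := by
    intro a
    rw [hG ![a.1.1, a.1.2, a.2.1, a.2.2] w, Finset.mul_sum]
    exact Finset.sum_congr rfl fun _ _ => by ring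
  simp only [h4]
  rw [Finset.sum_comm]
  refine Finset.sum_congr rfl fun e _ => ?_
  rw [Finset.mul_sum]

theorem hPF (C : Fin 4 → Fin 6 → Fin 4 → ℤ) (p : ℕ) [Fact p.Prime]
    (X : Fin 20 → Fin 4 → ℤ) (Z : Fin 15 → Fin 4 → ℤ) (D' : Matrix (Fin 15) (Fin 15) ℤ)
    (hT : ∀ i e, (p : ℤ) ∣ Mn C (X i) (tab e))
    (hD : ∀ a b, (p : ℤ) ∣ (D' * (Matrix.of fun j e => Mn C (Z j) (tab e)) - 1) a b)
    (hM : ∀ (k : Type) [Field k] [CharP k p] (u v : Fin 10 → k),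
      (∀ i, (∑ a, ((sq (X i) a : ℤ) : k) * u a) * (∑ a, ((sq (X i) a : ℤ) : k) * v a) = 0) →
        u = 0 ∨ v = 0)
    (u v : Fin 10 → ℂ)
    (h : ∀ n : Fin 10 × Fin 10 → ℂ,
      (∀ j i, ∑ p : Fin 10 × Fin 10, n p * (L C j * K C i) p.2 p.1 = 0) →
      ∑ p : Fin 10 × Fin 10, n p * (u p.1 * v p.2) = 0) : u = 0 ∨ v = 0 := by
  obtain ⟨g, hg⟩ := span_eval C u v h
  refine Quart59.quart_lift p (fun i => sq (X i)) (fun i e => Mn C (X i) (tab e)) hT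
    (fun j => sq (Z j)) (Matrix.of fun j e => Mn C (Z j) (tab e)) D' hD hM u v g ?_ ?_
  · intro j
    have := hg (fun k => (Z j k : ℂ))
    simp only [Matrix.of_apply, sq_cast, Mn_cast]
    exact this
  · intro i
    have := hg (fun k => (X i k : ℂ))
    simp only [sq_cast, Mn_cast]
    exact this

theorem hne (C : Fin 4 → Fin 6 → Fin 4 → ℤ) (w : Fin 4 → ℤ) (f : Fin 4 → Fin 6)
    (hw : Mn C w f ≠ 0) : ∃ j i, L C j * K C i ≠ 0 := by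
  refine ⟨(f 0, f 1), (f 2, f 3), fun h => ?_⟩
  have h1 := lap C (fun k => (w k : ℂ)) (f 2, f 3) (f 0, f 1)
  rw [h] at h1
  simp only [Matrix.zero_apply, zero_mul, Finset.sum_const_zero] at h1
  have h2 : ![f 0, f 1, f 2, f 3] = f := by
    funext x
    fin_cases x <;> rfl
  rw [h2, ← Mn_cast] at h1
  exact hw (by exact_mod_cast h1.symm)

section fin
variable (C : Fin 4 → Fin 6 → Fin 4 → ℤ)
    (hC : ∀ i j k l, ∑ r, C i r k * C j r l = ∑ r, C i r l * C j r k)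
    (p : ℕ) [Fact p.Prime]
    (X : Fin 20 → Fin 4 → ℤ) (Z : Fin 15 → Fin 4 → ℤ) (D' : Matrix (Fin 15) (Fin 15) ℤ)
    (hT : ∀ i e, (p : ℤ) ∣ Mn C (X i) (tab e))
    (hD : ∀ a b, (p : ℤ) ∣ (D' * (Matrix.of fun j e => Mn C (Z j) (tab e)) - 1) a b)
    (hM : ∀ (k : Type) [Field k] [CharP k p] (u v : Fin 10 → k),
      (∀ i, (∑ a, ((sq (X i) a : ℤ) : k) * u a) * (∑ a, ((sq (X i) a : ℤ) : k) * v a) = 0) →
        u = 0 ∨ v = 0)
    (w : Fin 4 → ℤ) (f : Fin 4 → Fin 6) (hw : Mn C w f ≠ 0)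

include hC hT hD hM hw

theorem s0541 :
    ∃ Φ₁ Φ₂ : Matrix (Fin 10) (Fin 10) ℂ → Matrix (Fin 10) (Fin 10) ℂ,
      IsLinearMap ℂ Φ₁ ∧ IsLinearMap ℂ Φ₂ ∧ IsPPT Φ₁ ∧ IsPPT Φ₂ ∧
      choiMatrix (Φ₂ ∘ Φ₁) ≠ 0 ∧
      (∀ u v : Fin 10 → ℂ, (∃ w, (choiMatrix (Φ₂ ∘ Φ₁)).mulVec w = fun p => u p.1 * v p.2) →
        u = 0 ∨ v = 0) ∧
      ¬ IsEntanglementBreaking (Φ₂ ∘ Φ₁) :=
  s0541_of (ρ := {n : Fin 10 × Fin 10 → ℂ //
      ∀ j i, ∑ p : Fin 10 × Fin 10, n p * (L C j * K C i) p.2 p.1 = 0})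
    (K C) (K C) (L C) (L C) (hK C hC) (hL C hC) (fun r => r.1)
    (fun r j i => r.2 j i)
    (fun u v h => hPF C p X Z D' hT hD hM u v (fun n hn => h ⟨n, hn⟩))
    (hne C w f hw)

theorem s0540 :
    ∃ Θ : Matrix (Fin 21) (Fin 21) ℂ → Matrix (Fin 21) (Fin 21) ℂ,
      IsChannel Θ ∧ IsPPT Θ ∧ ¬ IsEntanglementBreaking (Θ ∘ Θ) :=
  s0540_of (ρ := {n : Fin 10 × Fin 10 → ℂ //
      ∀ j i, ∑ p : Fin 10 × Fin 10, n p * (L C j * K C i) p.2 p.1 = 0})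
    (K C) (K C) (L C) (L C) (hK C hC) (hL C hC) (fun r => r.1)
    (fun r j i => r.2 j i)
    (fun u v h => hPF C p X Z D' hT hD hM u v (fun n hn => h ⟨n, hn⟩))
    (hne C w f hw)

end fin

end Crest.Agent.P345.Asm60
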