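import Mathlib
import Crest.Agent.P345Red
import Crest.Agent.P345.Dual26b
import Crest.Agent.P345.Span43

set_option autoImplicit false
set_option maxHeartbeats 1000000

namespace Crest.Agent.P345Asm64

open Crest.Agent.P345Red Crest.Quantum

def ia : Fin 10 → Fin 4 := ![0,0,0,0,1,1,1,2,2,3]
def ib : Fin 10 → Fin 4 := ![0,1,2,3,1,2,3,2,3,3]
def xa : Fin 10 → Fin 4 := ![0,0,0,1,1,2,0,0,0,0]
def xb : Fin 10 → Fin 4 := ![1,2,3,2,3,3,0,0,0,0]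
def cx : Fin 10 → Fin 10 := ![5,4,3,2,1,0,6,7,8,9]
def ex : Fin 10 → ℤ := ![1,-1,1,1,-1,1,0,0,0,0]

def Kz (C : Fin 4 → Fin 6 → Fin 4 → ℤ) (S : Fin 6 × Fin 6) (x i : Fin 10) : ℤ :=
  (C (ia i) S.1 (xa x) * C (ib i) S.2 (xb x) - C (ia i) S.1 (xb x) * C (ib i) S.2 (xa x)) +
  (C (ib i) S.1 (xa x) * C (ia i) S.2 (xb x) - C (ib i) S.1 (xb x) * C (ia i) S.2 (xa x))

def Lz (C : Fin 4 → Fin 6 → Fin 4 → ℤ) (S : Fin 6 × Fin 6) (i x : Fin 10) : ℤ :=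
  ex x * Kz C S (cx x) i

def MM (C : Fin 4 → Fin 6 → Fin 4 → ℤ) (a b : Fin 4) (q r : Fin 4) : ℤ :=
  ∑ c, C a c q * C b c r

theorem prodsum (C : Fin 4 → Fin 6 → Fin 4 → ℤ) (a b a' b' q r q' r' : Fin 4) :
    ∑ S : Fin 6 × Fin 6, (C a S.1 q * C b S.2 r) * (C a' S.1 q' * C b' S.2 r')
      = MM C a a' q q' * MM C b b' r r' := by
  rw [MM, MM, Finset.sum_mul_sum, Fintype.sum_prod_type]
  exact Finset.sum_congr rfl fun c _ => Finset.sum_congr rfl fun d _ => by ring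

theorem Kz_sym (C : Fin 4 → Fin 6 → Fin 4 → ℤ)
    (hs : ∀ a b q r, MM C a b q r = MM C a b r q) (x y i j : Fin 10) :
    ∑ S, Kz C S y i * Kz C S x j = ∑ S, Kz C S x i * Kz C S y j := by
  have h : ∀ x y i j : Fin 10, ∑ S, Kz C S y i * Kz C S x j =
      ∑ S : Fin 6 × Fin 6,
       ((C (ia i) S.1 (xa y) * C (ib i) S.2 (xb y)) * (C (ia j) S.1 (xa x) * C (ib j) S.2 (xb x))
      - (C (ia i) S.1 (xa y) * C (ib i) S.2 (xb y)) * (C (ia j) S.1 (xb x) * C (ib j) S.2 (xa x))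
      + (C (ia i) S.1 (xa y) * C (ib i) S.2 (xb y)) * (C (ib j) S.1 (xa x) * C (ia j) S.2 (xb x))
      - (C (ia i) S.1 (xa y) * C (ib i) S.2 (xb y)) * (C (ib j) S.1 (xb x) * C (ia j) S.2 (xa x))
      - (C (ia i) S.1 (xb y) * C (ib i) S.2 (xa y)) * (C (ia j) S.1 (xa x) * C (ib j) S.2 (xb x))
      + (C (ia i) S.1 (xb y) * C (ib i) S.2 (xa y)) * (C (ia j) S.1 (xb x) * C (ib j) S.2 (xa x))
      - (C (ia i) S.1 (xb y) * C (ib i) S.2 (xa y)) * (C (ib j) S.1 (xa x) * C (ia j) S.2 (xb x))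
      + (C (ia i) S.1 (xb y) * C (ib i) S.2 (xa y)) * (C (ib j) S.1 (xb x) * C (ia j) S.2 (xa x))
      + (C (ib i) S.1 (xa y) * C (ia i) S.2 (xb y)) * (C (ia j) S.1 (xa x) * C (ib j) S.2 (xb x))
      - (C (ib i) S.1 (xa y) * C (ia i) S.2 (xb y)) * (C (ia j) S.1 (xb x) * C (ib j) S.2 (xa x))
      + (C (ib i) S.1 (xa y) * C (ia i) S.2 (xb y)) * (C (ib j) S.1 (xa x) * C (ia j) S.2 (xb x))
      - (C (ib i) S.1 (xa y) * C (ia i) S.2 (xb y)) * (C (ib j) S.1 (xb x) * C (ia j) S.2 (xa x))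
      - (C (ib i) S.1 (xb y) * C (ia i) S.2 (xa y)) * (C (ia j) S.1 (xa x) * C (ib j) S.2 (xb x))
      + (C (ib i) S.1 (xb y) * C (ia i) S.2 (xa y)) * (C (ia j) S.1 (xb x) * C (ib j) S.2 (xa x))
      - (C (ib i) S.1 (xb y) * C (ia i) S.2 (xa y)) * (C (ib j) S.1 (xa x) * C (ia j) S.2 (xb x))
      + (C (ib i) S.1 (xb y) * C (ia i) S.2 (xa y)) * (C (ib j) S.1 (xb x) * C (ia j) S.2 (xa x))) := by
    intro x y i j
    refine Finset.sum_congr rfl fun S _ => ?_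
    simp only [Kz]
    ring
  rw [h x y i j, h y x i j]
  simp only [Finset.sum_add_distrib, Finset.sum_sub_distrib, prodsum]
  rw [hs (ia i) (ia j) (xa y) (xa x), hs (ia i) (ia j) (xa y) (xb x),
    hs (ia i) (ia j) (xb y) (xa x), hs (ia i) (ia j) (xb y) (xb x),
    hs (ia i) (ib j) (xa y) (xa x), hs (ia i) (ib j) (xa y) (xb x),
    hs (ia i) (ib j) (xb y) (xa x), hs (ia i) (ib j) (xb y) (xb x),
    hs (ib i) (ia j) (xa y) (xa x), hs (ib i) (ia j) (xa y) (xb x),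
    hs (ib i) (ia j) (xb y) (xa x), hs (ib i) (ia j) (xb y) (xb x),
    hs (ib i) (ib j) (xa y) (xa x), hs (ib i) (ib j) (xa y) (xb x),
    hs (ib i) (ib j) (xb y) (xa x), hs (ib i) (ib j) (xb y) (xb x)]
  ring

def yZ (w : Fin 4 → ℤ) (i : Fin 10) : ℤ :=
  (if ia i = ib i then 1 else 2) * (w (ia i) * w (ib i))

def AA (C : Fin 4 → Fin 6 → Fin 4 → ℤ) (w : Fin 4 → ℤ) (c : Fin 6) (q : Fin 4) : ℤ :=
  ∑ j, w j * C j c q

theorem Ky (C : Fin 4 → Fin 6 → Fin 4 → ℤ) (w : Fin 4 → ℤ) (S : Fin 6 × Fin 6) (x : Fin 10) :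
    ∑ i, Kz C S x i * yZ w i =
      2 * (AA C w S.1 (xa x) * AA C w S.2 (xb x) - AA C w S.1 (xb x) * AA C w S.2 (xa x)) := by
  simp only [Kz, yZ, AA, Fin.sum_univ_succ, ia, ib]
  simp
  ring

def D4 (a b c d : Fin 4 → ℤ) : ℤ := Matrix.det (Matrix.of ![a, b, c, d])

theorem laplace (a b c d : Fin 4 → ℤ) :
    ∑ x, ex x * (c (xa (cx x)) * d (xb (cx x)) - c (xb (cx x)) * d (xa (cx x))) *
      (a (xa x) * b (xb x) - a (xb x) * b (xa x)) = D4 a b c d := by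
  simp only [Fin.sum_univ_succ, ex, xa, xb, cx, D4]
  simp [Matrix.det_succ_row_zero, Fin.sum_univ_succ, Fin.succAbove]
  ring

/-- rows `τ` of `A(w)` -/
def mdet (C : Fin 4 → Fin 6 → Fin 4 → ℤ) (w : Fin 4 → ℤ) (τ : Fin 4 → Fin 6) : ℤ :=
  Matrix.det (Matrix.of fun r q => AA C w (τ r) q)

def tb : Fin 15 → Fin 4 → Fin 6 :=
  ![![0,1,2,3], ![0,1,2,4], ![0,1,2,5], ![0,1,3,4], ![0,1,3,5], ![0,1,4,5], ![0,2,3,4], ![0,2,3,5],
    ![0,2,4,5], ![0,3,4,5], ![1,2,3,4], ![1,2,3,5], ![1,2,4,5], ![1,3,4,5], ![2,3,4,5]]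

theorem tb_surj : ∀ a b c d : Fin 6, a < b → b < c → c < d → ∃ k, tb k = ![a, b, c, d] := by
  decide +kernel

theorem mdet_span (τ : Fin 4 → Fin 6) : ∃ (s : ℤ) (k : Fin 15),
    ∀ (C : Fin 4 → Fin 6 → Fin 4 → ℤ) (w : Fin 4 → ℤ), mdet C w τ = s * mdet C w (tb k) := by
  by_cases hτ : Function.Injective τ
  · have hm : StrictMono (τ ∘ Tuple.sort τ) :=
      (Tuple.monotone_sort τ).strictMono_of_injective (hτ.comp (Tuple.sort τ).injective)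
    obtain ⟨k, hk⟩ := tb_surj ((τ ∘ Tuple.sort τ) 0) ((τ ∘ Tuple.sort τ) 1)
      ((τ ∘ Tuple.sort τ) 2) ((τ ∘ Tuple.sort τ) 3) (hm (by decide)) (hm (by decide))
      (hm (by decide))
    have hk' : tb k = τ ∘ Tuple.sort τ := by
      rw [hk]
      funext r
      fin_cases r <;> rfl
    refine ⟨((Equiv.Perm.sign (Tuple.sort τ) : ℤˣ) : ℤ), k, fun C w => ?_⟩
    rw [hk', mdet, mdet]
    have h1 := Matrix.det_permute (Tuple.sort τ) (Matrix.of fun r q => AA C w (τ r) q)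
    have h2 : (Matrix.of fun r q => AA C w ((τ ∘ Tuple.sort τ) r) q)
        = (Matrix.of fun r q => AA C w (τ r) q).submatrix (Tuple.sort τ) id := rfl
    rw [h2, h1, ← mul_assoc]
    have h3 : (((Equiv.Perm.sign (Tuple.sort τ) : ℤˣ) : ℤ)) *
        (((Equiv.Perm.sign (Tuple.sort τ) : ℤˣ) : ℤ)) = 1 := by
      rw [← Units.val_mul, Int.units_mul_self, Units.val_one]
    simp [h3]
  · refine ⟨0, 0, fun C w => ?_⟩
    rw [Function.Injective] at hτ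
    push Not at hτ
    obtain ⟨i, j, hij, hne⟩ := hτ
    rw [mdet, zero_mul]
    exact Matrix.det_zero_of_row_eq hne (by funext q; simp [hij])

theorem D4_eq (C : Fin 4 → Fin 6 → Fin 4 → ℤ) (w : Fin 4 → ℤ) (S T : Fin 6 × Fin 6) :
    D4 (AA C w S.1) (AA C w S.2) (AA C w T.1) (AA C w T.2)
      = mdet C w ![S.1, S.2, T.1, T.2] := by
  rw [D4, mdet]
  congr 1
  ext r q
  fin_cases r <;> rfl

/-- contraction of `L_T K_S` with `w² ⊗ w²` -/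
theorem contract (C : Fin 4 → Fin 6 → Fin 4 → ℤ) (w : Fin 4 → ℤ) (S T : Fin 6 × Fin 6) :
    ∑ J, ∑ I, (∑ x, Lz C T J x * Kz C S x I) * (yZ w I * yZ w J)
      = 4 * mdet C w ![S.1, S.2, T.1, T.2] := by
  rw [← D4_eq, ← laplace]
  have h1 : ∀ J I, (∑ x, Lz C T J x * Kz C S x I) * (yZ w I * yZ w J)
      = ∑ x, ex x * (Kz C T (cx x) J * yZ w J) * (Kz C S x I * yZ w I) := by
    intro J I
    rw [Finset.sum_mul]
    exact Finset.sum_congr rfl fun x _ => by rw [Lz]; ring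
  simp only [h1]
  have h2 : ∀ J, ∑ I, ∑ x, ex x * (Kz C T (cx x) J * yZ w J) * (Kz C S x I * yZ w I)
      = ∑ x, ex x * (Kz C T (cx x) J * yZ w J) * ∑ I, (Kz C S x I * yZ w I) := by
    intro J
    rw [Finset.sum_comm]
    exact Finset.sum_congr rfl fun x _ => by rw [Finset.mul_sum]
  simp only [h2]
  rw [Finset.sum_comm, Finset.mul_sum]
  refine Finset.sum_congr rfl fun x _ => ?_
  rw [← Finset.sum_mul, ← Finset.mul_sum, Ky, Ky]
  ring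


noncomputable def KK (C : Fin 4 → Fin 6 → Fin 4 → ℤ) (S : Fin 6 × Fin 6) :
    Matrix (Fin 10) (Fin 10) ℂ := Matrix.of fun x i => (Kz C S x i : ℂ)

noncomputable def LL (C : Fin 4 → Fin 6 → Fin 4 → ℤ) (S : Fin 6 × Fin 6) :
    Matrix (Fin 10) (Fin 10) ℂ := Matrix.of fun i x => (Lz C S i x : ℂ)

theorem LK_apply (C : Fin 4 → Fin 6 → Fin 4 → ℤ) (T S : Fin 6 × Fin 6) (J I : Fin 10) :
    (LL C T * KK C S) J I = ((∑ x, Lz C T J x * Kz C S x I : ℤ) : ℂ) := by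
  rw [Matrix.mul_apply]
  push_cast
  rfl

theorem hK_of (C : Fin 4 → Fin 6 → Fin 4 → ℤ)
    (hs : ∀ a b q r, MM C a b q r = MM C a b r q) (M : Matrix (Fin 10) (Fin 10) ℂ) :
    (kmap (KK C) M).transpose = kmap (KK C) M := by
  refine kmap_transpose_of (KK C) (KK C) ?_ M
  intro x y a b
  simp only [KK, Matrix.of_apply]
  have h := Kz_sym C hs x y a b
  have h' := congrArg (fun z : ℤ => (z : ℂ)) h
  push_cast at h'
  simpa using h'

theorem hL_of (C : Fin 4 → Fin 6 → Fin 4 → ℤ)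
    (hs : ∀ a b q r, MM C a b q r = MM C a b r q) (M : Matrix (Fin 10) (Fin 10) ℂ) :
    (kmap (LL C) M).transpose = kmap (LL C) M := by
  refine kmap_transpose_of (LL C) (LL C) ?_ M
  intro i j x y
  simp only [LL, Matrix.of_apply]
  have h := Kz_sym C hs (cx x) (cx y) i j
  have h2 : ∑ S, Lz C S j x * Lz C S i y = ∑ S, Lz C S i x * Lz C S j y := by
    have e1 : ∀ S, Lz C S j x * Lz C S i y = ex x * ex y * (Kz C S (cx y) i * Kz C S (cx x) j) := by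
      intro S; simp only [Lz]; ring
    have e2 : ∀ S, Lz C S i x * Lz C S j y = ex x * ex y * (Kz C S (cx x) i * Kz C S (cx y) j) := by
      intro S; simp only [Lz]; ring
    simp only [e1, e2, ← Finset.mul_sum, h]
  have h' := congrArg (fun z : ℤ => (z : ℂ)) h2
  push_cast at h'
  simpa using h'

/-- the quadratic identity: `u ⊗ v` in the span of the composite Kraus operators. -/
theorem quad_of (C : Fin 4 → Fin 6 → Fin 4 → ℤ) (u v : Fin 10 → ℂ)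
    (c : (Fin 6 × Fin 6) × (Fin 6 × Fin 6) → ℂ)
    (h : ∀ p : Fin 10 × Fin 10, u p.1 * v p.2 = ∑ a, c a * (LL C a.1 * KK C a.2) p.2 p.1) :
    ∃ g : Fin 15 → ℂ, ∀ w : Fin 4 → ℤ,
      (∑ s, (yZ w s : ℂ) * u s) * (∑ s, (yZ w s : ℂ) * v s)
        = ∑ k, g k * (mdet C w (tb k) : ℂ) := by
  choose sg kk hsk using mdet_span
  let τ : (Fin 6 × Fin 6) × (Fin 6 × Fin 6) → Fin 4 → Fin 6 :=
    fun a => ![a.2.1, a.2.2, a.1.1, a.1.2]
  refine ⟨fun k => ∑ a, if kk (τ a) = k then c a * 4 * (sg (τ a) : ℂ) else 0, fun w => ?_⟩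
  have h1 : (∑ s, (yZ w s : ℂ) * u s) * (∑ s, (yZ w s : ℂ) * v s)
      = ∑ a, c a * (4 * (mdet C w (τ a) : ℂ)) := by
    rw [Finset.sum_mul_sum]
    have e1 : ∀ I J, (yZ w I : ℂ) * u I * ((yZ w J : ℂ) * v J)
        = ∑ a, c a * (((LL C a.1 * KK C a.2) J I) * ((yZ w I : ℂ) * (yZ w J : ℂ))) := by
      intro I J
      have e2 := h (I, J)
      calc (yZ w I : ℂ) * u I * ((yZ w J : ℂ) * v J)
          = (u I * v J) * ((yZ w I : ℂ) * (yZ w J : ℂ)) := by ring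
        _ = _ := by
          rw [e2, Finset.sum_mul]
          exact Finset.sum_congr rfl fun a _ => by ring
    simp only [e1]
    rw [Finset.sum_comm]
    have e3 : ∀ J, ∑ I, ∑ a, c a * (((LL C a.1 * KK C a.2) J I) * ((yZ w I : ℂ) * (yZ w J : ℂ)))
        = ∑ a, ∑ I, c a * (((LL C a.1 * KK C a.2) J I) * ((yZ w I : ℂ) * (yZ w J : ℂ))) :=
      fun J => Finset.sum_comm
    simp only [e3]
    rw [Finset.sum_comm]
    refine Finset.sum_congr rfl fun a _ => ?_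
    simp only [← Finset.mul_sum]
    congr 1
    have e4 := contract C w a.2 a.1
    have e5 := congrArg (fun z : ℤ => (z : ℂ)) e4
    simp only [LK_apply]
    push_cast at e5 ⊢
    exact e5
  rw [h1]
  have h2 : ∀ a, c a * (4 * (mdet C w (τ a) : ℂ))
      = ∑ k, (if kk (τ a) = k then c a * 4 * (sg (τ a) : ℂ) else 0) * (mdet C w (tb k) : ℂ) := by
    intro a
    simp only [ite_mul, zero_mul, Finset.sum_ite_eq, Finset.mem_univ, if_true]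
    rw [hsk (τ a) C w]
    push_cast
    ring
  simp only [h2]
  rw [Finset.sum_comm]
  exact Finset.sum_congr rfl fun k _ => by rw [Finset.sum_mul]

theorem hPF_of (C : Fin 4 → Fin 6 → Fin 4 → ℤ) (p : ℕ) [Fact p.Prime]
    (W : Fin 20 → Fin 4 → ℤ) (Z : Fin 15 → Fin 4 → ℤ) (Bi : Fin 15 → Fin 15 → ℤ)
    (hB : ∀ i c, ((∑ j, Bi i j * mdet C (Z j) (tb c)) - if i = c then 1 else 0) % (p : ℤ) = 0)
    (hMx : ∀ i c, mdet C (W i) (tb c) % (p : ℤ) = 0)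
    (hk : ∀ (k : Type) [Field k] [CharP k p] (u v : Fin 10 → k),
      (∀ i, (∑ s, (yZ (W i) s : k) * u s) * (∑ s, (yZ (W i) s : k) * v s) = 0) → u = 0 ∨ v = 0)
    (u v : Fin 10 → ℂ) (c : (Fin 6 × Fin 6) × (Fin 6 × Fin 6) → ℂ)
    (h : ∀ p : Fin 10 × Fin 10, u p.1 * v p.2 = ∑ a, c a * (LL C a.1 * KK C a.2) p.2 p.1) :
    u = 0 ∨ v = 0 := by
  obtain ⟨g, hg⟩ := quad_of C u v c h
  exact Crest.Agent.P345.Span43.pf_span p (fun j => yZ (Z j)) (fun j c => mdet C (Z j) (tb c)) Bi hB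
    (fun i => yZ (W i)) (fun i c => mdet C (W i) (tb c)) hMx hk u v g
    (fun j => hg (Z j)) (fun i => hg (W i))

theorem s0541_main (C : Fin 4 → Fin 6 → Fin 4 → ℤ)
    (hs : ∀ a b q r, MM C a b q r = MM C a b r q) (p : ℕ) [Fact p.Prime]
    (W : Fin 20 → Fin 4 → ℤ) (Z : Fin 15 → Fin 4 → ℤ) (Bi : Fin 15 → Fin 15 → ℤ)
    (hB : ∀ i c, ((∑ j, Bi i j * mdet C (Z j) (tb c)) - if i = c then 1 else 0) % (p : ℤ) = 0)
    (hMx : ∀ i c, mdet C (W i) (tb c) % (p : ℤ) = 0)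
    (hk : ∀ (k : Type) [Field k] [CharP k p] (u v : Fin 10 → k),
      (∀ i, (∑ s, (yZ (W i) s : k) * u s) * (∑ s, (yZ (W i) s : k) * v s) = 0) → u = 0 ∨ v = 0)
    (hne : ∃ T S J I, ∑ x, Lz C T J x * Kz C S x I ≠ 0) :
    (∃ Φ₁ Φ₂ : Matrix (Fin 10) (Fin 10) ℂ → Matrix (Fin 10) (Fin 10) ℂ,
      IsLinearMap ℂ Φ₁ ∧ IsLinearMap ℂ Φ₂ ∧ IsPPT Φ₁ ∧ IsPPT Φ₂ ∧
      choiMatrix (Φ₂ ∘ Φ₁) ≠ 0 ∧
      (∀ u v : Fin 10 → ℂ, (∃ w, (choiMatrix (Φ₂ ∘ Φ₁)).mulVec w = fun p => u p.1 * v p.2) →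
        u = 0 ∨ v = 0) ∧
      ¬ IsEntanglementBreaking (Φ₂ ∘ Φ₁)) ∧
    (∃ Θ : Matrix (Fin 21) (Fin 21) ℂ → Matrix (Fin 21) (Fin 21) ℂ,
      IsChannel Θ ∧ IsPPT Θ ∧ ¬ IsEntanglementBreaking (Θ ∘ Θ)) := by
  have hne' : ∃ j i, LL C j * KK C i ≠ 0 := by
    obtain ⟨T, S, J, I, h⟩ := hne
    refine ⟨T, S, fun h0 => h ?_⟩
    have h1 := congrFun (congrFun h0 J) I
    rw [LK_apply, Matrix.zero_apply] at h1
    exact_mod_cast h1
  exact ⟨Crest.Agent.P345.Dual26.s0541_all (KK C) (KK C) (LL C) (LL C) (hK_of C hs) (hL_of C hs)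
      (hPF_of C p W Z Bi hB hMx hk) hne',
    Crest.Agent.P345.Dual26.s0540_all (KK C) (KK C) (LL C) (LL C) (hK_of C hs) (hL_of C hs)
      (hPF_of C p W Z Bi hB hMx hk) hne'⟩

end Crest.Agent.P345Asm64
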