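import Crest.Agent.P345HK34

set_option autoImplicit false

/-! Row 345: Laplace evaluation of the composite Kraus forms (helper50). -/

namespace Crest.Agent.P345.Lap50

open Matrix Crest.Agent.P345Red Crest.Agent.P345HK34

variable {R : Type*} [CommRing R]

/-- the pencil `A(w)` -/
def Aw (C : Fin 4 → Fin 6 → Fin 4 → ℤ) (w : Fin 4 → R) (r : Fin 6) (k : Fin 4) : R :=
  ∑ c, w c * (C c r k : R)

def sq (w : Fin 4 → R) (m : Fin 10) : R := w (ma m) * w (mb m)

def tab : Fin 15 → Fin 4 → Fin 6 :=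
  ![![0,1,2,3],![0,1,2,4],![0,1,2,5],![0,1,3,4],![0,1,3,5],![0,1,4,5],![0,2,3,4],![0,2,3,5],
    ![0,2,4,5],![0,3,4,5],![1,2,3,4],![1,2,3,5],![1,2,4,5],![1,3,4,5],![2,3,4,5]]

/-- maximal minor with rows `f` -/
def Mn (C : Fin 4 → Fin 6 → Fin 4 → ℤ) (w : Fin 4 → R) (f : Fin 4 → Fin 6) : R :=
  Matrix.det (Matrix.of fun i k => Aw C w (f i) k)

theorem minor2 (C : Fin 4 → Fin 6 → Fin 4 → ℤ) (w : Fin 4 → R) (r s : Fin 6) (k l : Fin 4) :
    ∑ m, (entry C r s k l (ma m) (mb m) : R) * sq w m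
      = Aw C w r k * Aw C w s l - Aw C w r l * Aw C w s k := by
  simp only [entry, sq, Aw, ma, mb, Fin.sum_univ_succ, Fin.sum_univ_zero]
  simp [Fin.ext_iff]
  ring

theorem lap (C : Fin 4 → Fin 6 → Fin 4 → ℤ) (w : Fin 4 → ℂ) (i j : Fin 6 × Fin 6) :
    ∑ a, ∑ b, (L C j * K C i) a b * (sq w a * sq w b) = Mn C w ![j.1, j.2, i.1, i.2] := by
  have h1 : ∀ a b, (L C j * K C i) a b * (sq w a * sq w b)
      = ∑ y, (sg y : ℂ) * (((Kz C j (co y) a : ℤ) : ℂ) * sq w a) *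
        (((Kz C i y b : ℤ) : ℂ) * sq w b) := by
    intro a b
    rw [Matrix.mul_apply, Finset.sum_mul]
    refine Finset.sum_congr rfl fun y _ => ?_
    simp only [L, K, Lz, Matrix.of_apply]
    push_cast
    ring
  simp only [h1]
  have h2 : ∑ a, ∑ b, ∑ y, (sg y : ℂ) * (((Kz C j (co y) a : ℤ) : ℂ) * sq w a) *
        (((Kz C i y b : ℤ) : ℂ) * sq w b)
      = ∑ y, (sg y : ℂ) * (∑ a, ((Kz C j (co y) a : ℤ) : ℂ) * sq w a) *
        (∑ b, ((Kz C i y b : ℤ) : ℂ) * sq w b) := by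
    have e1 : ∀ a, ∑ b, ∑ y, (sg y : ℂ) * (((Kz C j (co y) a : ℤ) : ℂ) * sq w a) *
        (((Kz C i y b : ℤ) : ℂ) * sq w b)
        = ∑ y, ∑ b, (sg y : ℂ) * (((Kz C j (co y) a : ℤ) : ℂ) * sq w a) *
        (((Kz C i y b : ℤ) : ℂ) * sq w b) := fun a => Finset.sum_comm
    simp only [e1]
    rw [Finset.sum_comm]
    refine Finset.sum_congr rfl fun y _ => ?_
    simp only [← Finset.mul_sum, ← Finset.sum_mul]
  rw [h2]
  have h3 : ∀ (i : Fin 6 × Fin 6) (x : Fin 10), ∑ m, ((Kz C i x m : ℤ) : ℂ) * sq w m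
      = Aw C w i.1 (pk x) * Aw C w i.2 (pl x) - Aw C w i.1 (pl x) * Aw C w i.2 (pk x) :=
    fun i x => minor2 C w i.1 i.2 (pk x) (pl x)
  simp only [h3]
  rw [Mn, Matrix.det_succ_row_zero]
  simp only [Matrix.det_fin_three, Fin.sum_univ_succ, Fin.sum_univ_zero]
  simp [sg, co, pk, pl, Fin.succAbove]
  ring

theorem Mn_noninj (C : Fin 4 → Fin 6 → Fin 4 → ℤ) (f : Fin 4 → Fin 6)
    (hf : ¬ Function.Injective f) (w : Fin 4 → R) : Mn C w f = 0 := by
  simp only [Function.Injective, not_forall] at hf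
  obtain ⟨a, b, hab, hne⟩ := hf
  exact Matrix.det_zero_of_row_eq hne (by ext k; simp [hab])

theorem cover : ∀ S ∈ Finset.powersetCard 4 (Finset.univ : Finset (Fin 6)),
    ∃ e : Fin 15, Finset.univ.image (tab e) = S := by decide

theorem Mn_inj (C : Fin 4 → Fin 6 → Fin 4 → ℤ) (f : Fin 4 → Fin 6)
    (hf : Function.Injective f) : ∃ (e : Fin 15) (s : ℤ), ∀ w : Fin 4 → R,
      Mn C w f = (s : R) * Mn C w (tab e) := by
  classical
  obtain ⟨e, he⟩ := cover (Finset.univ.image f) (by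
    rw [Finset.mem_powersetCard]
    exact ⟨Finset.subset_univ _, by rw [Finset.card_image_of_injective _ hf]; rfl⟩)
  have hx : ∀ x, ∃ y, tab e y = f x := by
    intro x
    have : f x ∈ Finset.univ.image (tab e) := by
      rw [he]; exact Finset.mem_image_of_mem _ (Finset.mem_univ _)
    simpa using this
  choose σ hσ using hx
  have hσi : Function.Injective σ := by
    intro a b hab
    apply hf
    rw [← hσ a, ← hσ b, hab]
  let τ : Equiv.Perm (Fin 4) := Equiv.ofBijective σ (Finite.injective_iff_bijective.1 hσi)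
  refine ⟨e, (Equiv.Perm.sign τ : ℤ), fun w => ?_⟩
  have h := Matrix.det_permute τ (Matrix.of fun i k => Aw C w (tab e i) k)
  rw [Mn, Mn]
  have h2 : (Matrix.of fun i k => Aw C w (f i) k)
      = (Matrix.of fun i k => Aw C w (tab e i) k).submatrix τ id := by
    ext i k
    simp [τ, hσ]
  rw [h2, h]

theorem Mn_any (C : Fin 4 → Fin 6 → Fin 4 → ℤ) (f : Fin 4 → Fin 6) :
    ∃ g : Fin 15 → R, ∀ w : Fin 4 → R, Mn C w f = ∑ e, g e * Mn C w (tab e) := by
  classical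
  by_cases hf : Function.Injective f
  · obtain ⟨e, s, h⟩ := Mn_inj (R := R) C f hf
    refine ⟨fun e' => if e' = e then (s : R) else 0, fun w => ?_⟩
    rw [h w]
    simp
  · exact ⟨fun _ => 0, fun w => by rw [Mn_noninj C f hf w]; simp⟩

end Crest.Agent.P345.Lap50
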