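import Crest.Agent.P345.Dual26b
import Crest.Agent.P345.Span43
import Crest.Agent.P345.Lap50

set_option autoImplicit false

/-! Row 345: product-freeness of the composite Kraus span from data mod `p` (helper68). -/

namespace Crest.Agent.P345.Asm68

open Matrix Crest.Quantum Crest.Agent.P345Red Crest.Agent.P345HK34 Crest.Agent.P345.Lap50

def aw (C : Fin 4 → Fin 6 → Fin 4 → ℤ) (w : Fin 4 → ℤ) (r : Fin 6) (k : Fin 4) : ℤ :=
  w 0 * C 0 r k + w 1 * C 1 r k + w 2 * C 2 r k + w 3 * C 3 r k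

def d3 (a b c d e f g h i : ℤ) : ℤ := a * (e * i - f * h) - b * (d * i - f * g) + c * (d * h - e * g)

def d4 (m : Fin 4 → Fin 4 → ℤ) : ℤ :=
  m 0 0 * d3 (m 1 1) (m 1 2) (m 1 3) (m 2 1) (m 2 2) (m 2 3) (m 3 1) (m 3 2) (m 3 3)
  - m 0 1 * d3 (m 1 0) (m 1 2) (m 1 3) (m 2 0) (m 2 2) (m 2 3) (m 3 0) (m 3 2) (m 3 3)
  + m 0 2 * d3 (m 1 0) (m 1 1) (m 1 3) (m 2 0) (m 2 1) (m 2 3) (m 3 0) (m 3 1) (m 3 3)
  - m 0 3 * d3 (m 1 0) (m 1 1) (m 1 2) (m 2 0) (m 2 1) (m 2 2) (m 3 0) (m 3 1) (m 3 2)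

def mz (C : Fin 4 → Fin 6 → Fin 4 → ℤ) (w : Fin 4 → ℤ) (f : Fin 4 → Fin 6) : ℤ :=
  d4 (fun i k => aw C w (f i) k)

theorem Aw_eq (C : Fin 4 → Fin 6 → Fin 4 → ℤ) (w : Fin 4 → ℤ) (r : Fin 6) (k : Fin 4) :
    Aw C (fun i => (w i : ℂ)) r k = ((aw C w r k : ℤ) : ℂ) := by
  simp only [Aw, aw, Fin.sum_univ_succ, Fin.sum_univ_zero]
  push_cast
  simp
  ring

theorem Mn_eq (C : Fin 4 → Fin 6 → Fin 4 → ℤ) (w : Fin 4 → ℤ) (f : Fin 4 → Fin 6) :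
    Mn C (fun i => (w i : ℂ)) f = ((mz C w f : ℤ) : ℂ) := by
  rw [Mn, Matrix.det_succ_row_zero]
  simp only [Matrix.det_fin_three, Fin.sum_univ_succ, Fin.sum_univ_zero, mz, d4, d3, Aw_eq,
    Matrix.of_apply, Matrix.submatrix_apply]
  push_cast
  simp [Fin.succAbove]
  ring

def sz (w : Fin 4 → ℤ) (m : Fin 10) : ℤ := w (ma m) * w (mb m)

theorem hPF_gen (C : Fin 4 → Fin 6 → Fin 4 → ℤ) (p : ℕ) [Fact p.Prime] (z : Fin 15 → Fin 4 → ℤ)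
    (Bi : Fin 15 → Fin 15 → ℤ)
    (hB : ∀ i c, ((∑ j, Bi i j * mz C (z j) (tab c)) - if i = c then 1 else 0) % (p : ℤ) = 0)
    (x : Fin 20 → Fin 4 → ℤ) (hx : ∀ i c, mz C (x i) (tab c) % (p : ℤ) = 0)
    (hk : ∀ (k : Type) [Field k] [CharP k p] (u v : Fin 10 → k),
      (∀ i, (∑ s, (sz (x i) s : k) * u s) * (∑ s, (sz (x i) s : k) * v s) = 0) → u = 0 ∨ v = 0)
    (u v : Fin 10 → ℂ) (c : (Fin 6 × Fin 6) × (Fin 6 × Fin 6) → ℂ)
    (hc : ∀ q : Fin 10 × Fin 10, u q.1 * v q.2 = ∑ a, c a * (L C a.1 * K C a.2) q.2 q.1) :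
    u = 0 ∨ v = 0 := by
  choose g hg using fun a : (Fin 6 × Fin 6) × (Fin 6 × Fin 6) =>
    Mn_any (R := ℂ) C ![a.1.1, a.1.2, a.2.1, a.2.2]
  have ev : ∀ w : Fin 4 → ℂ, (∑ s, sq w s * u s) * (∑ s, sq w s * v s)
      = ∑ e, (∑ a, c a * g a e) * Mn C w (tab e) := by
    intro w
    have h1 := Crest.Agent.P345.Dual26.uv_eval (K C) (L C) u v c hc (sq w) (sq w)
    have h2 : ∀ a : (Fin 6 × Fin 6) × (Fin 6 × Fin 6),
        (∑ i, ∑ j, sq w i * sq w j * (L C a.1 * K C a.2) j i)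
          = ∑ e, g a e * Mn C w (tab e) := by
      intro a
      rw [← hg a w, ← lap C w a.2 a.1, Finset.sum_comm]
      exact Finset.sum_congr rfl fun j _ => Finset.sum_congr rfl fun i _ => by ring
    have e1 : ∀ y : Fin 10 → ℂ, ∑ s, sq w s * y s = ∑ s, y s * sq w s :=
      fun y => Finset.sum_congr rfl fun s _ => mul_comm _ _
    rw [e1 u, e1 v, h1]
    calc ∑ a, c a * (∑ i, ∑ j, sq w i * sq w j * (L C a.1 * K C a.2) j i)
        = ∑ a, ∑ e, c a * g a e * Mn C w (tab e) := by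
          refine Finset.sum_congr rfl fun a _ => ?_
          rw [h2 a, Finset.mul_sum]
          exact Finset.sum_congr rfl fun e _ => by ring
      _ = _ := by
          rw [Finset.sum_comm]
          exact Finset.sum_congr rfl fun e _ => by rw [Finset.sum_mul]
  have ev2 : ∀ w : Fin 4 → ℤ, (∑ s, (sz w s : ℂ) * u s) * (∑ s, (sz w s : ℂ) * v s)
      = ∑ e, (∑ a, c a * g a e) * (mz C w (tab e) : ℂ) := by
    intro w
    have h := ev (fun i => (w i : ℂ))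
    simp only [Mn_eq] at h
    rw [← h]
    simp only [sz, Crest.Agent.P345.Lap50.sq]
    push_cast
    rfl
  exact Crest.Agent.P345.Span43.pf_span p (fun j => sz (z j)) (fun j c => mz C (z j) (tab c)) Bi hB
    (fun i => sz (x i)) (fun i c => mz C (x i) (tab c)) hx hk u v _ (fun j => ev2 (z j))
    (fun i => ev2 (x i))

section Final

variable (C : Fin 4 → Fin 6 → Fin 4 → ℤ) (p : ℕ) [Fact p.Prime] (z : Fin 15 → Fin 4 → ℤ)
    (Bi : Fin 15 → Fin 15 → ℤ)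
    (hC : ∀ i j k l, ∑ r, C i r k * C j r l = ∑ r, C i r l * C j r k)
    (hB : ∀ i c, ((∑ j, Bi i j * mz C (z j) (tab c)) - if i = c then 1 else 0) % (p : ℤ) = 0)
    (x : Fin 20 → Fin 4 → ℤ) (hx : ∀ i c, mz C (x i) (tab c) % (p : ℤ) = 0)
    (hk : ∀ (k : Type) [Field k] [CharP k p] (u v : Fin 10 → k),
      (∀ i, (∑ s, (sz (x i) s : k) * u s) * (∑ s, (sz (x i) s : k) * v s) = 0) → u = 0 ∨ v = 0)
    (hne : ∃ (w : Fin 4 → ℤ) (i j : Fin 6 × Fin 6), mz C w ![j.1, j.2, i.1, i.2] ≠ 0)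

include hne in
theorem hne_gen : ∃ j i, L C j * K C i ≠ 0 := by
  obtain ⟨w, i, j, h⟩ := hne
  refine ⟨j, i, fun h0 => h ?_⟩
  have h1 := lap C (fun i => (w i : ℂ)) i j
  rw [h0, Mn_eq] at h1
  simp only [Matrix.zero_apply, zero_mul, Finset.sum_const_zero] at h1
  exact_mod_cast h1.symm

include hC hB hx hk hne in
theorem s0541 : ∃ Φ₁ Φ₂ : Matrix (Fin 10) (Fin 10) ℂ → Matrix (Fin 10) (Fin 10) ℂ,
      IsLinearMap ℂ Φ₁ ∧ IsLinearMap ℂ Φ₂ ∧ IsPPT Φ₁ ∧ IsPPT Φ₂ ∧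
      choiMatrix (Φ₂ ∘ Φ₁) ≠ 0 ∧
      (∀ u v : Fin 10 → ℂ, (∃ w, (choiMatrix (Φ₂ ∘ Φ₁)).mulVec w = fun p => u p.1 * v p.2) →
        u = 0 ∨ v = 0) ∧
      ¬ IsEntanglementBreaking (Φ₂ ∘ Φ₁) :=
  Crest.Agent.P345.Dual26.s0541_all (K C) (K C) (L C) (L C) (hK C hC) (hL C hC)
    (hPF_gen C p z Bi hB x hx hk) (hne_gen C hne)

include hC hB hx hk hne in
theorem s0540 : ∃ Θ : Matrix (Fin 21) (Fin 21) ℂ → Matrix (Fin 21) (Fin 21) ℂ,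
      IsChannel Θ ∧ IsPPT Θ ∧ ¬ IsEntanglementBreaking (Θ ∘ Θ) :=
  Crest.Agent.P345.Dual26.s0540_all (K C) (K C) (L C) (L C) (hK C hC) (hL C hC)
    (hPF_gen C p z Bi hB x hx hk) (hne_gen C hne)

end Final

end Crest.Agent.P345.Asm68
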