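import Crest.Agent.P345.Lap50
import Crest.Agent.P345.Quart59
import Crest.Agent.P345.Dual26b

set_option autoImplicit false

/-! Row 345 (helper7): generic assembly.  From integer `6 x 4` matrices `C j` with `C iᵀ C j`
symmetric, a prime `p`, 20 points killing all maximal minors mod `p`, 15 test points whose matrix
of maximal minors is invertible mod `p`, and the uniform matroid property: both statements. -/

namespace Crest.Agent.P345.Asm7

open Matrix Crest.Quantum Crest.Agent.P345Red Crest.Agent.P345HK34 Crest.Agent.P345.Lap50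

variable (C : Fin 4 → Fin 6 → Fin 4 → ℤ)

theorem exists_g (u v : Fin 10 → ℂ) (c : (Fin 6 × Fin 6) × (Fin 6 × Fin 6) → ℂ)
    (h : ∀ p : Fin 10 × Fin 10, u p.1 * v p.2 = ∑ a, c a * (L C a.1 * K C a.2) p.2 p.1) :
    ∃ g : Fin 15 → ℂ, ∀ w : Fin 4 → ℂ,
      (∑ a, sq w a * u a) * (∑ a, sq w a * v a) = ∑ e, Mn C w (tab e) * g e := by
  choose G hG using fun a : (Fin 6 × Fin 6) × (Fin 6 × Fin 6) =>
    Mn_any (R := ℂ) C ![a.1.1, a.1.2, a.2.1, a.2.2]
  refine ⟨fun e => ∑ a, c a * G a e, fun w => ?_⟩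
  have h2 : ∀ x y, u x * v y = ∑ a, c a * (L C a.1 * K C a.2) y x := fun x y => h (x, y)
  calc (∑ a, sq w a * u a) * (∑ a, sq w a * v a)
      = ∑ x, ∑ y, ∑ a, c a * ((L C a.1 * K C a.2) y x * (sq w y * sq w x)) := by
        rw [Finset.sum_mul_sum]
        refine Finset.sum_congr rfl fun x _ => Finset.sum_congr rfl fun y _ => ?_
        have h3 : sq w x * u x * (sq w y * v y) = (u x * v y) * (sq w y * sq w x) := by ring
        rw [h3, h2, Finset.sum_mul]
        exact Finset.sum_congr rfl fun a _ => by ring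
    _ = ∑ a, c a * ∑ y, ∑ x, (L C a.1 * K C a.2) y x * (sq w y * sq w x) := by
        have e1 : ∀ x, ∑ y, ∑ a, c a * ((L C a.1 * K C a.2) y x * (sq w y * sq w x))
            = ∑ a, c a * ∑ y, (L C a.1 * K C a.2) y x * (sq w y * sq w x) := by
          intro x
          rw [Finset.sum_comm]
          exact Finset.sum_congr rfl fun a _ => by rw [Finset.mul_sum]
        simp only [e1]
        rw [Finset.sum_comm]
        refine Finset.sum_congr rfl fun a _ => ?_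
        rw [← Finset.mul_sum, Finset.sum_comm]
    _ = ∑ a, c a * ∑ e, G a e * Mn C w (tab e) := by
        refine Finset.sum_congr rfl fun a _ => ?_
        rw [lap C w a.2 a.1, hG a w]
    _ = ∑ e, Mn C w (tab e) * ∑ a, c a * G a e := by
        simp only [Finset.mul_sum]
        rw [Finset.sum_comm]
        exact Finset.sum_congr rfl fun e _ => Finset.sum_congr rfl fun a _ => by ring

theorem sq_cast (w : Fin 4 → ℤ) (a : Fin 10) :
    sq (fun i => (w i : ℂ)) a = ((sq w a : ℤ) : ℂ) := by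
  simp [Lap50.sq]

theorem Mn_cast (w : Fin 4 → ℤ) (f : Fin 4 → Fin 6) :
    Mn C (fun i => (w i : ℂ)) f = ((Mn C w f : ℤ) : ℂ) := by
  have h := RingHom.map_det (Int.castRingHom ℂ) (Matrix.of fun i k => Aw C w (f i) k)
  rw [Mn, Mn]
  have h2 : (Int.castRingHom ℂ).mapMatrix (Matrix.of fun i k => Aw C w (f i) k)
      = Matrix.of fun i k => Aw C (fun i => (w i : ℂ)) (f i) k := by
    ext i k
    simp [Aw]
  rw [h2] at h
  exact h.symm

theorem hPF_asm (p : ℕ) [Fact p.Prime] (xw : Fin 20 → Fin 4 → ℤ) (zw : Fin 15 → Fin 4 → ℤ)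
    (D' : Matrix (Fin 15) (Fin 15) ℤ)
    (hT : ∀ i e, (p : ℤ) ∣ Mn C (xw i) (tab e))
    (hD : ∀ a b, (p : ℤ) ∣ (D' * (Matrix.of fun j e => Mn C (zw j) (tab e)) - 1) a b)
    (h : ∀ (k : Type) [Field k] [CharP k p] (u v : Fin 10 → k),
      (∀ i, (∑ a, ((sq (xw i) a : ℤ) : k) * u a) * (∑ a, ((sq (xw i) a : ℤ) : k) * v a) = 0) →
        u = 0 ∨ v = 0)
    (u v : Fin 10 → ℂ) (c : (Fin 6 × Fin 6) × (Fin 6 × Fin 6) → ℂ)
    (hc : ∀ p : Fin 10 × Fin 10, u p.1 * v p.2 = ∑ a, c a * (L C a.1 * K C a.2) p.2 p.1) :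
    u = 0 ∨ v = 0 := by
  obtain ⟨g, hg⟩ := exists_g C u v c hc
  refine Quart59.quart_lift p (fun i => sq (xw i)) (fun i e => Mn C (xw i) (tab e)) hT
    (fun j => sq (zw j)) (Matrix.of fun j e => Mn C (zw j) (tab e)) D' hD h u v g ?_ ?_
  · intro j
    have := hg (fun i => (zw j i : ℂ))
    simp only [sq_cast, Mn_cast] at this
    simpa only [Matrix.of_apply] using this
  · intro i
    have := hg (fun a => (xw i a : ℂ))
    simp only [sq_cast, Mn_cast] at this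
    exact this

section Final
variable (hC : ∀ i j k l, ∑ r, C i r k * C j r l = ∑ r, C i r l * C j r k)
    (p : ℕ) [Fact p.Prime] (xw : Fin 20 → Fin 4 → ℤ) (zw : Fin 15 → Fin 4 → ℤ)
    (D' : Matrix (Fin 15) (Fin 15) ℤ)
    (hT : ∀ i e, (p : ℤ) ∣ Mn C (xw i) (tab e))
    (hD : ∀ a b, (p : ℤ) ∣ (D' * (Matrix.of fun j e => Mn C (zw j) (tab e)) - 1) a b)
    (h : ∀ (k : Type) [Field k] [CharP k p] (u v : Fin 10 → k),
      (∀ i, (∑ a, ((sq (xw i) a : ℤ) : k) * u a) * (∑ a, ((sq (xw i) a : ℤ) : k) * v a) = 0) →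
        u = 0 ∨ v = 0)

include hT hD h in
theorem hne_asm : ∃ j i, L C j * K C i ≠ 0 := by
  by_contra hcon
  push Not at hcon
  have h0 : ∀ f : Fin 4 → Fin 6, ∀ w : Fin 4 → ℂ, Mn C w f = 0 := by
    intro f w
    have h1 := lap C w (f 2, f 3) (f 0, f 1)
    rw [hcon] at h1
    simp only [Matrix.zero_apply, zero_mul, Finset.sum_const_zero] at h1
    have h2 : ![f 0, f 1, f 2, f 3] = f := by
      funext i
      fin_cases i <;> rfl
    rw [← h2]
    exact h1.symm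
  have h1 := hD 0 0
  have h2 : (Matrix.of fun j e => Mn C (zw j) (tab e)) = 0 := by
    ext j e
    have h3 := Mn_cast C (zw j) (tab e)
    rw [h0] at h3
    simpa using h3.symm
  rw [h2, Matrix.mul_zero] at h1
  simp only [Matrix.sub_apply, Matrix.zero_apply, Matrix.one_apply_eq, zero_sub, dvd_neg] at h1
  have h4 : (p : ℤ) ∣ 1 := h1
  have h5 := (Fact.out : p.Prime).two_le
  have h6 := Int.le_of_dvd one_pos h4
  omega

include hC hT hD h in
theorem s0541 : ∃ Φ₁ Φ₂ : Matrix (Fin 10) (Fin 10) ℂ → Matrix (Fin 10) (Fin 10) ℂ,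
      IsLinearMap ℂ Φ₁ ∧ IsLinearMap ℂ Φ₂ ∧ IsPPT Φ₁ ∧ IsPPT Φ₂ ∧
      choiMatrix (Φ₂ ∘ Φ₁) ≠ 0 ∧
      (∀ u v : Fin 10 → ℂ, (∃ w, (choiMatrix (Φ₂ ∘ Φ₁)).mulVec w = fun p => u p.1 * v p.2) →
        u = 0 ∨ v = 0) ∧
      ¬ IsEntanglementBreaking (Φ₂ ∘ Φ₁) :=
  Dual26.s0541_all (K C) (K C) (L C) (L C) (hK C hC) (hL C hC)
    (hPF_asm C p xw zw D' hT hD h) (hne_asm C p xw zw D' hT hD h)

include hC hT hD h in
theorem s0540 : ∃ Θ : Matrix (Fin 21) (Fin 21) ℂ → Matrix (Fin 21) (Fin 21) ℂ,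
      IsChannel Θ ∧ IsPPT Θ ∧ ¬ IsEntanglementBreaking (Θ ∘ Θ) :=
  Dual26.s0540_all (K C) (K C) (L C) (L C) (hK C hC) (hL C hC)
    (hPF_asm C p xw zw D' hT hD h) (hne_asm C p xw zw D' hT hD h)

end Final

end Crest.Agent.P345.Asm7
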