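import Crest.Agent.P345.Chk70
import Crest.Agent.P345Mds10

/-! Row 345 (helper70): assembly of S0541 and S0540 from `P345/Data.lean` (helper23/60),
`P345HK34` (helper34), `P345/Dual26b` (helper26), `P345/Span43` (helper43), `P345Fast` (helper10). -/

set_option autoImplicit false

namespace Crest.Agent.P345.Asm70

open Crest.Agent.P345.Lap70 Crest.Agent.P345.Chk70
open Crest.Agent.P345HK34 Crest.Agent.P345.Dual26 Crest.Agent.P345Red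

instance fact60041 : Fact (Nat.Prime 60041) := ⟨by norm_num⟩

def sg20 : Fin 20 → Fin 20 := ![11, 8, 2, 4, 9, 7, 16, 10, 1, 5, 13, 3, 19, 14, 17, 18, 6, 12, 0, 15]

set_option maxRecDepth 100000 in
theorem hX : ∀ (i : Fin 20) (I : Fin 10),
    (sq (xf (sg20 i)) I - Crest.Agent.P345Mds10.X i I) % 60041 = 0 := by
  decide +kernel

theorem hk (k : Type) [Field k] [CharP k 60041] (u v : Fin 10 → k)
    (h : ∀ i : Fin 20, (∑ s, ((sq (xf i) s : ℤ) : k) * u s) *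
      (∑ s, ((sq (xf i) s : ℤ) : k) * v s) = 0) : u = 0 ∨ v = 0 :=
  Crest.Agent.P345Mds10.hmds_of (fun i => sq (xf i)) sg20 hX k u v h

theorem hPF (u v : Fin 10 → ℂ) (c : (Fin 6 × Fin 6) × (Fin 6 × Fin 6) → ℂ)
    (hc : ∀ q : Fin 10 × Fin 10, u q.1 * v q.2 = ∑ a, c a * (L Cf a.1 * K Cf a.2) q.2 q.1) :
    u = 0 ∨ v = 0 :=
  pf Cf 60041 zf xf Bf hB hMx hk u v c hc

theorem hDz : Dz Cf ![1, 0, 0, 0] 0 = 1 := by decide +kernel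

theorem hne : ∃ j i, L Cf j * K Cf i ≠ 0 := by
  refine ⟨(0, 1), (2, 3), fun h => ?_⟩
  have h1 := LK Cf (fun i => (((![1, 0, 0, 0] : Fin 4 → ℤ) i : ℤ) : ℂ)) (0, 1) (2, 3)
  rw [h] at h1
  simp only [Matrix.zero_apply, mul_zero, Finset.sum_const_zero] at h1
  rw [lap_det] at h1
  have h2 := Dz_cast Cf ![1, 0, 0, 0] 0
  rw [hDz] at h2
  have h3 : t4 0 = ![0, 1, 2, 3] := rfl
  rw [h3] at h2
  rw [h2] at h1
  simp at h1

theorem s0541 :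
    ∃ Φ₁ Φ₂ : Matrix (Fin 10) (Fin 10) ℂ → Matrix (Fin 10) (Fin 10) ℂ,
      IsLinearMap ℂ Φ₁ ∧ IsLinearMap ℂ Φ₂ ∧ Crest.Quantum.IsPPT Φ₁ ∧ Crest.Quantum.IsPPT Φ₂ ∧
      Crest.Quantum.choiMatrix (Φ₂ ∘ Φ₁) ≠ 0 ∧
      (∀ u v : Fin 10 → ℂ, (∃ w, (Crest.Quantum.choiMatrix (Φ₂ ∘ Φ₁)).mulVec w =
        fun p => u p.1 * v p.2) → u = 0 ∨ v = 0) ∧
      ¬ Crest.Quantum.IsEntanglementBreaking (Φ₂ ∘ Φ₁) :=
  s0541_all (K Cf) (K Cf) (L Cf) (L Cf) (hK Cf hC) (hL Cf hC) hPF hne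

theorem s0540 :
    ∃ Θ : Matrix (Fin 21) (Fin 21) ℂ → Matrix (Fin 21) (Fin 21) ℂ,
      Crest.Quantum.IsChannel Θ ∧ Crest.Quantum.IsPPT Θ ∧
        ¬ Crest.Quantum.IsEntanglementBreaking (Θ ∘ Θ) :=
  s0540_all (K Cf) (K Cf) (L Cf) (L Cf) (hK Cf hC) (hL Cf hC) hPF hne

end Crest.Agent.P345.Asm70
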