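import Crest.Agent.P345.Dual26
import Crest.Agent.P345.Dual26b
import Crest.Agent.P345.Span43
import Crest.Agent.P345HK34

set_option autoImplicit false

namespace Crest.Agent.P345.Asm87

open Matrix Crest.Quantum Crest.Agent.P345Red Crest.Agent.P345HK34

/-- the pencil at `w` -/
def Aw (C : Fin 4 → Fin 6 → Fin 4 → ℤ) (w : Fin 4 → ℤ) (r : Fin 6) (k : Fin 4) : ℤ :=
  w 0 * C 0 r k + w 1 * C 1 r k + w 2 * C 2 r k + w 3 * C 3 r k

def mono (w : Fin 4 → ℤ) (m : Fin 10) : ℤ := w (ma m) * w (mb m)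

def m2 (C : Fin 4 → Fin 6 → Fin 4 → ℤ) (w : Fin 4 → ℤ) (r s : Fin 6) (k l : Fin 4) : ℤ :=
  Aw C w r k * Aw C w s l - Aw C w r l * Aw C w s k

/-- Laplace expansion of the `4 × 4` minor with rows `a b c d` -/
def lap (C : Fin 4 → Fin 6 → Fin 4 → ℤ) (w : Fin 4 → ℤ) (a b c d : Fin 6) : ℤ :=
  m2 C w a b 0 1 * m2 C w c d 2 3 - m2 C w a b 0 2 * m2 C w c d 1 3
    + m2 C w a b 0 3 * m2 C w c d 1 2 + m2 C w a b 1 2 * m2 C w c d 0 3
    - m2 C w a b 1 3 * m2 C w c d 0 2 + m2 C w a b 2 3 * m2 C w c d 0 1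

theorem sum_entry (C : Fin 4 → Fin 6 → Fin 4 → ℤ) (w : Fin 4 → ℤ) (r s : Fin 6) (k l : Fin 4) :
    ∑ m, mono w m * entry C r s k l (ma m) (mb m) = m2 C w r s k l := by
  simp [Fin.sum_univ_succ, mono, entry, ma, mb, m2, Aw]
  ring

theorem lap_det (C : Fin 4 → Fin 6 → Fin 4 → ℤ) (w : Fin 4 → ℤ) (a b c d : Fin 6) :
    lap C w a b c d = ((Matrix.of (Aw C w)).submatrix ![a, b, c, d] id).det := by
  rw [Matrix.det_succ_row_zero]
  simp only [Fin.sum_univ_four, Matrix.det_fin_three, Matrix.submatrix_apply, Matrix.of_apply, id]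
  have e0 : (0 : Fin 4).succAbove (0 : Fin 3) = 1 := by decide
  have e1 : (0 : Fin 4).succAbove (1 : Fin 3) = 2 := by decide
  have e2 : (0 : Fin 4).succAbove (2 : Fin 3) = 3 := by decide
  have f0 : (1 : Fin 4).succAbove (0 : Fin 3) = 0 := by decide
  have f1 : (1 : Fin 4).succAbove (1 : Fin 3) = 2 := by decide
  have f2 : (1 : Fin 4).succAbove (2 : Fin 3) = 3 := by decide
  have g0 : (2 : Fin 4).succAbove (0 : Fin 3) = 0 := by decide
  have g1 : (2 : Fin 4).succAbove (1 : Fin 3) = 1 := by decide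
  have g2 : (2 : Fin 4).succAbove (2 : Fin 3) = 3 := by decide
  have h0 : (3 : Fin 4).succAbove (0 : Fin 3) = 0 := by decide
  have h1 : (3 : Fin 4).succAbove (1 : Fin 3) = 1 := by decide
  have h2 : (3 : Fin 4).succAbove (2 : Fin 3) = 2 := by decide
  have s0 : Fin.succ (0 : Fin 3) = 1 := by decide
  have s1 : Fin.succ (1 : Fin 3) = 2 := by decide
  have s2 : Fin.succ (2 : Fin 3) = 3 := by decide
  simp only [e0, e1, e2, f0, f1, f2, g0, g1, g2, h0, h1, h2, s0, s1, s2]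
  have r0 : (![a, b, c, d] : Fin 4 → Fin 6) 0 = a := rfl
  have r1 : (![a, b, c, d] : Fin 4 → Fin 6) 1 = b := rfl
  have r2 : (![a, b, c, d] : Fin 4 → Fin 6) 2 = c := rfl
  have r3 : (![a, b, c, d] : Fin 4 → Fin 6) 3 = d := rfl
  simp only [r0, r1, r2, r3]
  have v0 : ((0 : Fin 4) : ℕ) = 0 := rfl
  have v1 : ((1 : Fin 4) : ℕ) = 1 := rfl
  have v2 : ((2 : Fin 4) : ℕ) = 2 := rfl
  have v3 : ((3 : Fin 4) : ℕ) = 3 := rfl
  simp only [v0, v1, v2, v3, lap, m2]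
  ring

def R0 : Fin 15 → Fin 6 := ![0,0,0,0,0,0,0,0,0,0,1,1,1,1,2]
def R1 : Fin 15 → Fin 6 := ![1,1,1,1,1,1,2,2,2,3,2,2,2,3,3]
def R2 : Fin 15 → Fin 6 := ![2,2,2,3,3,4,3,3,4,4,3,3,4,4,4]
def R3 : Fin 15 → Fin 6 := ![3,4,5,4,5,5,4,5,5,5,4,5,5,5,5]

def minor (C : Fin 4 → Fin 6 → Fin 4 → ℤ) (w : Fin 4 → ℤ) (e : Fin 15) : ℤ :=
  lap C w (R0 e) (R1 e) (R2 e) (R3 e)

set_option synthInstance.maxHeartbeats 400000 in
set_option synthInstance.maxSize 1000 in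
theorem rows_all : ∀ a b c d : Fin 6, a < b → b < c → c < d →
    ∃ e : Fin 15, R0 e = a ∧ R1 e = b ∧ R2 e = c ∧ R3 e = d := by decide

theorem exists_g (r : Fin 4 → Fin 6) : ∃ g : Fin 15 → ℤ, ∀ A : Matrix (Fin 6) (Fin 4) ℤ,
    (A.submatrix r id).det
      = ∑ e, g e * (A.submatrix ![R0 e, R1 e, R2 e, R3 e] id).det := by
  by_cases hr : Function.Injective r
  · have hm : Monotone (r ∘ Tuple.sort r) := Tuple.monotone_sort r
    have hs : StrictMono (r ∘ Tuple.sort r) :=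
      hm.strictMono_of_injective (hr.comp (Tuple.sort r).injective)
    obtain ⟨e, h0, h1, h2, h3⟩ := rows_all _ _ _ _ (hs (show (0 : Fin 4) < 1 by decide))
      (hs (show (1 : Fin 4) < 2 by decide)) (hs (show (2 : Fin 4) < 3 by decide))
    have he : r ∘ Tuple.sort r = ![R0 e, R1 e, R2 e, R3 e] := by
      funext i
      fin_cases i
      · exact h0.symm
      · exact h1.symm
      · exact h2.symm
      · exact h3.symm
    refine ⟨fun e' => if e' = e then ((Equiv.Perm.sign (Tuple.sort r) : ℤˣ) : ℤ) else 0, fun A => ?_⟩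
    simp only [ite_mul, zero_mul, Finset.sum_ite_eq', Finset.mem_univ, if_true]
    have h := Matrix.det_permute (Tuple.sort r) (A.submatrix r id)
    rw [Matrix.submatrix_submatrix, he, Function.comp_id] at h
    rw [h, ← mul_assoc]
    have : (((Equiv.Perm.sign (Tuple.sort r) : ℤˣ) : ℤ)) * ((Equiv.Perm.sign (Tuple.sort r) : ℤˣ) : ℤ) = 1 := by
      rw [← Units.val_mul, Int.units_mul_self]; rfl
    simp only [Int.cast_id] at *
    rw [this, one_mul]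
  · rw [Function.Injective] at hr
    push Not at hr
    obtain ⟨i, j, hij, hne⟩ := hr
    refine ⟨fun _ => 0, fun A => ?_⟩
    rw [Matrix.det_zero_of_row_eq hne]
    · simp
    · funext k
      simp [Matrix.submatrix_apply, hij]

theorem exists_g' (C : Fin 4 → Fin 6 → Fin 4 → ℤ) :
    ∃ g : ((Fin 6 × Fin 6) × (Fin 6 × Fin 6)) → Fin 15 → ℤ, ∀ a w,
      lap C w a.2.1 a.2.2 a.1.1 a.1.2 = ∑ e, g a e * minor C w e := by
  choose g hg using exists_g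
  refine ⟨fun a => g ![a.2.1, a.2.2, a.1.1, a.1.2], fun a w => ?_⟩
  rw [lap_det, hg]
  refine Finset.sum_congr rfl fun e _ => ?_
  rw [minor, lap_det]

theorem kappa (C : Fin 4 → Fin 6 → Fin 4 → ℤ) (w : Fin 4 → ℤ)
    (a : (Fin 6 × Fin 6) × (Fin 6 × Fin 6)) :
    (∑ i, ∑ j, ((mono w i : ℤ) : ℂ) * ((mono w j : ℤ) : ℂ) * (L C a.1 * K C a.2) j i)
      = ((lap C w a.2.1 a.2.2 a.1.1 a.1.2 : ℤ) : ℂ) := by
  have h1 : ∀ i j, (L C a.1 * K C a.2) j i = ((∑ y, Lz C a.1 j y * Kz C a.2 y i : ℤ) : ℂ) := by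
    intro i j
    simp [Matrix.mul_apply, L, K]
  simp only [h1]
  have h2 : (∑ i, ∑ j, mono w i * mono w j * ∑ y, Lz C a.1 j y * Kz C a.2 y i)
      = ∑ y, sg y * ((∑ j, mono w j * Kz C a.1 (co y) j) * (∑ i, mono w i * Kz C a.2 y i)) := by
    calc (∑ i, ∑ j, mono w i * mono w j * ∑ y, Lz C a.1 j y * Kz C a.2 y i)
        = ∑ i, ∑ j, ∑ y, mono w i * mono w j * (Lz C a.1 j y * Kz C a.2 y i) := by
          simp only [Finset.mul_sum]
      _ = ∑ i, ∑ y, ∑ j, mono w i * mono w j * (Lz C a.1 j y * Kz C a.2 y i) :=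
          Finset.sum_congr rfl fun i _ => Finset.sum_comm
      _ = ∑ y, ∑ i, ∑ j, mono w i * mono w j * (Lz C a.1 j y * Kz C a.2 y i) := Finset.sum_comm
      _ = _ := by
          refine Finset.sum_congr rfl fun y _ => ?_
          rw [mul_comm (∑ j, mono w j * Kz C a.1 (co y) j), Finset.sum_mul_sum, Finset.mul_sum]
          refine Finset.sum_congr rfl fun i _ => ?_
          rw [Finset.mul_sum]
          refine Finset.sum_congr rfl fun j _ => ?_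
          unfold Lz
          ring
  have h3 : ∀ (i : Fin 6 × Fin 6) (y : Fin 10),
      ∑ m, mono w m * Kz C i y m = m2 C w i.1 i.2 (pk y) (pl y) := fun i y => by
    unfold Kz
    exact sum_entry C w i.1 i.2 (pk y) (pl y)
  simp only [h3] at h2
  have h4 : (∑ y, sg y * (m2 C w a.1.1 a.1.2 (pk (co y)) (pl (co y)) *
      m2 C w a.2.1 a.2.2 (pk y) (pl y))) = lap C w a.2.1 a.2.2 a.1.1 a.1.2 := by
    simp [Fin.sum_univ_succ, sg, co, pk, pl, lap]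
    ring
  rw [h4] at h2
  rw [← h2]
  push_cast
  rfl

/-- the master theorem: product-freeness from the data -/
theorem hPF (C : Fin 4 → Fin 6 → Fin 4 → ℤ) (p : ℕ) [Fact p.Prime]
    (z : Fin 15 → Fin 4 → ℤ) (Bi : Fin 15 → Fin 15 → ℤ)
    (hB : ∀ i c, ((∑ j, Bi i j * minor C (z j) c) - if i = c then 1 else 0) % (p : ℤ) = 0)
    (w : Fin 20 → Fin 4 → ℤ) (hw : ∀ i c, minor C (w i) c % (p : ℤ) = 0)
    (hk : ∀ (k : Type) [Field k] [CharP k p] (u v : Fin 10 → k),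
      (∀ i, (∑ s, (mono (w i) s : k) * u s) * (∑ s, (mono (w i) s : k) * v s) = 0) → u = 0 ∨ v = 0)
    (u v : Fin 10 → ℂ) (c : (Fin 6 × Fin 6) × (Fin 6 × Fin 6) → ℂ)
    (hc : ∀ q : Fin 10 × Fin 10, u q.1 * v q.2 = ∑ a, c a * (L C a.1 * K C a.2) q.2 q.1) :
    u = 0 ∨ v = 0 := by
  obtain ⟨g, hg⟩ := exists_g' C
  have key : ∀ w : Fin 4 → ℤ, (∑ s, (mono w s : ℂ) * u s) * (∑ s, (mono w s : ℂ) * v s)
      = ∑ e, (∑ a, c a * (g a e : ℂ)) * (minor C w e : ℂ) := by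
    intro w
    have h1 := Dual26.uv_eval (K C) (L C) u v c hc (fun i => (mono w i : ℂ)) (fun j => (mono w j : ℂ))
    have h2 : (∑ s, (mono w s : ℂ) * u s) * (∑ s, (mono w s : ℂ) * v s)
        = (∑ i, u i * (mono w i : ℂ)) * (∑ j, v j * (mono w j : ℂ)) := by
      congr 1 <;> exact Finset.sum_congr rfl fun s _ => mul_comm _ _
    rw [h2, h1]
    simp only [kappa, hg]
    push_cast
    simp only [Finset.mul_sum, Finset.sum_mul]
    rw [Finset.sum_comm]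
    exact Finset.sum_congr rfl fun e _ => Finset.sum_congr rfl fun a _ => by ring
  exact Span43.pf_span p (fun j => mono (z j)) (fun j e => minor C (z j) e) Bi hB
    (fun i => mono (w i)) (fun i e => minor C (w i) e) hw hk u v
    (fun e => ∑ a, c a * (g a e : ℂ)) (fun j => key (z j)) (fun i => key (w i))

theorem s0541 (C : Fin 4 → Fin 6 → Fin 4 → ℤ)
    (hC : ∀ i j k l, ∑ r, C i r k * C j r l = ∑ r, C i r l * C j r k)
    (p : ℕ) [Fact p.Prime]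
    (z : Fin 15 → Fin 4 → ℤ) (Bi : Fin 15 → Fin 15 → ℤ)
    (hB : ∀ i c, ((∑ j, Bi i j * minor C (z j) c) - if i = c then 1 else 0) % (p : ℤ) = 0)
    (w : Fin 20 → Fin 4 → ℤ) (hw : ∀ i c, minor C (w i) c % (p : ℤ) = 0)
    (hk : ∀ (k : Type) [Field k] [CharP k p] (u v : Fin 10 → k),
      (∀ i, (∑ s, (mono (w i) s : k) * u s) * (∑ s, (mono (w i) s : k) * v s) = 0) → u = 0 ∨ v = 0)
    (hne : ∃ j i, L C j * K C i ≠ 0) :
    ∃ Φ₁ Φ₂ : Matrix (Fin 10) (Fin 10) ℂ → Matrix (Fin 10) (Fin 10) ℂ,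
      IsLinearMap ℂ Φ₁ ∧ IsLinearMap ℂ Φ₂ ∧ IsPPT Φ₁ ∧ IsPPT Φ₂ ∧
      choiMatrix (Φ₂ ∘ Φ₁) ≠ 0 ∧
      (∀ u v : Fin 10 → ℂ, (∃ w, (choiMatrix (Φ₂ ∘ Φ₁)).mulVec w = fun p => u p.1 * v p.2) →
        u = 0 ∨ v = 0) ∧
      ¬ IsEntanglementBreaking (Φ₂ ∘ Φ₁) :=
  Dual26.s0541_all (K C) (K C) (L C) (L C) (hK C hC) (hL C hC)
    (hPF C p z Bi hB w hw hk) hne

theorem s0540 (C : Fin 4 → Fin 6 → Fin 4 → ℤ)
    (hC : ∀ i j k l, ∑ r, C i r k * C j r l = ∑ r, C i r l * C j r k)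
    (p : ℕ) [Fact p.Prime]
    (z : Fin 15 → Fin 4 → ℤ) (Bi : Fin 15 → Fin 15 → ℤ)
    (hB : ∀ i c, ((∑ j, Bi i j * minor C (z j) c) - if i = c then 1 else 0) % (p : ℤ) = 0)
    (w : Fin 20 → Fin 4 → ℤ) (hw : ∀ i c, minor C (w i) c % (p : ℤ) = 0)
    (hk : ∀ (k : Type) [Field k] [CharP k p] (u v : Fin 10 → k),
      (∀ i, (∑ s, (mono (w i) s : k) * u s) * (∑ s, (mono (w i) s : k) * v s) = 0) → u = 0 ∨ v = 0)
    (hne : ∃ j i, L C j * K C i ≠ 0) :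
    ∃ Θ : Matrix (Fin 21) (Fin 21) ℂ → Matrix (Fin 21) (Fin 21) ℂ,
      IsChannel Θ ∧ IsPPT Θ ∧ ¬ IsEntanglementBreaking (Θ ∘ Θ) :=
  Dual26.s0540_all (K C) (K C) (L C) (L C) (hK C hC) (hL C hC)
    (hPF C p z Bi hB w hw hk) hne

theorem hne_of (C : Fin 4 → Fin 6 → Fin 4 → ℤ) (w : Fin 4 → ℤ) (a b c d : Fin 6)
    (h : lap C w a b c d ≠ 0) : ∃ j i, L C j * K C i ≠ 0 := by
  refine ⟨(c, d), (a, b), fun h0 => h ?_⟩
  have h1 := kappa C w ((c, d), (a, b))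
  simp only [h0, Matrix.zero_apply, mul_zero, Finset.sum_const_zero] at h1
  exact_mod_cast h1.symm

end Crest.Agent.P345.Asm87
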