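import Crest.Agent.P345.A55
set_option autoImplicit false
set_option linter.unusedSectionVars false
set_option linter.unusedSimpArgs false

namespace Crest.Agent.P345.A55
open Matrix Crest.Quantum Crest.Agent.P345Red

variable (C : Fin 4 → Fin 6 → Fin 4 → ℤ)

def Tn : Fin 15 → (Fin 4 → Fin 6) :=
  ![![0,1,2,3], ![0,1,2,4], ![0,1,2,5], ![0,1,3,4], ![0,1,3,5], ![0,1,4,5], ![0,2,3,4], ![0,2,3,5],
    ![0,2,4,5], ![0,3,4,5], ![1,2,3,4], ![1,2,3,5], ![1,2,4,5], ![1,3,4,5], ![2,3,4,5]]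

theorem Tn_surj : ∀ a b c d : Fin 6, a < b → b < c → c < d → ∃ k, Tn k = ![a, b, c, d] := by
  decide

theorem detspan (f : Fin 4 → Fin 6) :
    ∃ (k : Fin 15) (s : ℂ), ∀ w : Fin 4 → ℂ, Dt C f w = s * Dt C (Tn k) w := by
  by_cases hinj : Function.Injective f
  · let σ := Tuple.sort f
    have hmono : Monotone (f ∘ σ) := Tuple.monotone_sort f
    have hstrict : StrictMono (f ∘ σ) :=
      hmono.strictMono_of_injective (hinj.comp σ.injective)
    obtain ⟨k, hk⟩ := Tn_surj ((f ∘ σ) 0) ((f ∘ σ) 1) ((f ∘ σ) 2) ((f ∘ σ) 3)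
      (hstrict (by decide)) (hstrict (by decide)) (hstrict (by decide))
    have hk2 : Tn k = f ∘ σ := by
      rw [hk]
      ext i
      fin_cases i <;> rfl
    refine ⟨k, ((Equiv.Perm.sign σ : ℤ) : ℂ), fun w => ?_⟩
    have h1 : Dt C (Tn k) w = ((Equiv.Perm.sign σ : ℤ) : ℂ) * Dt C f w := by
      rw [hk2]
      unfold Dt
      have := Matrix.det_permute σ (Matrix.of fun i a => Aw C w (f i) a)
      exact this
    rw [h1, ← mul_assoc]
    have h2 : ((Equiv.Perm.sign σ : ℤ) : ℂ) * ((Equiv.Perm.sign σ : ℤ) : ℂ) = 1 := by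
      rcases Int.units_eq_one_or (Equiv.Perm.sign σ) with h | h <;> simp [h]
    rw [h2, one_mul]
  · rw [Function.Injective] at hinj
    push Not at hinj
    obtain ⟨i, j, hij, hne⟩ := hinj
    refine ⟨0, 0, fun w => ?_⟩
    rw [zero_mul]
    unfold Dt
    apply Matrix.det_zero_of_row_eq hne
    funext a
    simp [hij]

/-- pairing with `e_w ⊗ e_w` -/
def Q (X : Fin 10 × Fin 10 → ℂ) (w : Fin 4 → ℂ) : ℂ :=
  ∑ p : Fin 10 × Fin 10, X p * (ev w p.1 * ev w p.2)

theorem Q_LK (t r : Fin 6 × Fin 6) (w : Fin 4 → ℂ) :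
    Q (fun p => (L C t * K C r) p.2 p.1) w = 4 * Dt C ![r.1, r.2, t.1, t.2] w := by
  obtain ⟨t, u⟩ := t
  obtain ⟨r, s⟩ := r
  rw [← laplace, Q, Fintype.sum_prod_type]
  simp only [Matrix.mul_apply, L, K, Matrix.of_apply]
  calc ∑ x : Fin 10, ∑ x' : Fin 10, (∑ y, ((ep y * kap C (t, u) (cp y) x' : ℤ) : ℂ) *
        ((kap C (r, s) y x : ℤ) : ℂ)) * (ev w x * ev w x')
      = ∑ y, (ep y : ℂ) * ((∑ x, ((kap C (r, s) y x : ℤ) : ℂ) * ev w x) *
          (∑ x', ((kap C (t, u) (cp y) x' : ℤ) : ℂ) * ev w x')) := by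
        calc _ = ∑ x : Fin 10, ∑ x' : Fin 10, ∑ y, ((ep y * kap C (t, u) (cp y) x' : ℤ) : ℂ) *
              ((kap C (r, s) y x : ℤ) : ℂ) * (ev w x * ev w x') := by
              refine Finset.sum_congr rfl fun x _ => Finset.sum_congr rfl fun x' _ => ?_
              rw [Finset.sum_mul]
          _ = ∑ x : Fin 10, ∑ y, ∑ x' : Fin 10, ((ep y * kap C (t, u) (cp y) x' : ℤ) : ℂ) *
              ((kap C (r, s) y x : ℤ) : ℂ) * (ev w x * ev w x') := by
              refine Finset.sum_congr rfl fun x _ => ?_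
              rw [Finset.sum_comm]
          _ = ∑ y, ∑ x : Fin 10, ∑ x' : Fin 10, ((ep y * kap C (t, u) (cp y) x' : ℤ) : ℂ) *
              ((kap C (r, s) y x : ℤ) : ℂ) * (ev w x * ev w x') := by
              rw [Finset.sum_comm]
          _ = _ := by
              refine Finset.sum_congr rfl fun y _ => ?_
              rw [Finset.sum_mul_sum, Finset.mul_sum]
              refine Finset.sum_congr rfl fun x _ => ?_
              rw [Finset.mul_sum]
              refine Finset.sum_congr rfl fun x' _ => ?_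
              push_cast
              ring
    _ = _ := by
        simp only [kap_ev]
        rw [Finset.mul_sum]
        refine Finset.sum_congr rfl fun y _ => by ring

def qq (u : Fin 10 → ℂ) (w : Fin 4 → ℂ) : ℂ := ∑ x, u x * ev w x

theorem span_of (u v : Fin 10 → ℂ)
    (h : ∀ n : Fin 10 × Fin 10 → ℂ, (∀ j i, ∑ p : Fin 10 × Fin 10, n p * (L C j * K C i) p.2 p.1 = 0) →
      ∑ p : Fin 10 × Fin 10, n p * (u p.1 * v p.2) = 0) :
    ∃ lam : Fin 15 → ℂ, ∀ w : Fin 4 → ℂ, qq u w * qq v w = ∑ k, lam k * Dt C (Tn k) w := by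
  let g : (Fin 6 × Fin 6) × (Fin 6 × Fin 6) → (Fin 10 × Fin 10 → ℂ) :=
    fun ji p => (L C ji.1 * K C ji.2) p.2 p.1
  let P : Submodule ℂ (Fin 10 × Fin 10 → ℂ) := Submodule.span ℂ (Set.range g)
  have hmem : (fun p : Fin 10 × Fin 10 => u p.1 * v p.2) ∈ P := by
    by_contra hcon
    obtain ⟨φ, hφ1, hφ2⟩ := Submodule.exists_le_ker_of_notMem hcon
    have hrep : ∀ X : Fin 10 × Fin 10 → ℂ, φ X = ∑ p, φ (Pi.single p 1) * X p := by
      intro X
      conv_lhs => rw [← Finset.univ_sum_single X]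
      rw [map_sum]
      refine Finset.sum_congr rfl fun p _ => ?_
      have : (Pi.single p (X p) : Fin 10 × Fin 10 → ℂ) = X p • Pi.single p 1 := by
        rw [← Pi.single_smul]; simp
      rw [this, map_smul, smul_eq_mul, mul_comm]
    apply hφ1
    rw [hrep]
    apply h (fun p => φ (Pi.single p 1))
    intro j i
    have h1 : g (j, i) ∈ P := Submodule.subset_span ⟨(j, i), rfl⟩
    have h2 := hφ2 h1
    rw [LinearMap.mem_ker, hrep] at h2
    exact h2
  have hQ : ∀ X ∈ P, ∃ lam : Fin 15 → ℂ, ∀ w : Fin 4 → ℂ, Q X w = ∑ k, lam k * Dt C (Tn k) w := by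
    intro X hX
    induction hX using Submodule.span_induction with
    | mem X hX =>
      obtain ⟨⟨t, r⟩, rfl⟩ := hX
      obtain ⟨k, s, hs⟩ := detspan C ![r.1, r.2, t.1, t.2]
      refine ⟨Pi.single k (4 * s), fun w => ?_⟩
      have h1 := Q_LK C t r w
      rw [show Q (g (t, r)) w = Q (fun p => (L C t * K C r) p.2 p.1) w from rfl, h1, hs]
      rw [Finset.sum_eq_single k]
      · simp [mul_assoc]
      · intro b _ hb
        simp [hb]
      · simp
    | zero => exact ⟨0, fun w => by simp [Q]⟩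
    | add X Y _ _ hX hY =>
      obtain ⟨l1, h1⟩ := hX
      obtain ⟨l2, h2⟩ := hY
      refine ⟨l1 + l2, fun w => ?_⟩
      have : Q (X + Y) w = Q X w + Q Y w := by
        simp [Q, add_mul, Finset.sum_add_distrib]
      rw [this, h1, h2]
      simp [add_mul, Finset.sum_add_distrib]
    | smul c X _ hX =>
      obtain ⟨l1, h1⟩ := hX
      refine ⟨c • l1, fun w => ?_⟩
      have : Q (c • X) w = c * Q X w := by
        simp [Q, Finset.mul_sum, mul_assoc]
      rw [this, h1]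
      simp [Finset.mul_sum, mul_assoc]
  obtain ⟨lam, hlam⟩ := hQ _ hmem
  refine ⟨lam, fun w => ?_⟩
  rw [← hlam w, Q, qq, qq, Fintype.sum_prod_type, Finset.sum_mul_sum]
  refine Finset.sum_congr rfl fun x _ => Finset.sum_congr rfl fun y _ => by ring

end Crest.Agent.P345.A55
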