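import Crest.Agent.P345.B55
set_option autoImplicit false
set_option linter.unusedSectionVars false
set_option linter.unusedSimpArgs false

namespace Crest.Agent.P345.A55
open Matrix Crest.Quantum Crest.Agent.P345Red

variable (C : Fin 4 → Fin 6 → Fin 4 → ℤ)

theorem Aw_map {R S : Type*} [CommRing R] [CommRing S] (φ : R →+* S) (w : Fin 4 → R) (r : Fin 6)
    (a : Fin 4) : φ (Aw C w r a) = Aw C (fun i => φ (w i)) r a := by
  simp [Aw, map_sum]

theorem Dt_map {R S : Type*} [CommRing R] [CommRing S] (φ : R →+* S) (f : Fin 4 → Fin 6)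
    (w : Fin 4 → R) : φ (Dt C f w) = Dt C f (fun i => φ (w i)) := by
  unfold Dt
  rw [RingHom.map_det]
  congr 1
  ext i a
  simp [Aw_map]

theorem ev_map {R S : Type*} [CommRing R] [CommRing S] (φ : R →+* S)
    (w : Fin 4 → R) (x : Fin 10) : φ (ev w x) = ev (fun i => φ (w i)) x := by
  simp [ev]

/-- the arithmetic data -/
structure Data (p : ℕ) where
  /-- test points -/
  E : Fin 15 → Fin 4 → ℤ
  Inv : Fin 15 → Fin 15 → ℤ
  hInv : ∀ m l, (p : ℤ) ∣ (∑ k, Inv m k * Dt C (Tn l) (E k)) - (if m = l then 1 else 0)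
  W : Fin 20 → Fin 4 → ℤ
  hW : ∀ i k, (p : ℤ) ∣ Dt C (Tn k) (W i)

theorem int_point {p : ℕ} (lam : Fin 15 → ℂ) (B : ValuationSubring ℂ)
    (hB : ((p : ℕ) : ℂ) ∈ B.nonunits) (D : Data C p)
    (hval : ∀ k, (∑ l, lam l * ((Dt C (Tn l) (D.E k) : ℤ) : ℂ)) ∈ B) (m : Fin 15) : lam m ∈ B := by
  have hp1 : B.valuation (p : ℂ) < 1 := (ValuationSubring.mem_nonunits_iff B).1 hB
  obtain ⟨m0, hm0⟩ := Finite.exists_max (fun i => B.valuation (lam i))
  suffices h : B.valuation (lam m0) ≤ 1 by
    exact (B.valuation_le_one_iff _).1 ((hm0 m).trans h)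
  by_contra hcon
  push Not at hcon
  have hint : ∀ z : ℤ, B.valuation (z : ℂ) ≤ 1 := fun z =>
    (B.valuation_le_one_iff _).2 (intCast_mem B z)
  choose X hX using D.hInv
  have e1 : lam m0 = (∑ k, (D.Inv m0 k : ℂ) * ∑ l, lam l * ((Dt C (Tn l) (D.E k) : ℤ) : ℂ))
      - ∑ l, (p : ℂ) * (X m0 l : ℂ) * lam l := by
    have h1 : ∀ l, (∑ k, (D.Inv m0 k : ℂ) * ((Dt C (Tn l) (D.E k) : ℤ) : ℂ))
        - (p : ℂ) * (X m0 l : ℂ) = if m0 = l then 1 else 0 := by
      intro l
      have h2 := hX m0 l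
      have h3 : (∑ k, D.Inv m0 k * Dt C (Tn l) (D.E k)) - (p : ℤ) * X m0 l
          = if m0 = l then 1 else 0 := by linarith
      have h4 := congrArg (fun z : ℤ => (z : ℂ)) h3
      simp only [Int.cast_sub, Int.cast_sum, Int.cast_mul, Int.cast_natCast, Int.cast_ite,
        Int.cast_one, Int.cast_zero] at h4
      exact h4
    calc lam m0 = ∑ l, lam l * (if m0 = l then 1 else 0) := by simp
      _ = ∑ l, lam l * ((∑ k, (D.Inv m0 k : ℂ) * ((Dt C (Tn l) (D.E k) : ℤ) : ℂ))
        - (p : ℂ) * (X m0 l : ℂ)) := by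
          refine Finset.sum_congr rfl fun l _ => ?_
          rw [h1]
      _ = _ := by
          simp only [mul_sub, Finset.sum_sub_distrib, Finset.mul_sum]
          congr 1
          · rw [Finset.sum_comm]
            refine Finset.sum_congr rfl fun l _ => Finset.sum_congr rfl fun k _ => by ring
          · refine Finset.sum_congr rfl fun l _ => by ring
  have hsum : ∀ (s : Finset (Fin 15)) (f : Fin 15 → ℂ), (∀ k, B.valuation (f k) < B.valuation (lam m0)) →
      B.valuation (∑ k ∈ s, f k) < B.valuation (lam m0) := by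
    intro s f hf
    exact Valuation.map_sum_lt B.valuation (by
      intro h0; rw [h0] at hcon; exact absurd hcon (by simp)) (fun k _ => hf k)
  have h2 : B.valuation (lam m0) < B.valuation (lam m0) := by
    conv_lhs => rw [e1]
    refine lt_of_le_of_lt (Valuation.map_sub _ _ _) (max_lt ?_ ?_)
    · apply hsum
      intro k
      rw [map_mul]
      have hv : B.valuation (∑ l, lam l * ((Dt C (Tn l) (D.E k) : ℤ) : ℂ)) ≤ 1 :=
        (B.valuation_le_one_iff _).2 (hval k)
      exact lt_of_le_of_lt (mul_le_one' (hint _) hv) hcon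
    · apply hsum
      intro l
      rw [map_mul, map_mul]
      have h3 : B.valuation (p : ℂ) * B.valuation ((X m0 l : ℤ) : ℂ) < 1 :=
        lt_of_le_of_lt (mul_le_of_le_one_right' (hint _)) hp1
      calc B.valuation (p : ℂ) * B.valuation ((X m0 l : ℤ) : ℂ) * B.valuation (lam l)
          ≤ B.valuation (p : ℂ) * B.valuation ((X m0 l : ℤ) : ℂ) * B.valuation (lam m0) :=
            mul_le_mul_right (hm0 l) _
        _ < 1 * B.valuation (lam m0) := by
            apply mul_lt_mul_of_pos_right h3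
            exact lt_trans zero_lt_one hcon
        _ = B.valuation (lam m0) := one_mul _
  exact lt_irrefl _ h2

theorem hPF (p : ℕ) [hp : Fact p.Prime] (D : Data C p)
    (hmds : ∀ (k : Type) [Field k] [CharP k p] (u v : Fin 10 → k),
      (∀ i : Fin 20, (∑ x, ev (fun j => ((D.W i j : ℤ) : k)) x * u x) *
        (∑ x, ev (fun j => ((D.W i j : ℤ) : k)) x * v x) = 0) → u = 0 ∨ v = 0)
    (u v : Fin 10 → ℂ)
    (h : ∀ n : Fin 10 × Fin 10 → ℂ, (∀ j i, ∑ p : Fin 10 × Fin 10, n p * (L C j * K C i) p.2 p.1 = 0) →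
      ∑ p : Fin 10 × Fin 10, n p * (u p.1 * v p.2) = 0) : u = 0 ∨ v = 0 := by
  by_contra hcon
  push Not at hcon
  obtain ⟨hu, hv⟩ := hcon
  obtain ⟨lam, hlam⟩ := span_of C u v h
  obtain ⟨B, hB⟩ := P345Lift.exists_val p hp.out
  obtain ⟨c, a, hc, ha, i1, hi1⟩ := P345Lift.prim B u hu
  obtain ⟨d, b, hd, hb, i2, hi2⟩ := P345Lift.prim B v hv
  let mu : Fin 15 → ℂ := fun k => lam k / (c * d)
  have hmu : ∀ w : Fin 4 → ℂ, qq (fun x => (a x : ℂ)) w * qq (fun x => (b x : ℂ)) w
      = ∑ k, mu k * Dt C (Tn k) w := by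
    intro w
    have h1 := hlam w
    have h2 : qq u w = c * qq (fun x => (a x : ℂ)) w := by
      simp only [qq, Finset.mul_sum]
      refine Finset.sum_congr rfl fun x _ => by rw [ha]; ring
    have h3 : qq v w = d * qq (fun x => (b x : ℂ)) w := by
      simp only [qq, Finset.mul_sum]
      refine Finset.sum_congr rfl fun x _ => by rw [hb]; ring
    rw [h2, h3] at h1
    have h4 : ∑ k, mu k * Dt C (Tn k) w = (∑ k, lam k * Dt C (Tn k) w) / (c * d) := by
      rw [Finset.sum_div]
      refine Finset.sum_congr rfl fun k _ => by simp only [mu]; ring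
    rw [h4, ← h1]
    field_simp
  -- integer points
  have hqi : ∀ (a : Fin 10 → B) (w : Fin 4 → ℤ), qq (fun x => (a x : ℂ)) (fun j => (w j : ℂ)) =
      ((∑ x, a x * ev (fun j => ((w j : ℤ) : B)) x : B) : ℂ) := by
    intro a w
    have : ∀ x, ev (fun j => (w j : ℂ)) x = ((ev (fun j => ((w j : ℤ) : B)) x : B) : ℂ) := by
      intro x
      have := ev_map (B.subtype) (fun j => ((w j : ℤ) : B)) x
      simpa using this.symm
    simp [qq, this]
  have hDi : ∀ (f : Fin 4 → Fin 6) (w : Fin 4 → ℤ), Dt C f (fun j => (w j : ℂ)) = ((Dt C f w : ℤ) : ℂ) := by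
    intro f w
    exact (Dt_map C (Int.castRingHom ℂ) f w).symm
  have hint : ∀ m, mu m ∈ B := by
    apply int_point C mu B hB D
    intro k
    have h1 := hmu (fun j => ((D.E k j : ℤ) : ℂ))
    simp only [hDi, hqi] at h1
    rw [← h1]
    exact mul_mem (Subtype.mem _) (Subtype.mem _)
  have hres : (p : IsLocalRing.ResidueField B) = 0 := by
    have h1 : ((p : B)) ∈ IsLocalRing.maximalIdeal B := by
      have hB' : ((p : ℕ) : ℂ) ∈ (B.nonunits : Set ℂ) := hB
      rw [← B.image_maximalIdeal] at hB'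
      obtain ⟨x, hx, hx2⟩ := hB'
      have : x = (p : B) := Subtype.ext (by rw [hx2]; simp)
      rwa [← this]
    have h2 := (IsLocalRing.residue_eq_zero_iff (p : B)).2 h1
    simpa using h2
  have hchar : CharP (IsLocalRing.ResidueField B) p := by
    obtain ⟨q, hq⟩ := CharP.exists (IsLocalRing.ResidueField B)
    have h1 : q ∣ p := (CharP.cast_eq_zero_iff _ q p).1 hres
    rcases (Nat.dvd_prime hp.out).1 h1 with h2 | h2
    · subst h2
      exact absurd (CharP.char_ne_one (IsLocalRing.ResidueField B) 1) (by simp)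
    · rwa [h2] at hq
  let π := IsLocalRing.residue B
  have hzero : ∀ i : Fin 20, (∑ x, ev (fun j => ((D.W i j : ℤ) : IsLocalRing.ResidueField B)) x * π (a x)) *
        (∑ x, ev (fun j => ((D.W i j : ℤ) : IsLocalRing.ResidueField B)) x * π (b x)) = 0 := by
    intro i
    have h1 := hmu (fun j => ((D.W i j : ℤ) : ℂ))
    simp only [hDi, hqi] at h1
    choose Y hY using D.hW i
    have h2 : (∑ x, a x * ev (fun j => ((D.W i j : ℤ) : B)) x) *
        (∑ x, b x * ev (fun j => ((D.W i j : ℤ) : B)) x)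
        = (p : B) * ∑ k, (⟨mu k, hint k⟩ : B) * ((Y k : ℤ) : B) := by
      apply Subtype.ext
      push_cast
      have h3 : ((∑ x, a x * ev (fun j => ((D.W i j : ℤ) : B)) x : B) : ℂ) *
        ((∑ x, b x * ev (fun j => ((D.W i j : ℤ) : B)) x : B) : ℂ)
        = (p : ℂ) * ∑ k, mu k * ((Y k : ℤ) : ℂ) := by
        rw [h1, Finset.mul_sum]
        refine Finset.sum_congr rfl fun k _ => ?_
        rw [hY k]
        push_cast
        ring
      simpa using h3
    have h3 := congrArg π h2
    rw [map_mul, map_mul, map_natCast, hres, zero_mul] at h3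
    rw [← h3]
    have hev : ∀ x, π (ev (fun j => ((D.W i j : ℤ) : B)) x)
        = ev (fun j => ((D.W i j : ℤ) : IsLocalRing.ResidueField B)) x := by
      intro x
      rw [ev_map]
      simp
    simp only [map_sum, map_mul, hev]
    congr 1 <;> exact Finset.sum_congr rfl fun x _ => mul_comm _ _
  rcases hmds (IsLocalRing.ResidueField B) (fun x => π (a x)) (fun x => π (b x)) hzero with h5 | h5
  · have := congrFun h5 i1
    simp [hi1, π] at this
  · have := congrFun h5 i2
    simp [hi2, π] at this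

end Crest.Agent.P345.A55
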