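import Crest.Agent.P345Red
import Crest.Agent.P345HK34
import Crest.Agent.P345.Dual26b
import Crest.Agent.P345.Span43

set_option autoImplicit false
namespace Crest.Agent.P345.Ch16
open Matrix Crest.Quantum Crest.Agent.P345Red Crest.Agent.P345HK34

/-- pencil value -/
def Aw (C : Fin 4 → Fin 6 → Fin 4 → ℤ) (w : Fin 4 → ℤ) (r : Fin 6) (k : Fin 4) : ℤ :=
  w 0 * C 0 r k + w 1 * C 1 r k + w 2 * C 2 r k + w 3 * C 3 r k

def mm (A : Fin 6 → Fin 4 → ℤ) (e f : Fin 6) (a b : Fin 4) : ℤ := A e a * A f b - A e b * A f a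

def lap (A : Fin 6 → Fin 4 → ℤ) (e f c d : Fin 6) : ℤ :=
  mm A e f 2 3 * mm A c d 0 1 - mm A e f 1 3 * mm A c d 0 2 + mm A e f 1 2 * mm A c d 0 3
  + mm A e f 0 3 * mm A c d 1 2 - mm A e f 0 2 * mm A c d 1 3 + mm A e f 0 1 * mm A c d 2 3

def U0 : Fin 15 → Fin 6 := ![0,0,0,0,0,0,0,0,0,0,1,1,1,1,2]
def U1 : Fin 15 → Fin 6 := ![1,1,1,1,1,1,2,2,2,3,2,2,2,3,3]
def U2 : Fin 15 → Fin 6 := ![2,2,2,3,3,4,3,3,4,4,3,3,4,4,4]
def U3 : Fin 15 → Fin 6 := ![3,4,5,4,5,5,4,5,5,5,4,5,5,5,5]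

def minU (C : Fin 4 → Fin 6 → Fin 4 → ℤ) (w : Fin 4 → ℤ) (U : Fin 15) : ℤ :=
  lap (Aw C w) (U0 U) (U1 U) (U2 U) (U3 U)

/-- quadratic monomials -/
def sq (w : Fin 4 → ℤ) (s : Fin 10) : ℤ := w (ma s) * w (mb s)

theorem contr (C : Fin 4 → Fin 6 → Fin 4 → ℤ) (w : Fin 4 → ℤ) (c d : Fin 6) (y : Fin 10) :
    ∑ s, sq w s * Kz C (c, d) y s = mm (Aw C w) c d (pk y) (pl y) := by
  unfold sq Kz entry mm Aw
  simp only [Fin.sum_univ_succ, Fin.sum_univ_zero]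
  simp [ma, mb, Matrix.cons_val]
  ring

theorem compo (C : Fin 4 → Fin 6 → Fin 4 → ℤ) (w : Fin 4 → ℤ) (e f c d : Fin 6) :
    ∑ i, ∑ j, sq w i * sq w j * (∑ y, Lz C (e, f) j y * Kz C (c, d) y i)
      = lap (Aw C w) e f c d := by
  have h1 : ∀ y, ∑ i, ∑ j, sq w i * sq w j * (Lz C (e, f) j y * Kz C (c, d) y i)
      = sg y * (mm (Aw C w) e f (pk (co y)) (pl (co y)) * mm (Aw C w) c d (pk y) (pl y)) := by
    intro y
    rw [← contr, ← contr, Finset.sum_mul_sum, Finset.sum_comm, Finset.mul_sum]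
    refine Finset.sum_congr rfl fun j _ => ?_
    rw [Finset.mul_sum]
    refine Finset.sum_congr rfl fun i _ => ?_
    unfold Lz
    ring
  have h2 : ∑ i, ∑ j, sq w i * sq w j * (∑ y, Lz C (e, f) j y * Kz C (c, d) y i)
      = ∑ y, ∑ i, ∑ j, sq w i * sq w j * (Lz C (e, f) j y * Kz C (c, d) y i) := by
    simp only [Finset.mul_sum]
    exact (Finset.sum_congr rfl fun i _ => Finset.sum_comm).trans Finset.sum_comm
  rw [h2]
  simp only [h1]
  simp only [Fin.sum_univ_succ, Fin.sum_univ_zero]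
  simp [sg, co, pk, pl, Matrix.cons_val, lap]
  ring

theorem lap_det (A : Fin 6 → Fin 4 → ℤ) (r : Fin 4 → Fin 6) :
    lap A (r 0) (r 1) (r 2) (r 3) = Matrix.det (Matrix.of fun k a => A (r k) a) := by
  have a1 : Fin.succAbove (1 : Fin 4) 2 = 3 := by decide
  have a2 : Fin.succAbove (2 : Fin 4) 2 = 3 := by decide
  have a3 : Fin.succAbove (3 : Fin 4) 2 = 2 := by decide
  simp [Matrix.det_succ_row_zero, Fin.sum_univ_succ, lap, mm, a1, a2, a3]
  ring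

theorem dec' : ∀ a b c d : Fin 6, (decide (a < b) && decide (b < c) && decide (c < d)) = true →
    (List.finRange 15).any (fun U => decide (U0 U = a) && decide (U1 U = b) && decide (U2 U = c)
      && decide (U3 U = d)) = true := by decide +kernel

theorem dec (a b c d : Fin 6) (h1 : a < b) (h2 : b < c) (h3 : c < d) :
    ∃ U : Fin 15, U0 U = a ∧ U1 U = b ∧ U2 U = c ∧ U3 U = d := by
  have h := dec' a b c d (by simp [h1, h2, h3])
  rw [List.any_eq_true] at h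
  obtain ⟨U, _, hU⟩ := h
  simp only [Bool.and_eq_true, decide_eq_true_eq] at hU
  exact ⟨U, hU.1.1.1, hU.1.1.2, hU.1.2, hU.2⟩

theorem exU (r : Fin 4 → Fin 6) : ∃ U : Fin 15, ∃ ε : ℤ, ∀ A : Fin 6 → Fin 4 → ℤ,
    lap A (r 0) (r 1) (r 2) (r 3) = ε * lap A (U0 U) (U1 U) (U2 U) (U3 U) := by
  by_cases inj : Function.Injective r
  · have hm : StrictMono (r ∘ Tuple.sort r) :=
      (Tuple.monotone_sort r).strictMono_of_injective (inj.comp (Tuple.sort r).injective)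
    obtain ⟨U, h0, h1, h2, h3⟩ := dec _ _ _ _ (hm (show (0 : Fin 4) < 1 by decide))
      (hm (show (1 : Fin 4) < 2 by decide)) (hm (show (2 : Fin 4) < 3 by decide))
    refine ⟨U, ((Equiv.Perm.sign (Tuple.sort r) : ℤˣ) : ℤ), fun A => ?_⟩
    rw [h0, h1, h2, h3, lap_det A r, lap_det A (r ∘ Tuple.sort r)]
    have h := Matrix.det_permute (Tuple.sort r) (Matrix.of fun k a => A (r k) a)
    have h' : (Matrix.of fun k a => A ((r ∘ Tuple.sort r) k) a)
        = (Matrix.of fun k a => A (r k) a).submatrix (Tuple.sort r) id := rfl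
    rw [Int.cast_id] at h
    rw [h', h, ← mul_assoc]
    have hs : ((Equiv.Perm.sign (Tuple.sort r) : ℤ)) * (Equiv.Perm.sign (Tuple.sort r) : ℤ) = 1 := by
      rcases Int.units_eq_one_or (Equiv.Perm.sign (Tuple.sort r)) with h | h <;> rw [h] <;> simp
    rw [hs, one_mul]
  · refine ⟨0, 0, fun A => ?_⟩
    rw [lap_det A r, zero_mul]
    unfold Function.Injective at inj
    push Not at inj
    obtain ⟨i, j, hij, hne⟩ := inj
    exact Matrix.det_zero_of_row_eq hne (by ext a; simp [hij])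


theorem comp_entry (C : Fin 4 → Fin 6 → Fin 4 → ℤ) (j i : Fin 6 × Fin 6) (t s : Fin 10) :
    (L C j * K C i) t s = ((∑ y, Lz C j t y * Kz C i y s : ℤ) : ℂ) := by
  simp only [Matrix.mul_apply, L, K, Matrix.of_apply]
  push_cast
  rfl

theorem compo' (C : Fin 4 → Fin 6 → Fin 4 → ℤ) (w : Fin 4 → ℤ) (j i : Fin 6 × Fin 6) :
    ∑ a, ∑ b, (sq w a : ℂ) * (sq w b : ℂ) * (L C j * K C i) b a
      = ((lap (Aw C w) j.1 j.2 i.1 i.2 : ℤ) : ℂ) := by
  rw [← compo C w j.1 j.2 i.1 i.2]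
  simp only [comp_entry]
  push_cast
  rfl

theorem chain (C : Fin 4 → Fin 6 → Fin 4 → ℤ) (p : ℕ) [hp : Fact p.Prime]
    (zp : Fin 15 → Fin 4 → ℤ) (Bi : Fin 15 → Fin 15 → ℤ)
    (hB : ∀ i c, ((∑ j, Bi i j * minU C (zp j) c) - if i = c then 1 else 0) % (p : ℤ) = 0)
    (wp : Fin 20 → Fin 4 → ℤ) (hw : ∀ i c, minU C (wp i) c % (p : ℤ) = 0)
    (hk : ∀ (k : Type) [Field k] [CharP k p] (u v : Fin 10 → k),
      (∀ i, (∑ s, (sq (wp i) s : k) * u s) * (∑ s, (sq (wp i) s : k) * v s) = 0) →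
        u = 0 ∨ v = 0)
    (u v : Fin 10 → ℂ) (c : (Fin 6 × Fin 6) × (Fin 6 × Fin 6) → ℂ)
    (hc : ∀ q : Fin 10 × Fin 10, u q.1 * v q.2 = ∑ a, c a * (L C a.1 * K C a.2) q.2 q.1) :
    u = 0 ∨ v = 0 := by
  have hex : ∀ a : (Fin 6 × Fin 6) × (Fin 6 × Fin 6), ∃ U : Fin 15, ∃ ε : ℤ,
      ∀ A : Fin 6 → Fin 4 → ℤ, lap A a.1.1 a.1.2 a.2.1 a.2.2
        = ε * lap A (U0 U) (U1 U) (U2 U) (U3 U) := fun a => exU ![a.1.1, a.1.2, a.2.1, a.2.2]
  choose U ε hU using hex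
  let g : Fin 15 → ℂ := fun b => ∑ a, if U a = b then c a * (ε a : ℂ) else 0
  have key : ∀ w : Fin 4 → ℤ, (∑ s, (sq w s : ℂ) * u s) * (∑ s, (sq w s : ℂ) * v s)
      = ∑ b, g b * (minU C w b : ℂ) := by
    intro w
    have h1 := Dual26.uv_eval (K C) (L C) u v c hc (fun s => (sq w s : ℂ)) (fun s => (sq w s : ℂ))
    have e1 : (∑ s, (sq w s : ℂ) * u s) = ∑ s, u s * (sq w s : ℂ) :=
      Finset.sum_congr rfl fun s _ => mul_comm _ _
    have e2 : (∑ s, (sq w s : ℂ) * v s) = ∑ s, v s * (sq w s : ℂ) :=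
      Finset.sum_congr rfl fun s _ => mul_comm _ _
    rw [e1, e2, h1]
    simp only [compo', g, Finset.sum_mul]
    rw [Finset.sum_comm]
    refine Finset.sum_congr rfl fun a _ => ?_
    rw [Finset.sum_eq_single (U a)]
    · rw [if_pos rfl, hU a (Aw C w)]
      unfold minU
      push_cast
      ring
    · intro b _ hb
      rw [if_neg (fun h => hb h.symm), zero_mul]
    · intro h
      exact absurd (Finset.mem_univ _) h
  exact Span43.pf_span p (fun j => sq (zp j)) (fun j b => minU C (zp j) b) Bi hB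
    (fun i => sq (wp i)) (fun i b => minU C (wp i) b) hw hk u v g (fun j => key _) (fun i => key _)

theorem hne (C : Fin 4 → Fin 6 → Fin 4 → ℤ) (p : ℕ) [hp : Fact p.Prime]
    (zp : Fin 15 → Fin 4 → ℤ) (Bi : Fin 15 → Fin 15 → ℤ)
    (hB : ∀ i c, ((∑ j, Bi i j * minU C (zp j) c) - if i = c then 1 else 0) % (p : ℤ) = 0) :
    ∃ j i, L C j * K C i ≠ 0 := by
  by_contra hcon
  push Not at hcon
  have h0 : ∀ w b, minU C w b = 0 := by
    intro w b
    have h := compo' C w (U0 b, U1 b) (U2 b, U3 b)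
    rw [hcon] at h
    simp only [Matrix.zero_apply, mul_zero, Finset.sum_const_zero] at h
    exact_mod_cast h.symm
  have h1 := hB 0 0
  simp only [h0, mul_zero, Finset.sum_const_zero, if_true] at h1
  have h2 : (p : ℤ) ∣ (0 - 1) := Int.dvd_of_emod_eq_zero h1
  have h3 : (p : ℤ) ∣ 1 := by simpa using h2
  have h4 := Int.natAbs_dvd_natAbs.2 h3
  simp only [Int.natAbs_natCast, Int.natAbs_one, Nat.dvd_one] at h4
  exact hp.out.one_lt.ne' h4

end Crest.Agent.P345.Ch16
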