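import Crest.Agent.P345.Final50
import Crest.Agent.P345.Data

set_option autoImplicit false
set_option maxRecDepth 100000

/-! Row 345 (helper51): concrete checks for the data of `P345/Data.lean` (`p = 60041`). -/

namespace Crest.Agent.P345.Chk51

open Matrix Crest.Agent.P345Red Crest.Agent.P345HK34 Crest.Agent.P345.Lap50

def C (i : Fin 4) (r : Fin 6) (k : Fin 4) : ℤ :=
  ((Data.C.getD i.val []).getD r.val []).getD k.val 0

def pt (i : Fin 20) (c : Fin 4) : ℤ := (((Data.w.getD i.val []).getD c.val 0 : ℕ) : ℤ)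
def vt (i : Fin 20) (c : Fin 4) : ℤ := (((Data.v.getD i.val []).getD c.val 0 : ℕ) : ℤ)
def z (i : Fin 15) (c : Fin 4) : ℤ := (((Data.z.getD i.val []).getD c.val 0 : ℕ) : ℤ)

def Tl : List (List Int) :=
  [[37849, 57359, 3967, 24942, 30758, 34414, 11392, 33515, 22715, 30657, 2317, 20768, 13803, 34029, 44116], [41545, 22232, 43504, 51604, 37044, 9226, 464, 59546, 37498, 6842, 46241, 15680, 49455, 13066, 21089], [0, 0, 0, 0, 0, 0, 0, 0, 0, 0, 40422, 40370, 15723, 47745, 16601], [1, 0, 0, 0, 0, 0, 0, 0, 0, 0, 0, 0, 0, 0, 0], [24663, 52345, 53121, 45219, 2753, 55790, 5300, 40306, 3553, 55515, 29803, 33419, 21962, 43225, 49103], [10320, 4286, 8309, 33912, 16482, 54453, 55542, 18056, 59951, 12586, 13253, 49345, 1835, 36645, 11170], [56676, 19529, 21074, 51912, 16096, 53196, 31004, 49524, 48068, 27420, 59162, 2689, 53151, 16976, 15049], [32871, 57810, 6187, 44519, 28008, 53538, 16030, 17202, 52879, 38276, 47504, 3704, 8178, 1563,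 18437], [680, 14570, 29581, 27301, 48858, 2348, 3827, 24160, 41001, 20970, 59381, 3612, 33701, 50105, 50488], [14859, 42195, 45577, 39584, 25100, 22076, 39483, 49568, 4693, 33621, 59283, 54109, 49396, 57455, 1729], [34874, 15423, 40040, 16132, 14073, 1966, 44746, 26872, 15069, 5289, 33556, 54668, 52805, 15280, 29818], [9964, 3260, 33409, 21831, 19988, 29844, 26909, 22826, 3900, 27233, 29331, 51452, 42782, 41961, 51766], [46911, 1894, 58630, 14123, 31401, 54986, 31040, 59989, 38385, 4481, 38501, 15599, 57115, 10849, 37791], [29781, 49892, 39840, 8751, 37037, 11338, 49735, 2776, 25252, 33723, 57492, 59059, 27859, 43933, 14186], [2169, 2758, 46531, 12486, 24133, 44043, 41321, 813, 29013, 19887, 58323, 46472, 58190, 13308, 35208]]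

def Bl : List (List Int) :=
  [[0, 7222, 34861, 27665, 24891, 7813, 2192, 22829, 10778, 53439, 15898, 41696, 1390, 47211, 55126], [0, 21387, 15423, 7238, 34821, 45723, 2194, 18838, 22059, 2353, 57031, 4488, 1229, 12144, 6832], [0, 58536, 16026, 4280, 12134, 20357, 36283, 8398, 1297, 30478, 25582, 51289, 20382, 44888, 37625], [1, 2920, 230, 28361, 23734, 28926, 53088, 50649, 39981, 39946, 17546, 40349, 54467, 5731, 56316], [0, 46687, 17130, 42286, 4664, 3766, 38601, 20992, 43063, 41821, 31929, 14066, 58851, 35760, 16628], [0, 34008, 57392, 14540, 14272, 54654, 25994, 45178, 10354, 9586, 55820, 40200, 51013, 39563, 57049], [0, 47074, 36722, 1981, 7646, 22228, 5492, 804, 54001, 51436, 28797, 1637, 3169, 1475, 22674], [0, 15211, 361, 55346, 58289, 28450, 2326, 44475, 51522, 13614, 59241, 7510, 8970, 38673, 16666], [0, 34070, 44319, 6816, 44502, 9479, 12137, 57285, 29585, 14591, 44618, 53372, 52592, 2958, 39429], [0, 35339,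 1795, 43527, 55048, 43885, 20451, 22751, 6055, 54609, 15325, 15057, 21390, 37019, 29185], [0, 46232, 41292, 16051, 10759, 59811, 15554, 7219, 19165, 25334, 59440, 34179, 1340, 35862, 26796], [0, 45391, 53427, 5650, 7761, 53673, 48429, 56281, 24145, 27730, 23995, 33678, 20864, 39480, 24485], [0, 46146, 15718, 26033, 40024, 6252, 2919, 42467, 34547, 9281, 31377, 50055, 1628, 36952, 25629], [0, 9965, 11752, 15310, 12181, 56252, 59102, 19171, 41333, 32616, 27594, 8780, 53385, 23551, 57098], [0, 24370, 30152, 24393, 44136, 458, 49734, 10537, 48339, 17714, 14459, 40997, 44767, 6203, 46650]]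

def T (r t : Fin 15) : ℤ := (Tl.getD r.val []).getD t.val 0
def B (r s : Fin 15) : ℤ := (Bl.getD r.val []).getD s.val 0

theorem hC : ∀ i j k l, ∑ r, C i r k * C j r l = ∑ r, C i r l * C j r k := by
  decide +kernel

theorem hv : ∀ i, vt i 3 = 1 := by decide +kernel

def AZ (w : Fin 4 → ℤ) (r : Fin 6) (k : Fin 4) : ℤ :=
  w 0 * C 0 r k + w 1 * C 1 r k + w 2 * C 2 r k + w 3 * C 3 r k

theorem AZ_eq (w : Fin 4 → ℤ) (r : Fin 6) (k : Fin 4) : Aw C w r k = AZ w r k := by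
  simp [Aw, AZ, Fin.sum_univ_four]

theorem hpt0 : ∀ i r, (60041 : ℤ) ∣ AZ (pt i) r 0 * vt i 0 + AZ (pt i) r 1 * vt i 1
    + AZ (pt i) r 2 * vt i 2 + AZ (pt i) r 3 * vt i 3 := by
  decide +kernel

theorem hpt : ∀ i r, ((60041 : ℕ) : ℤ) ∣ ∑ k, Aw C (pt i) r k * vt i k := by
  intro i r
  have := hpt0 i r
  simpa [Fin.sum_univ_four, AZ_eq] using this

/-- Laplace expansion by the first two rows -/
def D4 (w : Fin 4 → ℤ) (f : Fin 4 → Fin 6) : ℤ :=
  (AZ w (f 0) 0 * AZ w (f 1) 1 - AZ w (f 0) 1 * AZ w (f 1) 0) * (AZ w (f 2) 2 * AZ w (f 3) 3 - AZ w (f 2) 3 * AZ w (f 3) 2)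
  - (AZ w (f 0) 0 * AZ w (f 1) 2 - AZ w (f 0) 2 * AZ w (f 1) 0) * (AZ w (f 2) 1 * AZ w (f 3) 3 - AZ w (f 2) 3 * AZ w (f 3) 1)
  + (AZ w (f 0) 0 * AZ w (f 1) 3 - AZ w (f 0) 3 * AZ w (f 1) 0) * (AZ w (f 2) 1 * AZ w (f 3) 2 - AZ w (f 2) 2 * AZ w (f 3) 1)
  + (AZ w (f 0) 1 * AZ w (f 1) 2 - AZ w (f 0) 2 * AZ w (f 1) 1) * (AZ w (f 2) 0 * AZ w (f 3) 3 - AZ w (f 2) 3 * AZ w (f 3) 0)
  - (AZ w (f 0) 1 * AZ w (f 1) 3 - AZ w (f 0) 3 * AZ w (f 1) 1) * (AZ w (f 2) 0 * AZ w (f 3) 2 - AZ w (f 2) 2 * AZ w (f 3) 0)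
  + (AZ w (f 0) 2 * AZ w (f 1) 3 - AZ w (f 0) 3 * AZ w (f 1) 2) * (AZ w (f 2) 0 * AZ w (f 3) 1 - AZ w (f 2) 1 * AZ w (f 3) 0)

theorem D4_eq (w : Fin 4 → ℤ) (f : Fin 4 → Fin 6) : Mn C w f = D4 w f := by
  rw [Mn, Matrix.det_succ_row_zero]
  simp only [Matrix.det_fin_three, Fin.sum_univ_four, Matrix.submatrix_apply, Matrix.of_apply, AZ_eq, D4]
  simp [Fin.succAbove]
  ring

theorem hT : ∀ r t : Fin 15, (60041 : ℤ) ∣ D4 (z r) (tab t) - T r t := by
  decide +kernel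

theorem hB0 : ∀ t s : Fin 15, (60041 : ℤ) ∣ ∑ r, T r t * B r s - (if t = s then 1 else 0) := by
  decide +kernel

theorem hB : ∀ t s : Fin 15, ((60041 : ℕ) : ℤ) ∣
    ∑ r, Mn C (z r) (tab t) * B r s - (if t = s then 1 else 0) := by
  intro t s
  have h1 := hB0 t s
  have h2 : (60041 : ℤ) ∣ ∑ r, (D4 (z r) (tab t) - T r t) * B r s :=
    Finset.dvd_sum fun r _ => Dvd.dvd.mul_right (hT r t) _
  have h3 := dvd_add h1 h2
  have h4 : (∑ r, T r t * B r s - (if t = s then 1 else 0) : ℤ)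
      + ∑ r, (D4 (z r) (tab t) - T r t) * B r s
      = ∑ r, Mn C (z r) (tab t) * B r s - (if t = s then 1 else 0) := by
    have h5 : ∑ r, (D4 (z r) (tab t) - T r t) * B r s
        = ∑ r, D4 (z r) (tab t) * B r s - ∑ r, T r t * B r s := by
      rw [← Finset.sum_sub_distrib]
      exact Finset.sum_congr rfl fun r _ => by ring
    rw [h5]
    simp only [D4_eq]
    ring
  rw [h4] at h3
  exact h3

theorem hne0 : ∃ m m' : Fin 10, (∑ y : Fin 10, Lz C (0, 1) m y * Kz C (2, 3) y m') ≠ 0 := by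
  decide +kernel

theorem hne : ∃ j i, L C j * K C i ≠ 0 := by
  obtain ⟨m, m', h⟩ := hne0
  refine ⟨(0, 1), (2, 3), fun h0 => h ?_⟩
  have h1 := congrFun (congrFun h0 m) m'
  simp only [Matrix.mul_apply, L, K, Matrix.of_apply, Matrix.zero_apply] at h1
  exact_mod_cast h1

end Crest.Agent.P345.Chk51
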