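import Crest.Agent.P345.Final50
import Crest.Agent.P345.Data

set_option autoImplicit false
set_option maxRecDepth 100000

/-! Row 345: concrete checks for `Data` (p = 60041) (helper50). -/

namespace Crest.Agent.P345.Conc50

open Crest.Agent.P345Red Crest.Agent.P345HK34 Crest.Agent.P345.Lap50

/-- entry lookup -/
def C (j : Fin 4) (r : Fin 6) (k : Fin 4) : ℤ := ((Data.C.getD j []).getD r []).getD k 0
def pt (i : Fin 20) (c : Fin 4) : ℤ := (((Data.w.getD i []).getD c 0 : ℕ) : ℤ)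
def vt (i : Fin 20) (c : Fin 4) : ℤ := (((Data.v.getD i []).getD c 0 : ℕ) : ℤ)
def z (i : Fin 15) (c : Fin 4) : ℤ := (((Data.z.getD i []).getD c 0 : ℕ) : ℤ)

def Tl : List (List ℕ) := [[37849, 41545, 0, 1, 24663, 10320, 56676, 32871, 680, 14859, 34874, 9964, 46911, 29781, 2169], [57359, 22232, 0, 0, 52345, 4286, 19529, 57810, 14570, 42195, 15423, 3260, 1894, 49892, 2758], [3967, 43504, 0, 0, 53121, 8309, 21074, 6187, 29581, 45577, 40040, 33409, 58630, 39840, 46531], [24942, 51604, 0, 0, 45219, 33912, 51912, 44519, 27301, 39584, 16132, 21831, 14123, 8751, 12486], [30758, 37044, 0, 0, 2753, 16482, 16096, 28008, 48858, 25100, 14073, 19988, 31401, 37037, 24133], [34414, 9226, 0, 0, 55790, 54453, 53196, 53538, 2348, 22076, 1966, 29844, 54986, 11338, 44043], [11392, 464, 0, 0, 5300, 55542, 31004, 16030, 3827, 39483, 44746, 26909, 31040, 49735, 41321], [33515, 59546, 0, 0, 40306, 18056, 49524, 17202, 24160, 49568, 26872, 22826,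 59989, 2776, 813], [22715, 37498, 0, 0, 3553, 59951, 48068, 52879, 41001, 4693, 15069, 3900, 38385, 25252, 29013], [30657, 6842, 0, 0, 55515, 12586, 27420, 38276, 20970, 33621, 5289, 27233, 4481, 33723, 19887], [2317, 46241, 40422, 0, 29803, 13253, 59162, 47504, 59381, 59283, 33556, 29331, 38501, 57492, 58323], [20768, 15680, 40370, 0, 33419, 49345, 2689, 3704, 3612, 54109, 54668, 51452, 15599, 59059, 46472], [13803, 49455, 15723, 0, 21962, 1835, 53151, 8178, 33701, 49396, 52805, 42782, 57115, 27859, 58190], [34029, 13066, 47745, 0, 43225, 36645, 16976, 1563, 50105, 57455, 15280, 41961, 10849, 43933, 13308], [44116, 21089, 16601, 0, 49103, 11170, 15049, 18437, 50488, 1729, 29818, 51766, 37791, 14186, 35208]]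
def Bl : List (List ℕ) := [[0, 7222, 34861, 27665, 24891, 7813, 2192, 22829, 10778, 53439, 15898, 41696, 1390, 47211, 55126], [0, 21387, 15423, 7238, 34821, 45723, 2194, 18838, 22059, 2353, 57031, 4488, 1229, 12144, 6832], [0, 58536, 16026, 4280, 12134, 20357, 36283, 8398, 1297, 30478, 25582, 51289, 20382, 44888, 37625], [1, 2920, 230, 28361, 23734, 28926, 53088, 50649, 39981, 39946, 17546, 40349, 54467, 5731, 56316], [0, 46687, 17130, 42286, 4664, 3766, 38601, 20992, 43063, 41821, 31929, 14066, 58851, 35760, 16628], [0, 34008, 57392, 14540, 14272, 54654, 25994, 45178, 10354, 9586, 55820, 40200, 51013, 39563, 57049], [0, 47074, 36722, 1981, 7646, 22228, 5492, 804, 54001, 51436, 28797, 1637, 3169, 1475, 22674], [0, 15211, 361, 55346, 58289, 28450, 2326, 44475, 51522, 13614, 59241, 7510, 8970, 38673, 16666], [0, 34070, 44319, 6816, 44502, 9479, 12137, 57285, 29585, 14591, 44618, 53372, 52592, 2958, 39429], [0, 35339, 1795,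 43527, 55048, 43885, 20451, 22751, 6055, 54609, 15325, 15057, 21390, 37019, 29185], [0, 46232, 41292, 16051, 10759, 59811, 15554, 7219, 19165, 25334, 59440, 34179, 1340, 35862, 26796], [0, 45391, 53427, 5650, 7761, 53673, 48429, 56281, 24145, 27730, 23995, 33678, 20864, 39480, 24485], [0, 46146, 15718, 26033, 40024, 6252, 2919, 42467, 34547, 9281, 31377, 50055, 1628, 36952, 25629], [0, 9965, 11752, 15310, 12181, 56252, 59102, 19171, 41333, 32616, 27594, 8780, 53385, 23551, 57098], [0, 24370, 30152, 24393, 44136, 458, 49734, 10537, 48339, 17714, 14459, 40997, 44767, 6203, 46650]]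
def T (t r : Fin 15) : ℤ := (((Tl.getD t []).getD r 0 : ℕ) : ℤ)
def B (r s : Fin 15) : ℤ := (((Bl.getD r []).getD s 0 : ℕ) : ℤ)

/-- explicit 4x4 determinant -/
def d4 (a b c d e f g h i j k l m n o q : ℤ) : ℤ :=
  (a * f - b * e) * (k * q - l * o) - (a * g - c * e) * (j * q - l * n)
  + (a * h - d * e) * (j * o - k * n) + (b * g - c * f) * (i * q - l * m)
  - (b * h - d * f) * (i * o - k * m) + (c * h - d * g) * (i * n - j * m)

def Ax (w : Fin 4 → ℤ) (r : Fin 6) (k : Fin 4) : ℤ :=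
  w 0 * C 0 r k + (w 1 * C 1 r k + (w 2 * C 2 r k + w 3 * C 3 r k))

theorem Ax_eq (w : Fin 4 → ℤ) (r : Fin 6) (k : Fin 4) : Aw C w r k = Ax w r k := by
  simp only [Aw, Ax, Fin.sum_univ_four, Int.cast_id]; ring

theorem Mn_eq (w : Fin 4 → ℤ) (f : Fin 4 → Fin 6) : Mn C w f =
    d4 (Ax w (f 0) 0) (Ax w (f 0) 1) (Ax w (f 0) 2) (Ax w (f 0) 3)
       (Ax w (f 1) 0) (Ax w (f 1) 1) (Ax w (f 1) 2) (Ax w (f 1) 3)
       (Ax w (f 2) 0) (Ax w (f 2) 1) (Ax w (f 2) 2) (Ax w (f 2) 3)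
       (Ax w (f 3) 0) (Ax w (f 3) 1) (Ax w (f 3) 2) (Ax w (f 3) 3) := by
  rw [Mn, Matrix.det_succ_row_zero]
  simp only [Matrix.det_fin_three, Fin.sum_univ_succ, Fin.sum_univ_zero]
  simp [Fin.succAbove, Ax_eq, d4]
  ring

theorem hC0 : ∀ i j k l : Fin 4,
    (C i 0 k * C j 0 l + (C i 1 k * C j 1 l + (C i 2 k * C j 2 l + (C i 3 k * C j 3 l +
      (C i 4 k * C j 4 l + C i 5 k * C j 5 l))))) =
    (C i 0 l * C j 0 k + (C i 1 l * C j 1 k + (C i 2 l * C j 2 k + (C i 3 l * C j 3 k +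
      (C i 4 l * C j 4 k + C i 5 l * C j 5 k))))) := by
  decide +kernel

theorem hC (i j k l : Fin 4) : ∑ r, C i r k * C j r l = ∑ r, C i r l * C j r k := by
  have := hC0 i j k l
  rw [Fin.sum_univ_six, Fin.sum_univ_six]
  linarith

theorem hv : ∀ i, vt i 3 = 1 := by decide +kernel

theorem hpt0 : ∀ (i : Fin 20) (r : Fin 6),
    (Ax (pt i) r 0 * vt i 0 + (Ax (pt i) r 1 * vt i 1 + (Ax (pt i) r 2 * vt i 2 +
      Ax (pt i) r 3 * vt i 3))) % 60041 = 0 := by
  decide +kernel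

theorem hpt (i : Fin 20) (r : Fin 6) :
    ((60041 : ℕ) : ℤ) ∣ ∑ k, Aw C (pt i) r k * vt i k := by
  have h := Int.dvd_of_emod_eq_zero (hpt0 i r)
  rw [Fin.sum_univ_four]
  simp only [Ax_eq]
  have e : Ax (pt i) r 0 * vt i 0 + Ax (pt i) r 1 * vt i 1 + Ax (pt i) r 2 * vt i 2 +
      Ax (pt i) r 3 * vt i 3 = Ax (pt i) r 0 * vt i 0 + (Ax (pt i) r 1 * vt i 1 +
      (Ax (pt i) r 2 * vt i 2 + Ax (pt i) r 3 * vt i 3)) := by ring
  rw [e]; exact_mod_cast h

theorem hT0 : ∀ (t r : Fin 15),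
    (d4 (Ax (z r) (tab t 0) 0) (Ax (z r) (tab t 0) 1) (Ax (z r) (tab t 0) 2) (Ax (z r) (tab t 0) 3)
       (Ax (z r) (tab t 1) 0) (Ax (z r) (tab t 1) 1) (Ax (z r) (tab t 1) 2) (Ax (z r) (tab t 1) 3)
       (Ax (z r) (tab t 2) 0) (Ax (z r) (tab t 2) 1) (Ax (z r) (tab t 2) 2) (Ax (z r) (tab t 2) 3)
       (Ax (z r) (tab t 3) 0) (Ax (z r) (tab t 3) 1) (Ax (z r) (tab t 3) 2) (Ax (z r) (tab t 3) 3)
      - T t r) % 60041 = 0 := by
  decide +kernel

theorem hTB0 : ∀ (t s : Fin 15),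
    (T t 0 * B 0 s + (T t 1 * B 1 s + (T t 2 * B 2 s + (T t 3 * B 3 s + (T t 4 * B 4 s +
      (T t 5 * B 5 s + (T t 6 * B 6 s + (T t 7 * B 7 s + (T t 8 * B 8 s + (T t 9 * B 9 s +
      (T t 10 * B 10 s + (T t 11 * B 11 s + (T t 12 * B 12 s + (T t 13 * B 13 s +
      T t 14 * B 14 s))))))))))))) - (if t = s then 1 else 0)) % 60041 = 0 := by
  decide +kernel

theorem hB (t s : Fin 15) : ((60041 : ℕ) : ℤ) ∣
    ∑ r, Mn C (z r) (tab t) * B r s - (if t = s then 1 else 0) := by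
  have h1 : ∀ r, ((60041 : ℕ) : ℤ) ∣ Mn C (z r) (tab t) * B r s - T t r * B r s := by
    intro r
    rw [← sub_mul, Mn_eq]
    exact Dvd.dvd.mul_right (by exact_mod_cast Int.dvd_of_emod_eq_zero (hT0 t r)) _
  have h2 : ((60041 : ℕ) : ℤ) ∣ ∑ r, T t r * B r s - (if t = s then 1 else 0) := by
    have h := Int.dvd_of_emod_eq_zero (hTB0 t s)
    have e : ∑ r, T t r * B r s = T t 0 * B 0 s + (T t 1 * B 1 s + (T t 2 * B 2 s +
      (T t 3 * B 3 s + (T t 4 * B 4 s +
      (T t 5 * B 5 s + (T t 6 * B 6 s + (T t 7 * B 7 s + (T t 8 * B 8 s + (T t 9 * B 9 s +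
      (T t 10 * B 10 s + (T t 11 * B 11 s + (T t 12 * B 12 s + (T t 13 * B 13 s +
      T t 14 * B 14 s))))))))))))) := by
      simp only [Fin.sum_univ_succ, Fin.sum_univ_zero, add_zero]
      rfl
    rw [e]; exact_mod_cast h
  have h3 : ∑ r, Mn C (z r) (tab t) * B r s - (if t = s then (1 : ℤ) else 0)
      = ∑ r, (Mn C (z r) (tab t) * B r s - T t r * B r s)
        + (∑ r, T t r * B r s - (if t = s then 1 else 0)) := by
    rw [Finset.sum_sub_distrib]; ring
  rw [h3]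
  exact dvd_add (Finset.dvd_sum fun r _ => h1 r) h2

end Crest.Agent.P345.Conc50
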