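import Mathlib
set_option autoImplicit false
namespace Crest.Agent.P345.D55
def InvL : List (List Int) := [[0, 0, 0, 1, 0, 0, 0, 0, 0, 0, 0, 0, 0, 0, 0], [7222, 21387, 58536, 2920, 46687, 34008, 47074, 15211, 34070, 35339, 46232, 45391, 46146, 9965, 24370], [34861, 15423, 16026, 230, 17130, 57392, 36722, 361, 44319, 1795, 41292, 53427, 15718, 11752, 30152], [27665, 7238, 4280, 28361, 42286, 14540, 1981, 55346, 6816, 43527, 16051, 5650, 26033, 15310, 24393], [24891, 34821, 12134, 23734, 4664, 14272, 7646, 58289, 44502, 55048, 10759, 7761, 40024, 12181, 44136], [7813, 45723, 20357, 28926, 3766, 54654, 22228, 28450, 9479, 43885, 59811, 53673, 6252, 56252, 458], [2192, 2194, 36283, 53088, 38601, 25994, 5492, 2326, 12137, 20451, 15554, 48429, 2919, 59102, 49734], [22829, 18838, 8398, 50649, 20992, 45178, 804, 44475, 57285, 22751, 7219, 56281, 42467, 19171, 10537], [10778, 22059, 1297, 39981, 43063, 10354, 54001, 51522, 29585, 6055, 19165, 24145, 34547, 41333, 48339], [53439, 2353, 30478, 39946, 41821, 9586, 51436,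 13614, 14591, 54609, 25334, 27730, 9281, 32616, 17714], [15898, 57031, 25582, 17546, 31929, 55820, 28797, 59241, 44618, 15325, 59440, 23995, 31377, 27594, 14459], [41696, 4488, 51289, 40349, 14066, 40200, 1637, 7510, 53372, 15057, 34179, 33678, 50055, 8780, 40997], [1390, 1229, 20382, 54467, 58851, 51013, 3169, 8970, 52592, 21390, 1340, 20864, 1628, 53385, 44767], [47211, 12144, 44888, 5731, 35760, 39563, 1475, 38673, 2958, 37019, 35862, 39480, 36952, 23551, 6203], [55126, 6832, 37625, 56316, 16628, 57049, 22674, 16666, 39429, 29185, 26796, 24485, 25629, 57098, 46650]]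
def DL : List (List Int) := [[37849, 57359, 3967, 24942, 30758, 34414, 11392, 33515, 22715, 30657, 2317, 20768, 13803, 34029, 44116], [41545, 22232, 43504, 51604, 37044, 9226, 464, 59546, 37498, 6842, 46241, 15680, 49455, 13066, 21089], [0, 0, 0, 0, 0, 0, 0, 0, 0, 0, 40422, 40370, 15723, 47745, 16601], [1, 0, 0, 0, 0, 0, 0, 0, 0, 0, 0, 0, 0, 0, 0], [24663, 52345, 53121, 45219, 2753, 55790, 5300, 40306, 3553, 55515, 29803, 33419, 21962, 43225, 49103], [10320, 4286, 8309, 33912, 16482, 54453, 55542, 18056, 59951, 12586, 13253, 49345, 1835, 36645, 11170], [56676, 19529, 21074, 51912, 16096, 53196, 31004, 49524, 48068, 27420, 59162, 2689, 53151, 16976, 15049], [32871, 57810, 6187, 44519, 28008, 53538, 16030, 17202, 52879, 38276, 47504, 3704, 8178, 1563, 18437], [680, 14570, 29581, 27301, 48858, 2348, 3827, 24160, 41001, 20970, 59381, 3612, 33701, 50105, 50488], [14859, 42195, 45577, 39584, 25100, 22076, 39483, 49568, 4693, 33621, 59283, 54109, 49396, 57455, 1729], [34874, 15423, 40040, 16132, 14073, 1966, 44746,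 26872, 15069, 5289, 33556, 54668, 52805, 15280, 29818], [9964, 3260, 33409, 21831, 19988, 29844, 26909, 22826, 3900, 27233, 29331, 51452, 42782, 41961, 51766], [46911, 1894, 58630, 14123, 31401, 54986, 31040, 59989, 38385, 4481, 38501, 15599, 57115, 10849, 37791], [29781, 49892, 39840, 8751, 37037, 11338, 49735, 2776, 25252, 33723, 57492, 59059, 27859, 43933, 14186], [2169, 2758, 46531, 12486, 24133, 44043, 41321, 813, 29013, 19887, 58323, 46472, 58190, 13308, 35208]]
end Crest.Agent.P345.D55
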