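import Crest.Agent.P345.C55
import Crest.Agent.P345.Data
import Crest.Agent.P345.Inv55
set_option autoImplicit false
set_option maxRecDepth 100000
set_option maxHeartbeats 0
set_option linter.unusedSimpArgs false

namespace Crest.Agent.P345.D55
open Matrix Crest.Quantum Crest.Agent.P345Red Crest.Agent.P345.A55

def CC (i : Fin 4) (r : Fin 6) (a : Fin 4) : ℤ :=
  ((Data.C.getD (i : ℕ) []).getD (r : ℕ) []).getD (a : ℕ) 0
def WW (i : Fin 20) (j : Fin 4) : ℤ := (((Data.w.getD (i : ℕ) []).getD (j : ℕ) 0 : ℕ) : ℤ)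
def EE (i : Fin 15) (j : Fin 4) : ℤ := (((Data.z.getD (i : ℕ) []).getD (j : ℕ) 0 : ℕ) : ℤ)
def IV (m k : Fin 15) : ℤ := (InvL.getD (m : ℕ) []).getD (k : ℕ) 0
def DD (m k : Fin 15) : ℤ := (DL.getD (m : ℕ) []).getD (k : ℕ) 0

def row (C : Fin 4 → Fin 6 → Fin 4 → ℤ) (w : Fin 4 → ℤ) (r : Fin 6) (k : Fin 4) : ℤ :=
  w 0 * C 0 r k + w 1 * C 1 r k + w 2 * C 2 r k + w 3 * C 3 r k

def lp (a b c d : Fin 4 → ℤ) : ℤ :=
  (a 0 * b 1 - a 1 * b 0) * (c 2 * d 3 - c 3 * d 2)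
  - (a 0 * b 2 - a 2 * b 0) * (c 1 * d 3 - c 3 * d 1)
  + (a 0 * b 3 - a 3 * b 0) * (c 1 * d 2 - c 2 * d 1)
  + (a 1 * b 2 - a 2 * b 1) * (c 0 * d 3 - c 3 * d 0)
  - (a 1 * b 3 - a 3 * b 1) * (c 0 * d 2 - c 2 * d 0)
  + (a 2 * b 3 - a 3 * b 2) * (c 0 * d 1 - c 1 * d 0)

def dt (C : Fin 4 → Fin 6 → Fin 4 → ℤ) (f : Fin 4 → Fin 6) (w : Fin 4 → ℤ) : ℤ :=
  lp (row C w (f 0)) (row C w (f 1)) (row C w (f 2)) (row C w (f 3))

theorem dt_eq (C : Fin 4 → Fin 6 → Fin 4 → ℤ) (f : Fin 4 → Fin 6) (w : Fin 4 → ℤ) :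
    Dt C f w = dt C f w := by
  have hrow : ∀ r k, Aw C w r k = row C w r k := by
    intro r k
    simp [Aw, row, Fin.sum_univ_four]
  unfold Dt dt
  simp only [hrow]
  rw [Matrix.det_succ_row_zero]
  simp only [Matrix.det_fin_three, Fin.sum_univ_four, Matrix.submatrix_apply, lp, Matrix.of_apply]
  simp [Fin.succAbove, Fin.succ, Fin.castSucc]
  ring

theorem symC : ∀ i j a b, GG CC i j a b = GG CC i j b a := by decide +kernel

theorem dE : ∀ k l, (60041 : ℤ) ∣ dt CC (Tn l) (EE k) - DD k l := by decide +kernel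

theorem dW : ∀ i k, (60041 : ℤ) ∣ dt CC (Tn k) (WW i) := by decide +kernel

theorem dI : ∀ m l, (60041 : ℤ) ∣ (∑ k, IV m k * DD k l) - (if m = l then 1 else 0) := by
  decide +kernel

instance : Fact (Nat.Prime 60041) := ⟨by norm_num⟩

def D : Data CC 60041 where
  E := EE
  Inv := IV
  hInv := by
    intro m l
    have h1 := dI m l
    have h2 : (60041 : ℤ) ∣ ∑ k, IV m k * (dt CC (Tn l) (EE k) - DD k l) :=
      Finset.dvd_sum fun k _ => Dvd.dvd.mul_left (dE k l) _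
    have h3 := dvd_add h1 h2
    have e : (∑ k, IV m k * Dt CC (Tn l) (EE k)) - (if m = l then 1 else 0)
        = (∑ k, IV m k * DD k l) - (if m = l then 1 else 0)
          + ∑ k, IV m k * (dt CC (Tn l) (EE k) - DD k l) := by
      simp only [dt_eq, mul_sub, Finset.sum_sub_distrib]
      ring
    rw [e]
    exact_mod_cast h3
  W := WW
  hW := by
    intro i k
    rw [dt_eq]
    exact_mod_cast dW i k

theorem hne : ∃ j i, L CC j * K CC i ≠ 0 := by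
  by_contra hcon
  push Not at hcon
  have h1 := Q_LK CC (2, 3) (0, 1) (fun j => ((![1, 0, 0, 0] : Fin 4 → ℤ) j : ℂ))
  rw [hcon] at h1
  have h2 : Dt CC ![0, 1, 2, 3] (fun j => ((![1, 0, 0, 0] : Fin 4 → ℤ) j : ℂ))
      = ((Dt CC ![0, 1, 2, 3] (![1, 0, 0, 0] : Fin 4 → ℤ) : ℤ) : ℂ) :=
    (Dt_map CC (Int.castRingHom ℂ) ![0, 1, 2, 3] (![1, 0, 0, 0] : Fin 4 → ℤ)).symm
  have h3 : dt CC ![0, 1, 2, 3] ![1, 0, 0, 0] = 1 := by decide +kernel
  rw [h2, dt_eq, h3] at h1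
  simp [Q] at h1

end Crest.Agent.P345.D55
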