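import Mathlib
set_option autoImplicit false

/-! Row 345 (helper19): small exact data.  `C` : four integer 6x4 matrices with `C_i^T C_j` symmetric;
`w` : the 20 points (mod `p`) where `A(w) = sum w_j C_j` has rank 3, `v` : kernel vectors;
`z` : 15 integer test points where the 15x15 matrix of maximal minors is invertible mod `p`.
All 184756 ten-subsets of the 20 vectors `w_i^2` in `F_p^10` are independent. -/
namespace Crest.Agent.P345.Data19
def p : Nat := 68749
def C : List (List (List Int)) := [[[2, 0, 0, 0], [0, -6, 0, 0], [0, 0, 0, 0], [0, 0, 0, 0], [0, 0, 4, 0], [0, 0, 0, -4]], [[0, 0, 6, -6], [0, 0, -2, 2], [0, 0, -2, 4], [6, -6, -4, -2], [3, 3, 2, 4], [3, 3, -4, 2]], [[0, 0, 6, 6], [0, 0, -2, -2], [6, -6, 4, 2], [0, 0, -2, 4], [3, 3, 4, -2], [-3, -3, 2, 4]], [[1, 0, 0, 0], [0, 3, 0, 0], [0, 0, 1, 1], [0, 0, 1, -1], [0, 0, 0, 0], [0, 0, 0, 0]]]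
def w : List (List Nat) := [[34374, 0, 0, 1], [34375, 0, 0, 1], [31071, 25372, 58768, 1], [19037, 46286, 31006, 1], [35718, 35731, 6707, 1], [8070, 23855, 27078, 1], [19037, 55381, 40809, 1], [31071, 49096, 46355, 1], [44427, 25755, 68606, 1], [44427, 3268, 36843, 1], [8070, 17068, 64237, 1], [55063, 38393, 52154, 1], [35718, 33038, 31896, 1], [44427, 39726, 32049, 1], [8070, 27826, 46183, 1], [35718, 68729, 30146, 1], [31071, 63030, 32375, 1], [19037, 35831, 65683, 1], [55063, 6146, 53257, 1], [55063, 24210, 32087, 1]]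
def v : List (List Nat) := [[1, 0, 0, 0], [0, 1, 0, 0], [49267, 54891, 40780, 1], [43072, 9200, 10597, 1], [17513, 11793, 64463, 1], [27597, 5110, 6689, 1], [50961, 37879, 64304, 1], [23059, 18188, 63670, 1], [73, 41092, 8165, 1], [35882, 67853, 42012, 1], [29142, 60192, 46809, 1], [28765, 22603, 31557, 1], [10928, 18637, 5644, 1], [21723, 47150, 42787, 1], [41227, 14918, 46617, 1], [59286, 58090, 26470, 1], [8734, 56527, 48496, 1], [44224, 17414, 9020, 1], [47145, 67626, 27128, 1], [65660, 9052, 26650, 1]]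
def z : List (List Int) := [[2, 0, 0, 2], [-2, 1, -1, -2], [-1, -2, 0, 1], [-1, 1, 2, -2], [2, -1, -2, -1], [1, 0, -1, 1], [-1, -2, -1, 2], [2, 1, -1, -1], [-2, -2, -1, -1], [-1, -1, 0, 0], [-1, 2, -1, -1], [-1, 1, 0, -2], [0, 1, -1, -1], [0, -2, 0, 0], [2, 2, -2, 2]]
end Crest.Agent.P345.Data19
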