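import Crest.Agent.P345.Mds93A
set_option autoImplicit false
set_option maxRecDepth 100000
/-! Row 345 (helper93): matroid certificate for `P345/Data.lean` (`p = 60041`): `xs` = the squares
`w_a w_b` (`a ≤ b`, lex) mod `p` of the 20 points `w`, in the order of `Data.w`. -/
namespace Crest.Agent.P345.Mds93Fin
open Crest.Agent.P345.Mds93A
def xs : List (List ℕ) := [[20766, 2199, 51322, 2237, 40558, 17318, 47293, 52099, 46805, 1], [22120, 35629, 48094, 29624, 40448, 10134, 59724, 58109, 38417, 1], [24150, 11623, 54194, 34648, 823, 29981, 57215, 43683, 13778, 1], [25223, 36857, 25583, 59749, 54019, 29492, 56008, 5360, 10399, 1], [27959, 8274, 17182, 44113, 5120, 52140, 12552, 53459, 24629, 1], [38617, 36551, 20191, 1086, 39902, 6629, 16896, 45880, 22299, 1], [20367, 54275, 19087, 13890, 36999, 16255, 42949, 59828, 34941, 1], [36822, 41388, 9430, 39073, 31033, 57012, 17992, 14191, 52796, 1], [22718, 39591, 9373, 57375, 4232, 49722, 48608, 14251, 37539, 1], [34768, 5933, 118,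 49713, 5625, 17265, 75, 26574, 48263, 1], [47113, 47894, 5141, 8659, 24408, 30137, 16751, 18395, 47193, 1], [56954, 5198, 9873, 1385, 55120, 37815, 2258, 3433, 20252, 1], [23411, 10544, 21615, 42662, 25184, 54360, 4501, 33493, 14312, 1], [46466, 36091, 27748, 58295, 21325, 58022, 8198, 53275, 16559, 1], [22791, 50506, 49110, 37619, 57560, 39005, 16375, 6336, 4384, 1], [6973, 59798, 11073, 9588, 29973, 26255, 49314, 5176, 38870, 1], [46860, 6722, 42228, 50663, 42114, 41298, 26761, 6196, 56464, 1], [30095, 14347, 46915, 48337, 29226, 53189, 14337, 17384, 34813, 1], [28844, 35360, 18690, 8073, 19643, 16784, 23402, 44733, 46567, 1], [31265, 7792, 13312, 15826, 38969, 10233, 48311, 19948, 22741, 1]]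
def perm : List ℕ := [11, 8, 2, 4, 9, 7, 16, 10, 1, 5, 13, 3, 19, 14, 17, 18, 6, 12, 0, 15]
theorem limb : ∀ (i : Fin 20) (j : Fin 10), l1.getD i 0 / (2 ^ 185) ^ (j : ℕ) % (2 ^ 185)
    = (xs.getD (perm.getD i 0) []).getD j 0 := by decide +kernel
theorem perm_lt : ∀ i : Fin 20, perm.getD i 0 < 20 := by decide +kernel
instance prime60041 : Fact (Nat.Prime 60041) := ⟨by norm_num⟩
theorem mds_nat (k : Type) [Field k] [CharP k 60041] (u v : Fin 10 → k)
    (h : ∀ i : Fin 20, (∑ I : Fin 10, (((xs.getD i []).getD I 0 : ℕ) : k) * u I) *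
      (∑ J : Fin 10, (((xs.getD i []).getD J 0 : ℕ) : k) * v J) = 0) : u = 0 ∨ v = 0 := by
  refine pf k u v fun i => ?_
  simp only [limb]
  exact h ⟨perm.getD i 0, perm_lt i⟩
theorem hmds_of (x : Fin 20 → Fin 10 → ℤ)
    (hx : ∀ i j, (60041 : ℤ) ∣ x i j - (((xs.getD i []).getD j 0 : ℕ) : ℤ)) (k : Type) [Field k]
    [CharP k 60041] (u v : Fin 10 → k)
    (h : ∀ i, (∑ I, (x i I : k) * u I) * (∑ J, (x i J : k) * v J) = 0) : u = 0 ∨ v = 0 := by
  have hx' : ∀ i j, (x i j : k) = (((xs.getD i []).getD j 0 : ℕ) : k) := by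
    intro i j
    have h1 : ((x i j - (((xs.getD i []).getD j 0 : ℕ) : ℤ) : ℤ) : k) = 0 :=
      (CharP.intCast_eq_zero_iff k 60041 _).2 (by exact_mod_cast hx i j)
    rw [Int.cast_sub, Int.cast_natCast] at h1
    exact sub_eq_zero.1 h1
  refine mds_nat k u v fun i => ?_
  have := h i
  simp only [hx'] at this
  exact this
end Crest.Agent.P345.Mds93Fin
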