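import Crest.Agent.P345.Conc50
import Crest.Agent.P345.Mds93Fin

set_option autoImplicit false
set_option maxRecDepth 100000

namespace Crest.Agent.P345.End50

open Crest.Quantum
open Crest.Agent.P345Red Crest.Agent.P345HK34 Crest.Agent.P345.Lap50 Crest.Agent.P345.Conc50

theorem hx : ∀ (i : Fin 20) (j : Fin 10),
    (Lap50.sq (pt i) j - (((Mds93Fin.xs.getD i []).getD j 0 : ℕ) : ℤ)) % 60041 = 0 := by
  decide +kernel

theorem hne : ∃ j i, L C j * K C i ≠ 0 := by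
  refine ⟨(0, 1), (2, 3), fun h => ?_⟩
  have h1 := lap C (fun c => if c = 0 then (1 : ℂ) else 0) (2, 3) (0, 1)
  rw [h] at h1
  have h2 : Mn C (fun c : Fin 4 => ((if c = 0 then (1 : ℤ) else 0 : ℤ) : ℂ)) ![0, 1, 2, 3]
      = ((Mn C (fun c => if c = 0 then (1 : ℤ) else 0) ![0, 1, 2, 3] : ℤ) : ℂ) :=
    Final50.Mn_cast C _ _
  have h3 : Mn C (fun c : Fin 4 => if c = 0 then (1 : ℤ) else 0) ![0, 1, 2, 3] = 1 := by
    rw [Mn_eq]; decide +kernel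
  rw [h3] at h2
  have h4 : (fun c : Fin 4 => ((if c = 0 then (1 : ℤ) else 0 : ℤ) : ℂ))
      = fun c => if c = 0 then (1 : ℂ) else 0 := by
    funext c; split_ifs <;> simp
  rw [h4] at h2
  have h5 : Mn C (fun c => if c = 0 then (1 : ℂ) else 0) ![0, 1, 2, 3] = 0 := by
    rw [← h1]; simp
  rw [h5] at h2
  simp at h2

theorem exists_n : ∃ n : Fin 10 × Fin 10 → Fin 10 × Fin 10 → ℂ,
      (∀ r j i, ∑ q : Fin 10 × Fin 10, n r q * (L C j * K C i) q.2 q.1 = 0) ∧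
      (∀ (u : Fin 10 → ℂ) (v : Fin 10 → ℂ),
        (∀ r, ∑ q : Fin 10 × Fin 10, n r q * (u q.1 * v q.2) = 0) → u = 0 ∨ v = 0) := by
  haveI := Mds93Fin.prime60041
  refine Final50.main C 60041 pt vt z hv hpt B hB ?_
  intro k _ _ u v h
  exact Mds93Fin.hmds_of (fun i j => Lap50.sq (pt i) j)
    (fun i j => by exact_mod_cast Int.dvd_of_emod_eq_zero (hx i j)) k u v h

theorem s0541 :
    ∃ Φ₁ Φ₂ : Matrix (Fin 10) (Fin 10) ℂ → Matrix (Fin 10) (Fin 10) ℂ,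
      IsLinearMap ℂ Φ₁ ∧ IsLinearMap ℂ Φ₂ ∧ IsPPT Φ₁ ∧ IsPPT Φ₂ ∧
      choiMatrix (Φ₂ ∘ Φ₁) ≠ 0 ∧
      (∀ u v : Fin 10 → ℂ, (∃ w, (choiMatrix (Φ₂ ∘ Φ₁)).mulVec w = fun p => u p.1 * v p.2) →
        u = 0 ∨ v = 0) ∧
      ¬ IsEntanglementBreaking (Φ₂ ∘ Φ₁) := by
  obtain ⟨n, h1, h2⟩ := exists_n
  exact s0541_of (K C) (K C) (L C) (L C) (hK C hC) (hL C hC) n h1 h2 hne

theorem s0540 :
    ∃ Θ : Matrix (Fin 21) (Fin 21) ℂ → Matrix (Fin 21) (Fin 21) ℂ,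
      IsChannel Θ ∧ IsPPT Θ ∧ ¬ IsEntanglementBreaking (Θ ∘ Θ) := by
  obtain ⟨n, h1, h2⟩ := exists_n
  exact s0540_of (K C) (K C) (L C) (L C) (hK C hC) (hL C hC) n h1 h2 hne

end Crest.Agent.P345.End50
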