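import Crest.Agent.P345.Gen79
import Crest.Agent.P345.Span43

/-! Row 345 (helper79): both statements from `C` (integer, `C_iᵀ C_j` symmetric), 15 test points with
the inverse mod `p` of the minors, 20 points where the minors vanish mod `p`, and the MDS fact. -/

set_option autoImplicit false

namespace Crest.Agent.P345.End79

open Matrix Crest.Quantum Crest.Agent.P345Red Crest.Agent.P345.Gen79

def AZ (C : Fin 4 → Fin 6 → Fin 4 → ℤ) (w : Fin 4 → ℤ) (c : Fin 6) (x : Fin 4) : ℤ :=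
  w 0 * C 0 c x + w 1 * C 1 c x + w 2 * C 2 c x + w 3 * C 3 c x

/-- explicit 4x4 determinant -/
def d4 (M : Fin 4 → Fin 4 → ℤ) : ℤ :=
      (M 0 0 * M 1 1 - M 0 1 * M 1 0) * (M 2 2 * M 3 3 - M 2 3 * M 3 2)
      + (M 0 2 * M 1 3 - M 0 3 * M 1 2) * (M 2 0 * M 3 1 - M 2 1 * M 3 0)
      - (M 0 0 * M 1 2 - M 0 2 * M 1 0) * (M 2 1 * M 3 3 - M 2 3 * M 3 1)
      - (M 0 1 * M 1 3 - M 0 3 * M 1 1) * (M 2 0 * M 3 2 - M 2 2 * M 3 0)
      + (M 0 0 * M 1 3 - M 0 3 * M 1 0) * (M 2 1 * M 3 2 - M 2 2 * M 3 1)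
      + (M 0 1 * M 1 2 - M 0 2 * M 1 1) * (M 2 0 * M 3 3 - M 2 3 * M 3 0)

def minorZ (C : Fin 4 → Fin 6 → Fin 4 → ℤ) (w : Fin 4 → ℤ) (t : Fin 15) : ℤ :=
  d4 fun i j => AZ C w (T15 t i) j

theorem cast_minor (C : Fin 4 → Fin 6 → Fin 4 → ℤ) (w : Fin 4 → ℤ) (t : Fin 15) :
    minor C (fun a => (w a : ℂ)) (T15 t) = ((minorZ C w t : ℤ) : ℂ) := by
  have h : ∀ c x, Aw C (fun a => (w a : ℂ)) c x = ((AZ C w c x : ℤ) : ℂ) := by
    intro c x
    simp [Aw, AZ, Fin.sum_univ_succ]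
    ring
  unfold minor
  rw [det4]
  simp only [Matrix.of_apply, h, minorZ, d4]
  push_cast
  ring

theorem cast_sq (w : Fin 4 → ℤ) (I : Fin 10) :
    sq (fun a => (w a : ℂ)) I = ((sq w I : ℤ) : ℂ) := by
  fin_cases I <;> simp [Gen79.sq]

section
variable (C : Fin 4 → Fin 6 → Fin 4 → ℤ) (p : ℕ) [Fact p.Prime]
    (z : Fin 15 → Fin 4 → ℤ) (Bi : Fin 15 → Fin 15 → ℤ)
    (hB : ∀ i c, ((∑ j, Bi i j * minorZ C (z j) c) - if i = c then 1 else 0) % (p : ℤ) = 0)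
    (w : Fin 20 → Fin 4 → ℤ) (hw : ∀ i c, minorZ C (w i) c % (p : ℤ) = 0)
    (hk : ∀ (k : Type) [Field k] [CharP k p] (u v : Fin 10 → k),
      (∀ i, (∑ s, ((sq (w i) s : ℤ) : k) * u s) * (∑ s, ((sq (w i) s : ℤ) : k) * v s) = 0) →
        u = 0 ∨ v = 0)

include hB hw hk in
theorem hPF (u v : Fin 10 → ℂ)
    (h : ∀ r : Rho C, ∑ q : Fin 10 × Fin 10, r.1 q * (u q.1 * v q.2) = 0) : u = 0 ∨ v = 0 := by
  obtain ⟨G, hG⟩ := quartic C u v h
  refine Crest.Agent.P345.Span43.pf_span p (fun j => sq (z j)) (fun j c => minorZ C (z j) c) Bi hB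
    (fun i => sq (w i)) (fun i c => minorZ C (w i) c) hw hk u v G ?_ ?_
  · intro j
    have h1 := hG fun a => (z j a : ℂ)
    simp only [cast_minor, cast_sq] at h1
    rw [← h1]
    congr 1 <;> exact Finset.sum_congr rfl fun s _ => mul_comm _ _
  · intro j
    have h1 := hG fun a => (w j a : ℂ)
    simp only [cast_minor, cast_sq] at h1
    rw [← h1]
    congr 1 <;> exact Finset.sum_congr rfl fun s _ => mul_comm _ _

include hB in
theorem hne : ∃ j i, L C j * K C i ≠ 0 := by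
  by_contra h
  push Not at h
  have h0 : ∀ (w : Fin 4 → ℤ) (t : Fin 15), minorZ C w t = 0 := by
    intro w t
    have h1 := contract C (fun a => (w a : ℂ)) (T15 t 2, T15 t 3) (T15 t 0, T15 t 1)
    rw [h] at h1
    simp only [Matrix.zero_apply, mul_zero, Finset.sum_const_zero] at h1
    have e : ![T15 t 0, T15 t 1, T15 t 2, T15 t 3] = T15 t := by
      funext i
      fin_cases i <;> rfl
    rw [e, cast_minor] at h1
    exact_mod_cast h1.symm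
  have h1 := hB 0 0
  simp only [h0, mul_zero, Finset.sum_const_zero, if_true] at h1
  have hp : 1 < p := (Fact.out : p.Prime).one_lt
  have h2 : (p : ℤ) ∣ 0 - 1 := Int.dvd_of_emod_eq_zero h1
  have h3 : (p : ℤ) ∣ 1 := by simpa using h2
  have h4 := Int.le_of_dvd one_pos h3
  omega

variable (hS : Sym C)

include hB hw hk hS in
theorem s0541 : ∃ Φ₁ Φ₂ : Matrix (Fin 10) (Fin 10) ℂ → Matrix (Fin 10) (Fin 10) ℂ,
      IsLinearMap ℂ Φ₁ ∧ IsLinearMap ℂ Φ₂ ∧ IsPPT Φ₁ ∧ IsPPT Φ₂ ∧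
      choiMatrix (Φ₂ ∘ Φ₁) ≠ 0 ∧
      (∀ u v : Fin 10 → ℂ, (∃ w, (choiMatrix (Φ₂ ∘ Φ₁)).mulVec w = fun p => u p.1 * v p.2) →
        u = 0 ∨ v = 0) ∧
      ¬ IsEntanglementBreaking (Φ₂ ∘ Φ₁) :=
  s0541_of (K C) (K C) (L C) (L C) (hK C hS) (hL C hS) (fun r : Rho C => r.1) (fun r => r.2)
    (hPF C p z Bi hB w hw hk) (hne C p z Bi hB)

include hB hw hk hS in
theorem s0540 : ∃ Θ : Matrix (Fin 21) (Fin 21) ℂ → Matrix (Fin 21) (Fin 21) ℂ,
      IsChannel Θ ∧ IsPPT Θ ∧ ¬ IsEntanglementBreaking (Θ ∘ Θ) :=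
  s0540_of (K C) (K C) (L C) (L C) (hK C hS) (hL C hS) (fun r : Rho C => r.1) (fun r => r.2)
    (hPF C p z Bi hB w hw hk) (hne C p z Bi hB)

end

end Crest.Agent.P345.End79
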