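import Crest.Agent.P345.D53
import Crest.Agent.P345.M53

set_option autoImplicit false

namespace Crest.Agent.P345.F53

open Crest.Agent.P345HK34 Crest.Agent.P345.Lap70 Crest.Agent.P345Fast Crest.Agent.P345.D53
  Crest.Agent.P345.M53 Crest.Agent.P345.Dual26 Crest.Agent.P345Red Crest.Quantum

def BB : ℕ := 411376139330301510538742295639337626245683966408394965837152256

instance decBnd (B M : ℕ) : ∀ k S, Decidable (bnd B M k S)
  | 0, _ => isTrue trivial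
  | l + 1, S => @instDecidableAnd _ _ _ (decBnd B M l (S / B))

theorem hbnd : ∀ r ∈ Lst, bnd BB 200201 10 r := by decide +kernel

def sgm : Fin 10 → Fin 10 := ![3, 8, 1, 5, 7, 4, 9, 2, 0, 6]

theorem hpk : ∀ (i : Fin 20) (j : Fin 10),
    (sq (w i) (sgm j) - ((Lst.getD i 0 / BB ^ (j : ℕ) % BB : ℕ) : ℤ)) % ((200201 : ℕ) : ℤ) = 0 := by
  decide +kernel

theorem sgm_bij : Function.Bijective sgm := by decide +kernel

theorem prime_p : Nat.Prime 200201 := by norm_num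

instance : Fact (Nat.Prime 200201) := ⟨prime_p⟩

theorem hk (k : Type) [Field k] [CharP k 200201] (u v : Fin 10 → k)
    (h : ∀ i : Fin 20, (∑ s, ((sq (w i) s : ℤ) : k) * u s) * (∑ s, ((sq (w i) s : ℤ) : k) * v s) = 0) :
    u = 0 ∨ v = 0 := by
  let e : Fin 10 ≃ Fin 10 := Equiv.ofBijective sgm sgm_bij
  have hc : ∀ (i : Fin 20) (j : Fin 10),
      ((Lst.getD i 0 / BB ^ (j : ℕ) % BB : ℕ) : k) = ((sq (w i) (sgm j) : ℤ) : k) := by
    intro i j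
    have h1 := Int.dvd_of_emod_eq_zero (hpk i j)
    have h2 := (CharP.intCast_eq_zero_iff k 200201 _).2 h1
    rw [Int.cast_sub, Int.cast_natCast, sub_eq_zero] at h2
    exact h2.symm
  have hs : ∀ (i : Fin 20) (u : Fin 10 → k),
      ∑ j : Fin 10, ((Lst.getD i 0 / BB ^ (j : ℕ) % BB : ℕ) : k) * u (sgm j)
        = ∑ s, ((sq (w i) s : ℤ) : k) * u s := by
    intro i u
    rw [← Equiv.sum_comp e (fun s => ((sq (w i) s : ℤ) : k) * u s)]
    exact Finset.sum_congr rfl fun j _ => by rw [hc]; rfl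
  have h0 := pf_char (p := 200201) (K := k) (n := 20) (k := 10) (by norm_num) BB 200201
    (by unfold BB; norm_num) (by unfold BB; norm_num) Lst rfl hbnd chk
    (fun j => u (sgm j)) (fun j => v (sgm j)) (by
      intro i
      rw [hs, hs]
      exact h i)
  rcases h0 with h0 | h0
  · left
    funext s
    obtain ⟨j, rfl⟩ := sgm_bij.2 s
    exact congrFun h0 j
  · right
    funext s
    obtain ⟨j, rfl⟩ := sgm_bij.2 s
    exact congrFun h0 j

theorem hPF (u v : Fin 10 → ℂ) (c : (Fin 6 × Fin 6) × (Fin 6 × Fin 6) → ℂ)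
    (hc : ∀ q : Fin 10 × Fin 10, u q.1 * v q.2 = ∑ a, c a * (L C a.1 * K C a.2) q.2 q.1) :
    u = 0 ∨ v = 0 :=
  Lap70.pf C 200201 z w Bi hB hMx (fun k _ _ u v h => hk k u v h) u v c hc

theorem ne_z : (∑ y : Fin 10, Lz C (0, 1) 0 y * Kz C (2, 3) y 0 : ℤ) ≠ 0 := by decide +kernel

theorem hne : ∃ j i, L C j * K C i ≠ 0 := by
  refine ⟨(0, 1), (2, 3), fun h => ne_z ?_⟩
  have h1 := congrFun (congrFun h 0) 0
  simp only [Matrix.mul_apply, K, L, Matrix.of_apply, Matrix.zero_apply] at h1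
  exact_mod_cast h1

theorem s0541 : ∃ Φ₁ Φ₂ : Matrix (Fin 10) (Fin 10) ℂ → Matrix (Fin 10) (Fin 10) ℂ,
      IsLinearMap ℂ Φ₁ ∧ IsLinearMap ℂ Φ₂ ∧ IsPPT Φ₁ ∧ IsPPT Φ₂ ∧
      choiMatrix (Φ₂ ∘ Φ₁) ≠ 0 ∧
      (∀ u v : Fin 10 → ℂ, (∃ w, (choiMatrix (Φ₂ ∘ Φ₁)).mulVec w = fun p => u p.1 * v p.2) →
        u = 0 ∨ v = 0) ∧
      ¬ IsEntanglementBreaking (Φ₂ ∘ Φ₁) :=
  s0541_all (K C) (K C) (L C) (L C) (hK C hC) (hL C hC) hPF hne

theorem s0540 : ∃ Θ : Matrix (Fin 21) (Fin 21) ℂ → Matrix (Fin 21) (Fin 21) ℂ,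
      IsChannel Θ ∧ IsPPT Θ ∧ ¬ IsEntanglementBreaking (Θ ∘ Θ) :=
  s0540_all (K C) (K C) (L C) (L C) (hK C hC) (hL C hC) hPF hne

end Crest.Agent.P345.F53
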