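import Crest.Agent.P345.D55
import Crest.Agent.P345Mds10
set_option autoImplicit false
set_option maxRecDepth 100000
set_option linter.unusedSimpArgs false

namespace Crest.Agent.P345.D55
open Matrix Crest.Quantum Crest.Agent.P345Red Crest.Agent.P345.A55

/-- monomials in the order `00 01 02 03 11 12 13 22 23 33` -/
def mo : Fin 10 → Fin 4 × Fin 4 :=
  ![(0,0),(0,1),(0,2),(0,3),(1,1),(1,2),(1,3),(2,2),(2,3),(3,3)]
def od : Fin 10 → Fin 10 := ![6,0,1,2,7,3,4,8,5,9]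
def xx (i : Fin 20) (I : Fin 10) : ℤ := WW i (mo I).1 * WW i (mo I).2
def sg : Fin 20 → Fin 20 := ![11,8,2,4,9,7,16,10,1,5,13,3,19,14,17,18,6,12,0,15]

theorem hx : ∀ i I, (xx (sg i) I - P345Mds10.X i I) % 60041 = 0 := by decide +kernel

theorem ev_sum {k : Type*} [CommRing k] (i : Fin 20) (u : Fin 10 → k) :
    ∑ x, ev (fun j => ((WW i j : ℤ) : k)) x * u x
      = ∑ I, ((xx i I : ℤ) : k) * ((cf (od I) : ℤ) * u (od I)) := by
  simp only [ev, xx]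
  simp [Fin.sum_univ_succ, pr, mo, cf, od, Fin.succ]
  ring

theorem two_ne {k : Type*} [Field k] [CharP k 60041] : (2 : k) ≠ 0 := by
  intro h
  have h1 : ((2 : ℕ) : k) = 0 := by exact_mod_cast h
  rw [CharP.cast_eq_zero_iff k 60041] at h1
  omega

theorem od_surj : ∀ x, ∃ I, od I = x := by decide

theorem cf_ne {k : Type*} [Field k] [CharP k 60041] (x : Fin 10) : ((cf x : ℤ) : k) ≠ 0 := by
  have h2 := two_ne (k := k)
  fin_cases x <;> simp [cf, h2]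

theorem hmds55 (k : Type) [Field k] [CharP k 60041] (u v : Fin 10 → k)
    (h : ∀ i : Fin 20, (∑ x, ev (fun j => ((D.W i j : ℤ) : k)) x * u x) *
        (∑ x, ev (fun j => ((D.W i j : ℤ) : k)) x * v x) = 0) : u = 0 ∨ v = 0 := by
  have h1 := P345Mds10.hmds_of xx sg hx k (fun I => ((cf (od I) : ℤ) : k) * u (od I))
    (fun I => ((cf (od I) : ℤ) : k) * v (od I)) (by
      intro i
      have h2 := h i
      have e : ∀ u : Fin 10 → k, ∑ x, ev (fun j => ((D.W i j : ℤ) : k)) x * u x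
          = ∑ I, ((xx i I : ℤ) : k) * (((cf (od I) : ℤ) : k) * u (od I)) := fun u => ev_sum i u
      rw [e, e] at h2
      exact h2)
  rcases h1 with h1 | h1
  · left
    funext x
    obtain ⟨I, hI⟩ := od_surj x
    have h2 := congrFun h1 I
    rw [hI] at h2
    exact (mul_eq_zero.1 h2).resolve_left (cf_ne x)
  · right
    funext x
    obtain ⟨I, hI⟩ := od_surj x
    have h2 := congrFun h1 I
    rw [hI] at h2
    exact (mul_eq_zero.1 h2).resolve_left (cf_ne x)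

/-- the relations -/
abbrev Rel := {n : Fin 10 × Fin 10 → ℂ //
  ∀ j i, ∑ p : Fin 10 × Fin 10, n p * (L CC j * K CC i) p.2 p.1 = 0}

theorem hPFr (u v : Fin 10 → ℂ)
    (h : ∀ r : Rel, ∑ p : Fin 10 × Fin 10, r.1 p * (u p.1 * v p.2) = 0) : u = 0 ∨ v = 0 :=
  hPF CC 60041 D hmds55 u v (fun n hn => h ⟨n, hn⟩)

theorem s0541 :
    ∃ Φ₁ Φ₂ : Matrix (Fin 10) (Fin 10) ℂ → Matrix (Fin 10) (Fin 10) ℂ,
      IsLinearMap ℂ Φ₁ ∧ IsLinearMap ℂ Φ₂ ∧ IsPPT Φ₁ ∧ IsPPT Φ₂ ∧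
      choiMatrix (Φ₂ ∘ Φ₁) ≠ 0 ∧
      (∀ u v : Fin 10 → ℂ, (∃ w, (choiMatrix (Φ₂ ∘ Φ₁)).mulVec w = fun p => u p.1 * v p.2) →
        u = 0 ∨ v = 0) ∧
      ¬ IsEntanglementBreaking (Φ₂ ∘ Φ₁) :=
  s0541_of (K CC) (K CC) (L CC) (L CC) (hK CC symC) (hL CC symC) (fun r : Rel => r.1)
    (fun r j i => r.2 j i) hPFr hne

theorem s0540 :
    ∃ Θ : Matrix (Fin 21) (Fin 21) ℂ → Matrix (Fin 21) (Fin 21) ℂ,
      IsChannel Θ ∧ IsPPT Θ ∧ ¬ IsEntanglementBreaking (Θ ∘ Θ) :=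
  s0540_of (K CC) (K CC) (L CC) (L CC) (hK CC symC) (hL CC symC) (fun r : Rel => r.1)
    (fun r j i => r.2 j i) hPFr hne

end Crest.Agent.P345.D55
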