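import Mathlib
import Crest.Agent.P345.Data80

namespace Crest.Agent.P345.F80
open Crest.Agent.P345.Data80

def K0 (s : Fin 15) (a b : Fin 10) : ℤ := ((Kl.getD s.1 []).getD a.1 []).getD b.1 0
def L0 (s : Fin 15) (a b : Fin 10) : ℤ := ((Ll.getD s.1 []).getD a.1 []).getD b.1 0
def lm (r : Fin 20) (q : Fin 35) : ℤ := (lam.getD r.1 []).getD q.1 0
def mn (r : Fin 15) (q : Fin 35) : ℤ := (minors.getD r.1 []).getD q.1 0
def g (p : Fin 10 × Fin 10) : Fin 35 := Fin.ofNat 35 ((idx.getD p.1.1 []).getD p.2.1 0)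
def ts (j i : Fin 15) : ℤ := (tabs.getD j.1 []).getD i.1 0
def ti (j i : Fin 15) : Fin 15 := Fin.ofNat 15 ((tabi.getD j.1 []).getD i.1 0)
def X0 (i : Fin 20) (s : Fin 10) : ℕ := (xs.getD i.1 []).getD s.1 0
def c0 (i : Fin 20) (r : Fin 20) : ℤ := (cs.getD i.1 []).getD r.1 0
def N0 (r : Fin 20) (a b : Fin 10) : ℤ := lm r (g (a, b))

end Crest.Agent.P345.F80
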