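import Crest.Agent.P345.Fa80
namespace Crest.Agent.P345.F80
theorem hL0 : ∀ x y a b : Fin 10, ∑ i : Fin 15, L0 i y a * L0 i x b = ∑ i, L0 i x a * L0 i y b := by
  decide +kernel
end Crest.Agent.P345.F80
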