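import Crest.Agent.P345.Fa80
namespace Crest.Agent.P345.F80
theorem hB : ∀ r : Fin 20, ∀ m : Fin 15, ∑ q : Fin 35, lm r q * mn m q = 0 := by decide +kernel
theorem hc0 : ∀ (i : Fin 20) (s t : Fin 10), (∑ r : Fin 20, c0 i r * N0 r s t - (X0 i s : ℤ) * (X0 i t : ℤ)) % 22621 = 0 := by
  decide +kernel
theorem hA : ∀ j i : Fin 15, ∀ q : Fin 35,
    (∑ p ∈ Finset.univ.filter (fun p : Fin 10 × Fin 10 => g p = q), ∑ α : Fin 10, L0 j p.2 α * K0 i α p.1)
      = ts j i * mn (ti j i) q := by decide +kernel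
end Crest.Agent.P345.F80
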