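import Crest.Agent.P345.Fa80
import Crest.Agent.P345.Data80p
namespace Crest.Agent.P345.F80
theorem hc0' : ∀ (i : Fin 20) (s t : Fin 10), (∑ r : Fin 20, ((Data80p.cs.getD i.1 []).getD r.1 0) * N0 r s t - (((Data80p.xs.getD i.1 []).getD s.1 0 : ℕ) : ℤ) * (((Data80p.xs.getD i.1 []).getD t.1 0 : ℕ) : ℤ)) % 109201 = 0 := by
  decide +kernel
end Crest.Agent.P345.F80
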