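import Crest.Agent.P345.Lap17

set_option autoImplicit false
set_option maxHeartbeats 1000000

namespace Crest.Agent.P345.Lap17
open Crest.Agent.P345HK34 Crest.Agent.P345Red

def D15 (B : Fin 6 → Fin 4 → ℤ) (t : Fin 15) : ℤ :=
  D4 (B (sub t 0)) (B (sub t 1)) (B (sub t 2)) (B (sub t 3))

theorem eps (a b c d : Fin 6) : ∃ e : Fin 15 → ℤ, ∀ B : Fin 6 → Fin 4 → ℤ,
    D4 (B a) (B b) (B c) (B d) = ∑ t, e t * D15 B t := by
  rcases quad_cases a b c d with h | ⟨t, σ, h⟩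
  · refine ⟨0, fun B => ?_⟩
    simp only [Pi.zero_apply, zero_mul, Finset.sum_const_zero]
    rcases h with h | h | h | h | h | h <;> (subst h; unfold D4 m2; ring)
  · refine ⟨fun s => if s = t then ((Equiv.Perm.sign σ : ℤˣ) : ℤ) else 0, fun B => ?_⟩
    have h1 : D4 (B a) (B b) (B c) (B d) =
        (Matrix.of fun i : Fin 4 => B (![a, b, c, d] i)).det := by
      rw [D4_det]; rfl
    have h2 : D15 B t = (Matrix.of fun i : Fin 4 => B (sub t i)).det := by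
      rw [D4_det]; rfl
    have h3 : (Matrix.of fun i : Fin 4 => B (![a, b, c, d] i)) =
        (Matrix.of fun i : Fin 4 => B (sub t i)).submatrix σ id := by
      ext i j
      simp only [Matrix.of_apply, Matrix.submatrix_apply, id, h i]
    rw [h1, h3, Matrix.det_permute, ← h2]
    simp

/-- main reduction: data mod `p` ⟹ hPF in the form of `Dual26.s0541_all` -/
theorem hPF17 (C : Fin 4 → Fin 6 → Fin 4 → ℤ) (p : ℕ) [Fact p.Prime]
    (z : Fin 15 → Fin 4 → ℤ) (Bi : Fin 15 → Fin 15 → ℤ)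
    (hB : ∀ i c, ((∑ j, Bi i j * D15 (A C (z j)) c) - if i = c then 1 else 0) % (p : ℤ) = 0)
    (w : Fin 20 → Fin 4 → ℤ) (hw : ∀ i c, D15 (A C (w i)) c % (p : ℤ) = 0)
    (hk : ∀ (k : Type) [Field k] [CharP k p] (u v : Fin 10 → k),
      (∀ i, (∑ s, ((mono (w i) s : ℤ) : k) * u s) * (∑ s, ((mono (w i) s : ℤ) : k) * v s) = 0) →
        u = 0 ∨ v = 0)
    (u v : Fin 10 → ℂ) (c : (Fin 6 × Fin 6) × (Fin 6 × Fin 6) → ℂ)
    (h : ∀ q : Fin 10 × Fin 10, u q.1 * v q.2 = ∑ a, c a * (L C a.1 * K C a.2) q.2 q.1) :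
    u = 0 ∨ v = 0 := by
  choose e he using eps
  have key : ∀ y : Fin 4 → ℤ, (∑ s, ((mono y s : ℤ) : ℂ) * u s) * (∑ s, ((mono y s : ℤ) : ℂ) * v s)
      = ∑ t, (∑ a, c a * (e a.2.1 a.2.2 a.1.1 a.1.2 t : ℂ)) * ((D15 (A C y) t : ℤ) : ℂ) := by
    intro y
    have h1 := Dual26.uv_eval (K C) (L C) u v c h (fun s => ((mono y s : ℤ) : ℂ))
      (fun s => ((mono y s : ℤ) : ℂ))
    simp only [lap] at h1
    have e1 : ∀ f : Fin 10 → ℂ, ∑ s, ((mono y s : ℤ) : ℂ) * f s = ∑ s, f s * ((mono y s : ℤ) : ℂ) :=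
      fun f => Finset.sum_congr rfl fun s _ => mul_comm _ _
    rw [e1, e1, h1]
    simp only [he, Finset.sum_mul]
    rw [Finset.sum_comm]
    refine Finset.sum_congr rfl fun a _ => ?_
    push_cast
    rw [Finset.mul_sum]
    refine Finset.sum_congr rfl fun t _ => by ring
  exact Span43.pf_span p (fun j s => mono (z j) s) (fun j c => D15 (A C (z j)) c) Bi hB
    (fun i s => mono (w i) s) (fun i c => D15 (A C (w i)) c) hw hk u v
    (fun t => ∑ a, c a * (e a.2.1 a.2.2 a.1.1 a.1.2 t : ℂ)) (fun j => key (z j)) (fun i => key (w i))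

end Crest.Agent.P345.Lap17
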