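import Crest.Agent.P345.Mds81
set_option autoImplicit false
namespace Crest.Agent.P345.Mds81
open Crest.Agent.P345Fast
theorem a1 : checkP p B 17 8 (U2.map (step p B (m1 % B % p) (m1 / B))) = true := by decide +kernel

theorem a2 : checkP p B 16 8 (U3.map (step p B (m2 % B % p) (m2 / B))) = true := by decide +kernel

end Crest.Agent.P345.Mds81
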