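import Crest.Agent.P345.Mds81
set_option autoImplicit false
namespace Crest.Agent.P345.Mds81
open Crest.Agent.P345Fast
theorem a3 : checkP p B 15 8 (U4.map (step p B (m3 % B % p) (m3 / B))) = true := by decide +kernel

theorem a4 : checkP p B 14 8 (U5.map (step p B (m4 % B % p) (m4 / B))) = true := by decide +kernel

theorem a5 : checkP p B 13 8 (U6.map (step p B (m5 % B % p) (m5 / B))) = true := by decide +kernel

theorem a6 : checkP p B 12 8 (U7.map (step p B (m6 % B % p) (m6 / B))) = true := by decide +kernel

theorem a7 : checkP p B 11 8 (U8.map (step p B (m7 % B % p) (m7 / B))) = true := by decide +kernel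

theorem a8 : checkP p B 10 8 (U9.map (step p B (m8 % B % p) (m8 / B))) = true := by decide +kernel

theorem a9 : checkP p B 9 8 (U10.map (step p B (m9 % B % p) (m9 / B))) = true := by decide +kernel

theorem a10 : checkP p B 8 8 (U11.map (step p B (m10 % B % p) (m10 / B))) = true := by decide +kernel

theorem c2 : checkP p B 17 9 (T3.map (step p B (r2 % B % p) (r2 / B))) = true := by decide +kernel

theorem c3 : checkP p B 16 9 (T4.map (step p B (r3 % B % p) (r3 / B))) = true := by decide +kernel

theorem c4 : checkP p B 15 9 (T5.map (step p B (r4 % B % p) (r4 / B))) = true := by decide +kernel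

theorem c5 : checkP p B 14 9 (T6.map (step p B (r5 % B % p) (r5 / B))) = true := by decide +kernel

theorem c6 : checkP p B 13 9 (T7.map (step p B (r6 % B % p) (r6 / B))) = true := by decide +kernel

theorem c7 : checkP p B 12 9 (T8.map (step p B (r7 % B % p) (r7 / B))) = true := by decide +kernel

theorem c8 : checkP p B 11 9 (T9.map (step p B (r8 % B % p) (r8 / B))) = true := by decide +kernel

theorem c9 : checkP p B 10 9 (T10.map (step p B (r9 % B % p) (r9 / B))) = true := by decide +kernel

theorem c10 : checkP p B 9 9 (T11.map (step p B (r10 % B % p) (r10 / B))) = true := by decide +kernel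

end Crest.Agent.P345.Mds81
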