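import Crest.Agent.P345.Mds81a
import Crest.Agent.P345.Mds81b
import Crest.Agent.P345.Mds81c
import Crest.Agent.P345.Mds81d
set_option autoImplicit false
namespace Crest.Agent.P345.Mds81
open Crest.Agent.P345Fast

theorem u11 : checkP p B 8 9 U11 = true := by decide +kernel
theorem u10 : checkP p B 9 9 U10 = true :=
  check_cons p B 8 7 m10 U11 (by decide +kernel) a10 u11
theorem u9 : checkP p B 10 9 U9 = true :=
  check_cons p B 9 7 m9 U10 (by decide +kernel) a9 u10
theorem u8 : checkP p B 11 9 U8 = true :=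
  check_cons p B 10 7 m8 U9 (by decide +kernel) a8 u9
theorem u7 : checkP p B 12 9 U7 = true :=
  check_cons p B 11 7 m7 U8 (by decide +kernel) a7 u8
theorem u6 : checkP p B 13 9 U6 = true :=
  check_cons p B 12 7 m6 U7 (by decide +kernel) a6 u7
theorem u5 : checkP p B 14 9 U5 = true :=
  check_cons p B 13 7 m5 U6 (by decide +kernel) a5 u6
theorem u4 : checkP p B 15 9 U4 = true :=
  check_cons p B 14 7 m4 U5 (by decide +kernel) a4 u5
theorem u3 : checkP p B 16 9 U3 = true :=
  check_cons p B 15 7 m3 U4 (by decide +kernel) a3 u4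
theorem u2 : checkP p B 17 9 U2 = true :=
  check_cons p B 16 7 m2 U3 (by decide +kernel) a2 u3
theorem u1 : checkP p B 18 9 U1 = true :=
  check_cons p B 17 7 m1 U2 (by decide +kernel) a1 u2
theorem u0 : checkP p B 19 9 U0 = true :=
  check_cons p B 18 7 m0 U1 (by decide +kernel) a0 u1
theorem m_eq : T1.map (step p B (r0 % B % p) (r0 / B)) = U0 := by decide +kernel
theorem c0 : checkP p B 19 9 (T1.map (step p B (r0 % B % p) (r0 / B))) = true := by
  rw [m_eq]; exact u0
theorem t11 : checkP p B 9 10 T11 = true := by decide +kernel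
theorem t10 : checkP p B 10 10 T10 = true :=
  check_cons p B 9 8 r10 T11 (by decide +kernel) c10 t11
theorem t9 : checkP p B 11 10 T9 = true :=
  check_cons p B 10 8 r9 T10 (by decide +kernel) c9 t10
theorem t8 : checkP p B 12 10 T8 = true :=
  check_cons p B 11 8 r8 T9 (by decide +kernel) c8 t9
theorem t7 : checkP p B 13 10 T7 = true :=
  check_cons p B 12 8 r7 T8 (by decide +kernel) c7 t8
theorem t6 : checkP p B 14 10 T6 = true :=
  check_cons p B 13 8 r6 T7 (by decide +kernel) c6 t7
theorem t5 : checkP p B 15 10 T5 = true :=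
  check_cons p B 14 8 r5 T6 (by decide +kernel) c5 t6
theorem t4 : checkP p B 16 10 T4 = true :=
  check_cons p B 15 8 r4 T5 (by decide +kernel) c4 t5
theorem t3 : checkP p B 17 10 T3 = true :=
  check_cons p B 16 8 r3 T4 (by decide +kernel) c3 t4
theorem t2 : checkP p B 18 10 T2 = true :=
  check_cons p B 17 8 r2 T3 (by decide +kernel) c2 t3
theorem t1 : checkP p B 19 10 T1 = true :=
  check_cons p B 18 8 r1 T2 (by decide +kernel) c1 t2
theorem t0 : checkP p B 20 10 T0 = true :=
  check_cons p B 19 8 r0 T1 (by decide +kernel) c0 t1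

end Crest.Agent.P345.Mds81
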