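import Crest.Agent.P345.Inst29
import Crest.Agent.P345.Mds81f

set_option autoImplicit false
set_option maxRecDepth 100000

namespace Crest.Agent.P345F26

open Crest.Agent.P345Fast Crest.Agent.P345HK34 Crest.Agent.P345A29 Crest.Agent.P345D29

theorem key : ∀ (i : Fin 20) (j : Fin 10), (60041 : ℤ) ∣ w i (ma j) * w i (mb j)
    - ((Crest.Agent.P345.Mds81.T0.getD i 0 / (2 ^ 192) ^ (j : ℕ) % 2 ^ 192 : ℕ) : ℤ) := by
  decide +kernel

theorem hbnd : ∀ r ∈ Crest.Agent.P345.Mds81.T0, bnd (2 ^ 192) 60041 10 r := by decide +kernel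

theorem hk : HK := by
  intro k _ _ u v h
  refine pf_char (p := 60041) (n := 20) (k := 10) (by norm_num) (2 ^ 192) 60041 (by norm_num)
    (by norm_num) Crest.Agent.P345.Mds81.T0 rfl hbnd Crest.Agent.P345.Mds81.t0 u v ?_
  intro i
  have e : ∀ x : Fin 10 → k, qe x (w i) = ∑ j : Fin 10,
      ((Crest.Agent.P345.Mds81.T0.getD i 0 / (2 ^ 192) ^ (j : ℕ) % 2 ^ 192 : ℕ) : k) * x j := by
    intro x
    unfold qe
    refine Finset.sum_congr rfl fun j _ => ?_
    congr 1
    have h1 := (CharP.intCast_eq_zero_iff k 60041 _).2 (key i j)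
    rw [Int.cast_sub, Int.cast_natCast, sub_eq_zero] at h1
    exact h1
  rw [← e u, ← e v]
  exact h i

end Crest.Agent.P345F26
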