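import Crest.Agent.P345.Inst29
import Crest.Agent.P345.Mds81f

set_option autoImplicit false
set_option maxRecDepth 100000

/-! Row 345 (helper29): `HK` from helper81's kernel check. -/

namespace Crest.Agent.P345D29

open Crest.Agent.P345A29 Crest.Agent.P345HK34

theorem Lval : ∀ (i : Fin 20) (j : Fin 10),
    (60041 : ℤ) ∣ ((Crest.Agent.P345.Mds81.T0.getD i 0 / (2 ^ 192) ^ (j : ℕ) % (2 ^ 192) : ℕ) : ℤ)
      - w i (ma j) * w i (mb j) := by
  decide +kernel

theorem Llt : ∀ r ∈ Crest.Agent.P345.Mds81.T0, P345Fast.bnd (2 ^ 192) 60041 10 r := by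
  simp only [P345Fast.bnd]
  decide +kernel

theorem hk : HK := by
  intro k _ _ u v h
  refine P345Fast.pf_char (p := 60041) (n := 20) (k := 10) (by norm_num) (2 ^ 192) 60041
    (by norm_num) (by norm_num) Crest.Agent.P345.Mds81.T0 rfl Llt Crest.Agent.P345.Mds81.t0 u v
    fun i => ?_
  have h1 : ∀ j : Fin 10, ((Crest.Agent.P345.Mds81.T0.getD i 0 / (2 ^ 192) ^ (j : ℕ) % (2 ^ 192) : ℕ) : k)
      = ((w i (ma j) * w i (mb j) : ℤ) : k) := by
    intro j
    obtain ⟨d, hd⟩ := Lval i j
    have h2 := congrArg (fun x : ℤ => (x : k)) hd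
    have h3 : ((60041 : ℤ) : k) = 0 := by
      have := CharP.cast_eq_zero k 60041
      exact_mod_cast this
    simp only [Int.cast_sub, Int.cast_mul, Int.cast_natCast, h3, zero_mul] at h2
    rw [Int.cast_mul]
    exact sub_eq_zero.1 h2
  have h4 := h i
  unfold qe at h4
  simp only [h1]
  exact h4

end Crest.Agent.P345D29
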