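import Crest.Agent.P345.Dual26b
import Crest.Agent.P345.Lap50
import Crest.Agent.P345.Span43
import Crest.Agent.P345.Mds36

set_option autoImplicit false

/-! Row 345: assembly with helper19's data (`P345/Data19.lean`). -/

namespace Crest.Agent.P345.Fin36

open Matrix Crest.Quantum Crest.Agent.P345Red Crest.Agent.P345HK34 Crest.Agent.P345.Lap50
  Crest.Agent.P345.Span43 Crest.Agent.P345Fast Crest.Agent.P345.Mds36

def Cl : List (List (List ℤ)) := [[[2, 0, 0, 0],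
  [0, -6, 0, 0],
  [0, 0, 0, 0],
  [0, 0, 0, 0],
  [0, 0, 4, 0],
  [0, 0, 0, -4]],
  [[0, 0, 6, -6],
  [0, 0, -2, 2],
  [0, 0, -2, 4],
  [6, -6, -4, -2],
  [3, 3, 2, 4],
  [3, 3, -4, 2]],
  [[0, 0, 6, 6],
  [0, 0, -2, -2],
  [6, -6, 4, 2],
  [0, 0, -2, 4],
  [3, 3, 4, -2],
  [-3, -3, 2, 4]],
  [[1, 0, 0, 0],
  [0, 3, 0, 0],
  [0, 0, 1, 1],
  [0, 0, 1, -1],
  [0, 0, 0, 0],
  [0, 0, 0, 0]]]

def C (j : Fin 4) (r : Fin 6) (k : Fin 4) : ℤ := ((Cl.getD j []).getD r []).getD k 0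

def Zl : List (List ℤ) := [[2, 0, 0, 2],
  [-2, 1, -1, -2],
  [-1, -2, 0, 1],
  [-1, 1, 2, -2],
  [2, -1, -2, -1],
  [1, 0, -1, 1],
  [-1, -2, -1, 2],
  [2, 1, -1, -1],
  [-2, -2, -1, -1],
  [-1, -1, 0, 0],
  [-1, 2, -1, -1],
  [-1, 1, 0, -2],
  [0, 1, -1, -1],
  [0, -2, 0, 0],
  [2, 2, -2, 2]]

def z (j : Fin 15) (c : Fin 4) : ℤ := (Zl.getD j []).getD c 0

def Wl : List (List ℤ) := [[34374, 0, 0, 1],
  [34375, 0, 0, 1],
  [31071, 25372, 58768, 1],
  [19037, 46286, 31006, 1],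
  [35718, 35731, 6707, 1],
  [8070, 23855, 27078, 1],
  [19037, 55381, 40809, 1],
  [31071, 49096, 46355, 1],
  [44427, 25755, 68606, 1],
  [44427, 3268, 36843, 1],
  [8070, 17068, 64237, 1],
  [55063, 38393, 52154, 1],
  [35718, 33038, 31896, 1],
  [44427, 39726, 32049, 1],
  [8070, 27826, 46183, 1],
  [35718, 68729, 30146, 1],
  [31071, 63030, 32375, 1],
  [19037, 35831, 65683, 1],
  [55063, 6146, 53257, 1],
  [55063, 24210, 32087, 1]]

def w (j : Fin 20) (c : Fin 4) : ℤ := (Wl.getD j []).getD c 0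

def Tl : List (List ℤ) := [[288, 576, 576, -576, 576, 2304, 0, 0, 0, 0, 0, 0, 0, 0, 0],
  [-4608, -1152, -4608, 5184, 1152, -4896, 4032, -8064, -6048, 10080, -4032, -1152, 3744, 288, 8064],
  [-3198, -480, -1848, 28464, -1704, -16704, 2772, 4596, -912, -42384, 13428, -2988, -8208, 19440, 21888],
  [2592, 432, 3696, 2160, 1200, -2880, -39744, 4704, 57456, 22320, 11664, -3888, -17280, -8640, 38448],
  [-16506, 20106, -65862, 20466, -27882, -47700, -18234, -738, 73656, 31716, -7866, 36702, -13320, -32220, 40896],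
  [-738, 54, -486, 522, -270, -324, -1782, 1278, 1080, -252, 306, 198, -216, -252, 1008],
  [-21600, -1296, -2160, 29808, 6480, -2592, 32400, 10800, -2592, -5184, 7776, -8640, -1296, 14256, 16848],
  [8370, -3888, 10692, 5508, -2592, -5832, -648, -6588, 3888, -4536, 3240, -540, -3888, 648, 2592],
  [-25530, -2958, -11082, 26574, -594, -11604, 47190, 22890, -17832, -24924, 6966, -10566, -4248, 10836, 25776],
  [-624, 144, -480, 2688, -432, -1968, 168, 792, -312, -3528, 1368, -504, -936, 1224, 1872],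
  [-6066, -1098, -6750, -846, -1422, 684, -12150, -48042, 4824, -3852, 18, 11646, 2088, 1620, 23184],
  [96, -48, -48, -48, -48, 0, -288, -192, -48, -48, 144, 144, 0, 0, -144],
  [2514, 360, 2844, -564, -936, 504, 408, -8844, -1728, 2136, 1224, 3636, -864, -360, 4896],
  [0, 0, 0, 0, 0, 0, 6912, 6912, 0, -27648, -2304, -2304, 0, 9216, 16128],
  [8352, 576, 29952, 3456, -4032, -12672, -8064, -68544, 24192, -32256, 8064, 35136, -26496, 18432, 32256]]

def T (j c : Fin 15) : ℤ := (Tl.getD j []).getD c 0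

def Bl : List (List ℤ) := [[17295, 11455, 65593, 64291, 35383, 20202, 3835, 55084, 53313, 28676, 30679, 34365, 61545, 14549, 21506],
  [16776, 23236, 42724, 21718, 31975, 24119, 28014, 13214, 64654, 56376, 32665, 22653, 66970, 8041, 8042],
  [17483, 5058, 64987, 57556, 43585, 57594, 16885, 8136, 46662, 47042, 4857, 47299, 52834, 8139, 46782],
  [57309, 65319, 68577, 56426, 19801, 29104, 6852, 37671, 5243, 66728, 53238, 5896, 2337, 44276, 51133],
  [4976, 61401, 35388, 35751, 43449, 28601, 45797, 65402, 21978, 26172, 22562, 24843, 37944, 24270, 46800],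
  [29898, 18255, 50513, 20282, 65305, 28734, 38715, 32406, 55853, 49449, 54609, 33635, 47984, 42106, 53438],
  [7685, 13689, 49491, 9648, 48529, 2311, 3959, 45682, 31905, 64945, 2267, 6168, 1188, 15636, 40182],
  [9469, 51031, 20116, 15834, 20238, 43354, 23836, 45835, 14158, 41139, 27825, 49355, 24870, 3326, 33784],
  [38334, 67438, 9871, 49538, 46868, 35888, 22509, 32042, 32409, 4930, 28879, 4851, 65812, 59278, 59204],
  [13806, 43411, 64042, 36292, 30610, 37475, 8002, 10995, 49606, 33790, 57898, 39213, 1821, 11692, 43221],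
  [3605, 42597, 7538, 43105, 22070, 38882, 17037, 12764, 36506, 23739, 64750, 4777, 1956, 34839, 48166],
  [60147, 50348, 56062, 46603, 29674, 66912, 4815, 3797, 46728, 54690, 32556, 33206, 44079, 31426, 53619],
  [32239, 47219, 36020, 45407, 48077, 32102, 13387, 56048, 44064, 21633, 65144, 47288, 52528, 18100, 21812],
  [37013, 50464, 11000, 37971, 52624, 37621, 6959, 4869, 34436, 44658, 38647, 54625, 40088, 49639, 47038],
  [43558, 31123, 23827, 52233, 39609, 8824, 10772, 28317, 8404, 17789, 9425, 66745, 44372, 57108, 20234]]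

def Bi (j c : Fin 15) : ℤ := (Bl.getD j []).getD c 0

def perm : Fin 10 → Fin 10 := ![5, 8, 3, 4, 2, 9, 1, 6, 0, 7]

def ord : Fin 20 → Fin 20 := ![7, 5, 13, 2, 11, 17, 18, 8, 6, 16, 12, 14, 0, 3, 10, 4, 15, 19, 1, 9]

instance : Fact (Nat.Prime 68749) := ⟨by norm_num⟩

theorem hC : ∀ i j k l : Fin 4, ∑ r, C i r k * C j r l = ∑ r, C i r l * C j r k := by
  decide +kernel

def d4 (A : Fin 6 → Fin 4 → ℤ) (a b c d : Fin 6) : ℤ :=
  (A a 0 * A b 1 - A a 1 * A b 0) * (A c 2 * A d 3 - A c 3 * A d 2)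
  - (A a 0 * A b 2 - A a 2 * A b 0) * (A c 1 * A d 3 - A c 3 * A d 1)
  + (A a 0 * A b 3 - A a 3 * A b 0) * (A c 1 * A d 2 - A c 2 * A d 1)
  + (A a 1 * A b 2 - A a 2 * A b 1) * (A c 0 * A d 3 - A c 3 * A d 0)
  - (A a 1 * A b 3 - A a 3 * A b 1) * (A c 0 * A d 2 - A c 2 * A d 0)
  + (A a 2 * A b 3 - A a 3 * A b 2) * (A c 0 * A d 1 - A c 1 * A d 0)

theorem Mn_d4 (D : Fin 4 → Fin 6 → Fin 4 → ℤ) (y : Fin 4 → ℤ) (f : Fin 4 → Fin 6) :
    Mn D y f = d4 (Aw D y) (f 0) (f 1) (f 2) (f 3) := by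
  rw [Mn, Matrix.det_succ_row_zero]
  simp only [Matrix.det_fin_three, Fin.sum_univ_succ, Fin.sum_univ_zero]
  simp [Fin.succAbove, d4]
  ring

theorem Mn_cast (D : Fin 4 → Fin 6 → Fin 4 → ℤ) (y : Fin 4 → ℤ) (f : Fin 4 → Fin 6) :
    Mn D (fun c => (y c : ℂ)) f = ((Mn D y f : ℤ) : ℂ) := by
  have h := RingHom.map_det (Int.castRingHom ℂ) (Matrix.of fun i k => Aw D y (f i) k)
  have h' : ((Mn D y f : ℤ) : ℂ) = Int.castRingHom ℂ (Mn D y f) := rfl
  rw [h', Mn, Mn, h]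
  congr 1
  ext i k
  simp [Aw]

theorem hT : ∀ j c : Fin 15, d4 (Aw C (z j)) (tab c 0) (tab c 1) (tab c 2) (tab c 3) = T j c := by
  decide +kernel

theorem hMx : ∀ (i : Fin 20) (c : Fin 15),
    d4 (Aw C (w i)) (tab c 0) (tab c 1) (tab c 2) (tab c 3) % (68749 : ℤ) = 0 := by
  decide +kernel

theorem hB : ∀ i c : Fin 15, ((∑ j, Bi i j * T j c) - if i = c then 1 else 0) % (68749 : ℤ) = 0 := by
  decide +kernel

def x (i : Fin 20) (s : Fin 10) : ℤ := w i (ma s) * w i (mb s)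

theorem hpack : ∀ (i : Fin 20) (j : Fin 10),
    (x (ord i) (perm j) - ((L36.getD i 0 / (2 ^ 192) ^ (j : ℕ) % (2 ^ 192) : ℕ) : ℤ)) % (68749 : ℤ) = 0 := by
  decide +kernel

theorem perm_bij : Function.Bijective perm := by decide

theorem ord_surj : Function.Surjective ord := by decide

def bndb (B M : ℕ) : ℕ → ℕ → Bool
  | 0, _ => true
  | l + 1, S => Nat.blt (S % B) M && bndb B M l (S / B)

theorem bnd_of (B M : ℕ) : ∀ l S, bndb B M l S = true → bnd B M l S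
  | 0, _, _ => trivial
  | l + 1, S, h => by
      simp only [bndb, Bool.and_eq_true] at h
      exact ⟨by simpa [Nat.blt_eq] using h.1, bnd_of B M l _ h.2⟩

theorem hlenb : L36.all (bndb (2 ^ 192) 68749 10) = true := by decide +kernel

theorem hk (k : Type) [Field k] [CharP k 68749] (u v : Fin 10 → k)
    (h : ∀ i, (∑ s, (x i s : k) * u s) * (∑ s, (x i s : k) * v s) = 0) : u = 0 ∨ v = 0 := by
  have hx : ∀ i j, ((L36.getD (i : Fin 20) 0 / (2 ^ 192) ^ ((j : Fin 10) : ℕ) % (2 ^ 192) : ℕ) : k)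
      = (x (ord i) (perm j) : k) := by
    intro i j
    have h1 := hpack i j
    have h2 := (CharP.intCast_eq_zero_iff k 68749 _).2 (Int.dvd_of_emod_eq_zero h1)
    rw [Int.cast_sub, sub_eq_zero] at h2
    rw [h2, Int.cast_natCast]
  have hs : ∀ (i : Fin 20) (u : Fin 10 → k),
      ∑ j : Fin 10, ((L36.getD i 0 / (2 ^ 192) ^ (j : ℕ) % (2 ^ 192) : ℕ) : k) * u (perm j)
        = ∑ s, (x (ord i) s : k) * u s := by
    intro i u
    simp only [hx]
    exact perm_bij.sum_comp (fun s => (x (ord i) s : k) * u s)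
  have h3 := pf_char (p := 68749) (K := k) (n := 20) (k := 10) (by norm_num) (2 ^ 192) 68749
    (by norm_num) (by norm_num) L36 rfl
    (fun r hr => bnd_of _ _ _ _ (List.all_eq_true.1 hlenb r hr)) chk36
    (fun j => u (perm j)) (fun j => v (perm j)) (by
      intro i
      rw [hs i u, hs i v]
      exact h (ord i))
  have hz : ∀ u : Fin 10 → k, (fun j => u (perm j)) = 0 → u = 0 := by
    intro u hu
    funext s
    obtain ⟨j, rfl⟩ := perm_bij.2 s
    exact congrFun hu j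
  rcases h3 with h3 | h3
  · exact Or.inl (hz u h3)
  · exact Or.inr (hz v h3)

theorem uv_minors (u v : Fin 10 → ℂ) (c : (Fin 6 × Fin 6) × (Fin 6 × Fin 6) → ℂ)
    (hc : ∀ p : Fin 10 × Fin 10, u p.1 * v p.2 = ∑ a, c a * (L C a.1 * K C a.2) p.2 p.1) :
    ∃ g : Fin 15 → ℂ, ∀ y : Fin 4 → ℂ,
      (∑ s, sq y s * u s) * (∑ s, sq y s * v s) = ∑ e, g e * Mn C y (tab e) := by
  have h0 : ∀ a : (Fin 6 × Fin 6) × (Fin 6 × Fin 6), ∃ g : Fin 15 → ℂ, ∀ y : Fin 4 → ℂ,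
      Mn C y ![a.1.1, a.1.2, a.2.1, a.2.2] = ∑ e, g e * Mn C y (tab e) := fun a => Mn_any C _
  choose G hG using h0
  refine ⟨fun e => ∑ a, c a * G a e, fun y => ?_⟩
  have h1 := Dual26.uv_eval (K C) (L C) u v c hc (sq y) (sq y)
  have e1 : ∀ u : Fin 10 → ℂ, ∑ s, sq y s * u s = ∑ s, u s * sq y s := fun u =>
    Finset.sum_congr rfl fun _ _ => mul_comm _ _
  rw [e1, e1, h1]
  have h2 : ∀ a : (Fin 6 × Fin 6) × (Fin 6 × Fin 6),
      ∑ i, ∑ j, sq y i * sq y j * (L C a.1 * K C a.2) j i = ∑ e, G a e * Mn C y (tab e) := by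
    intro a
    rw [← hG a y, ← lap, Finset.sum_comm]
    exact Finset.sum_congr rfl fun _ _ => Finset.sum_congr rfl fun _ _ => by ring
  simp only [h2, Finset.mul_sum, Finset.sum_mul]
  rw [Finset.sum_comm]
  exact Finset.sum_congr rfl fun _ _ => Finset.sum_congr rfl fun _ _ => by ring

theorem hPF (u v : Fin 10 → ℂ) (c : (Fin 6 × Fin 6) × (Fin 6 × Fin 6) → ℂ)
    (hc : ∀ p : Fin 10 × Fin 10, u p.1 * v p.2 = ∑ a, c a * (L C a.1 * K C a.2) p.2 p.1) :
    u = 0 ∨ v = 0 := by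
  obtain ⟨g, hg⟩ := uv_minors u v c hc
  refine pf_span 68749 (fun j s => z j (ma s) * z j (mb s)) (fun j c => Mn C (z j) (tab c)) Bi ?_
    x (fun i c => Mn C (w i) (tab c)) ?_ hk u v g ?_ ?_
  · intro i c
    have h := hB i c
    simp only [Mn_d4, hT]
    exact_mod_cast h
  · intro i c
    have h := hMx i c
    simp only [Mn_d4]
    exact_mod_cast h
  · intro j
    have h := hg (fun c => (z j c : ℂ))
    simp only [Mn_cast] at h
    rw [← h]
    simp [Lap50.sq]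
  · intro i
    have h := hg (fun c => (w i c : ℂ))
    simp only [Mn_cast] at h
    rw [← h]
    simp [Lap50.sq, x]

theorem hne : ∃ j i, L C j * K C i ≠ 0 := by
  refine ⟨(0, 1), (2, 3), fun h0 => ?_⟩
  have h1 := lap C (fun c => (z 0 c : ℂ)) (2, 3) (0, 1)
  rw [h0, Mn_cast] at h1
  have h2 : Mn C (z 0) ![0, 1, 2, 3] = T 0 0 := by
    have := hT 0 0
    rw [Mn_d4]
    exact this
  simp only at h1
  rw [h2] at h1
  have h3 : T 0 0 ≠ 0 := by decide
  simp only [Matrix.zero_apply, zero_mul, Finset.sum_const_zero] at h1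
  exact h3 (by exact_mod_cast h1.symm)

theorem s0541 :
    ∃ Φ₁ Φ₂ : Matrix (Fin 10) (Fin 10) ℂ → Matrix (Fin 10) (Fin 10) ℂ,
      IsLinearMap ℂ Φ₁ ∧ IsLinearMap ℂ Φ₂ ∧ IsPPT Φ₁ ∧ IsPPT Φ₂ ∧
      choiMatrix (Φ₂ ∘ Φ₁) ≠ 0 ∧
      (∀ u v : Fin 10 → ℂ, (∃ w, (choiMatrix (Φ₂ ∘ Φ₁)).mulVec w = fun p => u p.1 * v p.2) →
        u = 0 ∨ v = 0) ∧
      ¬ IsEntanglementBreaking (Φ₂ ∘ Φ₁) :=
  Dual26.s0541_all (K C) (K C) (L C) (L C) (P345HK34.hK C hC) (P345HK34.hL C hC) hPF hne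

theorem s0540 :
    ∃ Θ : Matrix (Fin 21) (Fin 21) ℂ → Matrix (Fin 21) (Fin 21) ℂ,
      IsChannel Θ ∧ IsPPT Θ ∧ ¬ IsEntanglementBreaking (Θ ∘ Θ) :=
  Dual26.s0540_all (K C) (K C) (L C) (L C) (P345HK34.hK C hC) (P345HK34.hL C hC) hPF hne

end Crest.Agent.P345.Fin36
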