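import Mathlib
import Crest.Agent.P345HK34

/-! helper59, row 345: contraction of `L_j K_i` with `w² ⊗ w²` = `4 × 4` minor of `A(w)`. -/

set_option autoImplicit false
set_option maxRecDepth 100000

namespace Crest.Agent.P345.Lap59

open Crest.Agent.P345HK34

/-- rows of the `15` minors -/
def emb : Fin 15 → Fin 4 → Fin 6 :=
  ![![0, 1, 2, 3], ![0, 1, 2, 4], ![0, 1, 2, 5], ![0, 1, 3, 4], ![0, 1, 3, 5], ![0, 1, 4, 5],
    ![0, 2, 3, 4], ![0, 2, 3, 5], ![0, 2, 4, 5], ![0, 3, 4, 5], ![1, 2, 3, 4], ![1, 2, 3, 5],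
    ![1, 2, 4, 5], ![1, 3, 4, 5], ![2, 3, 4, 5]]

/-- minor with rows `f` -/
def mn {n : ℕ} (a : Fin n → Fin 4 → ℤ) (f : Fin 4 → Fin n) : ℤ :=
  Matrix.det (Matrix.of fun i k => a (f i) k)

theorem exists_perm : ∀ a b c d : Fin 6, a ≠ b → a ≠ c → a ≠ d → b ≠ c → b ≠ d → c ≠ d →
    ∃ e : Fin 15, ∃ σ : Equiv.Perm (Fin 4), ∀ i, ![a, b, c, d] i = emb e (σ i) := by
  decide +kernel

theorem exists_sign (f : Fin 4 → Fin 6) : ∃ (ε : ℤ) (e : Fin 15), ∀ a : Fin 6 → Fin 4 → ℤ,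
    mn a f = ε * mn a (emb e) := by
  by_cases hf : Function.Injective f
  · obtain ⟨e, σ, h⟩ := exists_perm (f 0) (f 1) (f 2) (f 3) (hf.ne (by decide))
      (hf.ne (by decide)) (hf.ne (by decide)) (hf.ne (by decide)) (hf.ne (by decide))
      (hf.ne (by decide))
    have h' : ∀ i, f i = emb e (σ i) := by
      intro i
      rw [← h i]
      fin_cases i <;> rfl
    refine ⟨(Equiv.Perm.sign σ : ℤˣ), e, fun a => ?_⟩
    unfold mn
    have h2 := Matrix.det_permute σ (Matrix.of fun i k => a (emb e i) k : Matrix (Fin 4) (Fin 4) ℤ)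
    rw [Int.cast_id] at h2
    rw [← h2]
    congr 1
    ext i k
    simp [h' i]
  · rw [Function.Injective] at hf
    push Not at hf
    obtain ⟨i, j, hij, hne⟩ := hf
    refine ⟨0, 0, fun a => ?_⟩
    rw [zero_mul]
    exact Matrix.det_zero_of_row_eq hne (by funext k; simp [hij])

/-- value of row `r`, column `k` of `A(w)` -/
def av (C : Fin 4 → Fin 6 → Fin 4 → ℤ) (w : Fin 4 → ℤ) (r : Fin 6) (k : Fin 4) : ℤ :=
  ∑ a, w a * C a r k

/-- monomials -/
def mu (w : Fin 4 → ℤ) (m : Fin 10) : ℤ := w (ma m) * w (mb m)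

theorem Kz_mu (C : Fin 4 → Fin 6 → Fin 4 → ℤ) (w : Fin 4 → ℤ) (i : Fin 6 × Fin 6) (x : Fin 10) :
    ∑ m, Kz C i x m * mu w m
      = av C w i.1 (pk x) * av C w i.2 (pl x) - av C w i.1 (pl x) * av C w i.2 (pk x) := by
  obtain ⟨r, s⟩ := i
  simp only [Kz, mu, av, entry, Fin.sum_univ_succ, Fin.sum_univ_zero]
  generalize pk x = k
  generalize pl x = l
  simp [ma, mb]
  ring

theorem lap (C : Fin 4 → Fin 6 → Fin 4 → ℤ) (w : Fin 4 → ℤ) (j i : Fin 6 × Fin 6) :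
    ∑ m', ∑ m, mu w m' * (∑ y, Lz C j m' y * Kz C i y m) * mu w m
      = mn (av C w) ![j.1, j.2, i.1, i.2] := by
  have h1 : ∑ m', ∑ m, mu w m' * (∑ y, Lz C j m' y * Kz C i y m) * mu w m
      = ∑ y, sg y * (∑ m', Kz C j (co y) m' * mu w m') * (∑ m, Kz C i y m * mu w m) := by
    simp only [Finset.mul_sum, Finset.sum_mul]
    rw [Finset.sum_comm]
    conv_lhs =>
      enter [2, m]
      rw [Finset.sum_comm]
    rw [Finset.sum_comm]
    refine Finset.sum_congr rfl fun y _ => Finset.sum_congr rfl fun m _ =>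
      Finset.sum_congr rfl fun m' _ => ?_
    unfold Lz
    ring
  rw [h1]
  simp only [Kz_mu]
  unfold mn
  generalize hA : av C w = A
  simp [Matrix.det_succ_row_zero, Fin.sum_univ_succ, sg, co, pk, pl, Fin.succAbove]
  ring

end Crest.Agent.P345.Lap59
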