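import Mathlib
import Crest.Agent.P345HK34
import Crest.Agent.P345.Lap59
import Crest.Agent.P345.Quart59
import Crest.Agent.P345.Dual26

/-! helper59, row 345: product-freeness hypothesis of `P345Red.s0541_of` from integer data. -/

set_option autoImplicit false

namespace Crest.Agent.P345.Fin59

open Crest.Agent.P345HK34 Crest.Agent.P345.Lap59

/-- the annihilator of all `L_j K_i` -/
def Rho (C : Fin 4 → Fin 6 → Fin 4 → ℤ) : Type :=
  {n : Fin 10 × Fin 10 → ℂ // ∀ j i, ∑ p : Fin 10 × Fin 10, n p * (L C j * K C i) p.2 p.1 = 0}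

theorem hPF_all (p : ℕ) [hp : Fact p.Prime] (C : Fin 4 → Fin 6 → Fin 4 → ℤ)
    {N : ℕ} (wp : Fin N → Fin 4 → ℤ) (hw : ∀ i e, (p : ℤ) ∣ mn (av C (wp i)) (emb e))
    (z : Fin 15 → Fin 4 → ℤ) (D D' : Matrix (Fin 15) (Fin 15) ℤ)
    (hD0 : ∀ j e, D j e = mn (av C (z j)) (emb e))
    (hD : ∀ a b, (p : ℤ) ∣ (D' * D - 1) a b)
    (h : ∀ (k : Type) [Field k] [CharP k p] (u v : Fin 10 → k),
      (∀ i, (∑ a, (mu (wp i) a : k) * u a) * (∑ a, (mu (wp i) a : k) * v a) = 0) → u = 0 ∨ v = 0)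
    (u v : Fin 10 → ℂ)
    (hn : ∀ r : Rho C, ∑ q : Fin 10 × Fin 10, r.1 q * (u q.1 * v q.2) = 0) :
    u = 0 ∨ v = 0 := by
  obtain ⟨c, hc⟩ := Dual26.uv_coeff (K C) (L C) u v (fun n hn' => hn ⟨n, hn'⟩)
  choose ε ee hee using exists_sign
  let g : Fin 15 → ℂ := fun e => ∑ a : (Fin 6 × Fin 6) × (Fin 6 × Fin 6),
    c a * (if ee ![a.1.1, a.1.2, a.2.1, a.2.2] = e then (ε ![a.1.1, a.1.2, a.2.1, a.2.2] : ℂ)
      else 0)
  have key : ∀ w : Fin 4 → ℤ, (∑ a, (mu w a : ℂ) * u a) * (∑ a, (mu w a : ℂ) * v a)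
      = ∑ e, (mn (av C w) (emb e) : ℂ) * g e := by
    intro w
    have h1 := Dual26.uv_eval (K C) (L C) u v c hc (fun a => (mu w a : ℂ)) (fun a => (mu w a : ℂ))
    have h2 : ∀ a : (Fin 6 × Fin 6) × (Fin 6 × Fin 6),
        (∑ i, ∑ j, (mu w i : ℂ) * (mu w j : ℂ) * (L C a.1 * K C a.2) j i)
        = (mn (av C w) ![a.1.1, a.1.2, a.2.1, a.2.2] : ℂ) := by
      intro a
      rw [← lap C w a.1 a.2]
      push_cast
      rw [Finset.sum_comm]
      refine Finset.sum_congr rfl fun m' _ => Finset.sum_congr rfl fun m _ => ?_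
      rw [Matrix.mul_apply]
      simp only [L, K, Matrix.of_apply]
      ring
    have h3 : (∑ a, (mu w a : ℂ) * u a) * (∑ a, (mu w a : ℂ) * v a)
        = (∑ i, u i * (mu w i : ℂ)) * (∑ j, v j * (mu w j : ℂ)) := by
      simp only [mul_comm]
    rw [h3, h1]
    simp only [h2, g, Finset.mul_sum]
    rw [Finset.sum_comm]
    refine Finset.sum_congr rfl fun a _ => ?_
    rw [hee ![a.1.1, a.1.2, a.2.1, a.2.2] (av C w)]
    rw [Finset.sum_eq_single (ee ![a.1.1, a.1.2, a.2.1, a.2.2])]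
    · rw [if_pos rfl]
      push_cast
      ring
    · intro b _ hb
      rw [if_neg (Ne.symm hb)]
      ring
    · intro hb
      exact absurd (Finset.mem_univ _) hb
  refine Quart59.quart_lift p (fun i => mu (wp i)) (fun i e => mn (av C (wp i)) (emb e)) hw
    (fun j => mu (z j)) D D' hD h u v g (fun j => ?_) (fun i => key (wp i))
  rw [key (z j)]
  exact Finset.sum_congr rfl fun e _ => by rw [hD0]

end Crest.Agent.P345.Fin59
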