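import Crest.Agent.P345.Fa80
import Crest.Agent.P345.Fb80
import Crest.Agent.P345.Fc80
import Crest.Agent.P345.Fd80
import Crest.Agent.P345.Fh80
import Crest.Agent.P345.Fg80
import Crest.Agent.P345Red
import Crest.Agent.P345Val79

/-! Row 345: final assembly for the integer data of `Data80` (A = 3, c = 2 + 2i, p = 109201). -/

set_option autoImplicit false

namespace Crest.Agent.P345.F80
open Crest.Agent.P345Red
open Matrix

noncomputable def Kc (s : Fin 15) : Matrix (Fin 10) (Fin 10) ℂ := Matrix.of fun a b => (K0 s a b : ℂ)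
noncomputable def Lc (s : Fin 15) : Matrix (Fin 10) (Fin 10) ℂ := Matrix.of fun a b => (L0 s a b : ℂ)

theorem hK (M : Matrix (Fin 10) (Fin 10) ℂ) : (kmap Kc M).transpose = kmap Kc M := by
  apply kmap_transpose_of
  intro x y a b
  have h := congrArg (Int.cast : ℤ → ℂ) (hK0 x y a b)
  push_cast at h
  simp only [Kc, Matrix.of_apply, star_intCast]
  exact h

theorem hL (M : Matrix (Fin 10) (Fin 10) ℂ) : (kmap Lc M).transpose = kmap Lc M := by
  apply kmap_transpose_of
  intro x y a b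
  have h := congrArg (Int.cast : ℤ → ℂ) (hL0 x y a b)
  push_cast at h
  simp only [Lc, Matrix.of_apply, star_intCast]
  exact h

theorem hR (r : Fin 20) (j i : Fin 15) :
    ∑ p : Fin 10 × Fin 10, N0 r p.1 p.2 * ∑ α : Fin 10, L0 j p.2 α * K0 i α p.1 = 0 := by
  have h1 : ∑ p : Fin 10 × Fin 10, N0 r p.1 p.2 * ∑ α : Fin 10, L0 j p.2 α * K0 i α p.1
      = ∑ q : Fin 35, ∑ p ∈ Finset.univ.filter (fun p : Fin 10 × Fin 10 => g p = q),
        N0 r p.1 p.2 * ∑ α : Fin 10, L0 j p.2 α * K0 i α p.1 :=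
    (Finset.sum_fiberwise _ _ _).symm
  have h2 : ∀ q : Fin 35, ∑ p ∈ Finset.univ.filter (fun p : Fin 10 × Fin 10 => g p = q),
        N0 r p.1 p.2 * ∑ α : Fin 10, L0 j p.2 α * K0 i α p.1
      = lm r q * (ts j i * mn (ti j i) q) := by
    intro q
    rw [← hA j i q, Finset.mul_sum]
    refine Finset.sum_congr rfl fun p hp => ?_
    have h3 : g p = q := (Finset.mem_filter.1 hp).2
    have h4 : N0 r p.1 p.2 = lm r q := by
      rw [← h3]; rfl
    rw [h4]
  rw [h1, Finset.sum_congr rfl fun q _ => h2 q]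
  calc ∑ q, lm r q * (ts j i * mn (ti j i) q) = ts j i * ∑ q, lm r q * mn (ti j i) q := by
        rw [Finset.mul_sum]; exact Finset.sum_congr rfl fun q _ => by ring
    _ = 0 := by rw [hB r (ti j i), mul_zero]

theorem hrel (r : Fin 20) (j i : Fin 15) :
    ∑ p : Fin 10 × Fin 10, ((fun (r : Fin 20) (p : Fin 10 × Fin 10) => (N0 r p.1 p.2 : ℂ)) r p)
      * (Lc j * Kc i) p.2 p.1 = 0 := by
  have h := congrArg (Int.cast : ℤ → ℂ) (hR r j i)
  push_cast at h
  simp only [Matrix.mul_apply, Lc, Kc, Matrix.of_apply]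
  exact h

instance fact : Fact (Nat.Prime 109201) := ⟨by norm_num⟩

def X1 (i : Fin 20) (s : Fin 10) : ℕ := (Data80p.xs.getD i.1 []).getD s.1 0
def c1 (i : Fin 20) (r : Fin 20) : ℤ := (Data80p.cs.getD i.1 []).getD r.1 0

abbrev BB : ℕ := 1606938044258990275541962092341162602522202993782792835301376

theorem hbnd : ∀ r ∈ Lp, Crest.Agent.P345Fast.bnd BB 109201 10 r := by
  simp only [Crest.Agent.P345Fast.bnd, and_true]
  decide +kernel

theorem pfk (k : Type) [Field k] [CharP k 109201] (u v : Fin 10 → k)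
    (h : ∀ i : Fin 20, (∑ s, (X1 i s : k) * u s) * (∑ t, (X1 i t : k) * v t) = 0) :
    u = 0 ∨ v = 0 := by
  refine Crest.Agent.P345Fast.pf_char (p := 109201) (n := 20) (k := 10) (by norm_num) BB 109201
    (by norm_num) (by norm_num) Lp hlenp hbnd hcheck u v fun i => ?_
  have h1 : ∀ j : Fin 10, (Lp.getD i.1 0 / BB ^ (j : ℕ) % BB) = X1 i j := fun j => hdig i j
  simp only [h1]
  exact h i

theorem hPF (u v : Fin 10 → ℂ)
    (h : ∀ r : Fin 20, ∑ p : Fin 10 × Fin 10,
      ((fun (r : Fin 20) (p : Fin 10 × Fin 10) => (N0 r p.1 p.2 : ℂ)) r p) * (u p.1 * v p.2) = 0) :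
    u = 0 ∨ v = 0 := by
  refine Crest.Agent.P345Val79.val_transfer 109201 N0 ?_ u v fun r => ?_
  swap
  · have h1 := h r
    rw [Fintype.sum_prod_type] at h1
    exact h1
  clear h u v
  intro k _ _ u v h
  refine pfk k u v fun i => ?_
  let φ : ZMod 109201 →+* k := ZMod.castHom (dvd_refl 109201) k
  have h1 : ∀ s t, (∑ r, (c1 i r : k) * (N0 r s t : k)) = (X1 i s : k) * (X1 i t : k) := by
    intro s t
    have h0 : ((∑ r, c1 i r * N0 r s t - (X1 i s : ℤ) * (X1 i t : ℤ) : ℤ) : ZMod 109201) = 0 :=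
      (ZMod.intCast_zmod_eq_zero_iff_dvd _ _).2 (Int.dvd_of_emod_eq_zero (hc0' i s t))
    have h2 := congrArg φ h0
    rw [map_intCast, map_zero] at h2
    push_cast at h2
    exact sub_eq_zero.1 h2
  rw [Finset.sum_mul_sum]
  calc ∑ s, ∑ t, ((X1 i s : k) * u s) * ((X1 i t : k) * v t)
      = ∑ s, ∑ t, (∑ r, (c1 i r : k) * (N0 r s t : k)) * (u s * v t) := by
        refine Finset.sum_congr rfl fun s _ => Finset.sum_congr rfl fun t _ => ?_
        rw [h1]; ring
    _ = ∑ r, (c1 i r : k) * ∑ s, ∑ t, (N0 r s t : k) * (u s * v t) := by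
        simp only [Finset.sum_mul, Finset.mul_sum]
        rw [Finset.sum_comm]
        have : ∀ s : Fin 10, (∑ t, ∑ r, (c1 i r : k) * (N0 r s t : k) * (u s * v t))
            = ∑ r, ∑ t, (c1 i r : k) * ((N0 r s t : k) * (u s * v t)) := by
          intro s
          rw [Finset.sum_comm]
          exact Finset.sum_congr rfl fun _ _ => Finset.sum_congr rfl fun _ _ => by ring
        rw [Finset.sum_comm]
        simp only [this]
        rw [Finset.sum_comm]
    _ = 0 := by simp [h]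

theorem hne0 : ∃ (j i : Fin 15) (a b : Fin 10), ∑ α : Fin 10, L0 j a α * K0 i α b ≠ 0 := by
  decide +kernel

theorem hne : ∃ j i, Lc j * Kc i ≠ 0 := by
  obtain ⟨j, i, a, b, h⟩ := hne0
  refine ⟨j, i, fun h0 => h ?_⟩
  have h1 := congrFun (congrFun h0 a) b
  simp only [Matrix.mul_apply, Lc, Kc, Matrix.of_apply, Matrix.zero_apply] at h1
  exact_mod_cast h1

end Crest.Agent.P345.F80
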