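import Crest.Agent.P345.Num96
import Crest.Agent.P345.Mds93Fin
import Crest.Agent.P345.Asm87

set_option autoImplicit false

namespace Crest.Agent.P345.Fin87

open Crest.Agent.P345.Gen96 Crest.Agent.P345HK34

theorem hx : ∀ (i : Fin 20) (j : Fin 10),
    (60041 : ℤ) ∣ sq (Num96.w i) j - (((Mds93Fin.xs.getD i []).getD j 0 : ℕ) : ℤ) := by
  decide +kernel

theorem hk : ∀ (k : Type) [Field k] [CharP k 60041] (u v : Fin 10 → k),
    (∀ i, (∑ s, (sq (Num96.w i) s : k) * u s) * (∑ s, (sq (Num96.w i) s : k) * v s) = 0) →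
      u = 0 ∨ v = 0 := fun k _ _ u v h =>
  Mds93Fin.hmds_of (fun i s => sq (Num96.w i) s) hx k u v h

theorem hlap : Asm87.lap Num96.C ![1, 0, 0, 0] 0 1 2 3 ≠ 0 := by decide +kernel

theorem hne : ∃ j i, L Num96.C j * K Num96.C i ≠ 0 :=
  Asm87.hne_of Num96.C ![1, 0, 0, 0] 0 1 2 3 hlap

end Crest.Agent.P345.Fin87
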