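import Crest.Agent.P345.Asm88

set_option autoImplicit false

namespace Crest.Agent.P345.Asm88

open Crest.Agent.P345Red Crest.Agent.P345HK34 Crest.Agent.P345.Lap88 Crest.Agent.P345.Dual26

/-- the general position hypothesis -/
def MDS : Prop := ∀ (k : Type) [Field k] [CharP k 68749] (u v : Fin 10 → k),
  (∀ i : Fin 20, (∑ s, ((mon (W i) s : ℤ) : k) * u s) * (∑ s, ((mon (W i) s : ℤ) : k) * v s) = 0) →
    u = 0 ∨ v = 0

theorem key (u v : Fin 10 → ℂ) (c : (Fin 6 × Fin 6) × (Fin 6 × Fin 6) → ℂ)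
    (h : ∀ P : Fin 10 × Fin 10, u P.1 * v P.2 = ∑ a, c a * (L C a.1 * K C a.2) P.2 P.1) :
    ∃ g : Fin 15 → ℂ, ∀ w : Fin 4 → ℤ,
      (∑ s, (mon w s : ℂ) * u s) * (∑ s, (mon w s : ℂ) * v s) = ∑ k, g k * (M15 C w k : ℂ) := by
  choose g hg using lap_span
  refine ⟨fun k => ∑ a : (Fin 6 × Fin 6) × (Fin 6 × Fin 6), c a * (g a.1 a.2 k : ℂ), fun w => ?_⟩
  have e : ∀ a : (Fin 6 × Fin 6) × (Fin 6 × Fin 6),
      ∑ i, ∑ j, (mon w i : ℂ) * (mon w j : ℂ) * (L C a.1 * K C a.2) j i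
        = ∑ k, (g a.1 a.2 k : ℂ) * (M15 C w k : ℂ) := by
    intro a
    have h1 := congrArg (Int.cast : ℤ → ℂ) (hg a.1 a.2 C w)
    push_cast at h1
    rw [← h1, Finset.sum_comm]
    refine Finset.sum_congr rfl fun j _ => Finset.sum_congr rfl fun i _ => ?_
    rw [Matrix.mul_apply]
    simp only [L, K, Matrix.of_apply]
    ring
  have h2 := uv_eval (K C) (L C) u v c h (fun s => (mon w s : ℂ)) (fun s => (mon w s : ℂ))
  have h3 : (∑ s, (mon w s : ℂ) * u s) * (∑ s, (mon w s : ℂ) * v s)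
      = (∑ i, u i * (mon w i : ℂ)) * (∑ j, v j * (mon w j : ℂ)) := by
    congr 1 <;> exact Finset.sum_congr rfl fun s _ => mul_comm _ _
  rw [h3, h2]
  simp only [e, Finset.mul_sum, Finset.sum_mul]
  rw [Finset.sum_comm]
  refine Finset.sum_congr rfl fun k _ => Finset.sum_congr rfl fun a _ => ?_
  ring

theorem hPF (hm : MDS) (u v : Fin 10 → ℂ) (c : (Fin 6 × Fin 6) × (Fin 6 × Fin 6) → ℂ)
    (h : ∀ P : Fin 10 × Fin 10, u P.1 * v P.2 = ∑ a, c a * (L C a.1 * K C a.2) P.2 P.1) :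
    u = 0 ∨ v = 0 := by
  haveI : Fact (Nat.Prime 68749) := ⟨by norm_num⟩
  obtain ⟨g, hg⟩ := key u v c h
  refine Crest.Agent.P345.Span43.pf_span 68749 (fun j => mon (Z j)) MzT BiT hB
    (fun i => mon (W i)) (fun i => M15 C (W i)) hMx (fun k _ _ u v => hm k u v) u v g ?_ ?_
  · intro j
    rw [hg (Z j)]
    exact Finset.sum_congr rfl fun c _ => by rw [hMz]
  · intro i
    exact hg (W i)

theorem hne : ∃ j i, L C j * K C i ≠ 0 := by
  refine ⟨(0, 1), (0, 1), fun h => ?_⟩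
  have h1 := congrFun (congrFun h 1) 8
  rw [Matrix.mul_apply] at h1
  simp only [L, K, Matrix.of_apply, Matrix.zero_apply] at h1
  have h2 : ((∑ x, Lz C (0, 1) 1 x * Kz C (0, 1) x 8 : ℤ) : ℂ) = 0 := by
    push_cast
    exact h1
  have h3 : ∑ x, Lz C (0, 1) 1 x * Kz C (0, 1) x 8 = -288 := by decide +kernel
  rw [h3] at h2
  norm_num at h2

end Crest.Agent.P345.Asm88
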