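import Crest.Agent.P345.Van92
import Crest.Agent.P345Mds
set_option autoImplicit false
set_option maxHeartbeats 400000
namespace Crest.Agent.P345.Van92
open Crest.Agent.P345Mds

/-- product-freeness over `ℂ` modulo the span of 15 integer quartics, from data mod `p`.
`mon i j` = index of the quartic monomial `x_i x_j`; `y P r` = value of monomial `r` at point `P`;
`x P i` = value of the quadratic monomial. -/
theorem pf_data (p : ℕ) [Fact p.Prime] {R m : ℕ} (mon : Fin 10 → Fin 10 → Fin R)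
    (mm : Fin m → Fin R → ℤ) (Ri : Fin R → Fin m → ℤ)
    (hinv : ∀ t t', ((∑ r, mm t r * Ri r t' : ℤ) : ZMod p) = if t = t' then 1 else 0)
    (x : Fin 20 → Fin 10 → ℕ) (y : Fin 20 → Fin R → ℕ)
    (hxy : ∀ P i j, ((y P (mon i j) : ℕ) : ZMod p) = (x P i : ZMod p) * (x P j : ZMod p))
    (hvan : ∀ P t, ((∑ r, mm t r * (y P r : ℤ) : ℤ) : ZMod p) = 0)
    (hm : mds p 20 10 (List.ofFn fun i => List.ofFn (x i)) = true)
    (u v : Fin 10 → ℂ) (l : Fin m → ℂ)
    (h : ∀ r, ∑ i, ∑ j, (((if mon i j = r then 1 else 0 : ℤ)) : ℂ) * u i * v j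
      = ∑ t, l t * (mm t r : ℂ)) : u = 0 ∨ v = 0 := by
  classical
  refine pf_lift_span p (fun r i j => if mon i j = r then 1 else 0) mm ?_ ?_ u v l h
  · intro k _ _ l hl
    let φ : ZMod p →+* k := ZMod.castHom (dvd_refl p) k
    funext t'
    have h1 : ∑ r, (∑ t, l t * (mm t r : k)) * (Ri r t' : k) = 0 := by
      simp [hl]
    have h2 : ∑ r, (∑ t, l t * (mm t r : k)) * (Ri r t' : k)
        = ∑ t, l t * φ ((∑ r, mm t r * Ri r t' : ℤ) : ZMod p) := by
      simp only [Int.cast_sum, Int.cast_mul, map_sum, map_mul, map_intCast, Finset.sum_mul,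
        Finset.mul_sum]
      rw [Finset.sum_comm]
      refine Finset.sum_congr rfl fun t _ => Finset.sum_congr rfl fun r _ => by ring
    rw [h2] at h1
    simp only [hinv] at h1
    simpa using h1
  · intro k _ _ u v l hl
    let φ : ZMod p →+* k := ZMod.castHom (dvd_refl p) k
    refine pf_of_mds φ φ.injective (RingHom.id _) (fun i s => (x i s : ZMod p))
      (fun i s => (x i s : ZMod p)) x x (fun _ _ => rfl) (fun _ _ => rfl) hm hm u v ?_
    intro P
    have h1 : ∑ r, (∑ i, ∑ j, (((if mon i j = r then 1 else 0 : ℤ)) : k) * u i * v j)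
        * φ (y P r : ZMod p) = 0 := by
      simp only [hl]
      have h2 : ∑ r, (∑ t, l t * (mm t r : k)) * φ (y P r : ZMod p)
          = ∑ t, l t * φ ((∑ r, mm t r * (y P r : ℤ) : ℤ) : ZMod p) := by
        simp only [Int.cast_sum, Int.cast_mul, Int.cast_natCast, map_sum, map_mul, map_intCast,
          map_natCast, Finset.sum_mul, Finset.mul_sum]
        rw [Finset.sum_comm]
        refine Finset.sum_congr rfl fun t _ => Finset.sum_congr rfl fun r _ => by ring
      rw [h2]
      simp only [hvan, map_zero, mul_zero, Finset.sum_const_zero]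
    have h3 : ∑ r, (∑ i, ∑ j, (((if mon i j = r then 1 else 0 : ℤ)) : k) * u i * v j)
        * φ (y P r : ZMod p)
        = ∑ q : Fin 10 × Fin 10, (φ (x P q.1 : ZMod p) * φ (x P q.2 : ZMod p)) * (u q.1 * v q.2) := by
      simp only [Finset.sum_mul]
      rw [Finset.sum_comm, Fintype.sum_prod_type]
      refine Finset.sum_congr rfl fun i _ => ?_
      rw [Finset.sum_comm]
      refine Finset.sum_congr rfl fun j _ => ?_
      rw [Finset.sum_eq_single (mon i j)]
      · rw [hxy, map_mul]; simp; ring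
      · intro r _ hr
        simp [Ne.symm hr]
      · intro hr; exact absurd (Finset.mem_univ _) hr
    rw [h3] at h1
    exact h1

/-- assembly of (L3) and (L4): `κ t a b` integer vectors (`= (L_j K_i) b a`), whose multiplication
images are integer combinations of the 15 quartics. -/
theorem rel_data (p : ℕ) [Fact p.Prime] {R m : ℕ} {τ : Type} (κ : τ → Fin 10 → Fin 10 → ℤ)
    (mon : Fin 10 → Fin 10 → Fin R)
    (mm : Fin m → Fin R → ℤ) (c : τ → Fin m → ℤ)
    (hκ : ∀ t r, ∑ i, ∑ j, (if mon i j = r then 1 else 0) * κ t i j = ∑ s, c t s * mm s r)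
    (Ri : Fin R → Fin m → ℤ)
    (hinv : ∀ t t', ((∑ r, mm t r * Ri r t' : ℤ) : ZMod p) = if t = t' then 1 else 0)
    (x : Fin 20 → Fin 10 → ℕ) (y : Fin 20 → Fin R → ℕ)
    (hxy : ∀ P i j, ((y P (mon i j) : ℕ) : ZMod p) = (x P i : ZMod p) * (x P j : ZMod p))
    (hvan : ∀ P t, ((∑ r, mm t r * (y P r : ℤ) : ℤ) : ZMod p) = 0)
    (hm : mds p 20 10 (List.ofFn fun i => List.ofFn (x i)) = true) :
    ∃ n : (Fin 10 × Fin 10) → Fin 10 × Fin 10 → ℂ,
      (∀ r t, ∑ q : Fin 10 × Fin 10, n r q * (κ t q.1 q.2 : ℂ) = 0) ∧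
      ∀ (u v : Fin 10 → ℂ), (∀ r, ∑ q : Fin 10 × Fin 10, n r q * (u q.1 * v q.2) = 0) →
        u = 0 ∨ v = 0 := by
  classical
  let W : Submodule ℂ (Fin 10 × Fin 10 → ℂ) :=
    Submodule.span ℂ (Set.range fun t => fun q : Fin 10 × Fin 10 => (κ t q.1 q.2 : ℂ))
  obtain ⟨n, h1, h2⟩ := exists_rel W
  refine ⟨n, fun r t => h1 _ (Submodule.subset_span ⟨t, rfl⟩) r, ?_⟩
  intro u v huv
  have h3 : (fun q : Fin 10 × Fin 10 => u q.1 * v q.2) ∈ W := h2 _ huv
  have key : ∀ z ∈ W, ∃ l : Fin m → ℂ, ∀ r,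
      ∑ i, ∑ j, (((if mon i j = r then 1 else 0 : ℤ)) : ℂ) * z (i, j) = ∑ s, l s * (mm s r : ℂ) := by
    intro z hz
    induction hz using Submodule.span_induction with
    | mem z hz =>
      obtain ⟨t, rfl⟩ := hz
      refine ⟨fun s => (c t s : ℂ), fun r => ?_⟩
      have := congrArg (Int.cast : ℤ → ℂ) (hκ t r)
      push_cast at this
      push_cast
      exact this
    | zero => exact ⟨0, fun r => by simp⟩
    | add a b _ _ ha hb =>
      obtain ⟨la, hla⟩ := ha
      obtain ⟨lb, hlb⟩ := hb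
      refine ⟨la + lb, fun r => ?_⟩
      simp only [Pi.add_apply, mul_add, add_mul, Finset.sum_add_distrib, hla, hlb]
    | smul e a _ ha =>
      obtain ⟨la, hla⟩ := ha
      refine ⟨e • la, fun r => ?_⟩
      simp only [Pi.smul_apply, smul_eq_mul, mul_assoc]
      rw [← Finset.mul_sum, ← hla, Finset.mul_sum]
      refine Finset.sum_congr rfl fun i _ => ?_
      rw [Finset.mul_sum]
      refine Finset.sum_congr rfl fun j _ => by ring
  obtain ⟨l, hl⟩ := key _ h3
  refine pf_data p mon mm Ri hinv x y hxy hvan hm u v l fun r => ?_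
  rw [← hl r]
  exact Finset.sum_congr rfl fun i _ => Finset.sum_congr rfl fun j _ => by ring

end Crest.Agent.P345.Van92
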