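import Crest.Agent.P345.Num96
import Crest.Agent.P345.Mds81f

set_option autoImplicit false
set_option maxHeartbeats 4000000
set_option maxRecDepth 100000

namespace Crest.Agent.P345.Fin96

open Crest.Agent.P345.Gen96 Crest.Agent.P345.Num96 Crest.Agent.P345Fast Crest.Agent.P345HK34
open Crest.Quantum

instance prime_p : Fact (Nat.Prime 60041) := ⟨by norm_num⟩

def permL : List (Fin 20) := [11,8,2,4,9,7,16,10,1,5,13,3,19,14,17,18,6,12,0,15]

def perm (i : Fin 20) : Fin 20 := permL.getD i.1 0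

def rowB : Bool :=
  (List.finRange 20).all fun i => (List.finRange 10).all fun j =>
    decide ((((Mds81.T0.getD i.1 0 / (2 ^ 192) ^ j.1 % (2 ^ 192) : ℕ) : ℤ) - sq (w (perm i)) j)
      % 60041 = 0)

theorem rowB_eq : rowB = true := by decide +kernel

theorem row (i : Fin 20) (j : Fin 10) :
    (60041 : ℤ) ∣ ((Mds81.T0.getD i.1 0 / (2 ^ 192) ^ j.1 % (2 ^ 192) : ℕ) : ℤ)
      - sq (w (perm i)) j := by
  have h := rowB_eq
  unfold rowB at h
  rw [List.all_eq_true] at h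
  have h1 := h i (List.mem_finRange i)
  rw [List.all_eq_true] at h1
  have h2 := h1 j (List.mem_finRange j)
  rw [decide_eq_true_eq] at h2
  exact Int.dvd_of_emod_eq_zero h2

def bb (B M : ℕ) : ℕ → ℕ → Bool
  | 0, _ => true
  | l + 1, S => decide (S % B < M) && bb B M l (S / B)

theorem bb_sound (B M : ℕ) : ∀ (l S : ℕ), bb B M l S = true → bnd B M l S
  | 0, _, _ => trivial
  | l + 1, S, h => by
      simp only [bb, Bool.and_eq_true, decide_eq_true_eq] at h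
      exact ⟨h.1, bb_sound B M l (S / B) h.2⟩

theorem bb_all : (Mds81.T0.all fun r => bb (2 ^ 192) (2 ^ 16) 10 r) = true := by decide +kernel

theorem len : Mds81.T0.length = 20 := by decide +kernel

theorem hk (k : Type) [Field k] [CharP k 60041] (u v : Fin 10 → k)
    (h : ∀ i : Fin 20, (∑ s, (sq (w i) s : k) * u s) * (∑ s, (sq (w i) s : k) * v s) = 0) :
    u = 0 ∨ v = 0 := by
  have hlen : ∀ r ∈ Mds81.T0, bnd (2 ^ 192) (2 ^ 16) 10 r := by
    intro r hr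
    have h1 := bb_all
    rw [List.all_eq_true] at h1
    exact bb_sound _ _ _ _ (h1 r hr)
  refine pf_char (p := 60041) (n := 20) (k := 10) (by norm_num) (2 ^ 192) (2 ^ 16) (by norm_num)
    (by norm_num) Mds81.T0 len hlen Mds81.t0 u v ?_
  intro i
  have hc : ∀ j : Fin 10, ((Mds81.T0.getD i.1 0 / (2 ^ 192) ^ j.1 % (2 ^ 192) : ℕ) : k)
      = (sq (w (perm i)) j : k) := by
    intro j
    have h1 := (CharP.intCast_eq_zero_iff k 60041 _).mpr (row i j)
    rw [Int.cast_sub, sub_eq_zero, Int.cast_natCast] at h1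
    exact h1
  have h2 := h (perm i)
  simp only [hc]
  exact h2

theorem hne : ∃ j i, L C j * K C i ≠ 0 := by
  refine ⟨(2, 3), (0, 1), fun h0 => ?_⟩
  have h := lap C ![1, 0, 0, 0] (2, 3) (0, 1)
  rw [h0] at h
  have h1 : D4 (Aw C ![1, 0, 0, 0]) 0 1 2 3 = 1 := by decide +kernel
  simp only [Matrix.zero_apply, mul_zero, Finset.sum_const_zero] at h
  rw [h1] at h
  simp at h

theorem s0541 :
    ∃ Φ₁ Φ₂ : Matrix (Fin 10) (Fin 10) ℂ → Matrix (Fin 10) (Fin 10) ℂ,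
      IsLinearMap ℂ Φ₁ ∧ IsLinearMap ℂ Φ₂ ∧ IsPPT Φ₁ ∧ IsPPT Φ₂ ∧
      choiMatrix (Φ₂ ∘ Φ₁) ≠ 0 ∧
      (∀ u v : Fin 10 → ℂ, (∃ w, (choiMatrix (Φ₂ ∘ Φ₁)).mulVec w = fun p => u p.1 * v p.2) →
        u = 0 ∨ v = 0) ∧
      ¬ IsEntanglementBreaking (Φ₂ ∘ Φ₁) :=
  s0541_main 60041 C hC z Bi hB w hw hk hne

theorem s0540 :
    ∃ Θ : Matrix (Fin 21) (Fin 21) ℂ → Matrix (Fin 21) (Fin 21) ℂ,
      IsChannel Θ ∧ IsPPT Θ ∧ ¬ IsEntanglementBreaking (Θ ∘ Θ) :=
  s0540_main 60041 C hC z Bi hB w hw hk hne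

end Crest.Agent.P345.Fin96
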