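import Crest.Agent.P345.Lap50
import Crest.Agent.P345.Van92

set_option autoImplicit false

/-! Row 345: abstract assembly (helper50). -/

namespace Crest.Agent.P345.Final50

open Matrix Crest.Agent.P345Red Crest.Agent.P345HK34 Crest.Agent.P345.Lap50

theorem Mn_cast {k : Type*} [CommRing k] (C : Fin 4 → Fin 6 → Fin 4 → ℤ) (w : Fin 4 → ℤ)
    (f : Fin 4 → Fin 6) :
    Mn C (fun c => (w c : k)) f = ((Mn C w f : ℤ) : k) := by
  have h := RingHom.map_det (Int.castRingHom k) (Matrix.of fun i k => Aw C w (f i) k)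
  have h2 : ((Mn C w f : ℤ) : k) = (Int.castRingHom k) (Matrix.of fun i k => Aw C w (f i) k).det := rfl
  rw [h2, h, Mn]
  congr 1
  ext i j
  simp [Aw]

theorem sq_cast {k : Type*} [CommRing k] (w : Fin 4 → ℤ) (m : Fin 10) :
    Lap50.sq (fun c => (w c : k)) m = ((Lap50.sq w m : ℤ) : k) := by simp [Lap50.sq]

/-- the span of all quartic-minor combinations -/
def W (C : Fin 4 → Fin 6 → Fin 4 → ℤ) : Submodule ℂ (Fin 10 × Fin 10 → ℂ) where
  carrier := {κ | ∃ g : Fin 15 → ℂ, ∀ w : Fin 4 → ℂ,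
    ∑ q : Fin 10 × Fin 10, κ q * (sq w q.1 * sq w q.2) = ∑ e, g e * Mn C w (tab e)}
  zero_mem' := ⟨fun _ => 0, fun w => by simp⟩
  add_mem' := by
    rintro a b ⟨g, hg⟩ ⟨g', hg'⟩
    refine ⟨fun e => g e + g' e, fun w => ?_⟩
    simp only [Pi.add_apply, add_mul, Finset.sum_add_distrib, hg w, hg' w]
  smul_mem' := by
    rintro c a ⟨g, hg⟩
    refine ⟨fun e => c * g e, fun w => ?_⟩
    simp only [Pi.smul_apply, smul_eq_mul, mul_assoc, ← Finset.mul_sum, hg w]

theorem LK_mem (C : Fin 4 → Fin 6 → Fin 4 → ℤ) (i j : Fin 6 × Fin 6) :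
    (fun q : Fin 10 × Fin 10 => (L C j * K C i) q.2 q.1) ∈ W C := by
  obtain ⟨g, hg⟩ := Mn_any (R := ℂ) C ![j.1, j.2, i.1, i.2]
  refine ⟨g, fun w => ?_⟩
  rw [← hg w, ← lap C w i j, Fintype.sum_prod_type, Finset.sum_comm]
  refine Finset.sum_congr rfl fun a _ => Finset.sum_congr rfl fun b _ => ?_
  ring

theorem main (C : Fin 4 → Fin 6 → Fin 4 → ℤ) (p : ℕ) [hp : Fact p.Prime]
    (pt vt : Fin 20 → Fin 4 → ℤ) (z : Fin 15 → Fin 4 → ℤ)
    (hv : ∀ i, vt i 3 = 1)
    (hpt : ∀ i r, (p : ℤ) ∣ ∑ k, Aw C (pt i) r k * vt i k)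
    (B : Fin 15 → Fin 15 → ℤ)
    (hB : ∀ t s, (p : ℤ) ∣ ∑ r, Mn C (z r) (tab t) * B r s - (if t = s then 1 else 0))
    (hmds : ∀ (k : Type) [Field k] [CharP k p] (u v : Fin 10 → k),
      (∀ i, (∑ a, ((sq (pt i) a : ℤ) : k) * u a) * (∑ b, ((sq (pt i) b : ℤ) : k) * v b) = 0) →
      u = 0 ∨ v = 0) :
    ∃ n : Fin 10 × Fin 10 → Fin 10 × Fin 10 → ℂ,
      (∀ r j i, ∑ q : Fin 10 × Fin 10, n r q * (L C j * K C i) q.2 q.1 = 0) ∧
      (∀ (u : Fin 10 → ℂ) (v : Fin 10 → ℂ),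
        (∀ r, ∑ q : Fin 10 × Fin 10, n r q * (u q.1 * v q.2) = 0) → u = 0 ∨ v = 0) := by
  obtain ⟨n, hn1, hn2⟩ := Van92.exists_rel (W C)
  refine ⟨n, fun r j i => hn1 _ (LK_mem C i j) r, fun u v huv => ?_⟩
  obtain ⟨g, hg⟩ := hn2 (fun q => u q.1 * v q.2) huv
  have hchar : ∀ (k : Type) [Field k] [CharP k p] (a : ℤ), (p : ℤ) ∣ a → (a : k) = 0 :=
    fun k _ _ a ha => (CharP.intCast_eq_zero_iff k p a).2 ha
  have hM0 : ∀ (k : Type) [Field k] [CharP k p] (i : Fin 20) (e : Fin 15),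
      ((Mn C (pt i) (tab e) : ℤ) : k) = 0 := by
    intro k _ _ i e
    rw [← Mn_cast, Mn, ← Matrix.exists_mulVec_eq_zero_iff]
    refine ⟨fun c => (vt i c : k), ?_, ?_⟩
    · intro h
      have := congrFun h 3
      simp [hv i] at this
    · ext r
      have := hchar k _ (hpt i (tab e r))
      rw [Int.cast_sum] at this
      simp only [Matrix.mulVec, dotProduct, Matrix.of_apply, Pi.zero_apply]
      rw [← this]
      refine Finset.sum_congr rfl fun c _ => ?_
      rw [Int.cast_mul]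
      congr 1
      simp [Aw]
  let P : Fin (20 + 15) → Fin 4 → ℤ := Fin.append pt z
  refine Van92.pf_lift_span p (R := 20 + 15) (m := 15)
    (fun r i j => sq (P r) i * sq (P r) j) (fun t r => Mn C (P r) (tab t)) ?_ ?_ u v g ?_
  · intro k _ _ l hl
    ext s
    have h1 : ∀ r : Fin 15, ∑ t, l t * ((Mn C (z r) (tab t) : ℤ) : k) = 0 := by
      intro r
      have := hl (Fin.natAdd 20 r)
      simpa [P] using this
    have h2 : ∑ t, l t * ((∑ r, Mn C (z r) (tab t) * B r s : ℤ) : k) = 0 := by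
      have h3 : ∀ t, l t * ((∑ r, Mn C (z r) (tab t) * B r s : ℤ) : k)
          = ∑ r, (l t * ((Mn C (z r) (tab t) : ℤ) : k)) * (B r s : k) := by
        intro t
        rw [Int.cast_sum, Finset.mul_sum]
        refine Finset.sum_congr rfl fun r _ => ?_
        rw [Int.cast_mul]; ring
      simp only [h3]
      rw [Finset.sum_comm]
      simp only [← Finset.sum_mul, h1, zero_mul, Finset.sum_const_zero]
    have h4 : ∀ t, ((∑ r, Mn C (z r) (tab t) * B r s : ℤ) : k) = if t = s then 1 else 0 := by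
      intro t
      have := hchar k _ (hB t s)
      rw [Int.cast_sub, sub_eq_zero] at this
      rw [this]
      split_ifs <;> simp
    simp only [h4] at h2
    simpa using h2
  · intro k _ _ u v l h
    refine hmds k u v fun i => ?_
    have h1 := h (Fin.castAdd 15 i)
    simp only [P, Fin.append_left] at h1
    have h2 : ∑ t, l t * ((Mn C (pt i) (tab t) : ℤ) : k) = 0 :=
      Finset.sum_eq_zero fun t _ => by rw [hM0 k i t, mul_zero]
    rw [h2] at h1
    rw [Finset.sum_mul_sum, ← h1]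
    refine Finset.sum_congr rfl fun a _ => Finset.sum_congr rfl fun b _ => ?_
    rw [Int.cast_mul]; ring
  · intro r
    have h1 := hg (fun c => (P r c : ℂ))
    simp only [Mn_cast, sq_cast] at h1
    rw [← h1, Fintype.sum_prod_type]
    refine Finset.sum_congr rfl fun a _ => Finset.sum_congr rfl fun b _ => ?_
    rw [Int.cast_mul]; ring

end Crest.Agent.P345.Final50
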