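import Crest.Agent.P345.Dual26b
import Crest.Agent.P345.Lap50
import Crest.Agent.P345.Quart59
import Crest.Agent.P345.Data19

set_option autoImplicit false
set_option maxRecDepth 100000

/-! Row 345: assembly (helper95) for the small data of helper19. -/

namespace Crest.Agent.P345.Final95

open Matrix Crest.Quantum Crest.Agent.P345Red Crest.Agent.P345HK34 Crest.Agent.P345.Lap50

def CC (c : Fin 4) (r : Fin 6) (k : Fin 4) : ℤ :=
  ((Data19.C.getD c.1 []).getD r.1 []).getD k.1 0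
def ww (i : Fin 20) (a : Fin 4) : ℤ := (((Data19.w.getD i.1 []).getD a.1 0 : ℕ) : ℤ)
def zz (i : Fin 15) (a : Fin 4) : ℤ := (Data19.z.getD i.1 []).getD a.1 0

theorem hC : ∀ i j k l, ∑ r, CC i r k * CC j r l = ∑ r, CC i r l * CC j r k := by
  decide +kernel

def d4 (f : Fin 4 → Fin 4 → ℤ) : ℤ :=
  (f 0 0 * f 1 1 - f 0 1 * f 1 0) * (f 2 2 * f 3 3 - f 2 3 * f 3 2)
  - (f 0 0 * f 1 2 - f 0 2 * f 1 0) * (f 2 1 * f 3 3 - f 2 3 * f 3 1)
  + (f 0 0 * f 1 3 - f 0 3 * f 1 0) * (f 2 1 * f 3 2 - f 2 2 * f 3 1)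
  + (f 0 1 * f 1 2 - f 0 2 * f 1 1) * (f 2 0 * f 3 3 - f 2 3 * f 3 0)
  - (f 0 1 * f 1 3 - f 0 3 * f 1 1) * (f 2 0 * f 3 2 - f 2 2 * f 3 0)
  + (f 0 2 * f 1 3 - f 0 3 * f 1 2) * (f 2 0 * f 3 1 - f 2 1 * f 3 0)

theorem det_eq (f : Fin 4 → Fin 4 → ℤ) : Matrix.det (Matrix.of f) = d4 f := by
  rw [Matrix.det_succ_row_zero]
  simp only [Matrix.det_fin_three, Fin.sum_univ_succ, Fin.sum_univ_zero]
  simp [Fin.succAbove, d4]
  ring

def aw (w : Fin 4 → ℤ) (r : Fin 6) (k : Fin 4) : ℤ :=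
  w 0 * CC 0 r k + w 1 * CC 1 r k + w 2 * CC 2 r k + w 3 * CC 3 r k

theorem Aw_eq (w : Fin 4 → ℤ) (r : Fin 6) (k : Fin 4) : Aw CC w r k = aw w r k := by
  simp [Aw, aw, Fin.sum_univ_four]

def mm (w : Fin 4 → ℤ) (e : Fin 15) : ℤ := d4 (fun i k => aw w (tab e i) k)

theorem Mn_eq (w : Fin 4 → ℤ) (e : Fin 15) : Mn CC w (tab e) = mm w e := by
  unfold Mn mm
  rw [det_eq]
  simp only [Aw_eq]

theorem hT : ∀ (i : Fin 20) (e : Fin 15), ((68749 : ℕ) : ℤ) ∣ mm (ww i) e := by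
  decide +kernel


def Dt : List (List ℤ) := [[288, 576, 576, -576, 576, 2304, 0, 0, 0, 0, 0, 0, 0, 0, 0], [-4608, -1152, -4608, 5184, 1152, -4896, 4032, -8064, -6048, 10080, -4032, -1152, 3744, 288, 8064], [-3198, -480, -1848, 28464, -1704, -16704, 2772, 4596, -912, -42384, 13428, -2988, -8208, 19440, 21888], [2592, 432, 3696, 2160, 1200, -2880, -39744, 4704, 57456, 22320, 11664, -3888, -17280, -8640, 38448], [-16506, 20106, -65862, 20466, -27882, -47700, -18234, -738, 73656, 31716, -7866, 36702, -13320, -32220, 40896], [-738, 54, -486, 522, -270, -324, -1782, 1278, 1080, -252, 306, 198, -216, -252, 1008], [-21600, -1296, -2160, 29808, 6480, -2592, 32400, 10800, -2592, -5184, 7776, -8640, -1296, 14256, 16848], [8370, -3888, 10692, 5508, -2592, -5832, -648, -6588, 3888, -4536, 3240, -540, -3888, 648, 2592], [-25530, -2958, -11082, 26574, -594, -11604, 47190, 22890, -17832, -24924, 6966, -10566, -4248, 10836,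 25776], [-624, 144, -480, 2688, -432, -1968, 168, 792, -312, -3528, 1368, -504, -936, 1224, 1872], [-6066, -1098, -6750, -846, -1422, 684, -12150, -48042, 4824, -3852, 18, 11646, 2088, 1620, 23184], [96, -48, -48, -48, -48, 0, -288, -192, -48, -48, 144, 144, 0, 0, -144], [2514, 360, 2844, -564, -936, 504, 408, -8844, -1728, 2136, 1224, 3636, -864, -360, 4896], [0, 0, 0, 0, 0, 0, 6912, 6912, 0, -27648, -2304, -2304, 0, 9216, 16128], [8352, 576, 29952, 3456, -4032, -12672, -8064, -68544, 24192, -32256, 8064, 35136, -26496, 18432, 32256]]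

def Di : List (List ℤ) := [[17295, 11455, 65593, 64291, 35383, 20202, 3835, 55084, 53313, 28676, 30679, 34365, 61545, 14549, 21506], [16776, 23236, 42724, 21718, 31975, 24119, 28014, 13214, 64654, 56376, 32665, 22653, 66970, 8041, 8042], [17483, 5058, 64987, 57556, 43585, 57594, 16885, 8136, 46662, 47042, 4857, 47299, 52834, 8139, 46782], [57309, 65319, 68577, 56426, 19801, 29104, 6852, 37671, 5243, 66728, 53238, 5896, 2337, 44276, 51133], [4976, 61401, 35388, 35751, 43449, 28601, 45797, 65402, 21978, 26172, 22562, 24843, 37944, 24270, 46800], [29898, 18255, 50513, 20282, 65305, 28734, 38715, 32406, 55853, 49449, 54609, 33635, 47984, 42106, 53438], [7685, 13689, 49491, 9648, 48529, 2311, 3959, 45682, 31905, 64945, 2267, 6168, 1188, 15636, 40182], [9469, 51031, 20116, 15834, 20238, 43354, 23836, 45835, 14158, 41139, 27825, 49355, 24870, 3326, 33784], [38334, 67438, 9871, 49538, 46868, 35888, 22509, 32042,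 32409, 4930, 28879, 4851, 65812, 59278, 59204], [13806, 43411, 64042, 36292, 30610, 37475, 8002, 10995, 49606, 33790, 57898, 39213, 1821, 11692, 43221], [3605, 42597, 7538, 43105, 22070, 38882, 17037, 12764, 36506, 23739, 64750, 4777, 1956, 34839, 48166], [60147, 50348, 56062, 46603, 29674, 66912, 4815, 3797, 46728, 54690, 32556, 33206, 44079, 31426, 53619], [32239, 47219, 36020, 45407, 48077, 32102, 13387, 56048, 44064, 21633, 65144, 47288, 52528, 18100, 21812], [37013, 50464, 11000, 37971, 52624, 37621, 6959, 4869, 34436, 44658, 38647, 54625, 40088, 49639, 47038], [43558, 31123, 23827, 52233, 39609, 8824, 10772, 28317, 8404, 17789, 9425, 66745, 44372, 57108, 20234]]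

def DD (i e : Fin 15) : ℤ := (Dt.getD i.1 []).getD e.1 0
def DI (i e : Fin 15) : ℤ := (Di.getD i.1 []).getD e.1 0

theorem hDD : ∀ (i e : Fin 15), mm (zz i) e = DD i e := by decide +kernel

theorem hinv : ∀ (a b : Fin 15), ((68749 : ℕ) : ℤ) ∣ (∑ j, DI a j * DD j b) - (if a = b then 1 else 0) := by
  decide +kernel

theorem sq_cast {R : Type*} [CommRing R] (w : Fin 4 → ℤ) (m : Fin 10) :
    sq (fun a => ((w a : ℤ) : R)) m = ((sq w m : ℤ) : R) := by
  simp [Lap50.sq]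

theorem Mn_cast {R : Type*} [CommRing R] (w : Fin 4 → ℤ) (f : Fin 4 → Fin 6) :
    Mn CC (fun a => ((w a : ℤ) : R)) f = ((Mn CC w f : ℤ) : R) := by
  unfold Mn
  rw [Int.cast_det]
  congr 1
  ext i k
  simp [Aw]

theorem hPF (hmds : ∀ (k : Type) [Field k] [CharP k 68749] (u v : Fin 10 → k),
      (∀ i : Fin 20, (∑ a, ((sq (ww i) a : ℤ) : k) * u a) * (∑ a, ((sq (ww i) a : ℤ) : k) * v a) = 0) →
        u = 0 ∨ v = 0)
    [Fact (Nat.Prime 68749)]
    (u v : Fin 10 → ℂ) (c : (Fin 6 × Fin 6) × (Fin 6 × Fin 6) → ℂ)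
    (h : ∀ p : Fin 10 × Fin 10, u p.1 * v p.2 = ∑ a, c a * (L CC a.1 * K CC a.2) p.2 p.1) :
    u = 0 ∨ v = 0 := by
  have hg : ∀ a : (Fin 6 × Fin 6) × (Fin 6 × Fin 6), ∃ g : Fin 15 → ℂ, ∀ w : Fin 4 → ℂ,
      Mn CC w ![a.1.1, a.1.2, a.2.1, a.2.2] = ∑ e, g e * Mn CC w (tab e) := fun a => Mn_any CC _
  choose g hg using hg
  have key : ∀ w : Fin 4 → ℂ, (∑ i, u i * sq w i) * (∑ j, v j * sq w j)
      = ∑ e, (∑ a, c a * g a e) * Mn CC w (tab e) := by
    intro w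
    rw [Dual26.uv_eval (K CC) (L CC) u v c h (sq w) (sq w)]
    have e1 : ∀ a : (Fin 6 × Fin 6) × (Fin 6 × Fin 6),
        (∑ i, ∑ j, sq w i * sq w j * (L CC a.1 * K CC a.2) j i)
          = ∑ e, g a e * Mn CC w (tab e) := by
      intro a
      rw [← hg a w, ← lap CC w a.2 a.1, Finset.sum_comm]
      exact Finset.sum_congr rfl fun x _ => Finset.sum_congr rfl fun y _ => by ring
    simp only [e1, Finset.mul_sum, Finset.sum_mul]
    rw [Finset.sum_comm]
    exact Finset.sum_congr rfl fun x _ => Finset.sum_congr rfl fun y _ => by ring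
  have key2 : ∀ w : Fin 4 → ℤ, (∑ a, ((sq w a : ℤ) : ℂ) * u a) * (∑ a, ((sq w a : ℤ) : ℂ) * v a)
      = ∑ e, ((mm w e : ℤ) : ℂ) * (∑ a, c a * g a e) := by
    intro w
    have := key (fun a => ((w a : ℤ) : ℂ))
    simp only [sq_cast, Mn_cast, Mn_eq] at this
    simp only [mul_comm ((sq w _ : ℤ) : ℂ), mul_comm ((mm w _ : ℤ) : ℂ)]
    exact this
  refine Quart59.quart_lift 68749 (fun i a => sq (ww i) a) (fun i e => mm (ww i) e) hT
    (fun j a => sq (zz j) a) (Matrix.of fun j e => DD j e) (Matrix.of fun j e => DI j e) ?_ hmds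
    u v (fun e => ∑ a, c a * g a e) ?_ ?_
  · intro a b
    have := hinv a b
    simp only [Matrix.sub_apply, Matrix.mul_apply, Matrix.of_apply, Matrix.one_apply]
    exact this
  · intro j
    have := key2 (zz j)
    simp only [hDD] at this
    exact this
  · intro i
    exact key2 (ww i)

theorem hne : ∃ j i, L CC j * K CC i ≠ 0 := by
  refine ⟨(0, 1), (2, 3), fun h0 => ?_⟩
  obtain ⟨w, hw⟩ : ∃ w : Fin 4 → ℤ, mm w 0 ≠ 0 := ⟨zz 2, by decide +kernel⟩
  have h := lap CC (fun a => ((w a : ℤ) : ℂ)) (2, 3) (0, 1)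
  rw [h0] at h
  simp only [Matrix.zero_apply, zero_mul, Finset.sum_const_zero] at h
  have h2 : (![((0, 1) : Fin 6 × Fin 6).1, ((0, 1) : Fin 6 × Fin 6).2, ((2, 3) : Fin 6 × Fin 6).1,
      ((2, 3) : Fin 6 × Fin 6).2] : Fin 4 → Fin 6) = tab 0 := by decide
  rw [h2, Mn_cast, Mn_eq] at h
  exact hw (by exact_mod_cast h.symm)

theorem s0541 (hmds : ∀ (k : Type) [Field k] [CharP k 68749] (u v : Fin 10 → k),
      (∀ i : Fin 20, (∑ a, ((sq (ww i) a : ℤ) : k) * u a) * (∑ a, ((sq (ww i) a : ℤ) : k) * v a) = 0) →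
        u = 0 ∨ v = 0)
    [Fact (Nat.Prime 68749)] :
    ∃ Φ₁ Φ₂ : Matrix (Fin 10) (Fin 10) ℂ → Matrix (Fin 10) (Fin 10) ℂ,
      IsLinearMap ℂ Φ₁ ∧ IsLinearMap ℂ Φ₂ ∧ IsPPT Φ₁ ∧ IsPPT Φ₂ ∧
      choiMatrix (Φ₂ ∘ Φ₁) ≠ 0 ∧
      (∀ u v : Fin 10 → ℂ, (∃ w, (choiMatrix (Φ₂ ∘ Φ₁)).mulVec w = fun p => u p.1 * v p.2) →
        u = 0 ∨ v = 0) ∧
      ¬ IsEntanglementBreaking (Φ₂ ∘ Φ₁) :=
  Dual26.s0541_all (K CC) (K CC) (L CC) (L CC) (hK CC hC) (hL CC hC) (hPF hmds) hne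

theorem s0540 (hmds : ∀ (k : Type) [Field k] [CharP k 68749] (u v : Fin 10 → k),
      (∀ i : Fin 20, (∑ a, ((sq (ww i) a : ℤ) : k) * u a) * (∑ a, ((sq (ww i) a : ℤ) : k) * v a) = 0) →
        u = 0 ∨ v = 0)
    [Fact (Nat.Prime 68749)] :
    ∃ Θ : Matrix (Fin 21) (Fin 21) ℂ → Matrix (Fin 21) (Fin 21) ℂ,
      IsChannel Θ ∧ IsPPT Θ ∧ ¬ IsEntanglementBreaking (Θ ∘ Θ) :=
  Dual26.s0540_all (K CC) (K CC) (L CC) (L CC) (hK CC hC) (hL CC hC) (hPF hmds) hne

end Crest.Agent.P345.Final95
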