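import Crest.Agent.P345Red
import Crest.Agent.P345Val79

set_option autoImplicit false

/-! Row 345: from integer tables (2x2 minors of `A(w)`, maximal minors, points mod `p`) to both statements. -/

namespace Crest.Agent.P345Full9

open Matrix Crest.Quantum Crest.Agent.P345Red

/-- quartic image of a bilinear table. -/
def quart {R : Type*} [CommRing R] (mu : Fin 10 → Fin 10 → Fin 35) (κ : Fin 10 → Fin 10 → R)
    (m : Fin 35) : R := ∑ I, ∑ J, if mu I J = m then κ I J else 0

theorem quart_map {R S : Type*} [CommRing R] [CommRing S] (f : R →+* S)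
    (mu : Fin 10 → Fin 10 → Fin 35) (κ : Fin 10 → Fin 10 → R) (m : Fin 35) :
    f (quart mu κ m) = quart mu (fun I J => f (κ I J)) m := by
  simp only [quart, map_sum]
  refine Finset.sum_congr rfl fun I _ => Finset.sum_congr rfl fun J _ => ?_
  split_ifs <;> simp

def Mc (q : Fin 15 → Fin 35 → ℤ) (cols : Fin 15 → Fin 35) : Matrix (Fin 15) (Fin 15) ℤ :=
  Matrix.of fun U t => q U (cols t)

/-- integer relation forms (adjugate lift, never computed) -/
noncomputable def N (q : Fin 15 → Fin 35 → ℤ) (cols : Fin 15 → Fin 35)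
    (mu : Fin 10 → Fin 10 → Fin 35) (r : Fin 35) (I J : Fin 10) : ℤ :=
  (if mu I J = r then (Mc q cols).det else 0)
    - ∑ t, (if mu I J = cols t then (∑ U, (Mc q cols).adjugate t U * q U r) else 0)

theorem N_sum {R : Type*} [CommRing R] (q : Fin 15 → Fin 35 → ℤ) (cols : Fin 15 → Fin 35)
    (mu : Fin 10 → Fin 10 → Fin 35) (r : Fin 35) (κ : Fin 10 → Fin 10 → R) :
    ∑ I, ∑ J, (N q cols mu r I J : R) * κ I J
      = ((Mc q cols).det : R) * quart mu κ r
        - ∑ t, quart mu κ (cols t) * ∑ U, ((Mc q cols).adjugate t U : R) * (q U r : R) := by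
  simp only [N, quart, Finset.mul_sum, Finset.sum_mul]
  have h : ∀ I J : Fin 10, (((if mu I J = r then (Mc q cols).det else 0)
      - ∑ t, (if mu I J = cols t then (∑ U, (Mc q cols).adjugate t U * q U r) else 0) : ℤ) : R)
        * κ I J = ((Mc q cols).det : R) * (if mu I J = r then κ I J else 0)
        - ∑ t, ∑ U, (if mu I J = cols t then κ I J else 0) *
            (((Mc q cols).adjugate t U : R) * (q U r : R)) := by
    intro I J
    push_cast
    rw [sub_mul, Finset.sum_mul]
    congr 1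
    · split_ifs <;> simp
    · refine Finset.sum_congr rfl fun t _ => ?_
      split_ifs
      · rw [Finset.sum_mul]
        exact Finset.sum_congr rfl fun U _ => by ring
      · simp
  simp only [h, Finset.sum_sub_distrib]
  congr 1
  calc ∑ I, ∑ J, ∑ t, ∑ U, (if mu I J = cols t then κ I J else 0) *
            (((Mc q cols).adjugate t U : R) * (q U r : R))
      = ∑ I, ∑ t, ∑ J, ∑ U, (if mu I J = cols t then κ I J else 0) *
            (((Mc q cols).adjugate t U : R) * (q U r : R)) := by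
        exact Finset.sum_congr rfl fun I _ => Finset.sum_comm
    _ = ∑ t, ∑ I, ∑ J, ∑ U, (if mu I J = cols t then κ I J else 0) *
            (((Mc q cols).adjugate t U : R) * (q U r : R)) := Finset.sum_comm
    _ = ∑ t, ∑ I, ∑ U, ∑ J, (if mu I J = cols t then κ I J else 0) *
            (((Mc q cols).adjugate t U : R) * (q U r : R)) := by
        exact Finset.sum_congr rfl fun t _ => Finset.sum_congr rfl fun I _ => Finset.sum_comm
    _ = ∑ t, ∑ U, ∑ I, ∑ J, (if mu I J = cols t then κ I J else 0) *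
            (((Mc q cols).adjugate t U : R) * (q U r : R)) := by
        exact Finset.sum_congr rfl fun t _ => Finset.sum_comm
    _ = _ := by
        refine Finset.sum_congr rfl fun t _ => ?_
        refine Finset.sum_congr rfl fun U _ => ?_
        refine Finset.sum_congr rfl fun I _ => ?_
        rfl

/-- the relations kill every table whose quartic is a multiple of some `q U0`. -/
theorem N_rel (q : Fin 15 → Fin 35 → ℤ) (cols : Fin 15 → Fin 35)
    (mu : Fin 10 → Fin 10 → Fin 35) (r : Fin 35) (κ : Fin 10 → Fin 10 → ℤ) (U0 : Fin 15) (ε : ℤ)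
    (h : ∀ m, quart mu κ m = ε * q U0 m) :
    ∑ I, ∑ J, N q cols mu r I J * κ I J = 0 := by
  have h1 := N_sum q cols mu r κ
  simp only [Int.cast_id] at h1
  rw [h1]
  simp only [h]
  have h2 : ∑ t, ε * q U0 (cols t) * ∑ U, (Mc q cols).adjugate t U * q U r
      = ε * ∑ U, ((Mc q cols) * (Mc q cols).adjugate) U0 U * q U r := by
    simp only [Matrix.mul_apply, Mc, Matrix.of_apply, Finset.mul_sum, Finset.sum_mul]
    rw [Finset.sum_comm]
    refine Finset.sum_congr rfl fun U _ => Finset.sum_congr rfl fun t _ => by ring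
  rw [h2, Matrix.mul_adjugate]
  simp [Matrix.smul_apply, Matrix.one_apply]
  ring

/-- product-freeness over `ℂ` from the data mod `p`. -/
theorem hPF (p : ℕ) [hp : Fact p.Prime] (q : Fin 15 → Fin 35 → ℤ) (cols : Fin 15 → Fin 35)
    (mu : Fin 10 → Fin 10 → Fin 35) (inv : Fin 15 → Fin 15 → ℤ)
    (hinv : ∀ i j, (p : ℤ) ∣ (∑ t, q i (cols t) * inv t j) - if i = j then 1 else 0)
    (ev : Fin 20 → Fin 35 → ℤ) (x : Fin 20 → Fin 10 → ℤ)
    (hev : ∀ i I J, (p : ℤ) ∣ ev i (mu I J) - x i I * x i J)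
    (hq : ∀ i U, (p : ℤ) ∣ ∑ m, q U m * ev i m)
    (hmds : ∀ (k : Type) [Field k] [CharP k p] (u v : Fin 10 → k),
      (∀ i, (∑ I, (x i I : k) * u I) * (∑ J, (x i J : k) * v J) = 0) → u = 0 ∨ v = 0)
    (u v : Fin 10 → ℂ)
    (h : ∀ r, ∑ I, ∑ J, (N q cols mu r I J : ℂ) * (u I * v J) = 0) : u = 0 ∨ v = 0 := by
  refine Crest.Agent.P345Val79.val_transfer p (N q cols mu) ?_ u v h
  intro k _ _ u v huv
  have hz : ∀ z : ℤ, (p : ℤ) ∣ z → (z : k) = 0 := fun z hz => (CharP.intCast_eq_zero_iff k p z).2 hz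
  -- det ≠ 0 in k
  have hD : ((Mc q cols).det : k) ≠ 0 := by
    have e1 : (Matrix.map (Mc q cols) (Int.castRingHom k)) *
        (Matrix.of fun t j => ((inv t j : ℤ) : k)) = 1 := by
      ext i j
      have := hz _ (hinv i j)
      rw [Int.cast_sub, sub_eq_zero] at this
      simp only [Matrix.mul_apply, Matrix.map_apply, Mc, Matrix.of_apply, Matrix.one_apply]
      push_cast at this
      simpa using this
    have e2 := congrArg Matrix.det e1
    rw [Matrix.det_mul, Matrix.det_one] at e2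
    have e3 : (Matrix.map (Mc q cols) (Int.castRingHom k)).det = ((Mc q cols).det : k) := by
      have := RingHom.map_det (Int.castRingHom k) (Mc q cols)
      simpa [RingHom.mapMatrix_apply] using this.symm
    intro h0
    rw [e3, h0, zero_mul] at e2
    exact zero_ne_one e2
  refine hmds k u v fun i => ?_
  have h1 : ∀ r, ((Mc q cols).det : k) * quart mu (fun I J => u I * v J) r
      = ∑ U, (∑ t, quart mu (fun I J => u I * v J) (cols t) * ((Mc q cols).adjugate t U : k))
        * (q U r : k) := by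
    intro r
    have h2 := N_sum (R := k) q cols mu r (fun I J => u I * v J)
    rw [huv r] at h2
    rw [eq_comm, sub_eq_zero] at h2
    rw [h2]
    simp only [Finset.mul_sum, Finset.sum_mul]
    rw [Finset.sum_comm]
    refine Finset.sum_congr rfl fun U _ => Finset.sum_congr rfl fun t _ => by ring
  have h3 : ((Mc q cols).det : k) * ∑ r, quart mu (fun I J => u I * v J) r * (ev i r : k) = 0 := by
    calc ((Mc q cols).det : k) * ∑ r, quart mu (fun I J => u I * v J) r * (ev i r : k)
        = ∑ r, (((Mc q cols).det : k) * quart mu (fun I J => u I * v J) r) * (ev i r : k) := by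
          rw [Finset.mul_sum]; exact Finset.sum_congr rfl fun r _ => by ring
      _ = ∑ r, ∑ U, (∑ t, quart mu (fun I J => u I * v J) (cols t)
            * ((Mc q cols).adjugate t U : k)) * ((q U r : k) * (ev i r : k)) := by
          refine Finset.sum_congr rfl fun r _ => ?_
          rw [h1, Finset.sum_mul]
          exact Finset.sum_congr rfl fun U _ => by ring
      _ = ∑ U, (∑ t, quart mu (fun I J => u I * v J) (cols t)
            * ((Mc q cols).adjugate t U : k)) * ∑ r, (q U r : k) * (ev i r : k) := by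
          rw [Finset.sum_comm]
          exact Finset.sum_congr rfl fun U _ => by rw [Finset.mul_sum]
      _ = 0 := by
          refine Finset.sum_eq_zero fun U _ => ?_
          have h4 := hz _ (hq i U)
          push_cast at h4
          rw [h4, mul_zero]
  have h5 := (mul_eq_zero.1 h3).resolve_left hD
  have h6 : ∀ I J : Fin 10, (ev i (mu I J) : k) = (x i I : k) * (x i J : k) := by
    intro I J
    have := hz _ (hev i I J)
    push_cast at this
    exact sub_eq_zero.1 this
  have h7 : ∑ r, quart mu (fun I J => u I * v J) r * (ev i r : k)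
      = ∑ I, ∑ J, (u I * v J) * (ev i (mu I J) : k) := by
    simp only [quart, Finset.sum_mul]
    rw [Finset.sum_comm]
    refine Finset.sum_congr rfl fun I _ => ?_
    rw [Finset.sum_comm]
    refine Finset.sum_congr rfl fun J _ => ?_
    simp [ite_mul]
  rw [← h5, h7, Finset.sum_mul_sum]
  refine Finset.sum_congr rfl fun I _ => Finset.sum_congr rfl fun J _ => ?_
  rw [h6]; ring

/-- Kraus matrices -/
noncomputable def KC (KK : Fin 15 → Fin 10 → Fin 10 → ℤ) (S : Fin 15) :
    Matrix (Fin 10) (Fin 10) ℂ := Matrix.of fun a I => ((KK S a I : ℤ) : ℂ)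

theorem KC_ppt (KK : Fin 15 → Fin 10 → Fin 10 → ℤ)
    (hA : ∀ x y a b, ∑ S, KK S y a * KK S x b = ∑ S, KK S x a * KK S y b) (M) :
    (kmap (KC KK) M).transpose = kmap (KC KK) M := by
  refine kmap_transpose_of _ _ (fun x y a b => ?_) M
  have h : ∀ z : ℤ, star (z : ℂ) = (z : ℂ) := fun z => by simp
  simp only [KC, Matrix.of_apply, h]
  exact_mod_cast hA x y a b

section Final
variable (p : ℕ) [hp : Fact p.Prime] (q : Fin 15 → Fin 35 → ℤ) (cols : Fin 15 → Fin 35)
    (mu : Fin 10 → Fin 10 → Fin 35) (inv : Fin 15 → Fin 15 → ℤ)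
    (hinv : ∀ i j, (p : ℤ) ∣ (∑ t, q i (cols t) * inv t j) - if i = j then 1 else 0)
    (ev : Fin 20 → Fin 35 → ℤ) (x : Fin 20 → Fin 10 → ℤ)
    (hev : ∀ i I J, (p : ℤ) ∣ ev i (mu I J) - x i I * x i J)
    (hq : ∀ i U, (p : ℤ) ∣ ∑ m, q U m * ev i m)
    (hmds : ∀ (k : Type) [Field k] [CharP k p] (u v : Fin 10 → k),
      (∀ i, (∑ I, (x i I : k) * u I) * (∑ J, (x i J : k) * v J) = 0) → u = 0 ∨ v = 0)
    (KK LL : Fin 15 → Fin 10 → Fin 10 → ℤ)
    (hA : ∀ x y a b, ∑ S, KK S y a * KK S x b = ∑ S, KK S x a * KK S y b)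
    (hA' : ∀ x y a b, ∑ S, LL S y a * LL S x b = ∑ S, LL S x a * LL S y b)
    (hB : ∀ T S : Fin 15, ∃ U0 ε, ∀ m,
      quart mu (fun I J => ∑ a, LL T J a * KK S a I) m = ε * q U0 m)
    (hne : ∃ T S I J, ∑ a, LL T J a * KK S a I ≠ 0)

include hB in
theorem hrel_all (r : Fin 35) (j i : Fin 15) :
    ∑ P : Fin 10 × Fin 10, (fun P => (N q cols mu r P.1 P.2 : ℂ)) P *
      (KC LL j * KC KK i) P.2 P.1 = 0 := by
  obtain ⟨U0, ε, h⟩ := hB j i
  have h1 := N_rel q cols mu r _ U0 ε h
  have h2 := congrArg (Int.cast : ℤ → ℂ) h1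
  rw [Fintype.sum_prod_type]
  push_cast at h2
  simp only [Matrix.mul_apply, KC, Matrix.of_apply]
  exact h2

include hne in
theorem hne_all : ∃ j i, KC LL j * KC KK i ≠ 0 := by
  obtain ⟨T, S, I, J, h⟩ := hne
  refine ⟨T, S, fun h0 => h ?_⟩
  have h1 := congrFun (congrFun h0 J) I
  simp only [Matrix.mul_apply, KC, Matrix.of_apply, Matrix.zero_apply] at h1
  exact_mod_cast h1

include hinv hev hq hmds in
theorem hPF_all (u v : Fin 10 → ℂ)
    (h : ∀ r : Fin 35, ∑ P : Fin 10 × Fin 10, (fun P => (N q cols mu r P.1 P.2 : ℂ)) P *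
      (u P.1 * v P.2) = 0) : u = 0 ∨ v = 0 := by
  refine hPF p q cols mu inv hinv ev x hev hq hmds u v fun r => ?_
  have := h r
  rw [Fintype.sum_prod_type] at this
  exact this

include hinv hev hq hmds hA hA' hB hne in
theorem s0541 : ∃ Φ₁ Φ₂ : Matrix (Fin 10) (Fin 10) ℂ → Matrix (Fin 10) (Fin 10) ℂ,
      IsLinearMap ℂ Φ₁ ∧ IsLinearMap ℂ Φ₂ ∧ IsPPT Φ₁ ∧ IsPPT Φ₂ ∧
      choiMatrix (Φ₂ ∘ Φ₁) ≠ 0 ∧
      (∀ u v : Fin 10 → ℂ, (∃ w, (choiMatrix (Φ₂ ∘ Φ₁)).mulVec w = fun p => u p.1 * v p.2) →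
        u = 0 ∨ v = 0) ∧
      ¬ IsEntanglementBreaking (Φ₂ ∘ Φ₁) :=
  s0541_of (KC KK) (KC KK) (KC LL) (KC LL) (KC_ppt KK hA) (KC_ppt LL hA')
    (fun r P => (N q cols mu r P.1 P.2 : ℂ)) (hrel_all q cols mu KK LL hB)
    (hPF_all p q cols mu inv hinv ev x hev hq hmds) (hne_all KK LL hne)

include hinv hev hq hmds hA hA' hB hne in
theorem s0540 : ∃ Θ : Matrix (Fin 21) (Fin 21) ℂ → Matrix (Fin 21) (Fin 21) ℂ,
      IsChannel Θ ∧ IsPPT Θ ∧ ¬ IsEntanglementBreaking (Θ ∘ Θ) :=
  s0540_of (KC KK) (KC KK) (KC LL) (KC LL) (KC_ppt KK hA) (KC_ppt LL hA')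
    (fun r P => (N q cols mu r P.1 P.2 : ℂ)) (hrel_all q cols mu KK LL hB)
    (hPF_all p q cols mu inv hinv ev x hev hq hmds) (hne_all KK LL hne)

end Final

end Crest.Agent.P345Full9
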