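import Crest.Agent.P345Red

/-! Row 345 (helper79): from `C : Fin 4 → Fin 6 → Fin 4 → ℤ` with `C_iᵀ C_j` symmetric to the two
statements; only the quartic product-freeness is left as a hypothesis. -/

set_option autoImplicit false

namespace Crest.Agent.P345.Gen79

open Matrix Crest.Quantum Crest.Agent.P345Red

def i10 (a b : Fin 4) : Fin 10 :=
  match a, b with
  | 0, 0 => 0 | 0, 1 => 1 | 1, 0 => 1 | 0, 2 => 2 | 2, 0 => 2 | 0, 3 => 3 | 3, 0 => 3
  | 1, 1 => 4 | 1, 2 => 5 | 2, 1 => 5 | 1, 3 => 6 | 3, 1 => 6 | 2, 2 => 7 | 2, 3 => 8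
  | 3, 2 => 8 | 3, 3 => 9

/-- the monomials `w_a w_b`. -/
def sq {R : Type*} [CommRing R] (w : Fin 4 → R) : Fin 10 → R :=
  ![w 0 * w 0, w 0 * w 1, w 0 * w 2, w 0 * w 3, w 1 * w 1, w 1 * w 2, w 1 * w 3, w 2 * w 2,
    w 2 * w 3, w 3 * w 3]

theorem sq_i10 {R : Type*} [CommRing R] (w : Fin 4 → R) (a b : Fin 4) :
    sq w (i10 a b) = w a * w b := by
  fin_cases a <;> fin_cases b <;> first | rfl | exact mul_comm _ _

/-- pairs `x1 < x2` for rows `0..5`, trivial for `6..9` -/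
def x1 : Fin 10 → Fin 4 := ![0, 0, 0, 1, 1, 2, 0, 0, 0, 0]
def x2 : Fin 10 → Fin 4 := ![1, 2, 3, 2, 3, 3, 0, 0, 0, 0]

/-- Hodge star -/
def EE : Fin 10 → Fin 10 → ℤ := fun x y =>
  if x = 0 ∧ y = 5 then 1 else if x = 5 ∧ y = 0 then 1 else if x = 1 ∧ y = 4 then -1
  else if x = 4 ∧ y = 1 then -1 else if x = 2 ∧ y = 3 then 1 else if x = 3 ∧ y = 2 then 1 else 0

section
variable (C : Fin 4 → Fin 6 → Fin 4 → ℤ)

def kk (s : Fin 6 × Fin 6) (x : Fin 10) (a b : Fin 4) : ℤ :=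
  C a s.1 (x1 x) * C b s.2 (x2 x) - C a s.1 (x2 x) * C b s.2 (x1 x)

def KK (s : Fin 6 × Fin 6) (x I : Fin 10) : ℤ :=
  ∑ q : Fin 4 × Fin 4, if i10 q.1 q.2 = I then kk C s x q.1 q.2 else 0

def Sym : Prop := ∀ i j a b, ∑ r, C i r a * C j r b = ∑ r, C i r b * C j r a

theorem kk_sum (x y : Fin 10) (a b a' b' : Fin 4) :
    ∑ s, kk C s x a b * kk C s y a' b' =
      (∑ r, C a r (x1 x) * C a' r (x1 y)) * (∑ r, C b r (x2 x) * C b' r (x2 y))
      - (∑ r, C a r (x1 x) * C a' r (x2 y)) * (∑ r, C b r (x2 x) * C b' r (x1 y))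
      - (∑ r, C a r (x2 x) * C a' r (x1 y)) * (∑ r, C b r (x1 x) * C b' r (x2 y))
      + (∑ r, C a r (x2 x) * C a' r (x2 y)) * (∑ r, C b r (x1 x) * C b' r (x1 y)) := by
  rw [Fintype.sum_prod_type]
  simp only [kk, Finset.sum_mul_sum, ← Finset.sum_sub_distrib, ← Finset.sum_add_distrib]
  refine Finset.sum_congr rfl fun _ _ => Finset.sum_congr rfl fun _ _ => ?_
  ring

theorem kk_sym (h : Sym C) (x y : Fin 10) (a b a' b' : Fin 4) :
    ∑ s, kk C s x a b * kk C s y a' b' = ∑ s, kk C s y a b * kk C s x a' b' := by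
  rw [kk_sum, kk_sum, h a a' (x1 x) (x1 y), h b b' (x2 x) (x2 y), h a a' (x1 x) (x2 y),
    h b b' (x2 x) (x1 y), h a a' (x2 x) (x1 y), h b b' (x1 x) (x2 y), h a a' (x2 x) (x2 y),
    h b b' (x1 x) (x1 y)]
  ring

theorem KK_sym (h : Sym C) (x y I J : Fin 10) :
    ∑ s, KK C s x I * KK C s y J = ∑ s, KK C s y I * KK C s x J := by
  have e : ∀ x y, ∑ s, KK C s x I * KK C s y J =
      ∑ q : Fin 4 × Fin 4, ∑ q' : Fin 4 × Fin 4, if i10 q.1 q.2 = I ∧ i10 q'.1 q'.2 = J then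
        ∑ s, kk C s x q.1 q.2 * kk C s y q'.1 q'.2 else 0 := by
    intro x y
    simp only [KK, Finset.sum_mul_sum]
    rw [Finset.sum_comm]
    refine Finset.sum_congr rfl fun q _ => ?_
    rw [Finset.sum_comm]
    refine Finset.sum_congr rfl fun q' _ => ?_
    by_cases h1 : i10 q.1 q.2 = I <;> by_cases h2 : i10 q'.1 q'.2 = J <;> simp [h1, h2]
  rw [e, e]
  simp only [kk_sym C h x y]

/-- Kraus matrices -/
noncomputable def K (s : Fin 6 × Fin 6) : Matrix (Fin 10) (Fin 10) ℂ :=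
  Matrix.of fun x I => (KK C s x I : ℂ)

noncomputable def E : Matrix (Fin 10) (Fin 10) ℂ := Matrix.of fun x y => (EE x y : ℂ)

noncomputable def L (s : Fin 6 × Fin 6) : Matrix (Fin 10) (Fin 10) ℂ := (K C s)ᵀ * E

theorem hK (h : Sym C) (M) : (kmap (K C) M).transpose = kmap (K C) M := by
  apply kmap_transpose_of
  intro x y a b
  have h1 := KK_sym C h y x a b
  have h2 := congrArg (fun z : ℤ => (z : ℂ)) h1
  simpa [K] using h2

theorem hL (h : Sym C) (M) : (kmap (L C) M).transpose = kmap (L C) M := by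
  apply kmap_transpose_of
  intro I J x y
  have key : ∀ I J x y, ∑ s, L C s I x * star (L C s J y) =
      ∑ a, ∑ b, ((EE a x : ℂ) * (EE b y : ℂ)) * ((∑ s, KK C s a I * KK C s b J : ℤ) : ℂ) := by
    intro I J x y
    have : ∀ s, L C s I x * star (L C s J y) =
        ∑ a, ∑ b, ((EE a x : ℂ) * (EE b y : ℂ)) * ((KK C s a I : ℂ) * (KK C s b J : ℂ)) := by
      intro s
      simp only [L, K, E, Matrix.mul_apply, Matrix.transpose_apply, Matrix.of_apply, star_sum,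
        star_mul', Finset.sum_mul_sum]
      refine Finset.sum_congr rfl fun a _ => Finset.sum_congr rfl fun b _ => ?_
      have e1 : ∀ z : ℤ, star (z : ℂ) = (z : ℂ) := fun z => by simp
      rw [e1, e1]
      ring
    simp only [this]
    rw [Finset.sum_comm]
    refine Finset.sum_congr rfl fun a _ => ?_
    rw [Finset.sum_comm]
    refine Finset.sum_congr rfl fun b _ => ?_
    rw [← Finset.mul_sum]
    push_cast
    rfl
  rw [key, key]
  refine Finset.sum_congr rfl fun a _ => Finset.sum_congr rfl fun b _ => ?_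
  rw [KK_sym C h a b J I]
  congr 2
  exact Finset.sum_congr rfl fun s _ => mul_comm _ _

end

theorem EE_sum {R : Type*} [CommRing R] (f g : Fin 10 → R) :
    ∑ x, ∑ y, (EE x y : R) * (f x * g y) =
      f 0 * g 5 + f 5 * g 0 - f 1 * g 4 - f 4 * g 1 + f 2 * g 3 + f 3 * g 2 := by
  have h : ∀ x, ∑ y, (EE x y : R) * (f x * g y) =
      (if x = 0 then f 0 * g 5 else 0) + (if x = 5 then f 5 * g 0 else 0)
      - (if x = 1 then f 1 * g 4 else 0) - (if x = 4 then f 4 * g 1 else 0)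
      + (if x = 2 then f 2 * g 3 else 0) + (if x = 3 then f 3 * g 2 else 0) := by
    intro x
    fin_cases x <;> simp [EE]
  simp only [h, Finset.sum_add_distrib, Finset.sum_sub_distrib, Finset.sum_ite_eq',
    Finset.mem_univ, if_true]

theorem det4 {R : Type*} [CommRing R] (M : Matrix (Fin 4) (Fin 4) R) :
    M.det =
      (M 0 0 * M 1 1 - M 0 1 * M 1 0) * (M 2 2 * M 3 3 - M 2 3 * M 3 2)
      + (M 0 2 * M 1 3 - M 0 3 * M 1 2) * (M 2 0 * M 3 1 - M 2 1 * M 3 0)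
      - (M 0 0 * M 1 2 - M 0 2 * M 1 0) * (M 2 1 * M 3 3 - M 2 3 * M 3 1)
      - (M 0 1 * M 1 3 - M 0 3 * M 1 1) * (M 2 0 * M 3 2 - M 2 2 * M 3 0)
      + (M 0 0 * M 1 3 - M 0 3 * M 1 0) * (M 2 1 * M 3 2 - M 2 2 * M 3 1)
      + (M 0 1 * M 1 2 - M 0 2 * M 1 1) * (M 2 0 * M 3 3 - M 2 3 * M 3 0) := by
  rw [Matrix.det_succ_row_zero]
  simp [Fin.sum_univ_succ, Matrix.det_fin_three, Fin.succAbove, Matrix.submatrix]
  ring

section contract
variable (C : Fin 4 → Fin 6 → Fin 4 → ℤ)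

/-- the rows of `A(w)`. -/
def Aw {R : Type*} [CommRing R] (w : Fin 4 → R) (c : Fin 6) (x : Fin 4) : R :=
  ∑ a, w a * (C a c x : R)

theorem KK_sq {R : Type*} [CommRing R] (w : Fin 4 → R) (s : Fin 6 × Fin 6) (x : Fin 10) :
    ∑ I, (KK C s x I : R) * sq w I =
      Aw C w s.1 (x1 x) * Aw C w s.2 (x2 x) - Aw C w s.1 (x2 x) * Aw C w s.2 (x1 x) := by
  have e : ∀ I, (KK C s x I : R) * sq w I =
      ∑ q : Fin 4 × Fin 4, if i10 q.1 q.2 = I then (kk C s x q.1 q.2 : R) * sq w I else 0 := by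
    intro I
    simp only [KK, Int.cast_sum, Finset.sum_mul]
    refine Finset.sum_congr rfl fun q _ => ?_
    split_ifs <;> simp
  simp only [e]
  rw [Finset.sum_comm]
  simp only [Finset.sum_ite_eq, Finset.mem_univ, if_true, sq_i10]
  rw [Fintype.sum_prod_type]
  simp only [Aw, Finset.sum_mul_sum, ← Finset.sum_sub_distrib, kk]
  refine Finset.sum_congr rfl fun a _ => Finset.sum_congr rfl fun b _ => ?_
  push_cast
  ring

/-- the minor with rows `r 0 .. r 3`. -/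
noncomputable def minor {R : Type*} [CommRing R] (w : Fin 4 → R) (r : Fin 4 → Fin 6) : R :=
  (Matrix.of fun i j => Aw C w (r i) j).det

theorem laplace {R : Type*} [CommRing R] (w : Fin 4 → R) (s t : Fin 6 × Fin 6) :
    ∑ x, ∑ y, (EE x y : R) * ((∑ I, (KK C t x I : R) * sq w I) * (∑ J, (KK C s y J : R) * sq w J))
      = minor C w ![t.1, t.2, s.1, s.2] := by
  rw [EE_sum (fun x => ∑ I, (KK C t x I : R) * sq w I) (fun y => ∑ J, (KK C s y J : R) * sq w J)]
  simp only [KK_sq]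
  unfold minor
  rw [det4]
  simp [x1, x2]

/-- sorted 4-subsets -/
def T15 : Fin 15 → Fin 4 → Fin 6 := ![![0,1,2,3], ![0,1,2,4], ![0,1,2,5], ![0,1,3,4], ![0,1,3,5],
  ![0,1,4,5], ![0,2,3,4], ![0,2,3,5], ![0,2,4,5], ![0,3,4,5], ![1,2,3,4], ![1,2,3,5], ![1,2,4,5],
  ![1,3,4,5], ![2,3,4,5]]

theorem minor_perm {R : Type*} [CommRing R] (w : Fin 4 → R) (r : Fin 4 → Fin 6)
    (σ : Equiv.Perm (Fin 4)) :
    minor C w (r ∘ σ) = ((Equiv.Perm.sign σ : ℤ) : R) * minor C w r := by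
  unfold minor
  have h := Matrix.det_permute σ (Matrix.of fun i j => Aw C w (r i) j)
  rw [← h]
  rfl

theorem minor_zero {R : Type*} [CommRing R] (w : Fin 4 → R) (r : Fin 4 → Fin 6)
    (h : ¬ Function.Injective r) : minor C w r = 0 := by
  unfold Function.Injective at h
  push Not at h
  obtain ⟨i, j, h1, h2⟩ := h
  exact Matrix.det_zero_of_row_eq h2 (by funext k; simp [h1])

theorem sorted_exists (r : Fin 4 → Fin 6) (h : Function.Injective r) :
    ∃ (t : Fin 15) (σ : Equiv.Perm (Fin 4)), r = T15 t ∘ σ := by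
  have key : ∀ a b c d : Fin 6, ∃ t : Fin 15, (∃ j, a = T15 t j) ∧ (∃ j, b = T15 t j) ∧
      (∃ j, c = T15 t j) ∧ (∃ j, d = T15 t j) := by decide +kernel
  obtain ⟨t, ⟨j0, h0⟩, ⟨j1, h1⟩, ⟨j2, h2⟩, ⟨j3, h3⟩⟩ := key (r 0) (r 1) (r 2) (r 3)
  have hr : r = T15 t ∘ ![j0, j1, j2, j3] := by
    funext i
    fin_cases i
    · exact h0
    · exact h1
    · exact h2
    · exact h3
  have hj : Function.Injective ![j0, j1, j2, j3] := by
    rw [hr] at h
    exact h.of_comp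
  exact ⟨t, Equiv.ofBijective _ (Finite.injective_iff_bijective.1 hj), hr⟩

/-- every minor is a fixed integer multiple of one of the 15. -/
theorem minor_span (r : Fin 4 → Fin 6) : ∃ g : Fin 15 → ℂ, ∀ w : Fin 4 → ℂ,
    minor C w r = ∑ t, g t * minor C w (T15 t) := by
  by_cases h : Function.Injective r
  · obtain ⟨t, σ, rfl⟩ := sorted_exists r h
    refine ⟨Pi.single t ((Equiv.Perm.sign σ : ℤ) : ℂ), fun w => ?_⟩
    rw [minor_perm, Finset.sum_eq_single t]
    · simp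
    · intro b _ hb
      simp [Pi.single_eq_of_ne hb]
    · simp
  · exact ⟨0, fun w => by rw [minor_zero C w r h]; simp⟩

/-- relations -/
def Rho : Type := {n : Fin 10 × Fin 10 → ℂ //
  ∀ j i, ∑ p : Fin 10 × Fin 10, n p * (L C j * K C i) p.2 p.1 = 0}

theorem dual (u v : Fin 10 → ℂ)
    (h : ∀ r : Rho C, ∑ p : Fin 10 × Fin 10, r.1 p * (u p.1 * v p.2) = 0) :
    ∃ g : (Fin 6 × Fin 6) × (Fin 6 × Fin 6) → ℂ, ∀ p : Fin 10 × Fin 10,
      u p.1 * v p.2 = ∑ a, g a * (L C a.1 * K C a.2) p.2 p.1 := by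
  let f : (Fin 6 × Fin 6) × (Fin 6 × Fin 6) → (Fin 10 × Fin 10 → ℂ) :=
    fun a p => (L C a.1 * K C a.2) p.2 p.1
  let S := Submodule.span ℂ (Set.range f)
  have hmem : (fun p : Fin 10 × Fin 10 => u p.1 * v p.2) ∈ S := by
    by_contra hcon
    obtain ⟨φ, hφ, hS⟩ := Submodule.exists_dual_map_eq_bot_of_notMem hcon inferInstance
    have e : ∀ x : Fin 10 × Fin 10 → ℂ, φ x = ∑ p, φ (Pi.single p 1) * x p := by
      intro x
      conv_lhs => rw [pi_eq_sum_univ' x]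
      rw [map_sum]
      refine Finset.sum_congr rfl fun p _ => ?_
      rw [map_smul, smul_eq_mul, mul_comm]
    have hk : ∀ x ∈ S, φ x = 0 := by
      intro x hx
      have : φ x ∈ S.map φ := Submodule.mem_map_of_mem hx
      rw [hS] at this
      simpa using this
    apply hφ
    rw [e]
    exact h ⟨fun p => φ (Pi.single p 1), fun j i => by
      rw [← e (fun p => (L C j * K C i) p.2 p.1)]
      exact hk _ (Submodule.subset_span ⟨(j, i), rfl⟩)⟩
  obtain ⟨g, hg⟩ := (Submodule.mem_span_range_iff_exists_fun ℂ).1 hmem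
  refine ⟨g, fun p => ?_⟩
  have := congrFun hg p
  simp only [Finset.sum_apply, Pi.smul_apply, smul_eq_mul, f] at this
  exact this.symm

theorem contract (w : Fin 4 → ℂ) (s t : Fin 6 × Fin 6) :
    ∑ p : Fin 10 × Fin 10, sq w p.1 * sq w p.2 * (L C t * K C s) p.2 p.1
      = minor C w ![t.1, t.2, s.1, s.2] := by
  rw [← laplace C w s t, Fintype.sum_prod_type]
  simp only [L, K, E, Matrix.mul_apply, Matrix.transpose_apply, Matrix.of_apply]
  have : ∀ I J, sq w I * sq w J * ∑ y, (∑ x, (KK C t x J : ℂ) * (EE x y : ℂ)) * (KK C s y I : ℂ)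
      = ∑ y, ∑ x, (EE x y : ℂ) * (((KK C t x J : ℂ) * sq w J) * ((KK C s y I : ℂ) * sq w I)) := by
    intro I J
    rw [Finset.mul_sum]
    refine Finset.sum_congr rfl fun y _ => ?_
    rw [Finset.sum_mul, Finset.mul_sum]
    exact Finset.sum_congr rfl fun x _ => by ring
  simp only [this]
  have e2 : ∀ x y, (EE x y : ℂ) * ((∑ I, (KK C t x I : ℂ) * sq w I) * (∑ J, (KK C s y J : ℂ) * sq w J))
      = ∑ J, ∑ I, (EE x y : ℂ) * (((KK C t x J : ℂ) * sq w J) * ((KK C s y I : ℂ) * sq w I)) := by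
    intro x y
    rw [Finset.sum_mul_sum, Finset.mul_sum]
    refine Finset.sum_congr rfl fun J _ => ?_
    rw [Finset.mul_sum]
  simp only [e2]
  generalize hH : (fun (I J y x : Fin 10) =>
    (EE x y : ℂ) * (((KK C t x J : ℂ) * sq w J) * ((KK C s y I : ℂ) * sq w I))) = H
  have hH' : ∀ I J y x, (EE x y : ℂ) * (((KK C t x J : ℂ) * sq w J) * ((KK C s y I : ℂ) * sq w I))
      = H I J y x := fun I J y x => by rw [← hH]
  simp only [hH']
  calc ∑ I, ∑ J, ∑ y, ∑ x, H I J y x = ∑ J, ∑ I, ∑ y, ∑ x, H I J y x := Finset.sum_comm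
    _ = ∑ J, ∑ y, ∑ I, ∑ x, H I J y x := Finset.sum_congr rfl fun J _ => Finset.sum_comm
    _ = ∑ J, ∑ y, ∑ x, ∑ I, H I J y x := Finset.sum_congr rfl fun J _ =>
        Finset.sum_congr rfl fun y _ => Finset.sum_comm
    _ = ∑ y, ∑ J, ∑ x, ∑ I, H I J y x := Finset.sum_comm
    _ = ∑ y, ∑ x, ∑ J, ∑ I, H I J y x := Finset.sum_congr rfl fun y _ => Finset.sum_comm
    _ = ∑ x, ∑ y, ∑ J, ∑ I, H I J y x := Finset.sum_comm

/-- the quartic identity -/
theorem quartic (u v : Fin 10 → ℂ)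
    (h : ∀ r : Rho C, ∑ p : Fin 10 × Fin 10, r.1 p * (u p.1 * v p.2) = 0) :
    ∃ G : Fin 15 → ℂ, ∀ w : Fin 4 → ℂ,
      (∑ I, u I * sq w I) * (∑ J, v J * sq w J) = ∑ t, G t * minor C w (T15 t) := by
  obtain ⟨g, hg⟩ := dual C u v h
  choose G hG using fun a : (Fin 6 × Fin 6) × (Fin 6 × Fin 6) =>
    minor_span C ![a.1.1, a.1.2, a.2.1, a.2.2]
  refine ⟨fun t => ∑ a, g a * G a t, fun w => ?_⟩
  have h1 : (∑ I, u I * sq w I) * (∑ J, v J * sq w J)
      = ∑ p : Fin 10 × Fin 10, sq w p.1 * sq w p.2 * (u p.1 * v p.2) := by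
    rw [Finset.sum_mul_sum, Fintype.sum_prod_type]
    exact Finset.sum_congr rfl fun I _ => Finset.sum_congr rfl fun J _ => by ring
  rw [h1]
  simp only [hg, Finset.mul_sum]
  rw [Finset.sum_comm]
  have h2 : ∀ a : (Fin 6 × Fin 6) × (Fin 6 × Fin 6),
      ∑ p : Fin 10 × Fin 10, sq w p.1 * sq w p.2 * (g a * (L C a.1 * K C a.2) p.2 p.1)
        = ∑ t, g a * G a t * minor C w (T15 t) := by
    intro a
    have h3 := contract C w a.2 a.1
    rw [hG a w] at h3
    calc _ = g a * ∑ p : Fin 10 × Fin 10, sq w p.1 * sq w p.2 * (L C a.1 * K C a.2) p.2 p.1 := by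
          rw [Finset.mul_sum]; exact Finset.sum_congr rfl fun p _ => by ring
      _ = _ := by
          rw [h3, Finset.mul_sum]; exact Finset.sum_congr rfl fun p _ => by ring
  simp only [h2, Finset.sum_mul]
  rw [Finset.sum_comm]

end contract

end Crest.Agent.P345.Gen79
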