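import Crest.Agent.P345HK34
import Crest.Agent.P345.Span43
import Crest.Agent.P345.Dual26b

set_option autoImplicit false
set_option maxHeartbeats 1000000

namespace Crest.Agent.P345.Gen96

open Matrix Crest.Quantum Crest.Agent.P345Red Crest.Agent.P345HK34 Crest.Agent.P345.Dual26

variable {R : Type} [CommRing R]

/-- the pencil -/
def Aw (C : Fin 4 → Fin 6 → Fin 4 → ℤ) (w : Fin 4 → ℤ) (r : Fin 6) (k : Fin 4) : ℤ :=
  w 0 * C 0 r k + w 1 * C 1 r k + w 2 * C 2 r k + w 3 * C 3 r k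

def m2 (A : Fin 6 → Fin 4 → ℤ) (r s : Fin 6) (k l : Fin 4) : ℤ :=
  A r k * A s l - A r l * A s k

def D4 (A : Fin 6 → Fin 4 → ℤ) (a b c d : Fin 6) : ℤ :=
  m2 A c d 2 3 * m2 A a b 0 1 - m2 A c d 1 3 * m2 A a b 0 2 + m2 A c d 1 2 * m2 A a b 0 3
    + m2 A c d 0 3 * m2 A a b 1 2 - m2 A c d 0 2 * m2 A a b 1 3 + m2 A c d 0 1 * m2 A a b 2 3

theorem D4_det (A : Fin 6 → Fin 4 → ℤ) (f : Fin 4 → Fin 6) :
    D4 A (f 0) (f 1) (f 2) (f 3) = ((Matrix.of A).submatrix f id).det := by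
  rw [Matrix.det_succ_row_zero]
  simp only [Matrix.det_fin_three, Fin.sum_univ_four, Matrix.submatrix_apply, Matrix.of_apply, id]
  simp [D4, m2, Fin.succAbove, Fin.succ, Fin.castSucc, Fin.castAdd, Fin.castLE, Fin.lt_def]
  ring

def e15 : Fin 15 → Fin 4 → Fin 6 :=
  ![![0,1,2,3], ![0,1,2,4], ![0,1,2,5], ![0,1,3,4], ![0,1,3,5], ![0,1,4,5], ![0,2,3,4],
    ![0,2,3,5], ![0,2,4,5], ![0,3,4,5], ![1,2,3,4], ![1,2,3,5], ![1,2,4,5], ![1,3,4,5],
    ![2,3,4,5]]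

def e15b (a b c d : Fin 6) : Bool :=
  (List.finRange 15).any fun i =>
    decide (e15 i 0 = a) && decide (e15 i 1 = b) && decide (e15 i 2 = c) && decide (e15 i 3 = d)

def e15chk : Bool :=
  (List.finRange 6).all fun a => (List.finRange 6).all fun b => (List.finRange 6).all fun c =>
    (List.finRange 6).all fun d =>
      !(decide (a < b) && decide (b < c) && decide (c < d)) || e15b a b c d

theorem e15chk_eq : e15chk = true := by decide +kernel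

theorem e15_all (a b c d : Fin 6) (h1 : a < b) (h2 : b < c) (h3 : c < d) :
    ∃ i : Fin 15, e15 i 0 = a ∧ e15 i 1 = b ∧ e15 i 2 = c ∧ e15 i 3 = d := by
  have h := e15chk_eq
  unfold e15chk at h
  rw [List.all_eq_true] at h
  have ha := h a (List.mem_finRange a)
  rw [List.all_eq_true] at ha
  have hb := ha b (List.mem_finRange b)
  rw [List.all_eq_true] at hb
  have hc := hb c (List.mem_finRange c)
  rw [List.all_eq_true] at hc
  have hd := hc d (List.mem_finRange d)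
  simp only [h1, h2, h3, decide_true, Bool.and_true, Bool.not_true, Bool.false_or] at hd
  unfold e15b at hd
  rw [List.any_eq_true] at hd
  obtain ⟨i, -, hi⟩ := hd
  simp only [Bool.and_eq_true, decide_eq_true_eq] at hi
  exact ⟨i, hi.1.1.1, hi.1.1.2, hi.1.2, hi.2⟩

def m15 (C : Fin 4 → Fin 6 → Fin 4 → ℤ) (w : Fin 4 → ℤ) (c : Fin 15) : ℤ :=
  D4 (Aw C w) (e15 c 0) (e15 c 1) (e15 c 2) (e15 c 3)

theorem det_f (f : Fin 4 → Fin 6) : ∃ cf : Fin 15 → ℤ, ∀ A : Fin 6 → Fin 4 → ℤ,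
    D4 A (f 0) (f 1) (f 2) (f 3)
      = ∑ c, cf c * D4 A (e15 c 0) (e15 c 1) (e15 c 2) (e15 c 3) := by
  classical
  by_cases hf : Function.Injective f
  · let σ := Tuple.sort f
    have hmono : Monotone (f ∘ σ) := Tuple.monotone_sort f
    have hinj : Function.Injective (f ∘ σ) := hf.comp σ.injective
    have hs : StrictMono (f ∘ σ) := hmono.strictMono_of_injective hinj
    obtain ⟨i, h0, h1, h2, h3⟩ := e15_all ((f ∘ σ) 0) ((f ∘ σ) 1) ((f ∘ σ) 2) ((f ∘ σ) 3)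
      (hs (by decide)) (hs (by decide)) (hs (by decide))
    have he : (f ∘ σ) = e15 i := by
      funext x
      fin_cases x
      · exact h0.symm
      · exact h1.symm
      · exact h2.symm
      · exact h3.symm
    refine ⟨fun c => if c = i then ((Equiv.Perm.sign σ : ℤˣ) : ℤ) else 0, fun A => ?_⟩
    rw [D4_det]
    have h := Matrix.det_permute σ ((Matrix.of A).submatrix f id)
    have h' : ((Matrix.of A).submatrix f id).submatrix σ id = (Matrix.of A).submatrix (e15 i) id := by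
      rw [← he]; rfl
    rw [h'] at h
    simp only [ite_mul, zero_mul, Finset.sum_ite_eq', Finset.mem_univ, if_true]
    have hs2 : ((Equiv.Perm.sign σ : ℤˣ) : ℤ) * ((Equiv.Perm.sign σ : ℤˣ) : ℤ) = 1 := by
      rw [← Units.val_mul, Int.units_mul_self]; rfl
    rw [D4_det A (e15 i), h]
    simp only [Int.cast_id]
    rw [← mul_assoc, hs2, one_mul]
  · refine ⟨0, fun A => ?_⟩
    rw [D4_det]
    simp only [Pi.zero_apply, zero_mul, Finset.sum_const_zero]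
    unfold Function.Injective at hf
    push Not at hf
    obtain ⟨a, b, hab, hne⟩ := hf
    refine Matrix.det_zero_of_row_eq hne ?_
    funext k
    simp [Matrix.submatrix_apply, hab]

/-- vector of quadratic monomials -/
def sq (w : Fin 4 → ℤ) (m : Fin 10) : ℤ := w (ma m) * w (mb m)

theorem minor_eval (C : Fin 4 → Fin 6 → Fin 4 → ℤ) (w : Fin 4 → ℤ) (r s : Fin 6) (k l : Fin 4) :
    ∑ m, sq w m * entry C r s k l (ma m) (mb m) = m2 (Aw C w) r s k l := by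
  simp only [Fin.sum_univ_succ, Fin.sum_univ_zero]
  simp [sq, ma, mb, entry, m2, Aw, Fin.succ]
  ring

theorem lap (C : Fin 4 → Fin 6 → Fin 4 → ℤ) (w : Fin 4 → ℤ) (b a : Fin 6 × Fin 6) :
    ∑ i, ∑ j, (sq w i : ℂ) * (sq w j : ℂ) * (L C b * K C a) j i
      = ((D4 (Aw C w) a.1 a.2 b.1 b.2 : ℤ) : ℂ) := by
  have h1 : ∑ i, ∑ j, (sq w i : ℂ) * (sq w j : ℂ) * (L C b * K C a) j i
      = ∑ y, (∑ j, (sq w j : ℂ) * L C b j y) * (∑ i, (sq w i : ℂ) * K C a y i) := by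
    simp only [Matrix.mul_apply, Finset.mul_sum, Finset.sum_mul]
    calc ∑ i, ∑ j, ∑ y, (sq w i : ℂ) * (sq w j : ℂ) * (L C b j y * K C a y i)
        = ∑ i, ∑ y, ∑ j, (sq w i : ℂ) * (sq w j : ℂ) * (L C b j y * K C a y i) :=
          Finset.sum_congr rfl fun i _ => Finset.sum_comm
      _ = ∑ y, ∑ i, ∑ j, (sq w i : ℂ) * (sq w j : ℂ) * (L C b j y * K C a y i) :=
          Finset.sum_comm
      _ = ∑ y, ∑ i, ∑ j, (sq w j : ℂ) * L C b j y * ((sq w i : ℂ) * K C a y i) :=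
          Finset.sum_congr rfl fun y _ => Finset.sum_congr rfl fun i _ =>
            Finset.sum_congr rfl fun j _ => by ring
  rw [h1]
  have h2 : ∀ y, ∑ j, (sq w j : ℂ) * L C b j y
      = ((sg y * m2 (Aw C w) b.1 b.2 (pk (co y)) (pl (co y)) : ℤ) : ℂ) := by
    intro y
    rw [← minor_eval, Finset.mul_sum]
    push_cast
    refine Finset.sum_congr rfl fun j _ => ?_
    simp only [L, Lz, Kz, Matrix.of_apply]
    push_cast
    ring
  have h3 : ∀ y, ∑ i, (sq w i : ℂ) * K C a y i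
      = ((m2 (Aw C w) a.1 a.2 (pk y) (pl y) : ℤ) : ℂ) := by
    intro y
    rw [← minor_eval]
    push_cast
    refine Finset.sum_congr rfl fun j _ => ?_
    simp only [K, Kz, Matrix.of_apply]
  simp only [h2, h3]
  rw [Fin.sum_univ_succ, Fin.sum_univ_succ, Fin.sum_univ_succ, Fin.sum_univ_succ,
    Fin.sum_univ_succ, Fin.sum_univ_succ, Fin.sum_univ_four]
  simp only [sg, pk, pl, co, D4, Fin.succ]
  simp
  ring

theorem pf_main (p : ℕ) [Fact p.Prime] (C : Fin 4 → Fin 6 → Fin 4 → ℤ)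
    (z : Fin 15 → Fin 4 → ℤ) (Bi : Fin 15 → Fin 15 → ℤ)
    (hB : ∀ i c, ((∑ j, Bi i j * m15 C (z j) c) - if i = c then 1 else 0) % (p : ℤ) = 0)
    (w : Fin 20 → Fin 4 → ℤ) (hw : ∀ i c, m15 C (w i) c % (p : ℤ) = 0)
    (hk : ∀ (k : Type) [Field k] [CharP k p] (u v : Fin 10 → k),
      (∀ i, (∑ s, (sq (w i) s : k) * u s) * (∑ s, (sq (w i) s : k) * v s) = 0) → u = 0 ∨ v = 0) :
    ∀ (u v : Fin 10 → ℂ) (c : (Fin 6 × Fin 6) × (Fin 6 × Fin 6) → ℂ),
      (∀ q : Fin 10 × Fin 10, u q.1 * v q.2 = ∑ a, c a * (L C a.1 * K C a.2) q.2 q.1) →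
        u = 0 ∨ v = 0 := by
  classical
  intro u v c hc
  choose cf hcf using det_f
  let f : (Fin 6 × Fin 6) × (Fin 6 × Fin 6) → Fin 4 → Fin 6 :=
    fun a => ![a.2.1, a.2.2, a.1.1, a.1.2]
  let g : Fin 15 → ℂ := fun t => ∑ a, c a * (cf (f a) t : ℂ)
  have key : ∀ y : Fin 4 → ℤ, (∑ s, (sq y s : ℂ) * u s) * (∑ s, (sq y s : ℂ) * v s)
      = ∑ t, g t * (m15 C y t : ℂ) := by
    intro y
    have h1 := uv_eval (K C) (L C) u v c hc (fun m => (sq y m : ℂ)) (fun m => (sq y m : ℂ))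
    have h2 : (∑ s, (sq y s : ℂ) * u s) * (∑ s, (sq y s : ℂ) * v s)
        = (∑ i, u i * (sq y i : ℂ)) * (∑ j, v j * (sq y j : ℂ)) := by
      simp only [mul_comm]
    rw [h2, h1]
    have h3 : ∀ a : (Fin 6 × Fin 6) × (Fin 6 × Fin 6),
        (∑ i, ∑ j, (sq y i : ℂ) * (sq y j : ℂ) * (L C a.1 * K C a.2) j i)
          = ∑ t, (cf (f a) t : ℂ) * (m15 C y t : ℂ) := by
      intro a
      rw [lap]
      have := hcf (f a) (Aw C y)
      have h4 : D4 (Aw C y) a.2.1 a.2.2 a.1.1 a.1.2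
          = ∑ t, cf (f a) t * m15 C y t := this
      rw [h4]
      push_cast
      rfl
    simp only [h3, g, Finset.mul_sum, Finset.sum_mul]
    rw [Finset.sum_comm]
    exact Finset.sum_congr rfl fun t _ => Finset.sum_congr rfl fun a _ => by ring
  exact Span43.pf_span p (fun j => sq (z j)) (fun j c => m15 C (z j) c) Bi hB
    (fun i => sq (w i)) (fun i c => m15 C (w i) c) hw hk u v g (fun j => key (z j))
    (fun i => key (w i))

theorem s0541_main (p : ℕ) [Fact p.Prime] (C : Fin 4 → Fin 6 → Fin 4 → ℤ)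
    (hC : ∀ i j k l, ∑ r, C i r k * C j r l = ∑ r, C i r l * C j r k)
    (z : Fin 15 → Fin 4 → ℤ) (Bi : Fin 15 → Fin 15 → ℤ)
    (hB : ∀ i c, ((∑ j, Bi i j * m15 C (z j) c) - if i = c then 1 else 0) % (p : ℤ) = 0)
    (w : Fin 20 → Fin 4 → ℤ) (hw : ∀ i c, m15 C (w i) c % (p : ℤ) = 0)
    (hk : ∀ (k : Type) [Field k] [CharP k p] (u v : Fin 10 → k),
      (∀ i, (∑ s, (sq (w i) s : k) * u s) * (∑ s, (sq (w i) s : k) * v s) = 0) → u = 0 ∨ v = 0)
    (hne : ∃ j i, L C j * K C i ≠ 0) :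
    ∃ Φ₁ Φ₂ : Matrix (Fin 10) (Fin 10) ℂ → Matrix (Fin 10) (Fin 10) ℂ,
      IsLinearMap ℂ Φ₁ ∧ IsLinearMap ℂ Φ₂ ∧ IsPPT Φ₁ ∧ IsPPT Φ₂ ∧
      choiMatrix (Φ₂ ∘ Φ₁) ≠ 0 ∧
      (∀ u v : Fin 10 → ℂ, (∃ w, (choiMatrix (Φ₂ ∘ Φ₁)).mulVec w = fun p => u p.1 * v p.2) →
        u = 0 ∨ v = 0) ∧
      ¬ IsEntanglementBreaking (Φ₂ ∘ Φ₁) :=
  s0541_all (K C) (K C) (L C) (L C) (hK C hC) (hL C hC) (pf_main p C z Bi hB w hw hk) hne

theorem s0540_main (p : ℕ) [Fact p.Prime] (C : Fin 4 → Fin 6 → Fin 4 → ℤ)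
    (hC : ∀ i j k l, ∑ r, C i r k * C j r l = ∑ r, C i r l * C j r k)
    (z : Fin 15 → Fin 4 → ℤ) (Bi : Fin 15 → Fin 15 → ℤ)
    (hB : ∀ i c, ((∑ j, Bi i j * m15 C (z j) c) - if i = c then 1 else 0) % (p : ℤ) = 0)
    (w : Fin 20 → Fin 4 → ℤ) (hw : ∀ i c, m15 C (w i) c % (p : ℤ) = 0)
    (hk : ∀ (k : Type) [Field k] [CharP k p] (u v : Fin 10 → k),
      (∀ i, (∑ s, (sq (w i) s : k) * u s) * (∑ s, (sq (w i) s : k) * v s) = 0) → u = 0 ∨ v = 0)
    (hne : ∃ j i, L C j * K C i ≠ 0) :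
    ∃ Θ : Matrix (Fin 21) (Fin 21) ℂ → Matrix (Fin 21) (Fin 21) ℂ,
      IsChannel Θ ∧ IsPPT Θ ∧ ¬ IsEntanglementBreaking (Θ ∘ Θ) :=
  s0540_all (K C) (K C) (L C) (L C) (hK C hC) (hL C hC) (pf_main p C z Bi hB w hw hk) hne

end Crest.Agent.P345.Gen96
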