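import Crest.Agent.P345.Inst29
import Crest.Agent.P345.Mds3

/-! Row 345 (helper3): the hypothesis `HK` of `P345/Inst29` from the kernel check `Mds3.c`. -/

set_option autoImplicit false
set_option maxRecDepth 100000

namespace Crest.Agent.P345.HK3
open Crest.Agent.P345Fast Crest.Agent.P345.Mds3 Crest.Agent.P345A29 Crest.Agent.P345D29
  Crest.Agent.P345HK34

def bndb (B M : ℕ) : ℕ → ℕ → Bool
  | 0, _ => true
  | l + 1, S => Nat.blt (S % B) M && bndb B M l (S / B)

theorem bnd_of (B M : ℕ) : ∀ l S, bndb B M l S = true → bnd B M l S
  | 0, _, _ => trivial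
  | l + 1, S, h => by
    unfold bndb at h
    rw [Bool.and_eq_true] at h
    exact ⟨by simpa [Nat.blt_eq] using h.1, bnd_of B M l _ h.2⟩

theorem hball : L_c.all (fun r =>
    bndb 1569275433846670190958947355801916604025588861116008628224 60041 10 r) = true := by
  decide +kernel

theorem hbnd : ∀ r ∈ L_c,
    bnd 1569275433846670190958947355801916604025588861116008628224 60041 10 r := fun r hr =>
  bnd_of _ _ _ _ (List.all_eq_true.1 hball r hr)

theorem limb : ∀ (i : Fin 20) (j : Fin 10), (60041 : ℤ) ∣ (w i (ma j) * w i (mb j)) -
    ((L_c.getD i 0 / 1569275433846670190958947355801916604025588861116008628224 ^ (j : ℕ) %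
      1569275433846670190958947355801916604025588861116008628224 : ℕ) : ℤ) := by
  decide +kernel

theorem hk : HK := by
  intro k _ _ u v h
  have key : ∀ (u : Fin 10 → k) (i : Fin 20), qe u (w i) = ∑ j : Fin 10,
      ((L_c.getD i 0 / 1569275433846670190958947355801916604025588861116008628224 ^ (j : ℕ) %
      1569275433846670190958947355801916604025588861116008628224 : ℕ) : k) * u j := by
    intro u i
    unfold qe
    refine Finset.sum_congr rfl fun j _ => ?_
    congr 1
    have h1 := (CharP.intCast_eq_zero_iff k 60041 _).2 (limb i j)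
    rw [Int.cast_sub, Int.cast_natCast] at h1
    exact sub_eq_zero.1 h1
  refine pf_char (p := 60041) (n := 20) (k := 10) (by norm_num)
    1569275433846670190958947355801916604025588861116008628224 60041 (by norm_num) (by norm_num)
    L_c rfl hbnd c u v (fun i => ?_)
  rw [← key, ← key]
  exact h i

end Crest.Agent.P345.HK3
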