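import Crest.Agent.P345.Ch16
import Crest.Agent.P345.Data19

set_option autoImplicit false
namespace Crest.Agent.P345.Inst16
open Matrix Crest.Quantum Crest.Agent.P345Red Crest.Agent.P345HK34 Crest.Agent.P345.Ch16

def C : Fin 4 → Fin 6 → Fin 4 → ℤ := fun j r k => ((Data19.C.getD j []).getD r []).getD k 0
def zp : Fin 15 → Fin 4 → ℤ := fun j k => (Data19.z.getD j []).getD k 0
def wp : Fin 20 → Fin 4 → ℤ := fun j k => (((Data19.w.getD j []).getD k 0 : ℕ) : ℤ)
def BiL : List (List ℤ) := [[17295, 11455, 65593, 64291, 35383, 20202, 3835, 55084, 53313, 28676, 30679, 34365, 61545, 14549, 21506], [16776, 23236, 42724, 21718, 31975, 24119, 28014, 13214, 64654, 56376, 32665, 22653, 66970, 8041, 8042], [17483, 5058, 64987, 57556, 43585, 57594, 16885, 8136, 46662, 47042, 4857, 47299, 52834, 8139, 46782], [57309, 65319, 68577, 56426, 19801, 29104, 6852, 37671, 5243, 66728, 53238, 5896, 2337, 44276, 51133], [4976, 61401, 35388, 35751, 43449, 28601, 45797, 65402, 21978, 26172, 22562, 24843, 37944, 24270, 46800], [29898,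 18255, 50513, 20282, 65305, 28734, 38715, 32406, 55853, 49449, 54609, 33635, 47984, 42106, 53438], [7685, 13689, 49491, 9648, 48529, 2311, 3959, 45682, 31905, 64945, 2267, 6168, 1188, 15636, 40182], [9469, 51031, 20116, 15834, 20238, 43354, 23836, 45835, 14158, 41139, 27825, 49355, 24870, 3326, 33784], [38334, 67438, 9871, 49538, 46868, 35888, 22509, 32042, 32409, 4930, 28879, 4851, 65812, 59278, 59204], [13806, 43411, 64042, 36292, 30610, 37475, 8002, 10995, 49606, 33790, 57898, 39213, 1821, 11692, 43221], [3605, 42597, 7538, 43105, 22070, 38882, 17037, 12764, 36506, 23739, 64750, 4777, 1956, 34839, 48166], [60147, 50348, 56062, 46603, 29674, 66912, 4815, 3797, 46728, 54690, 32556, 33206, 44079, 31426, 53619], [32239, 47219, 36020, 45407, 48077, 32102, 13387, 56048, 44064, 21633, 65144, 47288, 52528, 18100, 21812], [37013, 50464, 11000, 37971, 52624, 37621, 6959, 4869, 34436, 44658, 38647, 54625, 40088, 49639, 47038], [43558, 31123, 23827, 52233, 39609, 8824, 10772, 28317, 8404, 17789, 9425, 66745, 44372,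 57108, 20234]]
def Bi : Fin 15 → Fin 15 → ℤ := fun j k => (BiL.getD j []).getD k 0

theorem hC : ∀ i j k l, ∑ r, C i r k * C j r l = ∑ r, C i r l * C j r k := by decide +kernel
theorem hw : ∀ i c, minU C (wp i) c % ((68749 : ℕ) : ℤ) = 0 := by decide +kernel
theorem hB : ∀ i c, ((∑ j, Bi i j * minU C (zp j) c) - if i = c then 1 else 0) % ((68749 : ℕ) : ℤ) = 0 := by
  decide +kernel

end Crest.Agent.P345.Inst16
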