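import Crest.Agent.P345Fast
import Crest.Agent.P345.L16
import Crest.Agent.P345.Inst16

set_option autoImplicit false
namespace Crest.Agent.P345.Hk16
open Matrix Crest.Quantum Crest.Agent.P345Red Crest.Agent.P345HK34 Crest.Agent.P345.Ch16
open Crest.Agent.P345Fast Crest.Agent.P345.Inst16 Crest.Agent.P345.Mds16

theorem prime_p : Nat.Prime 68749 := by norm_num
instance : Fact (Nat.Prime 68749) := ⟨prime_p⟩

def pm : Fin 10 → Fin 10 := ![5,8,3,4,2,9,1,6,0,7]
def pmi : Fin 10 → Fin 10 := ![8,6,4,2,3,0,7,9,1,5]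
def ord : Fin 20 → Fin 20 := ![7,5,13,2,11,17,18,8,6,16,12,14,0,3,10,4,15,19,1,9]

def pe : Equiv.Perm (Fin 10) := ⟨pm, pmi, by decide, by decide⟩

theorem hrow : ∀ (i : Fin 20) (j : Fin 10),
    (((L16.getD i 0 / (2 ^ 192) ^ (j : ℕ) % (2 ^ 192) : ℕ) : ℤ) - sq (wp (ord i)) (pm j))
      % ((68749 : ℕ) : ℤ) = 0 := by decide +kernel

theorem hbnd' : ∀ r ∈ L16, bnd (2 ^ 192) 68749 10 r := by
  intro r hr
  have h : L16.all (fun r => (List.range 10).all (fun j => decide (r / (2 ^ 192) ^ j % (2 ^ 192) < 68749)))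
      = true := by decide +kernel
  rw [List.all_eq_true] at h
  have h1 := h r hr
  rw [List.all_eq_true] at h1
  have h2 : ∀ j < 10, r / (2 ^ 192) ^ j % (2 ^ 192) < 68749 := fun j hj =>
    of_decide_eq_true (h1 j (List.mem_range.2 hj))
  have gen : ∀ (l : ℕ) (S : ℕ), (∀ j < l, S / (2 ^ 192) ^ j % (2 ^ 192) < 68749) →
      bnd (2 ^ 192) 68749 l S := by
    intro l
    induction l with
    | zero => intro S _; trivial
    | succ l ih =>
      intro S hS
      refine ⟨?_, ih _ fun j hj => ?_⟩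
      · have := hS 0 (Nat.succ_pos l)
        rwa [pow_zero, Nat.div_one] at this
      · have := hS (j + 1) (Nat.succ_lt_succ hj)
        rwa [pow_succ', ← Nat.div_div_eq_div_mul] at this
  exact gen 10 r h2

theorem hk_of (hc : checkP 68749 (2 ^ 192) 20 10 L16 = true) (k : Type) [Field k] [CharP k 68749]
    (u v : Fin 10 → k)
    (h : ∀ i, (∑ s, (sq (wp i) s : k) * u s) * (∑ s, (sq (wp i) s : k) * v s) = 0) :
    u = 0 ∨ v = 0 := by
  have hcast : ∀ (i : Fin 20) (j : Fin 10),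
      (((L16.getD i 0 / (2 ^ 192) ^ (j : ℕ) % (2 ^ 192) : ℕ)) : k)
        = ((sq (wp (ord i)) (pe j) : ℤ) : k) := by
    intro i j
    have h1 := hrow i j
    have h2 : (((L16.getD i 0 / (2 ^ 192) ^ (j : ℕ) % (2 ^ 192) : ℕ) : ℤ) : k)
        = ((sq (wp (ord i)) (pe j) : ℤ) : k) := by
      rw [CharP.intCast_eq_intCast k 68749]
      exact Int.emod_eq_emod_iff_emod_sub_eq_zero.2 h1
    rwa [Int.cast_natCast] at h2
  have hs : ∀ (i : Fin 20) (u : Fin 10 → k),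
      ∑ j : Fin 10, (((L16.getD i 0 / (2 ^ 192) ^ (j : ℕ) % (2 ^ 192) : ℕ)) : k) * u (pe j)
        = ∑ s, (sq (wp (ord i)) s : k) * u s := by
    intro i u
    rw [← Equiv.sum_comp pe (fun s => (sq (wp (ord i)) s : k) * u s)]
    exact Finset.sum_congr rfl fun j _ => by rw [hcast]
  have h0 := pf_char (p := 68749) (K := k) (n := 20) (k := 10) (by norm_num) (2 ^ 192) 68749
    (by norm_num) (by norm_num) L16 (by decide) hbnd' hc (fun j => u (pe j)) (fun j => v (pe j))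
    (fun i => by rw [hs i u, hs i v]; exact h (ord i))
  rcases h0 with h0 | h0
  · left
    funext s
    have := congrFun h0 (pe.symm s)
    simpa using this
  · right
    funext s
    have := congrFun h0 (pe.symm s)
    simpa using this

theorem fin541 (hc : checkP 68749 (2 ^ 192) 20 10 L16 = true) :
    ∃ Φ₁ Φ₂ : Matrix (Fin 10) (Fin 10) ℂ → Matrix (Fin 10) (Fin 10) ℂ,
      IsLinearMap ℂ Φ₁ ∧ IsLinearMap ℂ Φ₂ ∧ IsPPT Φ₁ ∧ IsPPT Φ₂ ∧
      choiMatrix (Φ₂ ∘ Φ₁) ≠ 0 ∧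
      (∀ u v : Fin 10 → ℂ, (∃ w, (choiMatrix (Φ₂ ∘ Φ₁)).mulVec w = fun p => u p.1 * v p.2) →
        u = 0 ∨ v = 0) ∧
      ¬ IsEntanglementBreaking (Φ₂ ∘ Φ₁) :=
  Dual26.s0541_all (K C) (K C) (L C) (L C) (hK C hC) (hL C hC)
    (fun u v c hcc => chain C 68749 zp Bi hB wp hw (fun k _ _ u v => hk_of hc k u v) u v c hcc)
    (hne C 68749 zp Bi hB)

theorem fin540 (hc : checkP 68749 (2 ^ 192) 20 10 L16 = true) :
    ∃ Θ : Matrix (Fin 21) (Fin 21) ℂ → Matrix (Fin 21) (Fin 21) ℂ,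
      IsChannel Θ ∧ IsPPT Θ ∧ ¬ IsEntanglementBreaking (Θ ∘ Θ) :=
  Dual26.s0540_all (K C) (K C) (L C) (L C) (hK C hC) (hL C hC)
    (fun u v c hcc => chain C 68749 zp Bi hB wp hw (fun k _ _ u v => hk_of hc k u v) u v c hcc)
    (hne C 68749 zp Bi hB)

end Crest.Agent.P345.Hk16
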