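import Crest.Agent.P345.Mds93Fin
import Crest.Agent.P345.Dat5

/-! Row 345 (helper5): the MDS hypothesis of `Asm5.final40/41` for `Dat5` from helper93's theorem. -/

set_option autoImplicit false

namespace Crest.Agent.P345.Hk5

open Crest.Agent.P345.Asm5 Crest.Agent.P345.Dat5

theorem hx : ∀ (i : Fin 20) (j : Fin 10), (60041 : ℤ) ∣ mono (w i) j -
    (((Crest.Agent.P345.Mds93Fin.xs.getD i []).getD j 0 : ℕ) : ℤ) := by
  decide +kernel

instance fp : Fact (Nat.Prime 60041) := ⟨by norm_num⟩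

theorem hk (k : Type) [Field k] [CharP k 60041] (u v : Fin 10 → k)
    (h : ∀ i, (∑ s, (mono (w i) s : k) * u s) * (∑ s, (mono (w i) s : k) * v s) = 0) :
    u = 0 ∨ v = 0 :=
  Crest.Agent.P345.Mds93Fin.hmds_of (fun i s => mono (w i) s) hx k u v h

end Crest.Agent.P345.Hk5
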