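import Crest.Agent.P345.Inst81

set_option autoImplicit false

/-! Row 345 (helper81): instantiation of `Final50.main` and the two statements. -/

namespace Crest.Agent.P345.Inst81

open Crest.Agent.P345Fast Crest.Agent.P345.Lap50 Crest.Agent.P345HK34 Crest.Agent.P345Red
open Crest.Agent.P345.Mds81 (T0 t0)

def d4 (M : Fin 4 → Fin 4 → ℤ) : ℤ :=
  M 0 0 * (M 1 1 * (M 2 2 * M 3 3 - M 2 3 * M 3 2) - M 1 2 * (M 2 1 * M 3 3 - M 2 3 * M 3 1)
    + M 1 3 * (M 2 1 * M 3 2 - M 2 2 * M 3 1))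
  - M 0 1 * (M 1 0 * (M 2 2 * M 3 3 - M 2 3 * M 3 2) - M 1 2 * (M 2 0 * M 3 3 - M 2 3 * M 3 0)
    + M 1 3 * (M 2 0 * M 3 2 - M 2 2 * M 3 0))
  + M 0 2 * (M 1 0 * (M 2 1 * M 3 3 - M 2 3 * M 3 1) - M 1 1 * (M 2 0 * M 3 3 - M 2 3 * M 3 0)
    + M 1 3 * (M 2 0 * M 3 1 - M 2 1 * M 3 0))
  - M 0 3 * (M 1 0 * (M 2 1 * M 3 2 - M 2 2 * M 3 1) - M 1 1 * (M 2 0 * M 3 2 - M 2 2 * M 3 0)
    + M 1 2 * (M 2 0 * M 3 1 - M 2 1 * M 3 0))

theorem d4_eq (M : Fin 4 → Fin 4 → ℤ) : Matrix.det (Matrix.of M) = d4 M := by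
  rw [Matrix.det_succ_row_zero]
  simp [Fin.sum_univ_succ, Matrix.det_fin_three, Matrix.submatrix_apply, Fin.succAbove, d4]
  ring

def Dt : Fin 15 → Fin 15 → ℤ := ![![37849, 41545, 0, 1, 24663, 10320, 56676, 32871, 680, 14859, 34874, 9964, 46911, 29781, 2169], ![57359, 22232, 0, 0, 52345, 4286, 19529, 57810, 14570, 42195, 15423, 3260, 1894, 49892, 2758], ![3967, 43504, 0, 0, 53121, 8309, 21074, 6187, 29581, 45577, 40040, 33409, 58630, 39840, 46531], ![24942, 51604, 0, 0, 45219, 33912, 51912, 44519, 27301, 39584, 16132, 21831, 14123, 8751, 12486], ![30758, 37044, 0, 0, 2753, 16482, 16096, 28008, 48858, 25100, 14073, 19988, 31401, 37037, 24133], ![34414, 9226, 0, 0, 55790, 54453, 53196, 53538, 2348, 22076, 1966, 29844, 54986, 11338, 44043], ![11392, 464, 0, 0, 5300, 55542, 31004, 16030, 3827, 39483, 44746, 26909, 31040, 49735, 41321], ![33515, 59546, 0, 0, 40306, 18056, 49524, 17202, 24160, 49568, 26872,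 22826, 59989, 2776, 813], ![22715, 37498, 0, 0, 3553, 59951, 48068, 52879, 41001, 4693, 15069, 3900, 38385, 25252, 29013], ![30657, 6842, 0, 0, 55515, 12586, 27420, 38276, 20970, 33621, 5289, 27233, 4481, 33723, 19887], ![2317, 46241, 40422, 0, 29803, 13253, 59162, 47504, 59381, 59283, 33556, 29331, 38501, 57492, 58323], ![20768, 15680, 40370, 0, 33419, 49345, 2689, 3704, 3612, 54109, 54668, 51452, 15599, 59059, 46472], ![13803, 49455, 15723, 0, 21962, 1835, 53151, 8178, 33701, 49396, 52805, 42782, 57115, 27859, 58190], ![34029, 13066, 47745, 0, 43225, 36645, 16976, 1563, 50105, 57455, 15280, 41961, 10849, 43933, 13308], ![44116, 21089, 16601, 0, 49103, 11170, 15049, 18437, 50488, 1729, 29818, 51766, 37791, 14186, 35208]]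

theorem hD : ∀ t r, ((60041 : ℕ) : ℤ) ∣ d4 (fun i k => Aw C (z r) (tab t i) k) - Dt t r := by
  decide +kernel

theorem hDB : ∀ t s, ((60041 : ℕ) : ℤ) ∣ ∑ r, Dt t r * Bi r s - (if t = s then 1 else 0) := by
  decide +kernel

theorem hB : ∀ t s, ((60041 : ℕ) : ℤ) ∣ ∑ r, Mn C (z r) (tab t) * Bi r s - (if t = s then 1 else 0) := by
  intro t s
  have h1 : ∑ r, Mn C (z r) (tab t) * Bi r s - (if t = s then 1 else 0)
      = ∑ r, (Mn C (z r) (tab t) - Dt t r) * Bi r s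
        + (∑ r, Dt t r * Bi r s - (if t = s then 1 else 0)) := by
    simp only [sub_mul, Finset.sum_sub_distrib]
    ring
  rw [h1]
  refine dvd_add (Finset.dvd_sum fun r _ => Dvd.dvd.mul_right ?_ _) (hDB t s)
  have h2 : Mn C (z r) (tab t) = d4 (fun i k => Aw C (z r) (tab t i) k) := d4_eq _
  rw [h2]
  exact hD t r

theorem hx : ∀ (i : Fin 20) (a : Fin 10), ((60041 : ℕ) : ℤ) ∣
    sq (pt i) a - ((T0.getD i 0 / (2 ^ 192) ^ (a : ℕ) % (2 ^ 192) : ℕ) : ℤ) := by decide +kernel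

theorem hlen : ∀ r ∈ T0, bnd (2 ^ 192) (2 ^ 16) 10 r := by decide +kernel

instance hprime : Fact (Nat.Prime 60041) := ⟨by norm_num⟩

theorem hmds (k : Type) [Field k] [CharP k 60041] (u v : Fin 10 → k)
    (h : ∀ i, (∑ a, ((sq (pt i) a : ℤ) : k) * u a) * (∑ b, ((sq (pt i) b : ℤ) : k) * v b) = 0) :
    u = 0 ∨ v = 0 := by
  have hx' : ∀ (i : Fin 20) (a : Fin 10), ((T0.getD i 0 / (2 ^ 192) ^ (a : ℕ) % (2 ^ 192) : ℕ) : k)
      = ((sq (pt i) a : ℤ) : k) := by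
    intro i a
    have := (CharP.intCast_eq_zero_iff k 60041 _).2 (hx i a)
    rw [Int.cast_sub, Int.cast_natCast] at this
    exact (sub_eq_zero.1 this).symm
  refine pf_char (p := 60041) (n := 20) (k := 10) (by norm_num) (2 ^ 192) (2 ^ 16) (by positivity)
    (by norm_num) T0 rfl hlen t0 u v ?_
  intro i
  simp only [hx']
  exact h i

theorem hne : ∃ j i, L C j * K C i ≠ 0 := by
  refine ⟨(2, 3), (0, 1), fun h => ?_⟩
  have h1 := congrFun (congrFun h 0) 0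
  rw [Matrix.mul_apply] at h1
  simp only [K, L, Matrix.of_apply, Matrix.zero_apply] at h1
  have e : ∑ y, Lz C (2, 3) 0 y * Kz C (0, 1) y 0 = 1 := by decide +kernel
  have h2 : ((∑ y, Lz C (2, 3) 0 y * Kz C (0, 1) y 0 : ℤ) : ℂ) = 0 := by
    rw [← h1]
    push_cast
    rfl
  rw [e] at h2
  norm_num at h2

end Crest.Agent.P345.Inst81
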