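import Crest.Agent.P345HK34
import Crest.Agent.P345.Dual26b
import Crest.Agent.P345.Span43

set_option autoImplicit false
set_option maxHeartbeats 1000000

/-! Row 345 (helper17): Laplace expansion: `L_j K_i` evaluated at `w²` is a maximal minor. -/
namespace Crest.Agent.P345.Lap17

open Crest.Agent.P345HK34 Crest.Agent.P345Red

variable (C : Fin 4 → Fin 6 → Fin 4 → ℤ)

def A (y : Fin 4 → ℤ) (r : Fin 6) (k : Fin 4) : ℤ :=
  y 0 * C 0 r k + y 1 * C 1 r k + y 2 * C 2 r k + y 3 * C 3 r k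

def mono (y : Fin 4 → ℤ) (m : Fin 10) : ℤ := y (ma m) * y (mb m)

def m2 (a b : Fin 4 → ℤ) (k l : Fin 4) : ℤ := a k * b l - a l * b k

theorem K_eval (y : Fin 4 → ℤ) (i : Fin 6 × Fin 6) (x : Fin 10) :
    ∑ m, mono y m * Kz C i x m = m2 (A C y i.1) (A C y i.2) (pk x) (pl x) := by
  unfold Kz mono m2 A entry
  generalize pk x = k
  generalize pl x = l
  simp [Fin.sum_univ_succ, ma, mb]
  ring

/-- 4 x 4 determinant by Laplace expansion along the first two rows -/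
def D4 (a b c d : Fin 4 → ℤ) : ℤ :=
  m2 a b 0 1 * m2 c d 2 3 - m2 a b 0 2 * m2 c d 1 3 + m2 a b 0 3 * m2 c d 1 2
    + m2 a b 1 2 * m2 c d 0 3 - m2 a b 1 3 * m2 c d 0 2 + m2 a b 2 3 * m2 c d 0 1

theorem lap (y : Fin 4 → ℤ) (j i : Fin 6 × Fin 6) :
    ∑ m : Fin 10, ∑ m' : Fin 10, (mono y m : ℂ) * (mono y m' : ℂ) * (L C j * K C i) m' m =
      ((D4 (A C y i.1) (A C y i.2) (A C y j.1) (A C y j.2) : ℤ) : ℂ) := by
  have h1 : ∀ m m' : Fin 10, (mono y m : ℂ) * (mono y m' : ℂ) * (L C j * K C i) m' m =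
      ((∑ x, sg x * (mono y m' * Kz C j (co x) m') * (mono y m * Kz C i x m) : ℤ) : ℂ) := by
    intro m m'
    rw [Matrix.mul_apply]
    simp only [L, K, Matrix.of_apply, Lz]
    push_cast
    rw [Finset.mul_sum]
    refine Finset.sum_congr rfl fun x _ => by ring
  simp only [h1, ← Int.cast_sum]
  refine congrArg (Int.cast : ℤ → ℂ) ?_
  have h2 : ∑ m : Fin 10, ∑ m' : Fin 10, ∑ x, sg x * (mono y m' * Kz C j (co x) m') *
      (mono y m * Kz C i x m) = ∑ x, sg x * (∑ m', mono y m' * Kz C j (co x) m') *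
        (∑ m, mono y m * Kz C i x m) := by
    calc ∑ m : Fin 10, ∑ m' : Fin 10, ∑ x, sg x * (mono y m' * Kz C j (co x) m') *
          (mono y m * Kz C i x m)
        = ∑ m : Fin 10, ∑ x, ∑ m' : Fin 10, sg x * (mono y m' * Kz C j (co x) m') *
          (mono y m * Kz C i x m) := Finset.sum_congr rfl fun m _ => Finset.sum_comm
      _ = ∑ x, ∑ m : Fin 10, ∑ m' : Fin 10, sg x * (mono y m' * Kz C j (co x) m') *
          (mono y m * Kz C i x m) := Finset.sum_comm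
      _ = _ := by
          refine Finset.sum_congr rfl fun x _ => ?_
          rw [Finset.mul_sum]
          refine Finset.sum_congr rfl fun m _ => ?_
          rw [Finset.mul_sum, Finset.sum_mul]
  rw [h2]
  simp only [K_eval]
  simp [Fin.sum_univ_succ, sg, co, pk, pl, D4]
  ring

theorem D4_swap1 (a b c d : Fin 4 → ℤ) : D4 b a c d = - D4 a b c d := by
  unfold D4 m2; ring
theorem D4_swap2 (a b c d : Fin 4 → ℤ) : D4 a c b d = - D4 a b c d := by
  unfold D4 m2; ring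
theorem D4_swap3 (a b c d : Fin 4 → ℤ) : D4 a b d c = - D4 a b c d := by
  unfold D4 m2; ring

theorem D4_det (B : Matrix (Fin 4) (Fin 4) ℤ) : B.det = D4 (B 0) (B 1) (B 2) (B 3) := by
  rw [Matrix.det_succ_row_zero]
  simp only [Fin.sum_univ_succ, Matrix.det_fin_three, Matrix.submatrix_apply, D4, m2]
  simp [Fin.succAbove, Fin.succ]
  ring

/-- sorted quadruples -/
def sub : Fin 15 → Fin 4 → Fin 6 :=
  ![![0,1,2,3], ![0,1,2,4], ![0,1,2,5], ![0,1,3,4], ![0,1,3,5], ![0,1,4,5], ![0,2,3,4],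
    ![0,2,3,5], ![0,2,4,5], ![0,3,4,5], ![1,2,3,4], ![1,2,3,5], ![1,2,4,5], ![1,3,4,5], ![2,3,4,5]]

/-- sign and index: by sorting -/
theorem quad_cases : ∀ a b c d : Fin 6, (a = b ∨ a = c ∨ a = d ∨ b = c ∨ b = d ∨ c = d) ∨
    ∃ t : Fin 15, ∃ σ : Equiv.Perm (Fin 4), ∀ i, ![a, b, c, d] i = sub t (σ i) := by
  decide +kernel
end Crest.Agent.P345.Lap17
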