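import Crest.Agent.P345HK34
import Crest.Agent.P345.Dual26b
import Crest.Agent.P345.Span43

/-! Row 345 (helper70): Laplace expansion for helper34's `K`, `L`, reduction to the 15 maximal minors. -/

set_option autoImplicit false

namespace Crest.Agent.P345.Lap70

open Matrix Crest.Agent.P345HK34 Crest.Agent.P345.Dual26

variable (C : Fin 4 → Fin 6 → Fin 4 → ℤ)

/-- the pencil at `w` -/
def Am {R : Type*} [CommRing R] (w : Fin 4 → R) (r : Fin 6) (k : Fin 4) : R :=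
  w 0 * (C 0 r k : R) + w 1 * (C 1 r k : R) + w 2 * (C 2 r k : R) + w 3 * (C 3 r k : R)

def sq {R : Type*} [CommRing R] (w : Fin 4 → R) (m : Fin 10) : R := w (ma m) * w (mb m)

def mn {R : Type*} [CommRing R] (w : Fin 4 → R) (r s : Fin 6) (k l : Fin 4) : R :=
  Am C w r k * Am C w s l - Am C w r l * Am C w s k

theorem sumK (w : Fin 4 → ℂ) (i : Fin 6 × Fin 6) (x : Fin 10) :
    ∑ m, ((Kz C i x m : ℤ) : ℂ) * sq w m = mn C w i.1 i.2 (pk x) (pl x) := by
  simp only [Fin.sum_univ_succ, Fin.sum_univ_zero, Kz, sq, mn, Am, entry]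
  simp [ma, mb]
  ring

/-- explicit 4x4 determinant by Laplace along the first two rows -/
def lap {R : Type*} [CommRing R] (w : Fin 4 → R) (r s r' s' : Fin 6) : R :=
  mn C w r s 2 3 * mn C w r' s' 0 1 - mn C w r s 1 3 * mn C w r' s' 0 2
    + mn C w r s 1 2 * mn C w r' s' 0 3 + mn C w r s 0 3 * mn C w r' s' 1 2
    - mn C w r s 0 2 * mn C w r' s' 1 3 + mn C w r s 0 1 * mn C w r' s' 2 3

theorem LK (w : Fin 4 → ℂ) (a b : Fin 6 × Fin 6) :
    ∑ i, ∑ j, sq w i * sq w j * (L C a * K C b) j i = lap C w a.1 a.2 b.1 b.2 := by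
  have h1 : ∑ i, ∑ j, sq w i * sq w j * (L C a * K C b) j i
      = ∑ y, (∑ j, ((Lz C a j y : ℤ) : ℂ) * sq w j) * (∑ i, ((Kz C b y i : ℤ) : ℂ) * sq w i) := by
    simp only [Matrix.mul_apply, K, L, Matrix.of_apply, Finset.mul_sum, Finset.sum_mul]
    calc ∑ i, ∑ j, ∑ y, sq w i * sq w j * (((Lz C a j y : ℤ) : ℂ) * ((Kz C b y i : ℤ) : ℂ))
        = ∑ i, ∑ y, ∑ j, sq w i * sq w j * (((Lz C a j y : ℤ) : ℂ) * ((Kz C b y i : ℤ) : ℂ)) :=
          Finset.sum_congr rfl fun i _ => Finset.sum_comm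
      _ = ∑ y, ∑ i, ∑ j, sq w i * sq w j * (((Lz C a j y : ℤ) : ℂ) * ((Kz C b y i : ℤ) : ℂ)) :=
          Finset.sum_comm
      _ = _ := Finset.sum_congr rfl fun y _ => Finset.sum_congr rfl fun i _ =>
          Finset.sum_congr rfl fun j _ => by ring
  rw [h1]
  have h2 : ∀ y, ∑ j, ((Lz C a j y : ℤ) : ℂ) * sq w j
      = ((sg y : ℤ) : ℂ) * mn C w a.1 a.2 (pk (co y)) (pl (co y)) := by
    intro y
    rw [← sumK, Finset.mul_sum]
    refine Finset.sum_congr rfl fun j _ => ?_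
    simp only [Lz]
    push_cast
    ring
  simp only [h2, sumK]
  simp only [Fin.sum_univ_succ, Fin.sum_univ_zero]
  simp [sg, co, pk, pl, lap]
  ring

/-- rows `ρ` of the pencil -/
def rows {R : Type*} [CommRing R] (w : Fin 4 → R) (ρ : Fin 4 → Fin 6) : Matrix (Fin 4) (Fin 4) R :=
  Matrix.of fun i k => Am C w (ρ i) k

theorem lap_det {R : Type*} [CommRing R] (w : Fin 4 → R) (r s r' s' : Fin 6) :
    lap C w r s r' s' = (rows C w ![r, s, r', s']).det := by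
  simp only [Matrix.det_succ_row_zero, Fin.sum_univ_succ, Fin.sum_univ_zero, Matrix.submatrix_apply,
    rows, Matrix.of_apply, Matrix.det_fin_zero, lap, mn]
  simp [Fin.succAbove]
  ring

/-- the 15 increasing 4-tuples -/
def t4 : Fin 15 → Fin 4 → Fin 6 :=
  ![![0,1,2,3], ![0,1,2,4], ![0,1,2,5], ![0,1,3,4], ![0,1,3,5], ![0,1,4,5], ![0,2,3,4], ![0,2,3,5],
    ![0,2,4,5], ![0,3,4,5], ![1,2,3,4], ![1,2,3,5], ![1,2,4,5], ![1,3,4,5], ![2,3,4,5]]

theorem t4_spec0 : ∀ a b c d : Fin 6, (a < b ∧ b < c ∧ c < d) →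
    ∃ e : Fin 15, (t4 e 0 = a ∧ t4 e 1 = b) ∧ (t4 e 2 = c ∧ t4 e 3 = d) := by
  set_option synthInstance.maxHeartbeats 200000 in
  set_option synthInstance.maxSize 1000 in
  decide +kernel

theorem t4_spec (a b c d : Fin 6) (h1 : a < b) (h2 : b < c) (h3 : c < d) :
    ∃ e : Fin 15, t4 e 0 = a ∧ t4 e 1 = b ∧ t4 e 2 = c ∧ t4 e 3 = d := by
  obtain ⟨e, h⟩ := t4_spec0 a b c d ⟨h1, h2, h3⟩
  exact ⟨e, h.1.1, h.1.2, h.2.1, h.2.2⟩

theorem exists_coef (ρ : Fin 4 → Fin 6) :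
    ∃ s : Fin 15 → ℤ, ∀ w : Fin 4 → ℂ,
      (rows C w ρ).det = ∑ c, (s c : ℂ) * (rows C w (t4 c)).det := by
  classical
  by_cases hρ : Function.Injective ρ
  · set σ := Tuple.sort ρ with hσ
    have hmono : Monotone (ρ ∘ σ) := Tuple.monotone_sort ρ
    have hstr : StrictMono (ρ ∘ σ) := hmono.strictMono_of_injective (hρ.comp σ.injective)
    obtain ⟨e, h0, h1, h2, h3⟩ := t4_spec ((ρ ∘ σ) 0) ((ρ ∘ σ) 1) ((ρ ∘ σ) 2) ((ρ ∘ σ) 3)
      (hstr (by decide)) (hstr (by decide)) (hstr (by decide))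
    have he : t4 e = ρ ∘ σ := by
      funext i
      fin_cases i
      · exact h0
      · exact h1
      · exact h2
      · exact h3
    refine ⟨fun c => if c = e then ((Equiv.Perm.sign σ : ℤˣ) : ℤ) else 0, fun w => ?_⟩
    have hd : (rows C w (ρ ∘ σ)).det = ((Equiv.Perm.sign σ : ℤˣ) : ℤ) * (rows C w ρ).det := by
      have := Matrix.det_permute σ (rows C w ρ)
      rw [← this]
      rfl
    rw [Finset.sum_eq_single e]
    · simp only [if_true]
      rw [he, hd, ← mul_assoc]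
      have : (((Equiv.Perm.sign σ : ℤˣ) : ℤ) : ℂ) * (((Equiv.Perm.sign σ : ℤˣ) : ℤ) : ℂ) = 1 := by
        rw [← Int.cast_mul, Int.units_coe_mul_self, Int.cast_one]
      rw [this, one_mul]
    · intro c _ hc
      simp only [if_neg hc, Int.cast_zero, zero_mul]
    · intro h
      exact absurd (Finset.mem_univ e) h
  · refine ⟨fun _ => 0, fun w => ?_⟩
    simp only [Int.cast_zero, zero_mul, Finset.sum_const_zero]
    rw [Function.not_injective_iff] at hρ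
    obtain ⟨i, j, hij, hne⟩ := hρ
    refine Matrix.det_zero_of_row_eq hne ?_
    funext k
    simp only [rows, Matrix.of_apply, hij]

/-- integer minor, explicit -/
def Dz (w : Fin 4 → ℤ) (c : Fin 15) : ℤ := lap C w (t4 c 0) (t4 c 1) (t4 c 2) (t4 c 3)

theorem Dz_cast (w : Fin 4 → ℤ) (c : Fin 15) :
    (rows C (fun i => (w i : ℂ)) (t4 c)).det = ((Dz C w c : ℤ) : ℂ) := by
  have h1 : t4 c = ![t4 c 0, t4 c 1, t4 c 2, t4 c 3] := by
    funext i
    fin_cases i <;> rfl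
  rw [h1, ← lap_det]
  simp only [Dz, lap, mn, Am]
  push_cast
  rfl

/-- the product-free statement from the checks -/
theorem pf (p : ℕ) [Fact p.Prime] (z : Fin 15 → Fin 4 → ℤ) (x : Fin 20 → Fin 4 → ℤ)
    (Bi : Fin 15 → Fin 15 → ℤ)
    (hB : ∀ i c, ((∑ j, Bi i j * Dz C (z j) c) - if i = c then 1 else 0) % (p : ℤ) = 0)
    (hMx : ∀ i c, Dz C (x i) c % (p : ℤ) = 0)
    (hk : ∀ (k : Type) [Field k] [CharP k p] (u v : Fin 10 → k),
      (∀ i : Fin 20, (∑ s, ((sq (x i) s : ℤ) : k) * u s) * (∑ s, ((sq (x i) s : ℤ) : k) * v s) = 0) →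
        u = 0 ∨ v = 0)
    (u v : Fin 10 → ℂ) (c : (Fin 6 × Fin 6) × (Fin 6 × Fin 6) → ℂ)
    (hc : ∀ q : Fin 10 × Fin 10, u q.1 * v q.2 = ∑ a, c a * (L C a.1 * K C a.2) q.2 q.1) :
    u = 0 ∨ v = 0 := by
  choose s hs using fun a : (Fin 6 × Fin 6) × (Fin 6 × Fin 6) =>
    exists_coef C ![a.1.1, a.1.2, a.2.1, a.2.2]
  let g : Fin 15 → ℂ := fun e => ∑ a, c a * (s a e : ℂ)
  have key : ∀ w : Fin 4 → ℤ, (∑ m, ((sq w m : ℤ) : ℂ) * u m) * (∑ m, ((sq w m : ℤ) : ℂ) * v m)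
      = ∑ e, g e * ((Dz C w e : ℤ) : ℂ) := by
    intro w
    have h1 := uv_eval (K C) (L C) u v c hc (sq (fun i => (w i : ℂ))) (sq (fun i => (w i : ℂ)))
    simp only [LK, lap_det, hs, Dz_cast] at h1
    have h2 : ∀ m, ((sq w m : ℤ) : ℂ) = sq (fun i => (w i : ℂ)) m := by
      intro m
      simp only [sq]
      push_cast
      rfl
    simp only [h2]
    calc (∑ m, sq (fun i => (w i : ℂ)) m * u m) * (∑ m, sq (fun i => (w i : ℂ)) m * v m)
        = (∑ m, u m * sq (fun i => (w i : ℂ)) m) * (∑ m, v m * sq (fun i => (w i : ℂ)) m) := by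
          simp only [mul_comm]
      _ = ∑ a, c a * ∑ e, (s a e : ℂ) * ((Dz C w e : ℤ) : ℂ) := h1
      _ = ∑ e, g e * ((Dz C w e : ℤ) : ℂ) := by
          simp only [g, Finset.mul_sum, Finset.sum_mul]
          rw [Finset.sum_comm]
          exact Finset.sum_congr rfl fun e _ => Finset.sum_congr rfl fun a _ => by ring
  exact Span43.pf_span p (fun j => sq (z j)) (fun j c => Dz C (z j) c) Bi hB
    (fun i => sq (x i)) (fun i c => Dz C (x i) c) hMx hk u v g (fun j => key (z j)) (fun i => key (x i))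

end Crest.Agent.P345.Lap70
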