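import Crest.Agent.P345HK34

/-! Row 345 (helper88): Laplace identity and reduction to the 15 maximal minors. -/

set_option autoImplicit false

namespace Crest.Agent.P345.Lap88

open Crest.Agent.P345HK34

/-- monomials of degree two in the order of `ma, mb` -/
def mon (w : Fin 4 → ℤ) (m : Fin 10) : ℤ := w (ma m) * w (mb m)

/-- `A(w)` -/
def Aw (C : Fin 4 → Fin 6 → Fin 4 → ℤ) (w : Fin 4 → ℤ) (r : Fin 6) (k : Fin 4) : ℤ :=
  ∑ a, w a * C a r k

theorem entry_mon (C : Fin 4 → Fin 6 → Fin 4 → ℤ) (w : Fin 4 → ℤ) (r s : Fin 6) (k l : Fin 4) :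
    ∑ m : Fin 10, entry C r s k l (ma m) (mb m) * mon w m
      = Aw C w r k * Aw C w s l - Aw C w r l * Aw C w s k := by
  simp only [Fin.sum_univ_succ, Fin.sum_univ_zero, entry, mon, Aw, ma, mb]
  simp
  ring

/-- 4 by 4 determinant with rows `a b c d` -/
def det4 (a b c d : Fin 4 → ℤ) : ℤ :=
  (a 0 * b 1 - a 1 * b 0) * (c 2 * d 3 - c 3 * d 2)
  - (a 0 * b 2 - a 2 * b 0) * (c 1 * d 3 - c 3 * d 1)
  + (a 0 * b 3 - a 3 * b 0) * (c 1 * d 2 - c 2 * d 1)
  + (a 1 * b 2 - a 2 * b 1) * (c 0 * d 3 - c 3 * d 0)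
  - (a 1 * b 3 - a 3 * b 1) * (c 0 * d 2 - c 2 * d 0)
  + (a 2 * b 3 - a 3 * b 2) * (c 0 * d 1 - c 1 * d 0)

theorem lap (C : Fin 4 → Fin 6 → Fin 4 → ℤ) (w : Fin 4 → ℤ) (j i : Fin 6 × Fin 6) :
    ∑ s : Fin 10, ∑ t : Fin 10, mon w s * mon w t * (∑ x, Lz C j s x * Kz C i x t)
      = det4 (Aw C w j.1) (Aw C w j.2) (Aw C w i.1) (Aw C w i.2) := by
  have h1 : ∑ s : Fin 10, ∑ t : Fin 10, mon w s * mon w t * (∑ x, Lz C j s x * Kz C i x t)
      = ∑ x : Fin 10, (sg x * ∑ s, Kz C j (co x) s * mon w s) * ∑ t, Kz C i x t * mon w t := by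
    have e1 : ∀ s t : Fin 10, mon w s * mon w t * (∑ x, Lz C j s x * Kz C i x t)
        = ∑ x, (sg x * (Kz C j (co x) s * mon w s)) * (Kz C i x t * mon w t) := by
      intro s t
      rw [Finset.mul_sum]
      refine Finset.sum_congr rfl fun x _ => ?_
      unfold Lz
      ring
    simp only [e1]
    calc ∑ s : Fin 10, ∑ t : Fin 10, ∑ x : Fin 10,
          (sg x * (Kz C j (co x) s * mon w s)) * (Kz C i x t * mon w t)
        = ∑ s : Fin 10, ∑ x : Fin 10, ∑ t : Fin 10,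
          (sg x * (Kz C j (co x) s * mon w s)) * (Kz C i x t * mon w t) :=
          Finset.sum_congr rfl fun s _ => Finset.sum_comm
      _ = ∑ x : Fin 10, ∑ s : Fin 10, ∑ t : Fin 10,
          (sg x * (Kz C j (co x) s * mon w s)) * (Kz C i x t * mon w t) := Finset.sum_comm
      _ = _ := by
          refine Finset.sum_congr rfl fun x _ => ?_
          rw [show (sg x * ∑ s, Kz C j (co x) s * mon w s)
              = ∑ s, sg x * (Kz C j (co x) s * mon w s) from Finset.mul_sum _ _ _,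
            Finset.sum_mul_sum]
  rw [h1]
  have h2 : ∀ (i : Fin 6 × Fin 6) (x : Fin 10), ∑ t, Kz C i x t * mon w t
      = Aw C w i.1 (pk x) * Aw C w i.2 (pl x) - Aw C w i.1 (pl x) * Aw C w i.2 (pk x) := by
    intro i x
    exact entry_mon C w i.1 i.2 (pk x) (pl x)
  simp only [h2]
  simp only [Fin.sum_univ_succ, Fin.sum_univ_zero, sg, co, pk, pl, det4]
  simp
  ring

theorem det4_swap12 (a b c d : Fin 4 → ℤ) : det4 b a c d = - det4 a b c d := by
  unfold det4; ring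
theorem det4_swap23 (a b c d : Fin 4 → ℤ) : det4 a c b d = - det4 a b c d := by
  unfold det4; ring
theorem det4_swap34 (a b c d : Fin 4 → ℤ) : det4 a b d c = - det4 a b c d := by
  unfold det4; ring
theorem det4_eq12 (a c d : Fin 4 → ℤ) : det4 a a c d = 0 := by
  unfold det4; ring
theorem det4_eq23 (a b d : Fin 4 → ℤ) : det4 a b b d = 0 := by
  unfold det4; ring
theorem det4_eq34 (a b c : Fin 4 → ℤ) : det4 a b c c = 0 := by
  unfold det4; ring

/-- the 15 increasing row quadruples, lexicographic -/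
def i15 : Fin 15 → Fin 6 × Fin 6 × Fin 6 × Fin 6 :=
  ![(0,1,2,3), (0,1,2,4), (0,1,2,5), (0,1,3,4), (0,1,3,5), (0,1,4,5), (0,2,3,4), (0,2,3,5),
    (0,2,4,5), (0,3,4,5), (1,2,3,4), (1,2,3,5), (1,2,4,5), (1,3,4,5), (2,3,4,5)]

def M15 (C : Fin 4 → Fin 6 → Fin 4 → ℤ) (w : Fin 4 → ℤ) (k : Fin 15) : ℤ :=
  det4 (Aw C w (i15 k).1) (Aw C w (i15 k).2.1) (Aw C w (i15 k).2.2.1) (Aw C w (i15 k).2.2.2)

theorem i15_surj : ∀ a b c d : Fin 6, a < b → b < c → c < d → ∃ k, i15 k = (a, b, c, d) := by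
  decide

/-- `±1/0` combination -/
def InSpan (a b c d : Fin 6) : Prop :=
  ∃ g : Fin 15 → ℤ, ∀ (C : Fin 4 → Fin 6 → Fin 4 → ℤ) (w : Fin 4 → ℤ),
    det4 (Aw C w a) (Aw C w b) (Aw C w c) (Aw C w d) = ∑ k, g k * M15 C w k

theorem is_zero {a b c d : Fin 6} (h : ∀ (C : Fin 4 → Fin 6 → Fin 4 → ℤ) (w : Fin 4 → ℤ),
    det4 (Aw C w a) (Aw C w b) (Aw C w c) (Aw C w d) = 0) : InSpan a b c d :=
  ⟨0, fun C w => by rw [h C w]; simp⟩

theorem is_neg {a b c d a' b' c' d' : Fin 6} (h' : InSpan a' b' c' d')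
    (h : ∀ (C : Fin 4 → Fin 6 → Fin 4 → ℤ) (w : Fin 4 → ℤ),
    det4 (Aw C w a) (Aw C w b) (Aw C w c) (Aw C w d)
      = - det4 (Aw C w a') (Aw C w b') (Aw C w c') (Aw C w d')) : InSpan a b c d := by
  obtain ⟨g, hg⟩ := h'
  refine ⟨fun k => - g k, fun C w => ?_⟩
  rw [h C w, hg C w, ← Finset.sum_neg_distrib]
  exact Finset.sum_congr rfl fun k _ => by ring

theorem is_sorted {a b c d : Fin 6} (h1 : a < b) (h2 : b < c) (h3 : c < d) : InSpan a b c d := by
  obtain ⟨k, hk⟩ := i15_surj a b c d h1 h2 h3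
  refine ⟨Pi.single k 1, fun C w => ?_⟩
  rw [Finset.sum_eq_single k]
  · rw [Pi.single_eq_same, one_mul, M15, hk]
  · intro b _ hb
    rw [Pi.single_eq_of_ne hb, zero_mul]
  · intro h
    exact absurd (Finset.mem_univ k) h

/-- insert the last element -/
theorem is3 {a b c d : Fin 6} (h1 : a < b) (h2 : b < c) : InSpan a b c d := by
  rcases lt_trichotomy c d with h | h | h
  · exact is_sorted h1 h2 h
  · subst h; exact is_zero fun C w => det4_eq34 _ _ _
  · refine is_neg (a' := a) (b' := b) (c' := d) (d' := c) ?_ fun C w => det4_swap34 _ _ _ _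
    rcases lt_trichotomy b d with h' | h' | h'
    · exact is_sorted h1 h' h
    · subst h'; exact is_zero fun C w => det4_eq23 _ _ _
    · refine is_neg (a' := a) (b' := d) (c' := b) (d' := c) ?_ fun C w => det4_swap23 _ _ _ _
      rcases lt_trichotomy a d with h'' | h'' | h''
      · exact is_sorted h'' h' h2
      · subst h''; exact is_zero fun C w => det4_eq12 _ _ _
      · refine is_neg (a' := d) (b' := a) (c' := b) (d' := c) ?_ fun C w => det4_swap12 _ _ _ _
        exact is_sorted h'' h1 h2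

theorem is2 {a b c d : Fin 6} (h1 : a < b) : InSpan a b c d := by
  rcases lt_trichotomy b c with h | h | h
  · exact is3 h1 h
  · subst h; exact is_zero fun C w => det4_eq23 _ _ _
  · refine is_neg (a' := a) (b' := c) (c' := b) (d' := d) ?_ fun C w => det4_swap23 _ _ _ _
    rcases lt_trichotomy a c with h' | h' | h'
    · exact is3 h' h
    · subst h'; exact is_zero fun C w => det4_eq12 _ _ _
    · refine is_neg (a' := c) (b' := a) (c' := b) (d' := d) ?_ fun C w => det4_swap12 _ _ _ _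
      exact is3 h' h1

theorem is_all (a b c d : Fin 6) : InSpan a b c d := by
  rcases lt_trichotomy a b with h | h | h
  · exact is2 h
  · subst h; exact is_zero fun C w => det4_eq12 _ _ _
  · refine is_neg (a' := b) (b' := a) (c' := c) (d' := d) ?_ fun C w => det4_swap12 _ _ _ _
    exact is2 h

/-- Laplace + reduction: value of the composite Kraus operator on `w² ⊗ w²`. -/
theorem lap_span (j i : Fin 6 × Fin 6) : ∃ g : Fin 15 → ℤ,
    ∀ (C : Fin 4 → Fin 6 → Fin 4 → ℤ) (w : Fin 4 → ℤ),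
    ∑ s : Fin 10, ∑ t : Fin 10, mon w s * mon w t * (∑ x, Lz C j s x * Kz C i x t)
      = ∑ k, g k * M15 C w k := by
  obtain ⟨g, hg⟩ := is_all j.1 j.2 i.1 i.2
  exact ⟨g, fun C w => by rw [lap]; exact hg C w⟩

end Crest.Agent.P345.Lap88
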