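import Crest.Agent.P345Fast
import Crest.Agent.P345.L16

set_option autoImplicit false
namespace Crest.Agent.P345.Mds16
open Crest.Agent.P345Fast
theorem chk : checkP 68749 (2 ^ 192) 20 10 L16 = true := by decide +kernel
end Crest.Agent.P345.Mds16
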