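import Crest.Agent.P345.Mds81
set_option autoImplicit false
namespace Crest.Agent.P345.Mds81
open Crest.Agent.P345Fast
theorem a0 : checkP p B 18 8 (U1.map (step p B (m0 % B % p) (m0 / B))) = true := by decide +kernel

end Crest.Agent.P345.Mds81
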