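import Crest.Agent.P345.Mds93ABase
set_option autoImplicit false
set_option maxRecDepth 100000
namespace Crest.Agent.P345.Mds93A
open Crest.Agent.P345Fast
theorem l7_ok : checkP 60041 (2 ^ 185) 15 6 l7 = true := by decide +kernel
theorem l52_ok : checkP 60041 (2 ^ 185) 15 9 l52 = true := by decide +kernel
theorem l100_ok : checkP 60041 (2 ^ 185) 15 9 l100 = true := by decide +kernel
theorem l32_ok : checkP 60041 (2 ^ 185) 14 7 l32 = true := by decide +kernel
theorem l46_ok : checkP 60041 (2 ^ 185) 14 7 l46 = true := by decide +kernel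
theorem l66_ok : checkP 60041 (2 ^ 185) 14 7 l66 = true := by decide +kernel
theorem l86_ok : checkP 60041 (2 ^ 185) 14 7 l86 = true := by decide +kernel
theorem l6_ok : checkP 60041 (2 ^ 185) 15 5 l6 = true := by decide +kernel
theorem l25_ok : checkP 60041 (2 ^ 185) 14 8 l25 = true := by decide +kernel
theorem l43_ok : checkP 60041 (2 ^ 185) 14 6 l43 = true := by decide +kernel
theorem l63_ok : checkP 60041 (2 ^ 185) 14 6 l63 = true := by decide +kernel
theorem l79_ok : checkP 60041 (2 ^ 185) 14 8 l79 = true := by decide +kernel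
theorem l99_ok : checkP 60041 (2 ^ 185) 14 8 l99 = true := by decide +kernel
end Crest.Agent.P345.Mds93A
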