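import Crest.Agent.P345.Mds93ABase
set_option autoImplicit false
set_option maxRecDepth 100000
namespace Crest.Agent.P345.Mds93A
open Crest.Agent.P345Fast
theorem l9_ok : checkP 60041 (2 ^ 185) 15 6 l9 = true := by decide +kernel
theorem l57_ok : checkP 60041 (2 ^ 185) 15 6 l57 = true := by decide +kernel
theorem l102_ok : checkP 60041 (2 ^ 185) 15 9 l102 = true := by decide +kernel
theorem l36_ok : checkP 60041 (2 ^ 185) 14 7 l36 = true := by decide +kernel
theorem l50_ok : checkP 60041 (2 ^ 185) 14 7 l50 = true := by decide +kernel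
theorem l72_ok : checkP 60041 (2 ^ 185) 14 7 l72 = true := by decide +kernel
theorem l88_ok : checkP 60041 (2 ^ 185) 14 7 l88 = true := by decide +kernel
theorem l11_ok : checkP 60041 (2 ^ 185) 14 6 l11 = true := by decide +kernel
theorem l31_ok : checkP 60041 (2 ^ 185) 14 6 l31 = true := by decide +kernel
theorem l47_ok : checkP 60041 (2 ^ 185) 14 8 l47 = true := by decide +kernel
theorem l67_ok : checkP 60041 (2 ^ 185) 14 8 l67 = true := by decide +kernel
theorem l85_ok : checkP 60041 (2 ^ 185) 14 6 l85 = true := by decide +kernel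
theorem l103_ok : checkP 60041 (2 ^ 185) 15 10 l103 = true := by decide +kernel
end Crest.Agent.P345.Mds93A
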