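import Crest.Agent.P345.Mds93ABase
set_option autoImplicit false
set_option maxRecDepth 100000
namespace Crest.Agent.P345.Mds93A
open Crest.Agent.P345Fast
theorem l15_ok : checkP 60041 (2 ^ 185) 15 6 l15 = true := by decide +kernel
theorem l80_ok : checkP 60041 (2 ^ 185) 15 9 l80 = true := by decide +kernel
theorem l12_ok : checkP 60041 (2 ^ 185) 14 7 l12 = true := by decide +kernel
theorem l22_ok : checkP 60041 (2 ^ 185) 14 7 l22 = true := by decide +kernel
theorem l38_ok : checkP 60041 (2 ^ 185) 14 7 l38 = true := by decide +kernel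
theorem l60_ok : checkP 60041 (2 ^ 185) 14 7 l60 = true := by decide +kernel
theorem l74_ok : checkP 60041 (2 ^ 185) 14 7 l74 = true := by decide +kernel
theorem l92_ok : checkP 60041 (2 ^ 185) 14 7 l92 = true := by decide +kernel
theorem l17_ok : checkP 60041 (2 ^ 185) 14 6 l17 = true := by decide +kernel
theorem l35_ok : checkP 60041 (2 ^ 185) 14 6 l35 = true := by decide +kernel
theorem l51_ok : checkP 60041 (2 ^ 185) 14 8 l51 = true := by decide +kernel
theorem l71_ok : checkP 60041 (2 ^ 185) 14 6 l71 = true := by decide +kernel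
theorem l89_ok : checkP 60041 (2 ^ 185) 14 8 l89 = true := by decide +kernel
end Crest.Agent.P345.Mds93A
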