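import Crest.Agent.P345.Mds93ABase
set_option autoImplicit false
set_option maxRecDepth 100000
namespace Crest.Agent.P345.Mds93A
open Crest.Agent.P345Fast
theorem l29_ok : checkP 60041 (2 ^ 185) 15 6 l29 = true := by decide +kernel
theorem l94_ok : checkP 60041 (2 ^ 185) 15 9 l94 = true := by decide +kernel
theorem l18_ok : checkP 60041 (2 ^ 185) 14 7 l18 = true := by decide +kernel
theorem l24_ok : checkP 60041 (2 ^ 185) 14 7 l24 = true := by decide +kernel
theorem l44_ok : checkP 60041 (2 ^ 185) 14 7 l44 = true := by decide +kernel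
theorem l64_ok : checkP 60041 (2 ^ 185) 14 7 l64 = true := by decide +kernel
theorem l78_ok : checkP 60041 (2 ^ 185) 14 7 l78 = true := by decide +kernel
theorem l98_ok : checkP 60041 (2 ^ 185) 14 7 l98 = true := by decide +kernel
theorem l21_ok : checkP 60041 (2 ^ 185) 14 6 l21 = true := by decide +kernel
theorem l39_ok : checkP 60041 (2 ^ 185) 14 8 l39 = true := by decide +kernel
theorem l59_ok : checkP 60041 (2 ^ 185) 14 6 l59 = true := by decide +kernel
theorem l75_ok : checkP 60041 (2 ^ 185) 14 8 l75 = true := by decide +kernel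
theorem l93_ok : checkP 60041 (2 ^ 185) 14 8 l93 = true := by decide +kernel
end Crest.Agent.P345.Mds93A
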