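import Crest.Agent.P345Val79

/-! Row 345: product-freeness from the 15 minors modulo `p` (helper1). -/

set_option autoImplicit false

namespace Crest.Agent.P345Min1

open Matrix

variable {K Q : ℕ}

/-- `H k l = ∑ G k q * m l q` -/
def Hm (m G : Fin K → Fin Q → ℤ) : Matrix (Fin K) (Fin K) ℤ :=
  Matrix.of fun k l => ∑ q, G k q * m l q

/-- functionals killing the `m k` -/
def Lm (m G : Fin K → Fin Q → ℤ) (q r : Fin Q) : ℤ :=
  (Hm m G).det * (if q = r then 1 else 0)
    - ∑ k, (∑ l, (Hm m G).adjugate k l * G l q) * m k r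

theorem Lm_kill (m G : Fin K → Fin Q → ℤ) (k' : Fin K) (r : Fin Q) :
    ∑ q, Lm m G q r * m k' q = 0 := by
  have hadj : ∀ k, ∑ l, (Hm m G).adjugate k l * (Hm m G) l k' =
      if k = k' then (Hm m G).det else 0 := by
    intro k
    have h := congrFun (congrFun (Matrix.adjugate_mul (Hm m G)) k) k'
    rw [Matrix.mul_apply] at h
    rw [h, Matrix.smul_apply, Matrix.one_apply, smul_eq_mul]
    split_ifs <;> simp
  have h1 : ∀ k, ∑ q, (∑ l, (Hm m G).adjugate k l * G l q) * m k r * m k' q =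
      (∑ l, (Hm m G).adjugate k l * (Hm m G) l k') * m k r := by
    intro k
    have h2 : ∀ q, (∑ l, (Hm m G).adjugate k l * G l q) * m k r * m k' q =
        ∑ l, (Hm m G).adjugate k l * (G l q * m k' q) * m k r := by
      intro q
      rw [Finset.sum_mul, Finset.sum_mul]
      exact Finset.sum_congr rfl fun _ _ => by ring
    simp only [h2]
    rw [Finset.sum_comm, Finset.sum_mul]
    refine Finset.sum_congr rfl fun l _ => ?_
    rw [Hm, Matrix.of_apply, ← Finset.sum_mul, ← Finset.mul_sum]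
  have h3 : ∀ q, Lm m G q r * m k' q = (Hm m G).det * ((if q = r then 1 else 0) * m k' q)
      - ∑ k, (∑ l, (Hm m G).adjugate k l * G l q) * m k r * m k' q := by
    intro q
    rw [Lm, sub_mul, Finset.sum_mul]
    ring
  simp only [h3]
  rw [Finset.sum_sub_distrib, ← Finset.mul_sum, Finset.sum_comm]
  simp only [h1, hadj]
  simp

theorem det_one_mod (p : ℕ) (m G : Fin K → Fin Q → ℤ)
    (hG : ∀ k l, ((∑ q, G k q * m l q - (if k = l then 1 else 0) : ℤ) : ZMod p) = 0) :
    (((Hm m G).det : ℤ) : ZMod p) = 1 := by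
  have h1 : (((Hm m G).det : ℤ) : ZMod p) = ((Hm m G).map (Int.castRingHom (ZMod p))).det := by
    have := RingHom.map_det (Int.castRingHom (ZMod p)) (Hm m G)
    simpa using this
  rw [h1]
  have h2 : (Hm m G).map (Int.castRingHom (ZMod p)) = 1 := by
    ext k l
    have h3 := hG k l
    rw [Int.cast_sub, sub_eq_zero] at h3
    rw [Matrix.map_apply, Hm, Matrix.of_apply, Matrix.one_apply]
    change ((∑ q, G k q * m l q : ℤ) : ZMod p) = _
    rw [h3]
    split_ifs <;> simp
  rw [h2, Matrix.det_one]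

/-- the integer bilinear forms -/
def NN (m G : Fin K → Fin Q → ℤ) (idx : Fin 10 → Fin 10 → Fin Q) (r : Fin Q) (s t : Fin 10) : ℤ :=
  Lm m G (idx s t) r

theorem NN_rel (m G : Fin K → Fin Q → ℤ) (idx : Fin 10 → Fin 10 → Fin Q)
    (κ : Fin 10 → Fin 10 → ℂ) (c : Fin K → ℂ)
    (hκ : ∀ q, ∑ s, ∑ t, (if idx s t = q then κ s t else 0) = ∑ k, c k * (m k q : ℂ)) (r : Fin Q) :
    ∑ s, ∑ t, (NN m G idx r s t : ℂ) * κ s t = 0 := by
  have h1 : ∑ s, ∑ t, (NN m G idx r s t : ℂ) * κ s t =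
      ∑ q, (Lm m G q r : ℂ) * ∑ s, ∑ t, (if idx s t = q then κ s t else 0) := by
    simp only [Finset.mul_sum]
    symm
    rw [Finset.sum_comm]
    refine Finset.sum_congr rfl fun s _ => ?_
    rw [Finset.sum_comm]
    refine Finset.sum_congr rfl fun t _ => ?_
    rw [NN, Finset.sum_eq_single (idx s t)]
    · rw [if_pos rfl]
    · intro q _ hq
      rw [if_neg (Ne.symm hq), mul_zero]
    · intro h
      exact absurd (Finset.mem_univ _) h
  rw [h1]
  simp only [hκ]
  have h2 : ∀ k', ∑ q, (Lm m G q r : ℂ) * (m k' q : ℂ) = 0 := by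
    intro k'
    have := congrArg (fun z : ℤ => (z : ℂ)) (Lm_kill m G k' r)
    push_cast at this
    exact this
  have h3 : ∀ q, (Lm m G q r : ℂ) * ∑ k, c k * (m k q : ℂ) =
      ∑ k, c k * ((Lm m G q r : ℂ) * (m k q : ℂ)) := by
    intro q
    rw [Finset.mul_sum]
    exact Finset.sum_congr rfl fun _ _ => by ring
  simp only [h3]
  rw [Finset.sum_comm]
  simp only [← Finset.mul_sum, h2]
  simp

/-- product-freeness over `ℂ` from the minors modulo `p` -/
theorem pf_minors (p : ℕ) [hp : Fact p.Prime] (m G : Fin K → Fin Q → ℤ)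
    (hG : ∀ k l, ((∑ q, G k q * m l q - (if k = l then 1 else 0) : ℤ) : ZMod p) = 0)
    (idx : Fin 10 → Fin 10 → Fin Q) (ev : Fin 20 → Fin Q → ℤ) (x : Fin 20 → Fin 10 → ℕ)
    (hev : ∀ i s t, ((ev i (idx s t) - (x i s : ℤ) * (x i t : ℤ) : ℤ) : ZMod p) = 0)
    (hkill : ∀ i k, ((∑ q, ev i q * m k q : ℤ) : ZMod p) = 0)
    (hm : P345Mds.mds p 20 10 (List.ofFn fun i => List.ofFn (x i)) = true)
    (u v : Fin 10 → ℂ) (h : ∀ r, ∑ i, ∑ j, (NN m G idx r i j : ℂ) * (u i * v j) = 0) :
    u = 0 ∨ v = 0 := by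
  refine P345Val79.pf_mod_p p (NN m G idx) ev x x ?_ hm hm u v h
  intro i s t
  have hd := det_one_mod p m G hG
  have h1 : ∑ r, ev i r * NN m G idx r s t = (Hm m G).det * ev i (idx s t)
      - ∑ k, (∑ l, (Hm m G).adjugate k l * G l (idx s t)) * ∑ r, ev i r * m k r := by
    have h2 : ∀ r, ev i r * NN m G idx r s t =
        (Hm m G).det * ((if idx s t = r then 1 else 0) * ev i r)
        - ∑ k, (∑ l, (Hm m G).adjugate k l * G l (idx s t)) * (ev i r * m k r) := by
      intro r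
      rw [NN, Lm, mul_sub, Finset.mul_sum]
      congr 1
      · ring
      · exact Finset.sum_congr rfl fun _ _ => by ring
    simp only [h2]
    rw [Finset.sum_sub_distrib, ← Finset.mul_sum, Finset.sum_comm]
    simp only [← Finset.mul_sum]
    simp
  rw [Int.cast_sub, h1, Int.cast_sub, Int.cast_mul, hd, one_mul, Int.cast_sum]
  have h4 : ∀ k, (((∑ l, (Hm m G).adjugate k l * G l (idx s t)) * ∑ r, ev i r * m k r : ℤ) : ZMod p)
      = 0 := by
    intro k
    rw [Int.cast_mul, hkill i k, mul_zero]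
  rw [Finset.sum_eq_zero (fun k _ => h4 k), sub_zero, ← Int.cast_sub]
  exact hev i s t

end Crest.Agent.P345Min1
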