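import Crest.Agent.P345.Min1

/-! Row 345: product-freeness from the 15 minors modulo `p`, field version (helper1). -/

set_option autoImplicit false

namespace Crest.Agent.P345Min1

variable {K Q : ℕ}

theorem NN_mod (p : ℕ) [hp : Fact p.Prime] (m G : Fin K → Fin Q → ℤ)
    (hG : ∀ k l, ((∑ q, G k q * m l q - (if k = l then 1 else 0) : ℤ) : ZMod p) = 0)
    (idx : Fin 10 → Fin 10 → Fin Q) (ev : Fin 20 → Fin Q → ℤ)
    (hkill : ∀ i k, ((∑ q, ev i q * m k q : ℤ) : ZMod p) = 0) (i : Fin 20) (s t : Fin 10) :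
    ((∑ r, ev i r * NN m G idx r s t : ℤ) : ZMod p) = ((ev i (idx s t) : ℤ) : ZMod p) := by
  have hd := det_one_mod p m G hG
  have h1 : ∑ r, ev i r * NN m G idx r s t = (Hm m G).det * ev i (idx s t)
      - ∑ k, (∑ l, (Hm m G).adjugate k l * G l (idx s t)) * ∑ r, ev i r * m k r := by
    have h2 : ∀ r, ev i r * NN m G idx r s t =
        (Hm m G).det * ((if idx s t = r then 1 else 0) * ev i r)
        - ∑ k, (∑ l, (Hm m G).adjugate k l * G l (idx s t)) * (ev i r * m k r) := by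
      intro r
      rw [NN, Lm, mul_sub, Finset.mul_sum]
      congr 1
      · ring
      · exact Finset.sum_congr rfl fun _ _ => by ring
    simp only [h2]
    rw [Finset.sum_sub_distrib, ← Finset.mul_sum, Finset.sum_comm]
    simp only [← Finset.mul_sum]
    simp
  rw [h1, Int.cast_sub, Int.cast_mul, hd, one_mul, Int.cast_sum]
  have h4 : ∀ k, (((∑ l, (Hm m G).adjugate k l * G l (idx s t)) * ∑ r, ev i r * m k r : ℤ) : ZMod p)
      = 0 := by
    intro k
    rw [Int.cast_mul, hkill i k, mul_zero]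
  rw [Finset.sum_eq_zero (fun k _ => h4 k), sub_zero]

/-- product-freeness over `ℂ` from product-freeness of the points over all fields of char `p` -/
theorem pf_minors_field (p : ℕ) [hp : Fact p.Prime] (m G : Fin K → Fin Q → ℤ)
    (hG : ∀ k l, ((∑ q, G k q * m l q - (if k = l then 1 else 0) : ℤ) : ZMod p) = 0)
    (idx : Fin 10 → Fin 10 → Fin Q) (ev : Fin 20 → Fin Q → ℤ) (x : Fin 20 → Fin 10 → ℕ)
    (hev : ∀ i s t, ((ev i (idx s t) - (x i s : ℤ) * (x i t : ℤ) : ℤ) : ZMod p) = 0)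
    (hkill : ∀ i k, ((∑ q, ev i q * m k q : ℤ) : ZMod p) = 0)
    (hk : ∀ (k : Type) [Field k] [CharP k p] (u v : Fin 10 → k),
      (∀ i, (∑ s, (x i s : k) * u s) * (∑ t, (x i t : k) * v t) = 0) → u = 0 ∨ v = 0)
    (u v : Fin 10 → ℂ) (h : ∀ r, ∑ i, ∑ j, (NN m G idx r i j : ℂ) * (u i * v j) = 0) :
    u = 0 ∨ v = 0 := by
  refine P345Val79.val_transfer p (NN m G idx) ?_ u v h
  intro k _ _ u v h
  let φ : ZMod p →+* k := ZMod.castHom (dvd_refl p) k
  refine hk k u v ?_
  intro i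
  have h1 : ∀ s t, (∑ r, (ev i r : k) * (NN m G idx r s t : k)) = (x i s : k) * (x i t : k) := by
    intro s t
    have h2 := congrArg φ (NN_mod p m G hG idx ev hkill i s t)
    have h3 := congrArg φ (hev i s t)
    rw [map_intCast, map_intCast] at h2
    rw [map_intCast, map_zero] at h3
    push_cast at h2 h3
    rw [h2]
    exact sub_eq_zero.1 h3
  calc (∑ s, (x i s : k) * u s) * (∑ t, (x i t : k) * v t)
      = ∑ s, ∑ t, ((x i s : k) * (x i t : k)) * (u s * v t) := by
        rw [Finset.sum_mul_sum]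
        exact Finset.sum_congr rfl fun s _ => Finset.sum_congr rfl fun t _ => by ring
    _ = ∑ s, ∑ t, (∑ r, (ev i r : k) * (NN m G idx r s t : k)) * (u s * v t) := by
        refine Finset.sum_congr rfl fun s _ => Finset.sum_congr rfl fun t _ => ?_
        rw [h1]
    _ = ∑ r, (ev i r : k) * ∑ s, ∑ t, (NN m G idx r s t : k) * (u s * v t) := by
        simp only [Finset.sum_mul, Finset.mul_sum]
        have : ∀ s : Fin 10, (∑ t, ∑ r, (ev i r : k) * (NN m G idx r s t : k) * (u s * v t))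
            = ∑ r, ∑ t, (ev i r : k) * ((NN m G idx r s t : k) * (u s * v t)) := by
          intro s
          rw [Finset.sum_comm]
          exact Finset.sum_congr rfl fun _ _ => Finset.sum_congr rfl fun _ _ => by ring
        simp only [this]
        rw [Finset.sum_comm]
    _ = 0 := by simp [h]

/-- final shape: `hPF` of `P345Red.s0541_of` for `n r p = NN r p.1 p.2` -/
theorem pf_pair (p : ℕ) [hp : Fact p.Prime] (m G : Fin K → Fin Q → ℤ)
    (hG : ∀ k l, ((∑ q, G k q * m l q - (if k = l then 1 else 0) : ℤ) : ZMod p) = 0)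
    (idx : Fin 10 → Fin 10 → Fin Q) (ev : Fin 20 → Fin Q → ℤ) (x : Fin 20 → Fin 10 → ℕ)
    (hev : ∀ i s t, ((ev i (idx s t) - (x i s : ℤ) * (x i t : ℤ) : ℤ) : ZMod p) = 0)
    (hkill : ∀ i k, ((∑ q, ev i q * m k q : ℤ) : ZMod p) = 0)
    (hk : ∀ (k : Type) [Field k] [CharP k p] (u v : Fin 10 → k),
      (∀ i, (∑ s, (x i s : k) * u s) * (∑ t, (x i t : k) * v t) = 0) → u = 0 ∨ v = 0)
    (u v : Fin 10 → ℂ)
    (h : ∀ r, ∑ q : Fin 10 × Fin 10, (NN m G idx r q.1 q.2 : ℂ) * (u q.1 * v q.2) = 0) :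
    u = 0 ∨ v = 0 := by
  refine pf_minors_field p m G hG idx ev x hev hkill hk u v ?_
  intro r
  have := h r
  rw [Fintype.sum_prod_type] at this
  exact this

/-- final shape of `hrel`: `κ` integral, quartic image = `ε` times a vector `m k` or zero -/
theorem rel_pair (m G : Fin K → Fin Q → ℤ) (idx : Fin 10 → Fin 10 → Fin Q)
    (B : Matrix (Fin 10) (Fin 10) ℂ) (κ : Fin 10 → Fin 10 → ℤ)
    (hB : ∀ s t, B t s = (κ s t : ℂ)) (c : Fin K → ℤ)
    (hκ : ∀ q, ∑ s, ∑ t, (if idx s t = q then κ s t else 0) = ∑ k, c k * m k q) (r : Fin Q) :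
    ∑ q : Fin 10 × Fin 10, (NN m G idx r q.1 q.2 : ℂ) * B q.2 q.1 = 0 := by
  rw [Fintype.sum_prod_type]
  simp only [hB]
  refine NN_rel m G idx (fun s t => (κ s t : ℂ)) (fun k => (c k : ℂ)) ?_ r
  intro q
  have := congrArg (fun z : ℤ => (z : ℂ)) (hκ q)
  push_cast at this
  rw [← this]

end Crest.Agent.P345Min1
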