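import Crest.Agent.P345Mds
import Crest.Agent.P345Val79
set_option autoImplicit false
set_option linter.unusedSectionVars false

/-! Row 345 (helper30): product-freeness without explicit relations over `ℤ`.
`M` = coefficients of the maximal minors, `cols` = columns with invertible minor mod `p`;
the relations `N k0 = D e_{k0} - ∑ Y_{k,k0} e_{cols k}` are defined through `det`/`adjugate`. -/

namespace Crest.Agent.P345.Min30

open Finset

variable {κ : Type} [Fintype κ] [DecidableEq κ] {a : ℕ}

/-- `adj(M') M` -/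
def Y (M : Matrix (Fin a) κ ℤ) (cols : Fin a → κ) : Matrix (Fin a) κ ℤ :=
  (M.submatrix id cols).adjugate * M

/-- the relations -/
def N (M : Matrix (Fin a) κ ℤ) (cols : Fin a → κ) (idx : Fin 10 → Fin 10 → κ) (k0 : κ)
    (I J : Fin 10) : ℤ :=
  (if idx I J = k0 then (M.submatrix id cols).det else 0)
    - ∑ k, Y M cols k k0 * (if idx I J = cols k then 1 else 0)

theorem Y_spec (M : Matrix (Fin a) κ ℤ) (cols : Fin a → κ) (m : Fin a) (k0 : κ) :
    ∑ k, M m (cols k) * Y M cols k k0 = (M.submatrix id cols).det * M m k0 := by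
  have h : (M.submatrix id cols) * Y M cols = (M.submatrix id cols).det • M := by
    unfold Y
    rw [← Matrix.mul_assoc, Matrix.mul_adjugate, Matrix.smul_mul, Matrix.one_mul]
  have := congrFun (congrFun h m) k0
  rw [Matrix.mul_apply] at this
  simpa using this

/-- the quartic coefficients of a bilinear form -/
def fq {R : Type*} [CommRing R] (idx : Fin 10 → Fin 10 → κ) (P : Fin 10 → Fin 10 → R) (k : κ) : R :=
  ∑ I, ∑ J, if idx I J = k then P I J else 0

theorem N_sum {R : Type*} [CommRing R] (M : Matrix (Fin a) κ ℤ) (cols : Fin a → κ)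
    (idx : Fin 10 → Fin 10 → κ) (P : Fin 10 → Fin 10 → R) (k0 : κ) :
    ∑ I, ∑ J, ((N M cols idx k0 I J : ℤ) : R) * P I J =
      (((M.submatrix id cols).det : ℤ) : R) * fq idx P k0
        - ∑ k, ((Y M cols k k0 : ℤ) : R) * fq idx P (cols k) := by
  have h1 : ∀ I J, ((N M cols idx k0 I J : ℤ) : R) * P I J =
      (((M.submatrix id cols).det : ℤ) : R) * (if idx I J = k0 then P I J else 0)
        - ∑ k, ((Y M cols k k0 : ℤ) : R) * (if idx I J = cols k then P I J else 0) := by
    intro I J
    unfold N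
    push_cast
    rw [sub_mul, Finset.sum_mul]
    congr 1
    · split_ifs <;> simp
    · refine Finset.sum_congr rfl fun k _ => ?_
      split_ifs <;> simp
  simp only [h1, Finset.sum_sub_distrib]
  congr 1
  · unfold fq
    simp only [Finset.mul_sum]
  · unfold fq
    simp only [Finset.mul_sum]
    calc ∑ I, ∑ J, ∑ k, ((Y M cols k k0 : ℤ) : R) * (if idx I J = cols k then P I J else 0)
        = ∑ I, ∑ k, ∑ J, ((Y M cols k k0 : ℤ) : R) * (if idx I J = cols k then P I J else 0) :=
          Finset.sum_congr rfl fun I _ => Finset.sum_comm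
      _ = _ := Finset.sum_comm

/-- relations hold for every form whose quartic part is in the row span of `M` -/
theorem hrel {R : Type*} [CommRing R] (M : Matrix (Fin a) κ ℤ) (cols : Fin a → κ)
    (idx : Fin 10 → Fin 10 → κ) (P : Fin 10 → Fin 10 → R) (c : Fin a → R)
    (hP : ∀ k, fq idx P k = ∑ m, c m * ((M m k : ℤ) : R)) (k0 : κ) :
    ∑ I, ∑ J, ((N M cols idx k0 I J : ℤ) : R) * P I J = 0 := by
  rw [N_sum]
  simp only [hP]
  have h : ∀ m, ∑ k, ((M m (cols k) : ℤ) : R) * ((Y M cols k k0 : ℤ) : R) =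
      (((M.submatrix id cols).det : ℤ) : R) * ((M m k0 : ℤ) : R) := by
    intro m
    have := congrArg (Int.cast : ℤ → R) (Y_spec M cols m k0)
    rw [Int.cast_sum, Int.cast_mul] at this
    simpa only [Int.cast_mul] using this
  have h2 : ∑ k, ((Y M cols k k0 : ℤ) : R) * ∑ m, c m * ((M m (cols k) : ℤ) : R) =
      ∑ m, c m * ∑ k, ((M m (cols k) : ℤ) : R) * ((Y M cols k k0 : ℤ) : R) := by
    simp only [Finset.mul_sum]
    rw [Finset.sum_comm]
    refine Finset.sum_congr rfl fun m _ => Finset.sum_congr rfl fun k _ => by ring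
  rw [h2]
  simp only [h, Finset.mul_sum]
  rw [sub_eq_zero]
  refine Finset.sum_congr rfl fun m _ => by ring

/-- product-freeness over a field of characteristic `p` -/
theorem pf_field (p : ℕ) [hp : Fact p.Prime] (M : Matrix (Fin a) κ ℤ) (cols : Fin a → κ)
    (idx : Fin 10 → Fin 10 → κ) (x : Fin 20 → Fin 10 → ℕ) (q : Fin 20 → κ → ℤ)
    (hD : ¬ (p : ℤ) ∣ (M.submatrix id cols).det)
    (hq : ∀ i I J, (p : ℤ) ∣ q i (idx I J) - (x i I : ℤ) * (x i J : ℤ))
    (hvan : ∀ i m, (p : ℤ) ∣ ∑ k, M m k * q i k)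
    (hm : P345Mds.mds p 20 10 (List.ofFn fun i => List.ofFn (x i)) = true)
    (k : Type) [Field k] [CharP k p] (u v : Fin 10 → k)
    (h : ∀ r, ∑ i, ∑ j, (N M cols idx r i j : k) * (u i * v j) = 0) : u = 0 ∨ v = 0 := by
  classical
  by_contra hcon
  push Not at hcon
  obtain ⟨hu, hv⟩ := hcon
  have hDk : (((M.submatrix id cols).det : ℤ) : k) ≠ 0 := by
    intro h0
    exact hD ((CharP.intCast_eq_zero_iff k p _).1 h0)
  set f : κ → k := fq idx (fun I J => u I * v J) with hf
  have hsys : ∀ k0, (((M.submatrix id cols).det : ℤ) : k) * f k0 =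
      ∑ l, ((Y M cols l k0 : ℤ) : k) * f (cols l) := by
    intro k0
    have := h k0
    rw [N_sum] at this
    exact sub_eq_zero.1 this
  have hpt : ∀ i, (∑ I, (x i I : k) * u I) * (∑ J, (x i J : k) * v J) = 0 := by
    intro i
    have h1 : (∑ I, (x i I : k) * u I) * (∑ J, (x i J : k) * v J) = ∑ κ', f κ' * (q i κ' : k) := by
      have e1 : ∀ I J, ((q i (idx I J) : ℤ) : k) = (x i I : k) * (x i J : k) := by
        intro I J
        have := (CharP.intCast_eq_zero_iff k p _).2 (hq i I J)
        push_cast at this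
        exact sub_eq_zero.1 this
      rw [hf]
      unfold fq
      simp only [Finset.sum_mul]
      rw [Finset.sum_comm]
      refine Finset.sum_congr rfl fun I _ => ?_
      rw [Finset.sum_comm, Finset.mul_sum]
      refine Finset.sum_congr rfl fun J _ => ?_
      rw [Finset.sum_eq_single (idx I J)]
      · rw [if_pos rfl, e1]; ring
      · intro b _ hb
        rw [if_neg (Ne.symm hb), zero_mul]
      · intro hb
        exact absurd (Finset.mem_univ _) hb
    rw [h1]
    have h2 : (((M.submatrix id cols).det : ℤ) : k) * ∑ κ', f κ' * (q i κ' : k) = 0 := by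
      rw [Finset.mul_sum]
      have h3 : ∀ κ', (((M.submatrix id cols).det : ℤ) : k) * (f κ' * (q i κ' : k)) =
          ∑ l, f (cols l) * ∑ m, (((M.submatrix id cols).adjugate l m : ℤ) : k) *
            ((M m κ' : k) * (q i κ' : k)) := by
        intro κ'
        rw [← mul_assoc, hsys κ', Finset.sum_mul]
        refine Finset.sum_congr rfl fun l _ => ?_
        have : ((Y M cols l κ' : ℤ) : k) =
            ∑ m, (((M.submatrix id cols).adjugate l m : ℤ) : k) * (M m κ' : k) := by
          unfold Y
          rw [Matrix.mul_apply]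
          push_cast
          rfl
        rw [this]
        simp only [Finset.mul_sum, Finset.sum_mul]
        refine Finset.sum_congr rfl fun m _ => by ring
      simp only [h3]
      rw [Finset.sum_comm]
      refine Finset.sum_eq_zero fun l _ => ?_
      rw [← Finset.mul_sum, Finset.sum_comm]
      have h4 : ∀ m, ∑ κ', (((M.submatrix id cols).adjugate l m : ℤ) : k) *
            ((M m κ' : k) * (q i κ' : k)) = 0 := by
        intro m
        rw [← Finset.mul_sum]
        have := (CharP.intCast_eq_zero_iff k p _).2 (hvan i m)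
        push_cast at this
        rw [this, mul_zero]
      simp only [h4, Finset.sum_const_zero, mul_zero]
    rcases mul_eq_zero.1 h2 with h5 | h5
    · exact absurd h5 hDk
    · exact h5
  -- MDS
  have key : ∀ u : Fin 10 → k, u ≠ 0 →
      (Finset.univ.filter fun i : Fin 20 => ∑ I, (x i I : k) * u I = 0).card < 10 := by
    intro u hu
    let _ : Algebra (ZMod p) k := ZMod.algebra k p
    refine P345Mds.mds_transfer (p := p) (algebraMap (ZMod p) k) (algebraMap (ZMod p) k).injective
      (RingHom.id (ZMod p)) (fun i t => (x i t : ZMod p)) x (fun i t => rfl) hm u hu _ ?_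
    intro i hi
    have := (Finset.mem_filter.1 hi).2
    simpa using this
  have hU : (Finset.univ : Finset (Fin 20)) ⊆
      (Finset.univ.filter fun i : Fin 20 => ∑ I, (x i I : k) * u I = 0) ∪
      (Finset.univ.filter fun i : Fin 20 => ∑ I, (x i I : k) * v I = 0) := by
    intro i _
    rw [Finset.mem_union, Finset.mem_filter, Finset.mem_filter]
    rcases mul_eq_zero.1 (hpt i) with h1 | h1
    · exact Or.inl ⟨Finset.mem_univ _, h1⟩
    · exact Or.inr ⟨Finset.mem_univ _, h1⟩
  have h1 := (Finset.card_le_card hU).trans (Finset.card_union_le _ _)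
  have h2 := key u hu
  have h3 := key v hv
  rw [Finset.card_univ, Fintype.card_fin] at h1
  omega

/-- `hPF` of `P345Red.s0541_of` (relations indexed by `κ`). -/
theorem hPF (p : ℕ) [hp : Fact p.Prime] (M : Matrix (Fin a) κ ℤ) (cols : Fin a → κ)
    (idx : Fin 10 → Fin 10 → κ) (x : Fin 20 → Fin 10 → ℕ) (q : Fin 20 → κ → ℤ)
    (hD : ¬ (p : ℤ) ∣ (M.submatrix id cols).det)
    (hq : ∀ i I J, (p : ℤ) ∣ q i (idx I J) - (x i I : ℤ) * (x i J : ℤ))
    (hvan : ∀ i m, (p : ℤ) ∣ ∑ k, M m k * q i k)
    (hm : P345Mds.mds p 20 10 (List.ofFn fun i => List.ofFn (x i)) = true)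
    (u v : Fin 10 → ℂ)
    (h : ∀ r, ∑ z : Fin 10 × Fin 10, ((N M cols idx r z.1 z.2 : ℤ) : ℂ) * (u z.1 * v z.2) = 0) :
    u = 0 ∨ v = 0 := by
  refine P345Val79.val_transfer p (N M cols idx) ?_ u v ?_
  · intro k _ _ u v h
    exact pf_field p M cols idx x q hD hq hvan hm k u v h
  · intro r
    rw [← h r, Fintype.sum_prod_type]

end Crest.Agent.P345.Min30
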