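import Crest.Agent.P345.RedP
import Crest.Agent.P345Mds

/-! Row 345 (helper93): product-freeness over `ℂ` of an integer relation space whose 20 product
points are only rational mod `p`. -/

set_option autoImplicit false

namespace Crest.Agent.P345.PfInt

open Crest.Agent.P345Mds

/-- integer relations `b r`; mod `p` the products `x i ⊗ z i` are combinations `c i` of them, and
any ten of the `x i` (resp. `z i`) are independent mod `p`. -/
theorem pf_int {p : ℕ} [hp : Fact p.Prime] (b : Fin 20 → Fin 10 → Fin 10 → ℤ)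
    (x z : Fin 20 → Fin 10 → ℕ) (c : Fin 20 → Fin 20 → ℤ)
    (hc : ∀ i s t, (((∑ r, c i r * b r s t) - (x i s : ℤ) * (z i t : ℤ)) % (p : ℤ) = 0))
    (hm : mds p 20 10 (List.ofFn fun i => List.ofFn (x i)) = true)
    (hm' : mds p 20 10 (List.ofFn fun i => List.ofFn (z i)) = true)
    (u v : Fin 10 → ℂ)
    (h : ∀ r, ∑ q : Fin 10 × Fin 10, (b r q.1 q.2 : ℂ) * (u q.1 * v q.2) = 0) :
    u = 0 ∨ v = 0 := by
  refine RedP.red p b ?_ u v (fun r => by rw [← h r, Fintype.sum_prod_type])
  intro k _ _ u v h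
  let φ : ZMod p →+* k := ZMod.castHom (dvd_refl p) k
  have hφ : Function.Injective φ := φ.injective
  refine pf_of_mds φ hφ (RingHom.id (ZMod p)) (fun i t => (x i t : ZMod p))
    (fun i t => (z i t : ZMod p)) x z (fun _ _ => rfl) (fun _ _ => rfl) hm hm' u v ?_
  intro i
  have h1 : ∀ s t, (x i s : k) * (z i t : k) = ∑ r, (c i r : k) * (b r s t : k) := by
    intro s t
    have h2 := Int.dvd_of_emod_eq_zero (hc i s t)
    have h3 : (((∑ r, c i r * b r s t) - (x i s : ℤ) * (z i t : ℤ) : ℤ) : k) = 0 :=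
      (CharP.intCast_eq_zero_iff k p _).2 h2
    push_cast at h3
    exact (sub_eq_zero.1 h3).symm
  rw [Fintype.sum_prod_type]
  calc ∑ s, ∑ t, (φ (x i s : ZMod p) * φ (z i t : ZMod p)) * (u s * v t)
      = ∑ s, ∑ t, ∑ r, (c i r : k) * ((b r s t : k) * (u s * v t)) := by
        refine Finset.sum_congr rfl fun s _ => Finset.sum_congr rfl fun t _ => ?_
        rw [map_natCast, map_natCast, h1, Finset.sum_mul]
        exact Finset.sum_congr rfl fun r _ => by ring
    _ = ∑ r, (c i r : k) * ∑ s, ∑ t, (b r s t : k) * (u s * v t) := by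
        simp only [Finset.mul_sum]
        exact (Finset.sum_congr rfl fun s _ => Finset.sum_comm).trans Finset.sum_comm
    _ = 0 := by
        refine Finset.sum_eq_zero fun r _ => ?_
        rw [h r, mul_zero]

end Crest.Agent.P345.PfInt
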