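import Crest.Agent.P345Val
/-! Row 345 (helper99): product `u v = Σ C_m q_m` over `ℂ` is reduced modulo `p`
through a pivot minor of `q` (no integral relation lattice needed). -/
set_option autoImplicit false
namespace Crest.Agent.P345.Piv99
open Crest.Agent.P345Val

variable {a c T m L : Type*} [Fintype a] [Fintype c] [Fintype T] [Fintype m] [DecidableEq T]
  [DecidableEq m]

/-- coefficient `τ` of the product -/
def pr {R : Type*} [CommRing R] (t : a → c → T) (u : a → R) (v : c → R) (τ : T) : R :=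
  ∑ i, ∑ j, (if t i j = τ then u i * v j else 0)

theorem pr_sum {R : Type*} [CommRing R] (t : a → c → T) (u : a → R) (v : c → R) (y : T → R) :
    ∑ τ, y τ * pr t u v τ = ∑ i, ∑ j, y (t i j) * (u i * v j) := by
  unfold pr
  simp only [Finset.mul_sum]
  rw [Finset.sum_comm]
  refine Finset.sum_congr rfl fun i _ => ?_
  rw [Finset.sum_comm]
  refine Finset.sum_congr rfl fun j _ => ?_
  rw [Finset.sum_eq_single (t i j)]
  · rw [if_pos rfl]
  · intro b _ hb
    rw [if_neg (fun h => hb h.symm), mul_zero]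
  · intro h
    exact absurd (Finset.mem_univ _) h

theorem scale' (O : ValuationSubring ℂ) {a : Type*} [Fintype a] (u : a → ℂ) (hu : u ≠ 0) :
    ∃ (c : ℂ) (u' : a → O) (i₀ : a), c ≠ 0 ∧ (∀ i, u i = c * (u' i : ℂ)) ∧ u' i₀ = 1 := by
  classical
  obtain ⟨i1, hi1⟩ : ∃ i, u i ≠ 0 := by
    by_contra h
    push Not at h
    exact hu (funext h)
  have : Nonempty a := ⟨i1⟩
  obtain ⟨i₀, hi₀⟩ := Finite.exists_max (fun i => O.valuation (u i))
  have h0 : u i₀ ≠ 0 := by
    intro h
    have := hi₀ i1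
    simp only [h, map_zero] at this
    have h2 : O.valuation (u i1) = 0 := le_antisymm this zero_le
    exact hi1 ((map_eq_zero _).mp h2)
  have hmem : ∀ i, u i / u i₀ ∈ O := by
    intro i
    rw [← ValuationSubring.valuation_le_one_iff, map_div₀]
    exact div_le_one_of_le₀ (hi₀ i) zero_le
  refine ⟨u i₀, fun i => ⟨u i / u i₀, hmem i⟩, i₀, h0, ?_, ?_⟩
  · intro i
    show u i = u i₀ * (u i / u i₀)
    field_simp
  · apply Subtype.ext
    show u i₀ / u i₀ = 1
    exact div_self h0

theorem quart_lift (p : ℕ) [Fact p.Prime] (t : a → c → T) (q : m → T → ℤ) (piv : m → T)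
    (hdet : ¬ (p : ℤ) ∣ Matrix.det (Matrix.of fun i j => q i (piv j)))
    (x : L → a → ℤ) (z : L → c → ℤ) (y : L → T → ℤ)
    (hy : ∀ l i j, y l (t i j) = x l i * z l j)
    (hq : ∀ i l, (p : ℤ) ∣ ∑ τ, q i τ * y l τ)
    (H : ∀ (k : Type) [Field k] [CharP k p] (u : a → k) (v : c → k),
      (∀ l, (∑ i, (x l i : k) * u i) * (∑ j, (z l j : k) * v j) = 0) → u = 0 ∨ v = 0)
    (u : a → ℂ) (v : c → ℂ) (C : m → ℂ)
    (h : ∀ τ, pr t u v τ = ∑ i, C i * (q i τ : ℂ)) : u = 0 ∨ v = 0 := by
  classical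
  by_contra hne
  push Not at hne
  obtain ⟨hu, hv⟩ := hne
  obtain ⟨O, hO⟩ := exists_val p
  obtain ⟨cu, u', i₀, hcu, hu', hi₀⟩ := scale' O u hu
  obtain ⟨cv, v', j₀, hcv, hv', hj₀⟩ := scale' O v hv
  let k := IsLocalRing.ResidueField O
  let res : O →+* k := IsLocalRing.residue O
  have hpO : (p : k) = 0 := by
    have h1 : ((p : O) : ℂ) ∈ O.nonunits := by simpa using hO
    have h2 : (p : O) ∈ IsLocalRing.maximalIdeal O := by
      rw [← ValuationSubring.coe_mem_nonunits_iff]
      exact h1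
    have h3 : res (p : O) = 0 := (IsLocalRing.residue_eq_zero_iff _).mpr h2
    simpa using h3
  have hchar : CharP k p := by
    have hp := (Fact.out : p.Prime)
    exact ringChar.of_eq (CharP.ringChar_of_prime_eq_zero hp hpO)
  -- the scaled coefficients
  set D : m → ℂ := fun i => C i / (cu * cv) with hD
  have hcc : cu * cv ≠ 0 := mul_ne_zero hcu hcv
  have h1 : ∀ τ, ((pr t u' v' τ : O) : ℂ) = ∑ i, D i * (q i τ : ℂ) := by
    intro τ
    have e1 : pr t u v τ = (cu * cv) * ((pr t u' v' τ : O) : ℂ) := by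
      unfold pr
      push_cast
      rw [Finset.mul_sum]
      refine Finset.sum_congr rfl fun i _ => ?_
      rw [Finset.mul_sum]
      refine Finset.sum_congr rfl fun j _ => ?_
      split_ifs with h
      · rw [hu' i, hv' j]; push_cast; ring
      · simp
    have e2 := h τ
    rw [e1] at e2
    have e3 : ∑ i, D i * (q i τ : ℂ) = (∑ i, C i * (q i τ : ℂ)) / (cu * cv) := by
      rw [Finset.sum_div]
      refine Finset.sum_congr rfl fun i _ => ?_
      simp only [hD]; ring
    rw [e3, ← e2]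
    field_simp
  let Q : Matrix m m ℤ := Matrix.of fun i j => q i (piv j)
  let QC : Matrix m m ℂ := Q.map (Int.cast)
  have hb : Matrix.vecMul D QC = fun j => ((pr t u' v' (piv j) : O) : ℂ) := by
    funext j
    rw [h1]
    simp [Matrix.vecMul, dotProduct, QC, Q]
  have hmemInt : ∀ n : ℤ, (n : ℂ) ∈ O := fun n => by
    have : ((n : O) : ℂ) ∈ O := (n : O).2
    simpa using this
  have hunit : ∃ w : O, ((Q.det : ℤ) : ℂ) * (w : ℂ) = 1 := by
    have hres : res ((Q.det : ℤ) : O) ≠ 0 := by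
      rw [map_intCast]
      intro h0
      exact hdet ((CharP.intCast_eq_zero_iff k p _).1 h0)
    have hu2 : IsUnit ((Q.det : ℤ) : O) := by
      by_contra hnu
      apply hres
      exact (IsLocalRing.residue_eq_zero_iff _).mpr ((IsLocalRing.mem_maximalIdeal _).2 hnu)
    obtain ⟨w, hw⟩ := hu2.exists_right_inv
    refine ⟨w, ?_⟩
    have := congrArg (fun z : O => (z : ℂ)) hw
    simpa using this
  obtain ⟨w, hw⟩ := hunit
  have hDO : ∀ i, D i ∈ O := by
    intro i
    have e1 : Matrix.vecMul (Matrix.vecMul D QC) QC.adjugate = ((Q.det : ℤ) : ℂ) • D := by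
      rw [Matrix.vecMul_vecMul, Matrix.mul_adjugate]
      have hdetc : QC.det = ((Q.det : ℤ) : ℂ) := by
        have := (Int.castRingHom ℂ).map_det Q
        simpa [QC, RingHom.mapMatrix_apply] using this.symm
      rw [hdetc]
      ext j
      simp [Matrix.vecMul_smul]
    have e2 : D i = (w : ℂ) * (Matrix.vecMul (Matrix.vecMul D QC) QC.adjugate) i := by
      rw [e1, Pi.smul_apply, smul_eq_mul]
      linear_combination (-(D i)) * hw
    rw [e2, hb]
    refine O.mul_mem _ _ w.2 ?_
    have hadj : ∀ r s, QC.adjugate r s ∈ O := by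
      intro r s
      have : QC.adjugate r s = ((Q.adjugate r s : ℤ) : ℂ) := by
        have e := RingHom.map_adjugate (Int.castRingHom ℂ) Q
        have e' := congrFun (congrFun e r) s
        simpa [QC, RingHom.mapMatrix_apply] using e'.symm
      rw [this]
      exact hmemInt _
    simp only [Matrix.vecMul, dotProduct]
    exact O.toSubring.sum_mem fun j _ => O.mul_mem _ _ (pr t u' v' (piv j)).2 (hadj j i)
  -- evaluate
  have key : ∀ l, (∑ i, (x l i : k) * res (u' i)) * (∑ j, (z l j : k) * res (v' j)) = 0 := by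
    intro l
    have e0 : ∀ τ, pr t u' v' τ = ∑ i, (⟨D i, hDO i⟩ : O) * ((q i τ : ℤ) : O) := by
      intro τ
      apply Subtype.ext
      rw [h1]
      push_cast
      rfl
    have e1 : ∑ τ, ((y l τ : ℤ) : O) * pr t u' v' τ
        = ∑ i, (⟨D i, hDO i⟩ : O) * ((∑ τ, q i τ * y l τ : ℤ) : O) := by
      simp only [e0, Finset.mul_sum]
      rw [Finset.sum_comm]
      refine Finset.sum_congr rfl fun i _ => ?_
      push_cast
      rw [Finset.mul_sum]
      refine Finset.sum_congr rfl fun τ _ => ?_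
      ring
    rw [pr_sum] at e1
    have e2 : ∑ i, ∑ j, ((y l (t i j) : ℤ) : O) * (u' i * v' j)
        = (∑ i, ((x l i : ℤ) : O) * u' i) * (∑ j, ((z l j : ℤ) : O) * v' j) := by
      rw [Finset.sum_mul_sum]
      refine Finset.sum_congr rfl fun i _ => Finset.sum_congr rfl fun j _ => ?_
      rw [hy]
      push_cast
      ring
    rw [e2] at e1
    have e3 := congrArg res e1
    simp only [map_mul, map_sum, map_intCast] at e3
    rw [e3]
    refine Finset.sum_eq_zero fun i _ => ?_
    have : ((∑ τ, q i τ * y l τ : ℤ) : k) = 0 := (CharP.intCast_eq_zero_iff k p _).2 (hq i l)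
    rw [this, mul_zero]
  rcases H k (fun i => res (u' i)) (fun j => res (v' j)) key with hk | hk
  · have := congrFun hk i₀
    simp only [hi₀, map_one, Pi.zero_apply] at this
    exact one_ne_zero this
  · have := congrFun hk j₀
    simp only [hj₀, map_one, Pi.zero_apply] at this
    exact one_ne_zero this


/-- double annihilator -/
theorem exists_coeff (q : m → T → ℤ) (w : T → ℂ)
    (h : ∀ lam : T → ℂ, (∀ i, ∑ τ, lam τ * (q i τ : ℂ) = 0) → ∑ τ, lam τ * w τ = 0) :
    ∃ C : m → ℂ, ∀ τ, w τ = ∑ i, C i * (q i τ : ℂ) := by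
  classical
  let qv : m → T → ℂ := fun i τ => (q i τ : ℂ)
  by_cases hw : w ∈ Submodule.span ℂ (Set.range qv)
  · rw [Submodule.mem_span_range_iff_exists_fun] at hw
    obtain ⟨C, hC⟩ := hw
    refine ⟨C, fun τ => ?_⟩
    rw [← hC]
    simp [qv]
  · exfalso
    obtain ⟨f, hfw, hf⟩ := Submodule.exists_dual_map_eq_bot_of_notMem hw inferInstance
    apply hfw
    have hfe : ∀ v : T → ℂ, f v = ∑ τ, f (Pi.single τ 1) * v τ := by
      intro v
      conv_lhs => rw [pi_eq_sum_univ' v, map_sum]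
      refine Finset.sum_congr rfl fun τ _ => ?_
      rw [map_smul, smul_eq_mul, mul_comm]
    rw [hfe]
    apply h
    intro i
    have h1 : f (qv i) = 0 := by
      have h2 : f (qv i) ∈ Submodule.map f (Submodule.span ℂ (Set.range qv)) :=
        Submodule.mem_map_of_mem (Submodule.subset_span ⟨i, rfl⟩)
      rw [hf] at h2
      exact (Submodule.mem_bot ℂ).1 h2
    rw [hfe] at h1
    exact h1

/-- the relations: functionals on the quartics killing all `q i` -/
def Rho (q : m → T → ℤ) : Type _ := {lam : T → ℂ // ∀ i, ∑ τ, lam τ * (q i τ : ℂ) = 0}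

/-- the relation vectors for `P345Red.s0541_of` -/
def nn (t : a → c → T) (q : m → T → ℤ) (r : Rho q) (s : a × c) : ℂ := r.1 (t s.1 s.2)

theorem hPF_quart (p : ℕ) [Fact p.Prime] (t : a → c → T) (q : m → T → ℤ) (piv : m → T)
    (hdet : ¬ (p : ℤ) ∣ Matrix.det (Matrix.of fun i j => q i (piv j)))
    (x : L → a → ℤ) (z : L → c → ℤ) (y : L → T → ℤ)
    (hy : ∀ l i j, y l (t i j) = x l i * z l j)
    (hq : ∀ i l, (p : ℤ) ∣ ∑ τ, q i τ * y l τ)
    (H : ∀ (k : Type) [Field k] [CharP k p] (u : a → k) (v : c → k),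
      (∀ l, (∑ i, (x l i : k) * u i) * (∑ j, (z l j : k) * v j) = 0) → u = 0 ∨ v = 0)
    (u : a → ℂ) (v : c → ℂ)
    (h : ∀ r : Rho q, ∑ s : a × c, nn t q r s * (u s.1 * v s.2) = 0) : u = 0 ∨ v = 0 := by
  obtain ⟨C, hC⟩ := exists_coeff q (pr t u v) (fun lam hlam => by
    rw [pr_sum, ← h ⟨lam, hlam⟩, Fintype.sum_prod_type]
    rfl)
  exact quart_lift p t q piv hdet x z y hy hq H u v C hC

/-- `hrel` from: each composite Kraus form multiplies to an integer combination of the `q i` -/
theorem hrel_quart {ι κ : Type*} {d : Type*} (t : a → c → T) (q : m → T → ℤ)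
    (F : κ → ι → a → c → ℂ) (Cc : κ → ι → m → ℂ)
    (hF : ∀ j i τ, (∑ s : a, ∑ s' : c, (if t s s' = τ then F j i s s' else (0 : ℂ)))
      = ∑ e : m, Cc j i e * (q e τ : ℂ)) (r : Rho q) (j : κ) (i : ι) :
    ∑ s : a × c, nn t q r s * F j i s.1 s.2 = 0 := by
  have h1 : ∑ s : a × c, nn t q r s * F j i s.1 s.2
      = ∑ τ, r.1 τ * ∑ s, ∑ s', (if t s s' = τ then F j i s s' else 0) := by
    rw [Fintype.sum_prod_type]
    simp only [Finset.mul_sum]
    conv_rhs => rw [Finset.sum_comm]
    refine Finset.sum_congr rfl fun s _ => ?_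
    conv_rhs => rw [Finset.sum_comm]
    refine Finset.sum_congr rfl fun s' _ => ?_
    rw [Finset.sum_eq_single (t s s')]
    · rw [if_pos rfl]; rfl
    · intro b _ hb
      rw [if_neg (fun h => hb h.symm), mul_zero]
    · intro h
      exact absurd (Finset.mem_univ _) h
  rw [h1]
  simp only [hF, Finset.mul_sum]
  rw [Finset.sum_comm]
  refine Finset.sum_eq_zero fun e _ => ?_
  have h2 := r.2 e
  calc ∑ τ, r.1 τ * (Cc j i e * (q e τ : ℂ)) = Cc j i e * ∑ τ, r.1 τ * (q e τ : ℂ) := by
        rw [Finset.mul_sum]; exact Finset.sum_congr rfl fun τ _ => by ring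
    _ = 0 := by rw [h2, mul_zero]

end Crest.Agent.P345.Piv99
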