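import Mathlib

/-! Row 345 (helper93): product-freeness over `ℂ` from product-freeness over all fields of
characteristic `p` (integer bilinear relations). -/

set_option autoImplicit false

namespace Crest.Agent.P345.RedP

theorem exists_val (p : ℕ) [hp : Fact p.Prime] : ∃ B : ValuationSubring ℂ, (p : ℂ) ∈ B.nonunits := by
  let A : Subring ℂ := (Int.castRingHom ℂ).range
  let q : A := ⟨(p : ℂ), ⟨(p : ℤ), by simp⟩⟩
  have hI : Ideal.span {q} ≠ ⊤ := by
    rw [Ne, Ideal.eq_top_iff_one, Ideal.mem_span_singleton]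
    rintro ⟨⟨c, ⟨n, hn⟩⟩, hc⟩
    have h1 : (1 : ℂ) = (p : ℂ) * c := congrArg Subtype.val hc
    rw [← hn] at h1
    have h2 : (1 : ℤ) = p * n := by
      have : ((1 : ℤ) : ℂ) = ((p * n : ℤ) : ℂ) := by
        push_cast
        rw [h1]
        rfl
      exact_mod_cast this
    have h3 : (p : ℤ) ∣ 1 := ⟨n, h2⟩
    have h4 := Int.natAbs_dvd_natAbs.2 h3
    simp only [Int.natAbs_natCast, Int.natAbs_one, Nat.dvd_one] at h4
    exact hp.out.one_lt.ne' h4
  obtain ⟨B, _, hB⟩ := Ideal.image_subset_nonunits_valuationSubring (Ideal.span {q}) hI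
  exact ⟨B, hB ⟨q, Ideal.mem_span_singleton_self q, rfl⟩⟩

theorem scale {n : ℕ} (B : ValuationSubring ℂ) (u : Fin n → ℂ) (hu : u ≠ 0) :
    ∃ (c : ℂ) (u' : Fin n → B) (i0 : Fin n), c ≠ 0 ∧ (∀ i, u i = c * (u' i : ℂ)) ∧ u' i0 = 1 := by
  obtain ⟨j, hj⟩ := Function.ne_iff.1 hu
  haveI : Nonempty (Fin n) := ⟨j⟩
  obtain ⟨i0, hi0⟩ := Finite.exists_max (fun i => B.valuation (u i))
  have h0 : u i0 ≠ 0 := by
    intro h
    have := hi0 j
    rw [h, map_zero, le_zero_iff, map_eq_zero] at this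
    exact hj this
  have hmem : ∀ i, u i / u i0 ∈ B := by
    intro i
    rw [← B.valuation_le_one_iff, map_div₀]
    exact div_le_one_of_le₀ (hi0 i) zero_le'
  refine ⟨u i0, fun i => ⟨u i / u i0, hmem i⟩, i0, h0, fun i => ?_, ?_⟩
  · change u i = u i0 * (u i / u i0)
    field_simp
  · ext
    change u i0 / u i0 = 1
    exact div_self h0

theorem red {ρ : Type*} {n m : ℕ} (p : ℕ) [hp : Fact p.Prime] (b : ρ → Fin n → Fin m → ℤ)
    (hk : ∀ (k : Type) [Field k] [CharP k p] (u : Fin n → k) (v : Fin m → k),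
      (∀ r, ∑ i, ∑ j, (b r i j : k) * (u i * v j) = 0) → u = 0 ∨ v = 0)
    (u : Fin n → ℂ) (v : Fin m → ℂ)
    (h : ∀ r, ∑ i, ∑ j, (b r i j : ℂ) * (u i * v j) = 0) : u = 0 ∨ v = 0 := by
  by_contra hcon
  push Not at hcon
  obtain ⟨hu, hv⟩ := hcon
  obtain ⟨B, hB⟩ := exists_val p
  obtain ⟨c, u', i0, hc, hu', hi0⟩ := scale B u hu
  obtain ⟨d, v', j0, hd, hv', hj0⟩ := scale B v hv
  let k := IsLocalRing.ResidueField B
  let π : B →+* k := IsLocalRing.residue B
  have hpk : (p : k) = 0 := by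
    have h1 : π (p : B) = 0 := by
      rw [IsLocalRing.residue_eq_zero_iff]
      obtain ⟨ha, hb⟩ := B.mem_nonunits_iff_exists_mem_maximalIdeal.1 hB
      have : (⟨(p : ℂ), ha⟩ : B) = (p : B) := by
        ext
        simp
      rw [← this]
      exact hb
    rw [map_natCast] at h1
    exact h1
  haveI : CharP k p := (CharP.charP_iff_prime_eq_zero hp.out).2 hpk
  have hB2 : ∀ r, ∑ i, ∑ j, (b r i j : B) * (u' i * v' j) = 0 := by
    intro r
    have h1 := h r
    have h2 : ∑ i, ∑ j, (b r i j : ℂ) * (u i * v j)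
        = (c * d) * ((∑ i, ∑ j, (b r i j : B) * (u' i * v' j) : B) : ℂ) := by
      push_cast
      rw [Finset.mul_sum]
      refine Finset.sum_congr rfl fun i _ => ?_
      rw [Finset.mul_sum]
      refine Finset.sum_congr rfl fun j _ => ?_
      rw [hu' i, hv' j]
      ring
    rw [h2] at h1
    rcases mul_eq_zero.1 h1 with h3 | h3
    · exact absurd h3 (mul_ne_zero hc hd)
    · exact Subtype.ext h3
  have h4 := hk k (fun i => π (u' i)) (fun j => π (v' j)) (fun r => by
    have := congrArg π (hB2 r)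
    rw [map_zero, map_sum] at this
    rw [← this]
    refine Finset.sum_congr rfl fun i _ => ?_
    rw [map_sum]
    refine Finset.sum_congr rfl fun j _ => ?_
    rw [map_mul, map_mul, map_intCast])
  rcases h4 with h4 | h4
  · have := congrFun h4 i0
    simp only [Pi.zero_apply] at this
    rw [hi0, map_one] at this
    exact one_ne_zero this
  · have := congrFun h4 j0
    simp only [Pi.zero_apply] at this
    rw [hj0, map_one] at this
    exact one_ne_zero this

end Crest.Agent.P345.RedP
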