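import Crest.Agent.P345.Full9
import Crest.Agent.P345Fast

set_option autoImplicit false

/-! Row 345: list tables, kernel checks, and their soundness for `P345Full9.s0541/s0540`. -/

namespace Crest.Agent.P345Tab9

open Matrix Crest.Quantum Crest.Agent.P345Full9

def gi (l : List ℤ) (n : ℕ) : ℤ := l.getD n 0
def gl {α : Type} (l : List (List α)) (n : ℕ) : List α := l.getD n []

def dotL : List ℤ → List ℤ → ℤ
  | a :: l, b :: m => a * b + dotL l m
  | _, _ => 0

theorem dotL_eq : ∀ (n : ℕ) (l m : List ℤ), l.length ≤ n →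
    dotL l m = ∑ i : Fin n, gi l i * gi m i := by
  intro n
  induction n with
  | zero =>
    intro l m hl
    have : l = [] := List.length_eq_zero_iff.1 (by omega)
    subst this
    cases m <;> simp [dotL]
  | succ n ih =>
    intro l m hl
    rw [Fin.sum_univ_succ]
    cases l with
    | nil => cases m <;> simp [dotL, gi]
    | cons a l =>
      cases m with
      | nil => simp [dotL, gi]
      | cons b m =>
        have h := ih l m (by simpa using hl)
        simp only [dotL, h]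
        simp [gi]

/-- index table of degree-2 monomials products, 10 x 10 -> 35 -/
def muL : List (List ℕ) := [[0, 1, 2, 3, 4, 5, 6, 7, 8, 9], [1, 4, 5, 6, 10, 11, 12, 13, 14, 15], [2, 5, 7, 8, 11, 13, 14, 16, 17, 18], [3, 6, 8, 9, 12, 14, 15, 17, 18, 19], [4, 10, 11, 12, 20, 21, 22, 23, 24, 25], [5, 11, 13, 14, 21, 23, 24, 26, 27, 28], [6, 12, 14, 15, 22, 24, 25, 27, 28, 29], [7, 13, 16, 17, 23, 26, 27, 30, 31, 32], [8, 14, 17, 18, 24, 27, 28, 31, 32, 33], [9, 15, 18, 19, 25, 28, 29, 32, 33, 34]]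

def mu (I J : Fin 10) : Fin 35 := Fin.ofNat 35 ((gl muL I).getD J 0)

def pairsL : List (List (Fin 10 × Fin 10)) := [[(0, 0)],
  [(0, 1), (1, 0)],
  [(0, 2), (2, 0)],
  [(0, 3), (3, 0)],
  [(0, 4), (1, 1), (4, 0)],
  [(0, 5), (1, 2), (2, 1), (5, 0)],
  [(0, 6), (1, 3), (3, 1), (6, 0)],
  [(0, 7), (2, 2), (7, 0)],
  [(0, 8), (2, 3), (3, 2), (8, 0)],
  [(0, 9), (3, 3), (9, 0)],
  [(1, 4), (4, 1)],
  [(1, 5), (2, 4), (4, 2), (5, 1)],
  [(1, 6), (3, 4), (4, 3), (6, 1)],
  [(1, 7), (2, 5), (5, 2), (7, 1)],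
  [(1, 8), (2, 6), (3, 5), (5, 3), (6, 2), (8, 1)],
  [(1, 9), (3, 6), (6, 3), (9, 1)],
  [(2, 7), (7, 2)],
  [(2, 8), (3, 7), (7, 3), (8, 2)],
  [(2, 9), (3, 8), (8, 3), (9, 2)],
  [(3, 9), (9, 3)],
  [(4, 4)],
  [(4, 5), (5, 4)],
  [(4, 6), (6, 4)],
  [(4, 7), (5, 5), (7, 4)],
  [(4, 8), (5, 6), (6, 5), (8, 4)],
  [(4, 9), (6, 6), (9, 4)],
  [(5, 7), (7, 5)],
  [(5, 8), (6, 7), (7, 6), (8, 5)],
  [(5, 9), (6, 8), (8, 6), (9, 5)],
  [(6, 9), (9, 6)],
  [(7, 7)],
  [(7, 8), (8, 7)],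
  [(7, 9), (8, 8), (9, 7)],
  [(8, 9), (9, 8)],
  [(9, 9)]]

def pairs (m : Fin 35) : List (Fin 10 × Fin 10) := pairsL.getD m []

theorem pairs_ok : ∀ m : Fin 35, (pairs m).Nodup ∧
    (Finset.univ.filter fun P : Fin 10 × Fin 10 => mu P.1 P.2 = m) = (pairs m).toFinset := by
  decide +kernel

def sumP (f : Fin 10 × Fin 10 → ℤ) : List (Fin 10 × Fin 10) → ℤ
  | [] => 0
  | P :: l => f P + sumP f l

theorem sumP_eq (f : Fin 10 × Fin 10 → ℤ) (l : List (Fin 10 × Fin 10)) :
    sumP f l = (l.map f).sum := by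
  induction l with
  | nil => rfl
  | cons P l ih => simp [sumP, ih]

theorem quart_eq (κ : Fin 10 → Fin 10 → ℤ) (m : Fin 35) :
    quart mu κ m = sumP (fun P => κ P.1 P.2) (pairs m) := by
  rw [sumP_eq, ← List.sum_toFinset _ (pairs_ok m).1, ← (pairs_ok m).2, Finset.sum_filter,
    Fintype.sum_prod_type]
  rfl

def sA : Fin 10 → ℤ := ![1, -1, 1, 1, -1, 1, 0, 0, 0, 0]
def op : Fin 10 → Fin 10 := ![5, 4, 3, 2, 1, 0, 6, 7, 8, 9]

/-- `KA[S][I]` = list over the 6 rows. -/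
def kk (KA : List (List (List ℤ))) (S : Fin 15) (a I : Fin 10) : ℤ := gi (gl (gl KA S) I) a

def ll (LA : List (List (List ℤ))) (T : Fin 15) (J a : Fin 10) : ℤ := gi (gl (gl LA T) J) a

/-- all lengths at most `n` -/
def lenOK (n : ℕ) (L : List (List (List ℤ))) : Bool :=
  L.all fun A => A.all fun B => Nat.ble B.length n

theorem lenOK_spec {n : ℕ} {L : List (List (List ℤ))} (h : lenOK n L = true) (i j : ℕ) :
    (gl (gl L i) j).length ≤ n := by
  unfold gl
  rw [List.getD_eq_getElem?_getD, List.getD_eq_getElem?_getD]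
  cases h1 : L[i]? with
  | none => simp
  | some A =>
    simp only [Option.getD_some]
    cases h2 : A[j]? with
    | none => simp
    | some B =>
      simp only [Option.getD_some]
      unfold lenOK at h
      rw [List.all_eq_true] at h
      have h3 := h A (List.mem_of_getElem? h1)
      rw [List.all_eq_true] at h3
      have h4 := h3 B (List.mem_of_getElem? h2)
      exact Nat.le_of_ble_eq_true h4

/-- `KT[a][I]` = list over the 15 `S`. Check `KT` matches `KA`. -/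
theorem hA_of (KA KT : List (List (List ℤ))) (hl : lenOK 15 KT = true)
    (hm : ∀ (S : Fin 15) (a I : Fin 10), gi (gl (gl KA S) I) a = gi (gl (gl KT a) I) S)
    (hc : ∀ x y a b : Fin 10, dotL (gl (gl KT y) a) (gl (gl KT x) b)
      = dotL (gl (gl KT x) a) (gl (gl KT y) b)) :
    ∀ x y a b, ∑ S, kk KA S y a * kk KA S x b = ∑ S, kk KA S x a * kk KA S y b := by
  intro x y a b
  have h := hc x y a b
  rw [dotL_eq 15 _ _ (lenOK_spec hl _ _), dotL_eq 15 _ _ (lenOK_spec hl _ _)] at h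
  simp only [kk, hm]
  exact h

theorem hA'_of (KA LA : List (List (List ℤ)))
    (hm : ∀ (T : Fin 15) (J a : Fin 10), ll LA T J a = sA a * kk KA T (op a) J)
    (hA : ∀ x y a b, ∑ S, kk KA S y a * kk KA S x b = ∑ S, kk KA S x a * kk KA S y b) :
    ∀ x y a b, ∑ S, ll LA S y a * ll LA S x b = ∑ S, ll LA S x a * ll LA S y b := by
  intro x y a b
  simp only [hm]
  have h := hA (op b) (op a) y x
  calc ∑ S, sA a * kk KA S (op a) y * (sA b * kk KA S (op b) x)
      = sA a * sA b * ∑ S, kk KA S (op a) y * kk KA S (op b) x := by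
        rw [Finset.mul_sum]; exact Finset.sum_congr rfl fun S _ => by ring
    _ = sA a * sA b * ∑ S, kk KA S (op b) y * kk KA S (op a) x := by rw [h]
    _ = _ := by
        rw [Finset.mul_sum]; exact Finset.sum_congr rfl fun S _ => by ring

theorem hB_of (KA LA : List (List (List ℤ))) (q : List (List ℤ)) (sg : List (List (ℕ × ℤ)))
    (hl : lenOK 6 LA = true)
    (hc : ∀ (T S : Fin 15) (m : Fin 35),
      sumP (fun P => dotL (gl (gl LA T) P.2) (gl (gl KA S) P.1)) (pairs m)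
        = ((gl sg T).getD S (0, 0)).2 * gi (gl q (Fin.ofNat 15 ((gl sg T).getD S (0, 0)).1)) m) :
    ∀ T S : Fin 15, ∃ (U0 : Fin 15) (ε : ℤ), ∀ m,
      quart mu (fun I J => ∑ a, ll LA T J a * kk KA S a I) m
        = ε * (fun (U : Fin 15) (m : Fin 35) => gi (gl q U) m) U0 m := by
  intro T S
  refine ⟨Fin.ofNat 15 ((gl sg T).getD S (0, 0)).1, ((gl sg T).getD S (0, 0)).2, fun m => ?_⟩
  rw [quart_eq]
  have h := hc T S m
  rw [← h]
  congr 1
  funext P
  rw [dotL_eq 10 _ _ (le_trans (lenOK_spec hl _ _) (by norm_num))]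
  rfl

end Crest.Agent.P345Tab9
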